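import Vale.Agent.Lib.P154.Neg.D1

/-!
Nonreconstruction for the antiferromagnetic three-state Potts channel at small eigenvalue.
-/

namespace Vale.Agent.Lib.P154.Neg

open Filter Topology

/-- the range of the eigenvalue of the first certificate, Poisson tree -/
theorem neg_poisson1 {d t : ℝ} (hd : 0 < d) (ht0 : 0 < t) (ht : t ≤ 1 / 3) (hKS : d * t ^ 2 ≤ 1) :
    Tendsto (fun n => gwEx (poissonLaw d) (-t) n I2) atTop (𝓝 0) := by
  refine main_tendsto D1.good (model_poisson hd) ht0 ?_ ?_ hKS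
  · show rv (0, 1) ≤ t
    have : rv (0, 1) = 0 := by norm_num [rv]
    rw [this]
    exact ht0.le
  · show t ≤ rv (1, 3)
    have : rv (1, 3) = 1 / 3 := by norm_num [rv]
    rw [this]
    exact ht

/-- the range of the eigenvalue of the first certificate, `d`-ary tree -/
theorem neg_dary1 {d : ℕ} {t : ℝ} (hd : 2 ≤ d) (ht0 : 0 < t) (ht : t ≤ 1 / 3)
    (hKS : (d : ℝ) * t ^ 2 ≤ 1) :
    Tendsto (fun n => gwEx (deltaLaw d) (-t) n I2) atTop (𝓝 0) := by
  refine main_tendsto D1.good (model_dary hd) ht0 ?_ ?_ hKS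
  · show rv (0, 1) ≤ t
    have : rv (0, 1) = 0 := by norm_num [rv]
    rw [this]
    exact ht0.le
  · show t ≤ rv (1, 3)
    have : rv (1, 3) = 1 / 3 := by norm_num [rv]
    rw [this]
    exact ht

/-- the Poisson tree, for negative eigenvalue -/
theorem poisson_neg {d lam : ℝ} (hd : 0 < d) (h1 : -(1 / 3) ≤ lam) (h2 : lam < 0)
    (hKS : d * lam ^ 2 ≤ 1) :
    (∀ n, HasSum (gwProb 3 (poissonLaw d) lam n) 1) ∧
      (∀ n, Summable (gwTerm 3 (poissonLaw d) lam n)) ∧
      Tendsto (gwError 3 (poissonLaw d) lam) atTop (𝓝 0) := by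
  have ht : lam = -(-lam) := by ring
  have hl : Adm lam := ⟨by linarith, by linarith⟩
  refine gw_of_I2 (poisson_nonneg hd.le) (poisson_hasSum d) hl ?_
  rw [ht]
  exact neg_poisson1 hd (by linarith) (by linarith) (by
    have : (-lam) ^ 2 = lam ^ 2 := by ring
    rw [this]
    exact hKS)

/-- the `d`-ary tree, for negative eigenvalue -/
theorem dary_neg {d : ℕ} {lam : ℝ} (hd : 2 ≤ d) (h1 : -(1 / 3) ≤ lam) (h2 : lam < 0)
    (hKS : (d : ℝ) * lam ^ 2 ≤ 1) : Tendsto (reconError d 3 lam) atTop (𝓝 0) := by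
  have ht : lam = -(-lam) := by ring
  have hl : Adm lam := ⟨by linarith, by linarith⟩
  refine dary_of_I2 hl ?_
  rw [ht]
  exact neg_dary1 hd (by linarith) (by linarith) (by
    have : (-lam) ^ 2 = lam ^ 2 := by ring
    rw [this]
    exact hKS)

end Vale.Agent.Lib.P154.Neg
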