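import Vale.Agent.Lib.P154.Inv
import Vale.Agent.Lib.P154.GW.Defs

/-!
Symmetric expectation functionals on bounded functions of a triple: the channel, the Bayesian
product and mixtures.  Compared with `SymExp`, additivity is asked only for functions bounded on
the simplex, so that infinite sums are allowed.
-/

namespace Vale.Agent.Lib.P154.Neg

/-- bounded on the simplex -/
def Bd (f : Fn3) : Prop := ∃ C : ℝ, ∀ a b c, Simp a b c → |f a b c| ≤ C

theorem simp_centre : Simp (1 / 3) (1 / 3) (1 / 3) :=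
  ⟨by norm_num, by norm_num, by norm_num, by norm_num⟩

theorem simp_swap {a b c : ℝ} (h : Simp a b c) : Simp b a c :=
  ⟨h.hb, h.ha, h.hc, by linarith [h.hs]⟩

theorem simp_cyc {a b c : ℝ} (h : Simp a b c) : Simp b c a :=
  ⟨h.hb, h.hc, h.ha, by linarith [h.hs]⟩

theorem simp_le_one {a b c : ℝ} (h : Simp a b c) : a ≤ 1 ∧ b ≤ 1 ∧ c ≤ 1 := by
  have h1 := h.ha
  have h2 := h.hb
  have h3 := h.hc
  have h4 := h.hs
  refine ⟨by linarith, by linarith, by linarith⟩

namespace Bd

theorem const (t : ℝ) : Bd (fun _ _ _ => t) := ⟨|t|, fun _ _ _ _ => le_refl _⟩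

theorem fst : Bd (fun a _ _ => a) :=
  ⟨1, fun a b c h => by rw [abs_of_nonneg h.ha]; exact (simp_le_one h).1⟩

theorem snd : Bd (fun _ b _ => b) :=
  ⟨1, fun a b c h => by rw [abs_of_nonneg h.hb]; exact (simp_le_one h).2.1⟩

theorem thd : Bd (fun _ _ c => c) :=
  ⟨1, fun a b c h => by rw [abs_of_nonneg h.hc]; exact (simp_le_one h).2.2⟩

theorem add {f g : Fn3} (hf : Bd f) (hg : Bd g) : Bd (fun a b c => f a b c + g a b c) := by
  obtain ⟨C, hC⟩ := hf
  obtain ⟨D, hD⟩ := hg
  exact ⟨C + D, fun a b c h => (abs_add_le _ _).trans (add_le_add (hC a b c h) (hD a b c h))⟩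

theorem mul {f g : Fn3} (hf : Bd f) (hg : Bd g) : Bd (fun a b c => f a b c * g a b c) := by
  obtain ⟨C, hC⟩ := hf
  obtain ⟨D, hD⟩ := hg
  refine ⟨C * D, fun a b c h => ?_⟩
  rw [abs_mul]
  exact mul_le_mul (hC a b c h) (hD a b c h) (abs_nonneg _) ((abs_nonneg _).trans (hC a b c h))

theorem smul (t : ℝ) {f : Fn3} (hf : Bd f) : Bd (fun a b c => t * f a b c) :=
  (const t).mul hf

theorem neg {f : Fn3} (hf : Bd f) : Bd (fun a b c => - f a b c) := by
  have := smul (-1) hf
  simpa using this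

theorem sub {f g : Fn3} (hf : Bd f) (hg : Bd g) : Bd (fun a b c => f a b c - g a b c) := by
  have := hf.add hg.neg
  simpa [sub_eq_add_neg] using this

theorem pow {f : Fn3} (hf : Bd f) (n : ℕ) : Bd (fun a b c => (f a b c) ^ n) := by
  induction n with
  | zero => simpa using const 1
  | succ n ih =>
    have := ih.mul hf
    simpa [pow_succ] using this

theorem swap {f : Fn3} (hf : Bd f) : Bd (fun a b c => f b a c) := by
  obtain ⟨C, hC⟩ := hf
  exact ⟨C, fun a b c h => hC _ _ _ (simp_swap h)⟩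

theorem cyc {f : Fn3} (hf : Bd f) : Bd (fun a b c => f b c a) := by
  obtain ⟨C, hC⟩ := hf
  exact ⟨C, fun a b c h => hC _ _ _ (simp_cyc h)⟩

theorem nonneg_const {f : Fn3} {C : ℝ} (hC : ∀ a b c, Simp a b c → |f a b c| ≤ C) : 0 ≤ C :=
  (abs_nonneg _).trans (hC _ _ _ simp_centre)

end Bd

theorem bd_I2 : Bd I2 := by
  have h : ∀ f : Fn3, Bd f → Bd (fun a b c => (f a b c - 1 / 3) ^ 2) :=
    fun f hf => (hf.sub (Bd.const _)).pow 2
  exact ((h _ Bd.fst).add (h _ Bd.snd)).add (h _ Bd.thd)

theorem bd_I3 : Bd I3 := by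
  have h : ∀ f : Fn3, Bd f → Bd (fun a b c => (f a b c - 1 / 3) ^ 3) :=
    fun f hf => (hf.sub (Bd.const _)).pow 3
  exact ((h _ Bd.fst).add (h _ Bd.snd)).add (h _ Bd.thd)

/-- A symmetric expectation functional on bounded functions, supported on `K`. -/
structure BExp (E : Ex3) (K : ℝ → ℝ → ℝ → Prop) : Prop where
  sup : ∀ a b c, K a b c → Simp a b c
  add : ∀ f g : Fn3, Bd f → Bd g → E (fun a b c => f a b c + g a b c) = E f + E g
  smul : ∀ (t : ℝ) (f : Fn3), E (fun a b c => t * f a b c) = t * E f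
  nonneg : ∀ f : Fn3, (∀ a b c, K a b c → 0 ≤ f a b c) → 0 ≤ E f
  congr : ∀ f g : Fn3, (∀ a b c, K a b c → f a b c = g a b c) → E f = E g
  one : E (fun _ _ _ => 1) = 1
  swap : ∀ f : Fn3, E (fun a b c => f b a c) = E f
  cyc : ∀ f : Fn3, E (fun a b c => f b c a) = E f

namespace BExp

variable {E : Ex3} {K : ℝ → ℝ → ℝ → Prop}

theorem neg (h : BExp E K) (f : Fn3) : E (fun a b c => - f a b c) = - E f := by
  have := h.smul (-1) f
  simpa using this

theorem sub (h : BExp E K) {f g : Fn3} (hf : Bd f) (hg : Bd g) :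
    E (fun a b c => f a b c - g a b c) = E f - E g := by
  have h1 := h.add f (fun a b c => - g a b c) hf hg.neg
  rw [h.neg] at h1
  simpa [sub_eq_add_neg] using h1

theorem mono (h : BExp E K) {f g : Fn3} (hf : Bd f) (hg : Bd g)
    (hfg : ∀ a b c, K a b c → f a b c ≤ g a b c) : E f ≤ E g := by
  have h1 := h.nonneg (fun a b c => g a b c - f a b c)
    (fun a b c hK => sub_nonneg.2 (hfg a b c hK))
  rw [h.sub hg hf] at h1
  linarith

theorem const (h : BExp E K) (t : ℝ) : E (fun _ _ _ => t) = t := by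
  have := h.smul t (fun _ _ _ => 1)
  simpa [h.one] using this

theorem abs_le (h : BExp E K) {f : Fn3} {C : ℝ} (hC : ∀ a b c, Simp a b c → |f a b c| ≤ C) :
    |E f| ≤ C := by
  have hf : Bd f := ⟨C, hC⟩
  have h1 := h.mono (f := f) (g := fun _ _ _ => C) hf (Bd.const C)
    (fun a b c hK => (le_abs_self _).trans (hC a b c (h.sup a b c hK)))
  have h2 := h.mono (f := fun _ _ _ => -C) (g := f) (Bd.const (-C)) hf
    (fun a b c hK => by
      have := _root_.abs_le.1 (hC a b c (h.sup a b c hK))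
      exact this.1)
  rw [h.const] at h1 h2
  exact _root_.abs_le.2 ⟨h2, h1⟩

/-- average over the six permutations -/
theorem sym6 (h : BExp E K) {F : Fn3} (hF : Bd F) :
    E (fun p q r => (1 / 6) * (F p q r + F q r p + F r p q + F q p r + F p r q + F r q p)) = E F := by
  have c1 : E (fun p q r => F q r p) = E F := h.cyc F
  have c2 : E (fun p q r => F r p q) = E F := by
    have := h.cyc (fun p q r => F q r p)
    simpa [c1] using this
  have s1 : E (fun p q r => F q p r) = E F := h.swap F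
  have s2 : E (fun p q r => F r q p) = E F := by
    have := h.cyc (fun p q r => F q p r)
    simpa [s1] using this
  have s3 : E (fun p q r => F p r q) = E F := by
    have := h.cyc (fun p q r => F r q p)
    simpa [s2] using this
  have b1 : Bd (fun p q r => F q r p) := hF.cyc
  have b2 : Bd (fun p q r => F r p q) := hF.cyc.cyc
  have b3 : Bd (fun p q r => F q p r) := hF.swap
  have b4 : Bd (fun p q r => F p r q) := hF.swap.cyc.cyc
  have b5 : Bd (fun p q r => F r q p) := hF.swap.cyc
  have e4 : Bd (fun p q r => F p q r + F q r p) := hF.add b1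
  have e3 : Bd (fun p q r => F p q r + F q r p + F r p q) := e4.add b2
  have e2 : Bd (fun p q r => F p q r + F q r p + F r p q + F q p r) := e3.add b3
  have e1 : Bd (fun p q r => F p q r + F q r p + F r p q + F q p r + F p r q) := e2.add b4
  rw [h.smul (1 / 6) (fun p q r => F p q r + F q r p + F r p q + F q p r + F p r q + F r q p)]
  rw [h.add (fun p q r => F p q r + F q r p + F r p q + F q p r + F p r q) (fun p q r => F r q p) e1 b5]
  rw [h.add (fun p q r => F p q r + F q r p + F r p q + F q p r) (fun p q r => F p r q) e2 b4]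
  rw [h.add (fun p q r => F p q r + F q r p + F r p q) (fun p q r => F q p r) e3 b3]
  rw [h.add (fun p q r => F p q r + F q r p) (fun p q r => F r p q) e4 b2]
  rw [h.add (fun p q r => F p q r) (fun p q r => F q r p) hF b1]
  rw [c1, c2, s1, s2, s3]
  ring

/-- coordinates have mean `1/3` -/
theorem means (h : BExp E K) :
    E (fun a _ _ => a) = 1 / 3 ∧ E (fun _ b _ => b) = 1 / 3 ∧ E (fun _ _ c => c) = 1 / 3 := by
  have h2 : E (fun _ b _ => b) = E (fun a _ _ => a) := h.cyc (fun a _ _ => a)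
  have h3 : E (fun _ _ c => c) = E (fun _ b _ => b) := h.cyc (fun _ b _ => b)
  have hsum : E (fun a b c => a + b + c) = 1 := by
    rw [h.congr (fun a b c => a + b + c) (fun _ _ _ => 1)
      (fun a b c hk => (h.sup a b c hk).hs)]
    exact h.one
  rw [h.add (fun a b _ => a + b) (fun _ _ c => c) (Bd.fst.add Bd.snd) Bd.thd,
    h.add (fun a _ _ => a) (fun _ b _ => b) Bd.fst Bd.snd] at hsum
  refine ⟨?_, ?_, ?_⟩ <;> linarith

theorem lin3 (h : BExp E K) (k0 k1 k2 : ℝ) {f g : Fn3} (hf : Bd f) (hg : Bd g) :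
    E (fun a b c => k0 + k1 * f a b c + k2 * g a b c) = k0 + k1 * E f + k2 * E g := by
  rw [h.add (fun a b c => k0 + k1 * f a b c) (fun a b c => k2 * g a b c)
      ((Bd.const k0).add (Bd.smul k1 hf)) (Bd.smul k2 hg),
    h.add (fun _ _ _ => k0) (fun a b c => k1 * f a b c) (Bd.const k0) (Bd.smul k1 hf),
    h.const, h.smul, h.smul]

theorem lin4 (h : BExp E K) (k0 k1 k2 k3 : ℝ) {f g j : Fn3} (hf : Bd f) (hg : Bd g) (hj : Bd j) :
    E (fun a b c => k0 + k1 * f a b c + k2 * g a b c + k3 * j a b c)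
      = k0 + k1 * E f + k2 * E g + k3 * E j := by
  rw [h.add (fun a b c => k0 + k1 * f a b c + k2 * g a b c) (fun a b c => k3 * j a b c)
      (((Bd.const k0).add (Bd.smul k1 hf)).add (Bd.smul k2 hg)) (Bd.smul k3 hj),
    h.lin3 _ _ _ hf hg, h.smul]

end BExp

/-! ### the Bayesian product -/

theorem dot_le_one {a b c p q r : ℝ} (h : Simp a b c) (h' : Simp p q r) :
    a * p + b * q + c * r ≤ 1 := by
  obtain ⟨p1, q1, r1⟩ := simp_le_one h'
  have h1 := mul_le_mul_of_nonneg_left p1 h.ha
  have h2 := mul_le_mul_of_nonneg_left q1 h.hb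
  have h3 := mul_le_mul_of_nonneg_left r1 h.hc
  have := h.hs
  linarith

theorem dot_nonneg {a b c p q r : ℝ} (h : Simp a b c) (h' : Simp p q r) :
    0 ≤ a * p + b * q + c * r := by
  have := h.ha
  have := h.hb
  have := h.hc
  have := h'.ha
  have := h'.hb
  have := h'.hc
  positivity

theorem prod_simp {a b c p q r : ℝ} (h : Simp a b c) (h' : Simp p q r)
    (hD : 0 < a * p + b * q + c * r) :
    Simp (a * p / (a * p + b * q + c * r)) (b * q / (a * p + b * q + c * r))
      (c * r / (a * p + b * q + c * r)) := by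
  refine ⟨div_nonneg (mul_nonneg h.ha h'.ha) hD.le, div_nonneg (mul_nonneg h.hb h'.hb) hD.le,
    div_nonneg (mul_nonneg h.hc h'.hc) hD.le, ?_⟩
  field_simp

theorem wt_of_dot_zero (f : Fn3) {a b c p q r : ℝ} (hD : a * p + b * q + c * r = 0) :
    wt f a b c p q r = 0 := by
  unfold wt
  rw [hD]
  ring

theorem wt_bound {f : Fn3} {C : ℝ} (hC : ∀ a b c, Simp a b c → |f a b c| ≤ C) {a b c p q r : ℝ}
    (h : Simp a b c) (h' : Simp p q r) : |wt f a b c p q r| ≤ 3 * C := by
  have hC0 := Bd.nonneg_const hC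
  rcases (dot_nonneg h h').eq_or_lt with hD | hD
  · rw [wt_of_dot_zero f hD.symm, abs_zero]
    positivity
  · unfold wt
    rw [abs_mul, abs_of_nonneg (by positivity : (0 : ℝ) ≤ 3 * (a * p + b * q + c * r))]
    have h1 := hC _ _ _ (prod_simp h h' hD)
    have h2 := dot_le_one h h'
    calc 3 * (a * p + b * q + c * r) * |f _ _ _| ≤ 3 * 1 * C := by
          apply mul_le_mul _ h1 (abs_nonneg _) (by norm_num)
          linarith
      _ = 3 * C := by ring

theorem bd_wt {f : Fn3} (hf : Bd f) {a b c : ℝ} (h : Simp a b c) :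
    Bd (fun p q r => wt f a b c p q r) := by
  obtain ⟨C, hC⟩ := hf
  exact ⟨3 * C, fun p q r h' => wt_bound hC h h'⟩

theorem bd_inner {f : Fn3} (hf : Bd f) {E' : Ex3} {K' : ℝ → ℝ → ℝ → Prop} (hE' : BExp E' K') :
    Bd (fun a b c => E' (fun p q r => wt f a b c p q r)) := by
  obtain ⟨C, hC⟩ := hf
  exact ⟨3 * C, fun a b c h => hE'.abs_le (fun p q r h' => wt_bound hC h h')⟩

/-- the Bayesian product is a symmetric functional, with `K3` containing the products -/
theorem bprod_bexp {E E' : Ex3} {K1 K2 K3 : ℝ → ℝ → ℝ → Prop} (hE : BExp E K1) (hE' : BExp E' K2)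
    (h3 : ∀ a b c, K3 a b c → Simp a b c)
    (hK : ∀ a b c p q r, K1 a b c → K2 p q r → 0 < a * p + b * q + c * r →
      K3 (a * p / (a * p + b * q + c * r)) (b * q / (a * p + b * q + c * r))
        (c * r / (a * p + b * q + c * r))) :
    BExp (bprod E E') K3 where
  sup := h3
  add f g hf hg := by
    unfold bprod
    rw [← hE.add _ _ (bd_inner hf hE') (bd_inner hg hE')]
    refine hE.congr _ _ (fun a b c hK1 => ?_)
    have hs := hE.sup a b c hK1
    rw [← hE'.add _ _ (bd_wt hf hs) (bd_wt hg hs)]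
    congr 1
    funext p q r
    exact wt_add f g a b c p q r
  smul t f := by
    unfold bprod
    rw [← hE.smul]
    congr 1
    funext a b c
    rw [← hE'.smul]
    congr 1
    funext p q r
    exact wt_smul t f a b c p q r
  nonneg f hf := by
    refine hE.nonneg _ (fun a b c hK1 => hE'.nonneg _ (fun p q r hK2 => ?_))
    have hs := hE.sup a b c hK1
    have hs' := hE'.sup p q r hK2
    rcases (dot_nonneg hs hs').eq_or_lt with hD | hD
    · rw [wt_of_dot_zero f hD.symm]
    · unfold wt
      exact mul_nonneg (by positivity) (hf _ _ _ (hK a b c p q r hK1 hK2 hD))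
  congr f g hfg := by
    unfold bprod
    refine hE.congr _ _ (fun a b c hK1 => hE'.congr _ _ (fun p q r hK2 => ?_))
    have hs := hE.sup a b c hK1
    have hs' := hE'.sup p q r hK2
    rcases (dot_nonneg hs hs').eq_or_lt with hD | hD
    · rw [wt_of_dot_zero f hD.symm, wt_of_dot_zero g hD.symm]
    · unfold wt
      rw [hfg _ _ _ (hK a b c p q r hK1 hK2 hD)]
  one := by
    unfold bprod
    refine Eq.trans (hE.congr _ (fun _ _ _ => 1) (fun a b c hK1 => ?_)) hE.one
    obtain ⟨m1, m2, m3⟩ := hE'.means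
    have hs := hE.sup a b c hK1
    have e1 : (fun p q r => wt (fun _ _ _ => 1) a b c p q r)
        = fun p q r => ((3 * a) * p + (3 * b) * q) + (3 * c) * r := by
      funext p q r
      rw [wt_one]
    have b1 : Bd (fun p _ _ : ℝ => (3 * a) * p) := Bd.smul _ Bd.fst
    have b2 : Bd (fun _ q _ : ℝ => (3 * b) * q) := Bd.smul _ Bd.snd
    have b3 : Bd (fun _ _ r : ℝ => (3 * c) * r) := Bd.smul _ Bd.thd
    rw [e1, hE'.add (fun p q _ => (3 * a) * p + (3 * b) * q) (fun _ _ r => (3 * c) * r) (b1.add b2) b3,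
      hE'.add (fun p _ _ => (3 * a) * p) (fun _ q _ => (3 * b) * q) b1 b2,
      hE'.smul (3 * a) (fun p _ _ => p), hE'.smul (3 * b) (fun _ q _ => q),
      hE'.smul (3 * c) (fun _ _ r => r), m1, m2, m3]
    have := hs.hs
    linarith
  swap f := by
    unfold bprod
    have := hE.swap (fun a b c => E' (fun p q r => wt f a b c p q r))
    rw [← this]
    congr 1
    funext a b c
    rw [← hE'.swap (fun p q r => wt f b a c p q r)]
    congr 1
    funext p q r
    exact wt_swap f a b c p q r
  cyc f := by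
    unfold bprod
    have := hE.cyc (fun a b c => E' (fun p q r => wt f a b c p q r))
    rw [← this]
    congr 1
    funext a b c
    rw [← hE'.cyc (fun p q r => wt f b c a p q r)]
    congr 1
    funext p q r
    exact wt_cyc f a b c p q r

/-! ### the channel -/

/-- the range of eigenvalues allowed -/
structure Adm (lam : ℝ) : Prop where
  lo : -1 / 2 ≤ lam
  hi : lam ≤ 1

theorem chanPt_nonneg {lam x : ℝ} (h : Adm lam) (hx : 0 ≤ x) (hx1 : x ≤ 1) : 0 ≤ chanPt lam x := by
  unfold chanPt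
  have h0 := h.lo
  have h1 := h.hi
  rcases le_total 0 lam with h2 | h2
  · have : 0 ≤ (1 - lam) / 3 := by linarith
    positivity
  · nlinarith

theorem chan_simp {lam a b c : ℝ} (hl : Adm lam) (h : Simp a b c) :
    Simp (chanPt lam a) (chanPt lam b) (chanPt lam c) := by
  obtain ⟨a1, b1, c1⟩ := simp_le_one h
  refine ⟨chanPt_nonneg hl h.ha a1, chanPt_nonneg hl h.hb b1, chanPt_nonneg hl h.hc c1, ?_⟩
  unfold chanPt
  have := h.hs
  linear_combination lam * this

theorem bd_chan {lam : ℝ} (hl : Adm lam) {f : Fn3} (hf : Bd f) :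
    Bd (fun a b c => f (chanPt lam a) (chanPt lam b) (chanPt lam c)) := by
  obtain ⟨C, hC⟩ := hf
  exact ⟨C, fun a b c h => hC _ _ _ (chan_simp hl h)⟩

/-- the functional of the channel output -/
theorem chan_bexp {E : Ex3} (hE : BExp E Simp) {lam : ℝ} (hl : Adm lam) :
    BExp (chan lam E) Simp where
  sup := fun _ _ _ h => h
  add f g hf hg := hE.add _ _ (bd_chan hl hf) (bd_chan hl hg)
  smul t f := hE.smul _ _
  nonneg f hf := hE.nonneg _ (fun a b c hK1 => hf _ _ _ (chan_simp hl hK1))
  congr f g hfg := hE.congr _ _ (fun a b c hK1 => hfg _ _ _ (chan_simp hl hK1))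
  one := hE.one
  swap f := hE.swap (fun a b c => f (chanPt lam a) (chanPt lam b) (chanPt lam c))
  cyc f := hE.cyc (fun a b c => f (chanPt lam a) (chanPt lam b) (chanPt lam c))

/-! ### mixtures -/

/-- the mixture of functionals with weights `p` -/
noncomputable def mix (p : ℕ → ℝ) (F : ℕ → Ex3) : Ex3 := fun f => ∑' k, p k * F k f

theorem mix_summable {p : ℕ → ℝ} (hp0 : ∀ k, 0 ≤ p k) (hp1 : Summable p) {F : ℕ → Ex3}
    {K : ℝ → ℝ → ℝ → Prop} (hF : ∀ k, BExp (F k) K) {f : Fn3} (hf : Bd f) :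
    Summable (fun k => p k * F k f) := by
  obtain ⟨C, hC⟩ := hf
  refine Summable.of_norm_bounded (g := fun k => p k * C) (hp1.mul_right C) (fun k => ?_)
  rw [Real.norm_eq_abs, abs_mul, abs_of_nonneg (hp0 k)]
  exact mul_le_mul_of_nonneg_left ((hF k).abs_le hC) (hp0 k)

theorem mix_bexp {p : ℕ → ℝ} (hp0 : ∀ k, 0 ≤ p k) (hp1 : HasSum p 1) {F : ℕ → Ex3}
    {K : ℝ → ℝ → ℝ → Prop} (hF : ∀ k, BExp (F k) K) (hK : ∀ a b c, K a b c → Simp a b c) :
    BExp (mix p F) K where
  sup := hK
  add f g hf hg := by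
    unfold mix
    rw [← (mix_summable hp0 hp1.summable hF hf).tsum_add (mix_summable hp0 hp1.summable hF hg)]
    refine tsum_congr (fun k => ?_)
    rw [(hF k).add f g hf hg]
    ring
  smul t f := by
    unfold mix
    rw [← tsum_mul_left]
    refine tsum_congr (fun k => ?_)
    rw [(hF k).smul]
    ring
  nonneg f hf := tsum_nonneg (fun k => mul_nonneg (hp0 k) ((hF k).nonneg f hf))
  congr f g hfg := tsum_congr (fun k => by rw [(hF k).congr f g hfg])
  one := by
    unfold mix
    have : (fun k => p k * F k (fun _ _ _ => 1)) = p := by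
      funext k
      rw [(hF k).one, mul_one]
    rw [this]
    exact hp1.tsum_eq
  swap f := tsum_congr (fun k => by rw [(hF k).swap])
  cyc f := tsum_congr (fun k => by rw [(hF k).cyc])


/-! ### the recursion -/

/-- the `k`-fold Bayesian product of `E'` -/
noncomputable def Pk (E' : Ex3) : ℕ → Ex3
  | 0 => centre
  | k + 1 => bprod (Pk E' k) E'

/-- the uniform law on the vertices -/
noncomputable def vertexEx : Ex3 := fun f => 1 / 3 * (f 1 0 0 + f 0 1 0 + f 0 0 1)

theorem centre_bexp : BExp centre Simp where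
  sup := fun _ _ _ h => h
  add _ _ _ _ := rfl
  smul _ _ := rfl
  nonneg f hf := hf _ _ _ simp_centre
  congr f g hfg := hfg _ _ _ simp_centre
  one := rfl
  swap _ := rfl
  cyc _ := rfl

theorem simp_v1 : Simp 1 0 0 := ⟨by norm_num, by norm_num, by norm_num, by norm_num⟩
theorem simp_v2 : Simp 0 1 0 := ⟨by norm_num, by norm_num, by norm_num, by norm_num⟩
theorem simp_v3 : Simp 0 0 1 := ⟨by norm_num, by norm_num, by norm_num, by norm_num⟩

theorem vertexEx_bexp : BExp vertexEx Simp where
  sup := fun _ _ _ h => h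
  add f g _ _ := by unfold vertexEx; ring
  smul t f := by unfold vertexEx; ring
  nonneg f hf := by
    unfold vertexEx
    have h1 := hf 1 0 0 simp_v1
    have h2 := hf 0 1 0 simp_v2
    have h3 := hf 0 0 1 simp_v3
    positivity
  congr f g hfg := by
    unfold vertexEx
    rw [hfg 1 0 0 simp_v1, hfg 0 1 0 simp_v2, hfg 0 0 1 simp_v3]
  one := by unfold vertexEx; norm_num
  swap f := by unfold vertexEx; ring
  cyc f := by unfold vertexEx; ring

theorem Pk_bexp {E' : Ex3} (hE' : BExp E' Simp) (k : ℕ) : BExp (Pk E' k) Simp := by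
  induction k with
  | zero => exact centre_bexp
  | succ k ih =>
    exact bprod_bexp ih hE' (fun _ _ _ h => h) (fun a b c q r s h1 h2 hD => prod_simp h1 h2 hD)

/-- the law of the posterior at depth `n` on the Galton-Watson tree, as a functional -/
noncomputable def gwEx (p : ℕ → ℝ) (lam : ℝ) : ℕ → Ex3
  | 0 => vertexEx
  | n + 1 => mix p (fun k => Pk (chan lam (gwEx p lam n)) k)

/-- the functional is a symmetric expectation on the simplex -/
theorem gwEx_bexp {p : ℕ → ℝ} (hp0 : ∀ k, 0 ≤ p k) (hp1 : HasSum p 1) {lam : ℝ} (hl : Adm lam)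
    (n : ℕ) : BExp (gwEx p lam n) Simp := by
  induction n with
  | zero => exact vertexEx_bexp
  | succ n ih =>
    exact mix_bexp hp0 hp1 (fun k => Pk_bexp (chan_bexp ih hl) k) (fun _ _ _ h => h)

end Vale.Agent.Lib.P154.Neg
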