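import Vale.Agent.Lib.P154.Neg.Lyap

/-!
The Bonferroni inequalities for the generating functions of the two offspring laws.
-/

namespace Vale.Agent.Lib.P154.Neg

open Filter Topology

section bonf

variable {u : ℝ} (h0 : 0 ≤ u) (h1 : u ≤ 1)
include h0 h1

theorem bonf0 (n : ℕ) : (1 - u) ^ n ≤ 1 := pow_le_one₀ (by linarith) (by linarith)

theorem bonf1 (n : ℕ) : 1 - (n : ℝ) * u ≤ (1 - u) ^ n := by
  induction n with
  | zero => simp
  | succ n ih =>
    have h2 := mul_le_mul_of_nonneg_left (bonf0 h0 h1 n) h0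
    have e : (1 - u) ^ (n + 1) = (1 - u) ^ n - u * (1 - u) ^ n := by ring
    rw [e]
    push_cast
    nlinarith

theorem bonf2 (n : ℕ) : (1 - u) ^ n ≤ 1 - (n : ℝ) * u + (n : ℝ) * (n - 1) / 2 * u ^ 2 := by
  induction n with
  | zero => simp
  | succ n ih =>
    have h2 := mul_le_mul_of_nonneg_left (bonf1 h0 h1 n) h0
    have e : (1 - u) ^ (n + 1) = (1 - u) ^ n - u * (1 - u) ^ n := by ring
    rw [e]
    push_cast
    nlinarith

theorem bonf3 (n : ℕ) : 1 - (n : ℝ) * u + (n : ℝ) * (n - 1) / 2 * u ^ 2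
    - (n : ℝ) * (n - 1) * (n - 2) / 6 * u ^ 3 ≤ (1 - u) ^ n := by
  induction n with
  | zero => simp
  | succ n ih =>
    have h2 := mul_le_mul_of_nonneg_left (bonf2 h0 h1 n) h0
    have e : (1 - u) ^ (n + 1) = (1 - u) ^ n - u * (1 - u) ^ n := by ring
    rw [e]
    push_cast
    nlinarith

theorem bonf4 (n : ℕ) : (1 - u) ^ n ≤ 1 - (n : ℝ) * u + (n : ℝ) * (n - 1) / 2 * u ^ 2
    - (n : ℝ) * (n - 1) * (n - 2) / 6 * u ^ 3
    + (n : ℝ) * (n - 1) * (n - 2) * (n - 3) / 24 * u ^ 4 := by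
  induction n with
  | zero => simp
  | succ n ih =>
    have h2 := mul_le_mul_of_nonneg_left (bonf3 h0 h1 n) h0
    have e : (1 - u) ^ (n + 1) = (1 - u) ^ n - u * (1 - u) ^ n := by ring
    rw [e]
    push_cast
    nlinarith

theorem bonf5 (n : ℕ) : 1 - (n : ℝ) * u + (n : ℝ) * (n - 1) / 2 * u ^ 2
    - (n : ℝ) * (n - 1) * (n - 2) / 6 * u ^ 3
    + (n : ℝ) * (n - 1) * (n - 2) * (n - 3) / 24 * u ^ 4
    - (n : ℝ) * (n - 1) * (n - 2) * (n - 3) * (n - 4) / 120 * u ^ 5 ≤ (1 - u) ^ n := by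
  induction n with
  | zero => simp
  | succ n ih =>
    have h2 := mul_le_mul_of_nonneg_left (bonf4 h0 h1 n) h0
    have e : (1 - u) ^ (n + 1) = (1 - u) ^ n - u * (1 - u) ^ n := by ring
    rw [e]
    push_cast
    nlinarith

theorem bonf6 (n : ℕ) : (1 - u) ^ n ≤ 1 - (n : ℝ) * u + (n : ℝ) * (n - 1) / 2 * u ^ 2
    - (n : ℝ) * (n - 1) * (n - 2) / 6 * u ^ 3
    + (n : ℝ) * (n - 1) * (n - 2) * (n - 3) / 24 * u ^ 4
    - (n : ℝ) * (n - 1) * (n - 2) * (n - 3) * (n - 4) / 120 * u ^ 5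
    + (n : ℝ) * (n - 1) * (n - 2) * (n - 3) * (n - 4) * (n - 5) / 720 * u ^ 6 := by
  induction n with
  | zero => simp
  | succ n ih =>
    have h2 := mul_le_mul_of_nonneg_left (bonf5 h0 h1 n) h0
    have e : (1 - u) ^ (n + 1) = (1 - u) ^ n - u * (1 - u) ^ n := by ring
    rw [e]
    push_cast
    nlinarith

theorem bonf_up {n : ℕ} (hn : 0 < n) : 1 - (1 - u) ^ n ≤ Gu (1 / (n : ℝ)) ((n : ℝ) * u) := by
  have hn' : (n : ℝ) ≠ 0 := by positivity
  have e : Gu (1 / (n : ℝ)) ((n : ℝ) * u) = 1 - (1 - (n : ℝ) * u + (n : ℝ) * (n - 1) / 2 * u ^ 2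
      - (n : ℝ) * (n - 1) * (n - 2) / 6 * u ^ 3
      + (n : ℝ) * (n - 1) * (n - 2) * (n - 3) / 24 * u ^ 4
      - (n : ℝ) * (n - 1) * (n - 2) * (n - 3) * (n - 4) / 120 * u ^ 5) := by
    unfold Gu
    field_simp
    ring
  rw [e]
  have := bonf5 h0 h1 n
  linarith

theorem bonf_lo {n : ℕ} (hn : 0 < n) : Gl (1 / (n : ℝ)) ((n : ℝ) * u) ≤ 1 - (1 - u) ^ n := by
  have hn' : (n : ℝ) ≠ 0 := by positivity
  have e : Gl (1 / (n : ℝ)) ((n : ℝ) * u) = 1 - (1 - (n : ℝ) * u + (n : ℝ) * (n - 1) / 2 * u ^ 2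
      - (n : ℝ) * (n - 1) * (n - 2) / 6 * u ^ 3
      + (n : ℝ) * (n - 1) * (n - 2) * (n - 3) / 24 * u ^ 4
      - (n : ℝ) * (n - 1) * (n - 2) * (n - 3) * (n - 4) / 120 * u ^ 5
      + (n : ℝ) * (n - 1) * (n - 2) * (n - 3) * (n - 4) * (n - 5) / 720 * u ^ 6) := by
    unfold Gl Gu
    field_simp
    ring
  rw [e]
  have := bonf6 h0 h1 n
  linarith

end bonf

/-- the model of the `d`-ary tree -/
theorem model_dary {d : ℕ} (hd : 2 ≤ d) : Model (deltaLaw d) (d : ℝ) (1 / (d : ℝ)) where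
  hp0 := deltaLaw_nonneg d
  hp1 := deltaLaw_hasSum d
  hd := by positivity
  he0 := by positivity
  he1 := by
    have : (2 : ℝ) ≤ d := by exact_mod_cast hd
    rw [div_le_div_iff₀ (by linarith) (by norm_num)]
    linarith
  up u h0 h1 := by
    rw [genJ_delta]
    exact bonf_up h0 h1 (by omega)
  lo u h0 h1 := by
    rw [genJ_delta]
    exact bonf_lo h0 h1 (by omega)

theorem cont_Gu (w : ℝ) : Continuous (fun e => Gu e w) := by
  unfold Gu
  fun_prop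

theorem cont_Gl (w : ℝ) : Continuous (fun e => Gl e w) := by
  unfold Gl Gu
  fun_prop

/-- the limits of the Bonferroni bounds -/
theorem exp_bounds {w : ℝ} (hw : 0 ≤ w) :
    1 - Real.exp (-w) ≤ Gu 0 w ∧ Gl 0 w ≤ 1 - Real.exp (-w) := by
  have hlim : Tendsto (fun n : ℕ => 1 - (1 + (-w) / (n : ℝ)) ^ n) atTop (𝓝 (1 - Real.exp (-w))) :=
    (Real.tendsto_one_add_div_pow_exp (-w)).const_sub 1
  have h0 : Tendsto (fun n : ℕ => 1 / (n : ℝ)) atTop (𝓝 0) := tendsto_one_div_atTop_nhds_zero_nat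
  have h1 : Tendsto (fun n : ℕ => Gu (1 / (n : ℝ)) w) atTop (𝓝 (Gu 0 w)) :=
    ((cont_Gu w).tendsto 0).comp h0
  have h2 : Tendsto (fun n : ℕ => Gl (1 / (n : ℝ)) w) atTop (𝓝 (Gl 0 w)) :=
    ((cont_Gl w).tendsto 0).comp h0
  obtain ⟨N, hN⟩ := exists_nat_ge w
  have hev : ∀ᶠ n : ℕ in atTop, 0 < n ∧ w ≤ (n : ℝ) := by
    filter_upwards [eventually_ge_atTop (N + 1)] with n hn
    refine ⟨by omega, hN.trans ?_⟩
    exact_mod_cast (by omega : N ≤ n)
  have hu : ∀ n : ℕ, 0 < n → w ≤ (n : ℝ) → 0 ≤ w / (n : ℝ) ∧ w / (n : ℝ) ≤ 1 ∧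
      (n : ℝ) * (w / (n : ℝ)) = w ∧ 1 - w / (n : ℝ) = 1 + (-w) / (n : ℝ) := by
    intro n hn hwn
    have hn' : (0 : ℝ) < n := by exact_mod_cast hn
    refine ⟨by positivity, (div_le_one hn').2 hwn, by field_simp, by ring⟩
  constructor
  · refine le_of_tendsto_of_tendsto hlim h1 ?_
    filter_upwards [hev] with n hn
    obtain ⟨a, b, c, d⟩ := hu n hn.1 hn.2
    have := bonf_up a b hn.1
    rwa [c, d] at this
  · refine le_of_tendsto_of_tendsto h2 hlim ?_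
    filter_upwards [hev] with n hn
    obtain ⟨a, b, c, d⟩ := hu n hn.1 hn.2
    have := bonf_lo a b hn.1
    rwa [c, d] at this

/-- the model of the Poisson tree -/
theorem model_poisson {d : ℝ} (hd : 0 < d) : Model (poissonLaw d) d 0 where
  hp0 := poisson_nonneg hd.le
  hp1 := poisson_hasSum d
  hd := hd
  he0 := le_refl _
  he1 := by norm_num
  up u h0 _ := by
    rw [genJ_poisson]
    have e : d * (1 - (1 - u)) = d * u := by ring
    rw [e]
    exact (exp_bounds (by positivity)).1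
  lo u h0 _ := by
    rw [genJ_poisson]
    have e : d * (1 - (1 - u)) = d * u := by ring
    rw [e]
    exact (exp_bounds (by positivity)).2

end Vale.Agent.Lib.P154.Neg
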