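import Vale.Agent.Lib.P154.Neg.Dary

/-!
The multiplicative characters of the Bayesian product.
-/

namespace Vale.Agent.Lib.P154.Neg

open Filter Topology

/-- the exponents of a character -/
structure Exps (α β γ : ℝ) : Prop where
  a0 : 0 < α
  b0 : 0 ≤ β
  c0 : 0 ≤ γ
  s : α + β + γ = 1

/-- a monomial with real exponents -/
noncomputable def mono (α β γ : ℝ) : Fn3 := fun a b c => a ^ α * b ^ β * c ^ γ

/-- the symmetric character -/
noncomputable def chi (α β γ : ℝ) : Fn3 := fun a b c =>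
  1 / 2 * (mono α β γ a b c + mono α β γ b c a + mono α β γ c a b + mono α β γ b a c
    + mono α β γ a c b + mono α β γ c b a)

theorem rpow_unit {x e : ℝ} (h0 : 0 ≤ x) (h1 : x ≤ 1) (he : 0 ≤ e) : 0 ≤ x ^ e ∧ x ^ e ≤ 1 :=
  ⟨Real.rpow_nonneg h0 e, Real.rpow_le_one h0 h1 he⟩

variable {α β γ : ℝ}

theorem mono_unit (h : Exps α β γ) {a b c : ℝ} (hs : Simp a b c) :
    0 ≤ mono α β γ a b c ∧ mono α β γ a b c ≤ 1 := by
  obtain ⟨a1, b1, c1⟩ := simp_le_one hs
  obtain ⟨p0, p1⟩ := rpow_unit hs.ha a1 h.a0.le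
  obtain ⟨q0, q1⟩ := rpow_unit hs.hb b1 h.b0
  obtain ⟨r0, r1⟩ := rpow_unit hs.hc c1 h.c0
  unfold mono
  refine ⟨by positivity, ?_⟩
  have h2 : a ^ α * b ^ β ≤ 1 := mul_le_one₀ p1 q0 q1
  exact mul_le_one₀ h2 r0 r1

theorem bd_mono (h : Exps α β γ) : Bd (mono α β γ) := by
  refine ⟨1, fun a b c hs => ?_⟩
  obtain ⟨m0, m1⟩ := mono_unit h hs
  rw [abs_of_nonneg m0]
  exact m1

/-- the sum of a function over permutations, with coefficients -/
theorem BExp.sum6 {E : Ex3} {K : ℝ → ℝ → ℝ → Prop} (hE : BExp E K) {F : Fn3} (hF : Bd F)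
    (k1 k2 k3 k4 k5 k6 : ℝ) :
    E (fun p q r => k1 * F p q r + k2 * F q r p + k3 * F r p q + k4 * F q p r + k5 * F p r q
      + k6 * F r q p) = (k1 + k2 + k3 + k4 + k5 + k6) * E F := by
  have c1 : E (fun p q r => F q r p) = E F := hE.cyc F
  have c2 : E (fun p q r => F r p q) = E F := by
    have := hE.cyc (fun p q r => F q r p)
    simpa [c1] using this
  have s1 : E (fun p q r => F q p r) = E F := hE.swap F
  have s2 : E (fun p q r => F r q p) = E F := by
    have := hE.cyc (fun p q r => F q p r)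
    simpa [s1] using this
  have s3 : E (fun p q r => F p r q) = E F := by
    have := hE.cyc (fun p q r => F r q p)
    simpa [s2] using this
  have b1 : Bd (fun p q r => F q r p) := hF.cyc
  have b2 : Bd (fun p q r => F r p q) := hF.cyc.cyc
  have b3 : Bd (fun p q r => F q p r) := hF.swap
  have b4 : Bd (fun p q r => F p r q) := hF.swap.cyc.cyc
  have b5 : Bd (fun p q r => F r q p) := hF.swap.cyc
  have t1 := Bd.smul k1 hF
  have t2 := Bd.smul k2 b1
  have t3 := Bd.smul k3 b2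
  have t4 := Bd.smul k4 b3
  have t5 := Bd.smul k5 b4
  have t6 := Bd.smul k6 b5
  rw [hE.add _ _ (((((t1.add t2).add t3).add t4).add t5)) t6,
    hE.add _ _ (((t1.add t2).add t3).add t4) t5,
    hE.add _ _ ((t1.add t2).add t3) t4,
    hE.add _ _ (t1.add t2) t3,
    hE.add _ _ t1 t2,
    hE.smul, hE.smul, hE.smul, hE.smul, hE.smul, hE.smul, c1, c2, s1, s2, s3]
  ring

theorem bd_chi (h : Exps α β γ) : Bd (chi α β γ) := by
  have hF := bd_mono h
  have := (Bd.smul (1 / 2) (((((hF.add hF.cyc).add hF.cyc.cyc).add hF.swap).add hF.swap.cyc.cyc).add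
    hF.swap.cyc))
  exact this

theorem chi_mean {E : Ex3} {K : ℝ → ℝ → ℝ → Prop} (hE : BExp E K) (h : Exps α β γ) :
    E (chi α β γ) = 3 * E (mono α β γ) := by
  have := hE.sum6 (bd_mono h) (1 / 2) (1 / 2) (1 / 2) (1 / 2) (1 / 2) (1 / 2)
  have e : chi α β γ = fun p q r => 1 / 2 * mono α β γ p q r + 1 / 2 * mono α β γ q r p
      + 1 / 2 * mono α β γ r p q + 1 / 2 * mono α β γ q p r + 1 / 2 * mono α β γ p r q
      + 1 / 2 * mono α β γ r q p := by
    funext p q r
    unfold chi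
    ring
  rw [e, this]
  ring

/-- the scale invariance of a monomial -/
theorem mono_div (h : Exps α β γ) {A B C P Q R D : ℝ} (hA : 0 ≤ A) (hB : 0 ≤ B) (hC : 0 ≤ C)
    (hP : 0 ≤ P) (hQ : 0 ≤ Q) (hR : 0 ≤ R) (hD : 0 ≤ D) (hz : D = 0 → A * P = 0) :
    D * mono α β γ (A * P / D) (B * Q / D) (C * R / D) = mono α β γ A B C * mono α β γ P Q R := by
  rcases hD.eq_or_lt with h0 | h0
  · have h1 := hz h0.symm
    rw [← h0, zero_mul]
    unfold mono
    have e : A ^ α * B ^ β * C ^ γ * (P ^ α * Q ^ β * R ^ γ)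
        = (A * P) ^ α * (B ^ β * C ^ γ * (Q ^ β * R ^ γ)) := by
      rw [Real.mul_rpow hA hP]
      ring
    rw [e, h1, Real.zero_rpow h.a0.ne']
    ring
  · unfold mono
    rw [Real.div_rpow (mul_nonneg hA hP) hD, Real.div_rpow (mul_nonneg hB hQ) hD,
      Real.div_rpow (mul_nonneg hC hR) hD, Real.mul_rpow hA hP, Real.mul_rpow hB hQ,
      Real.mul_rpow hC hR]
    have e : D = D ^ α * D ^ β * D ^ γ := by
      rw [← Real.rpow_add h0, ← Real.rpow_add h0, h.s, Real.rpow_one]
    have h1 : D ^ α ≠ 0 := (Real.rpow_pos_of_pos h0 _).ne'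
    have h2 : D ^ β ≠ 0 := (Real.rpow_pos_of_pos h0 _).ne'
    have h3 : D ^ γ ≠ 0 := (Real.rpow_pos_of_pos h0 _).ne'
    nth_rewrite 1 [e]
    field_simp

/-- the weight of a character -/
theorem wt_chi (h : Exps α β γ) {a b c p q r : ℝ} (hs : Simp a b c) (hs' : Simp p q r) :
    wt (chi α β γ) a b c p q r =
      3 / 2 * (mono α β γ a b c) * mono α β γ p q r
      + 3 / 2 * (mono α β γ b c a) * mono α β γ q r p
      + 3 / 2 * (mono α β γ c a b) * mono α β γ r p q
      + 3 / 2 * (mono α β γ b a c) * mono α β γ q p r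
      + 3 / 2 * (mono α β γ a c b) * mono α β γ p r q
      + 3 / 2 * (mono α β γ c b a) * mono α β γ r q p := by
  have ha := hs.ha
  have hb := hs.hb
  have hc := hs.hc
  have hp := hs'.ha
  have hq := hs'.hb
  have hr := hs'.hc
  set D := a * p + b * q + c * r with hD
  have hD0 : 0 ≤ D := dot_nonneg hs hs'
  have z1 : 0 ≤ a * p := mul_nonneg ha hp
  have z2 : 0 ≤ b * q := mul_nonneg hb hq
  have z3 : 0 ≤ c * r := mul_nonneg hc hr
  have za : D = 0 → a * p = 0 := fun h0 => by rw [hD] at h0; linarith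
  have zb : D = 0 → b * q = 0 := fun h0 => by rw [hD] at h0; linarith
  have zc : D = 0 → c * r = 0 := fun h0 => by rw [hD] at h0; linarith
  have e1 := mono_div h ha hb hc hp hq hr hD0 za
  have e2 := mono_div h hb hc ha hq hr hp hD0 zb
  have e3 := mono_div h hc ha hb hr hp hq hD0 zc
  have e4 := mono_div h hb ha hc hq hp hr hD0 zb
  have e5 := mono_div h ha hc hb hp hr hq hD0 za
  have e6 := mono_div h hc hb ha hr hq hp hD0 zc
  unfold wt chi
  rw [← hD]
  linear_combination (3 / 2) * e1 + (3 / 2) * e2 + (3 / 2) * e3 + (3 / 2) * e4 + (3 / 2) * e5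
    + (3 / 2) * e6

/-- the multiplicativity of the characters, in the inner variable -/
theorem inner_chi {E' : Ex3} {K : ℝ → ℝ → ℝ → Prop} (hE' : BExp E' K) (h : Exps α β γ)
    {a b c : ℝ} (hs : Simp a b c) :
    E' (fun p q r => wt (chi α β γ) a b c p q r) = chi α β γ a b c * E' (chi α β γ) := by
  have e := hE'.congr (fun p q r => wt (chi α β γ) a b c p q r)
    (fun p q r => (3 / 2 * mono α β γ a b c) * mono α β γ p q r
      + (3 / 2 * mono α β γ b c a) * mono α β γ q r p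
      + (3 / 2 * mono α β γ c a b) * mono α β γ r p q
      + (3 / 2 * mono α β γ b a c) * mono α β γ q p r
      + (3 / 2 * mono α β γ a c b) * mono α β γ p r q
      + (3 / 2 * mono α β γ c b a) * mono α β γ r q p)
    (fun p q r hK => wt_chi h hs (hE'.sup p q r hK))
  rw [e, hE'.sum6 (bd_mono h), chi_mean hE' h]
  unfold chi
  ring

/-- the multiplicativity of the characters -/
theorem bprod_chi {E E' : Ex3} {K K' : ℝ → ℝ → ℝ → Prop} (hE : BExp E K) (hE' : BExp E' K')
    (h : Exps α β γ) : bprod E E' (chi α β γ) = E (chi α β γ) * E' (chi α β γ) := by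
  unfold bprod
  have e := hE.congr (fun a b c => E' (fun p q r => wt (chi α β γ) a b c p q r))
    (fun a b c => E' (chi α β γ) * chi α β γ a b c)
    (fun a b c hK => by
      rw [inner_chi hE' h (hE.sup a b c hK)]
      ring)
  rw [e, hE.smul]
  ring

theorem chi_centre (h : Exps α β γ) : chi α β γ (1 / 3) (1 / 3) (1 / 3) = 1 := by
  have e : mono α β γ (1 / 3) (1 / 3) (1 / 3) = 1 / 3 := by
    unfold mono
    have h0 : (0 : ℝ) < 1 / 3 := by norm_num
    rw [← Real.rpow_add h0, ← Real.rpow_add h0, h.s, Real.rpow_one]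
  unfold chi
  rw [e]
  norm_num

theorem Pk_chi {E' : Ex3} (hE' : BExp E' Simp) (h : Exps α β γ) (k : ℕ) :
    Pk E' k (chi α β γ) = (E' (chi α β γ)) ^ k := by
  induction k with
  | zero =>
    show chi α β γ (1 / 3) (1 / 3) (1 / 3) = _
    rw [chi_centre h, pow_zero]
  | succ k ih =>
    show bprod (Pk E' k) E' (chi α β γ) = _
    rw [bprod_chi (Pk_bexp hE' k) hE' h, ih, pow_succ]

/-- the generating function of the offspring law -/
noncomputable def genJ (p : ℕ → ℝ) (K : ℝ) : ℝ := ∑' k, p k * K ^ k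

/-- the recursion for the characters -/
theorem gwEx_chi {p : ℕ → ℝ} (hp0 : ∀ k, 0 ≤ p k) (hp1 : HasSum p 1) {lam : ℝ} (hl : Adm lam) (n : ℕ)
    (h : Exps α β γ) :
    gwEx p lam (n + 1) (chi α β γ) = genJ p (chan lam (gwEx p lam n) (chi α β γ)) := by
  show mix p (fun k => Pk (chan lam (gwEx p lam n)) k) (chi α β γ) = _
  unfold mix genJ
  refine tsum_congr (fun k => ?_)
  dsimp only
  rw [Pk_chi (chan_bexp (gwEx_bexp hp0 hp1 hl n) hl) h k]

theorem genJ_delta (d : ℕ) (K : ℝ) : genJ (deltaLaw d) K = K ^ d := by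
  unfold genJ
  rw [tsum_eq_single d]
  · simp [deltaLaw]
  · intro k hk
    simp [deltaLaw, hk]

theorem genJ_poisson (d K : ℝ) : genJ (poissonLaw d) K = Real.exp (- (d * (1 - K))) := by
  unfold genJ
  have h := (NormedSpace.expSeries_div_hasSum_exp (d * K)).mul_left (Real.exp (-d))
  rw [← Real.exp_eq_exp_ℝ, ← Real.exp_add] at h
  have e : (fun k : ℕ => poissonLaw d k * K ^ k)
      = fun k : ℕ => Real.exp (-d) * ((d * K) ^ k / (k.factorial : ℝ)) := by
    funext k
    unfold poissonLaw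
    rw [mul_pow]
    ring
  rw [e, h.tsum_eq]
  congr 1
  ring

end Vale.Agent.Lib.P154.Neg
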