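import Vale.Agent.Lib.P154.Neg.Kron

/-!
Clearing denominators: a polynomial with rational coefficients, evaluated at a point whose
coordinates are quotients, equals a polynomial with integer coefficients divided by a positive
quantity. This gives positivity on boxes and on cones, by the check of `Kron`.
-/

namespace Vale.Agent.Lib.P154.Neg.Kron

/-- expressions with rational coefficients -/
inductive PQ where
  | rat : ℤ → ℕ → PQ
  | var : ℕ → PQ
  | add : PQ → PQ → PQ
  | mul : PQ → PQ → PQ
  | pow : PQ → ℕ → PQ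

/-- the value of an expression -/
noncomputable def evalQ (env : ℕ → ℝ) : PQ → ℝ
  | .rat n d => (n : ℝ) / (d : ℝ)
  | .var i => env i
  | .add a b => evalQ env a + evalQ env b
  | .mul a b => evalQ env a * evalQ env b
  | .pow a n => (evalQ env a) ^ n

/-- substitution -/
def PQ.subst (f : ℕ → PQ) : PQ → PQ
  | .rat n d => .rat n d
  | .var i => f i
  | .add a b => .add (PQ.subst f a) (PQ.subst f b)
  | .mul a b => .mul (PQ.subst f a) (PQ.subst f b)
  | .pow a n => .pow (PQ.subst f a) n

theorem evalQ_subst (env : ℕ → ℝ) (f : ℕ → PQ) : ∀ e : PQ,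
    evalQ env (PQ.subst f e) = evalQ (fun i => evalQ env (f i)) e
  | .rat _ _ => rfl
  | .var _ => rfl
  | .add a b => by simp only [PQ.subst, evalQ, evalQ_subst env f a, evalQ_subst env f b]
  | .mul a b => by simp only [PQ.subst, evalQ, evalQ_subst env f a, evalQ_subst env f b]
  | .pow a n => by simp only [PQ.subst, evalQ, evalQ_subst env f a]

/-- a rational substitution: the variable `i` stands for
`num i / (den i * prod_j (D j) ^ (deg i j))`, where `j < m`. -/
structure RS where
  m : ℕ
  D : ℕ → PE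
  num : ℕ → PE
  den : ℕ → ℕ
  deg : ℕ → ℕ → ℕ

namespace RS

variable (R : RS)

/-- the exponent of `D j` in the denominator -/
def degOf (j : ℕ) : PQ → ℕ
  | .rat _ _ => 0
  | .var i => R.deg i j
  | .add a b => Nat.max (degOf j a) (degOf j b)
  | .mul a b => degOf j a + degOf j b
  | .pow a n => n * degOf j a

/-- the integer denominator -/
def denOf : PQ → ℕ
  | .rat _ d => d
  | .var i => R.den i
  | .add a b => Nat.lcm (denOf a) (denOf b)
  | .mul a b => denOf a * denOf b
  | .pow a n => (denOf a) ^ n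

/-- a product of powers of denominators -/
def dfac (f : ℕ → ℕ) : ℕ → PE
  | 0 => .const 1
  | m + 1 => .mul (dfac f m) (.pow (R.D m) (f m))

/-- the numerator -/
def homN : PQ → PE
  | .rat n _ => .const n
  | .var i => R.num i
  | .add a b =>
    .add
      (.mul (.mul (homN a) (.const (Int.ofNat (Nat.lcm (denOf R a) (denOf R b) / denOf R a))))
        (dfac R (fun j => Nat.max (degOf R j a) (degOf R j b) - degOf R j a) R.m))
      (.mul (.mul (homN b) (.const (Int.ofNat (Nat.lcm (denOf R a) (denOf R b) / denOf R b))))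
        (dfac R (fun j => Nat.max (degOf R j a) (degOf R j b) - degOf R j b) R.m))
  | .mul a b => .mul (homN a) (homN b)
  | .pow a n => .pow (homN a) n

/-- the denominators are positive integers -/
def okQ : PQ → Bool
  | .rat _ d => decide (0 < d)
  | .var i => decide (0 < R.den i)
  | .add a b => okQ a && okQ b
  | .mul a b => okQ a && okQ b
  | .pow a _ => okQ a

theorem denOf_pos : ∀ e : PQ, okQ R e = true → 0 < denOf R e
  | .rat _ _, h => by simpa [okQ, denOf] using h
  | .var _, h => by simpa [okQ, denOf] using h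
  | .add a b, h => by
    simp only [okQ, Bool.and_eq_true] at h
    exact Nat.lcm_pos (denOf_pos a h.1) (denOf_pos b h.2)
  | .mul a b, h => by
    simp only [okQ, Bool.and_eq_true] at h
    exact Nat.mul_pos (denOf_pos a h.1) (denOf_pos b h.2)
  | .pow a _, h => by
    simp only [okQ] at h
    exact Nat.pow_pos (denOf_pos a h)

section sound

variable (y : ℕ → ℝ)

/-- the value of a product of powers of denominators -/
noncomputable def prodD (f : ℕ → ℕ) : ℝ := ∏ j ∈ Finset.range R.m, (evalE y (R.D j)) ^ (f j)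

theorem dfac_eval (f : ℕ → ℕ) : ∀ m, evalE y (dfac R f m)
    = ∏ j ∈ Finset.range m, (evalE y (R.D j)) ^ (f j)
  | 0 => by simp [dfac, evalE]
  | m + 1 => by
    rw [Finset.prod_range_succ, ← dfac_eval f m]
    simp [dfac, evalE]

theorem prodD_mul (f g : ℕ → ℕ) : prodD R y (fun j => f j + g j) = prodD R y f * prodD R y g := by
  unfold prodD
  rw [← Finset.prod_mul_distrib]
  exact Finset.prod_congr rfl (fun j _ => pow_add _ _ _)

theorem prodD_pow (f : ℕ → ℕ) (n : ℕ) : prodD R y (fun j => n * f j) = (prodD R y f) ^ n := by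
  unfold prodD
  rw [← Finset.prod_pow]
  refine Finset.prod_congr rfl (fun j _ => ?_)
  show _ ^ (n * f j) = _
  rw [mul_comm, pow_mul]

theorem prodD_pos (hD : ∀ j, j < R.m → 0 < evalE y (R.D j)) (f : ℕ → ℕ) : 0 < prodD R y f :=
  Finset.prod_pos (fun j hj => pow_pos (hD j (Finset.mem_range.1 hj)) _)

/-- the algebra of a sum of two fractions -/
theorem alg_add {A B da db qa qb L Pa Pb Fa Fb P : ℝ} (h1 : qa * da = L) (h2 : qb * db = L)
    (h3 : Pa * Fa = P) (h4 : Pb * Fb = P) :
    (A * da * Pa) * qa * Fa + (B * db * Pb) * qb * Fb = (A + B) * L * P := by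
  linear_combination A * (Pa * Fa) * h1 + A * L * h3 + B * (Pb * Fb) * h2 + B * L * h4

/-- the main identity -/
theorem homN_eval (x : ℕ → ℝ)
    (hx : ∀ i, x i * (R.den i : ℝ) * prodD R y (R.deg i) = evalE y (R.num i)) :
    ∀ e : PQ, okQ R e = true →
      evalE y (homN R e) = evalQ x e * (denOf R e : ℝ) * prodD R y (fun j => degOf R j e)
  | .rat n d, h => by
    have hd : (d : ℝ) ≠ 0 := by
      have : 0 < d := by simpa [okQ] using h
      positivity
    have e1 : prodD R y (fun j => degOf R j (.rat n d)) = 1 := by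
      unfold prodD
      simp [degOf]
    rw [e1]
    simp only [homN, evalE, evalQ, denOf]
    field_simp
  | .var i, _ => by
    simp only [homN, evalQ, denOf]
    rw [← hx i]
    rfl
  | .add a b, h => by
    simp only [okQ, Bool.and_eq_true] at h
    have ia := homN_eval x hx a h.1
    have ib := homN_eval x hx b h.2
    have pa := denOf_pos R a h.1
    have pb := denOf_pos R b h.2
    have da : (((Nat.lcm (denOf R a) (denOf R b) / denOf R a : ℕ) : ℝ)) * (denOf R a : ℝ)
        = (Nat.lcm (denOf R a) (denOf R b) : ℝ) := by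
      rw [← Nat.cast_mul, Nat.div_mul_cancel (Nat.dvd_lcm_left _ _)]
    have db : (((Nat.lcm (denOf R a) (denOf R b) / denOf R b : ℕ) : ℝ)) * (denOf R b : ℝ)
        = (Nat.lcm (denOf R a) (denOf R b) : ℝ) := by
      rw [← Nat.cast_mul, Nat.div_mul_cancel (Nat.dvd_lcm_right _ _)]
    have fa : prodD R y (fun j => degOf R j a)
        * prodD R y (fun j => Nat.max (degOf R j a) (degOf R j b) - degOf R j a)
        = prodD R y (fun j => degOf R j (.add a b)) := by
      rw [← prodD_mul]
      congr 1
      funext j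
      simp only [degOf]
      exact Nat.add_sub_cancel' (Nat.le_max_left _ _)
    have fb : prodD R y (fun j => degOf R j b)
        * prodD R y (fun j => Nat.max (degOf R j a) (degOf R j b) - degOf R j b)
        = prodD R y (fun j => degOf R j (.add a b)) := by
      rw [← prodD_mul]
      congr 1
      funext j
      simp only [degOf]
      exact Nat.add_sub_cancel' (Nat.le_max_right _ _)
    have dfa : evalE y (dfac R (fun j => Nat.max (degOf R j a) (degOf R j b) - degOf R j a) R.m)
        = prodD R y (fun j => Nat.max (degOf R j a) (degOf R j b) - degOf R j a) :=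
      dfac_eval R y _ R.m
    have dfb : evalE y (dfac R (fun j => Nat.max (degOf R j a) (degOf R j b) - degOf R j b) R.m)
        = prodD R y (fun j => Nat.max (degOf R j a) (degOf R j b) - degOf R j b) :=
      dfac_eval R y _ R.m
    have ca : ((Int.ofNat (Nat.lcm (denOf R a) (denOf R b) / denOf R a) : ℤ) : ℝ)
        = ((Nat.lcm (denOf R a) (denOf R b) / denOf R a : ℕ) : ℝ) :=
      Int.cast_natCast _
    have cb : ((Int.ofNat (Nat.lcm (denOf R a) (denOf R b) / denOf R b) : ℤ) : ℝ)
        = ((Nat.lcm (denOf R a) (denOf R b) / denOf R b : ℕ) : ℝ) :=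
      Int.cast_natCast _
    simp only [homN, evalE, evalQ, denOf]
    rw [ia, ib, dfa, dfb, ca, cb]
    exact alg_add da db fa fb
  | .mul a b, h => by
    simp only [okQ, Bool.and_eq_true] at h
    have ia := homN_eval x hx a h.1
    have ib := homN_eval x hx b h.2
    have f1 : prodD R y (fun j => degOf R j (.mul a b))
        = prodD R y (fun j => degOf R j a) * prodD R y (fun j => degOf R j b) := by
      rw [← prodD_mul]
      rfl
    simp only [homN, evalE, evalQ, denOf]
    rw [ia, ib, f1]
    push_cast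
    ring
  | .pow a n, h => by
    simp only [okQ] at h
    have ia := homN_eval x hx a h
    have f1 : prodD R y (fun j => degOf R j (.pow a n)) = (prodD R y (fun j => degOf R j a)) ^ n := by
      rw [← prodD_pow]
      rfl
    simp only [homN, evalE, evalQ, denOf]
    rw [ia, f1]
    push_cast
    ring

end sound

/-- the check for a rational substitution, with given bases and degrees -/
def checkRS (k : ℕ) (zs ds : List ℕ) (e : PQ) : Bool :=
  okQ R e && check k zs (fun i => ds.getD i 0) (homN R e)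

/-- the soundness of the check -/
theorem checkRS_sound {k : ℕ} {zs ds : List ℕ} {e : PQ} (h : checkRS R k zs ds e = true) (y x : ℕ → ℝ)
    (hy : ∀ i, 0 ≤ y i) (hD : ∀ j, j < R.m → 0 < evalE y (R.D j))
    (hx : ∀ i, x i * (R.den i : ℝ) * prodD R y (R.deg i) = evalE y (R.num i)) :
    0 ≤ evalQ x e := by
  unfold checkRS at h
  simp only [Bool.and_eq_true] at h
  have h1 := check_sound h.2 y hy
  rw [homN_eval R y x hx e h.1] at h1
  have h2 := denOf_pos R e h.1
  have h3 : (0 : ℝ) < (denOf R e : ℝ) := by exact_mod_cast h2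
  have h4 := prodD_pos R y hD (fun j => degOf R j e)
  have h5 : 0 ≤ evalQ x e * ((denOf R e : ℝ) * prodD R y (fun j => degOf R j e)) := by
    rw [← mul_assoc]
    exact h1
  exact nonneg_of_mul_nonneg_left h5 (mul_pos h3 h4)

end RS

/-! ### boxes -/

/-- the rational substitution for a box, where `(l, h, D)` stands for the interval from `l / D`
up to `h / D` -/
def boxRS (k : ℕ) (b : List (ℤ × ℤ × ℕ)) : RS where
  m := k
  D j := .add (.const 1) (.var j)
  num i := .add (.const (b.getD i (0, 1, 1)).1) (.mul (.const (b.getD i (0, 1, 1)).2.1) (.var i))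
  den i := (b.getD i (0, 1, 1)).2.2
  deg i j := if i = j then 1 else 0

/-- replace an entry of a list -/
def setL (b : List (ℤ × ℤ × ℕ)) (i : ℕ) (x : ℤ × ℤ × ℕ) : List (ℤ × ℤ × ℕ) := b.set i x

/-- the subdivision of a box -/
inductive BT where
  | leaf : List ℕ → List ℕ → BT
  | split : ℕ → ℤ → BT → BT → BT

/-- the check of a subdivision -/
def checkTree (k : ℕ) (e : PQ) : List (ℤ × ℤ × ℕ) → BT → Bool
  | b, .leaf zs ds => RS.checkRS (boxRS k b) k zs ds e
  | b, .split i m l r =>
    checkTree k e (b.set i (((b.getD i (0, 1, 1)).1, m, (b.getD i (0, 1, 1)).2.2))) l &&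
    checkTree k e (b.set i ((m, (b.getD i (0, 1, 1)).2.1, (b.getD i (0, 1, 1)).2.2))) r

/-- being in a box -/
def InBox (k : ℕ) (b : List (ℤ × ℤ × ℕ)) (x : ℕ → ℝ) : Prop :=
  ∀ i, i < k → (((b.getD i (0, 1, 1)).1 : ℝ) ≤ ((b.getD i (0, 1, 1)).2.2 : ℝ) * x i) ∧
    (((b.getD i (0, 1, 1)).2.2 : ℝ) * x i < ((b.getD i (0, 1, 1)).2.1 : ℝ))

/-- the variables of an expression are among the first `k` -/
def PQ.wf (k : ℕ) : PQ → Bool
  | .rat _ _ => true
  | .var i => decide (i < k)
  | .add a b => PQ.wf k a && PQ.wf k b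
  | .mul a b => PQ.wf k a && PQ.wf k b
  | .pow a _ => PQ.wf k a

theorem evalQ_congr {k : ℕ} {x x' : ℕ → ℝ} (h : ∀ i, i < k → x i = x' i) :
    ∀ e : PQ, PQ.wf k e = true → evalQ x e = evalQ x' e
  | .rat _ _, _ => rfl
  | .var i, hw => by
    simp only [PQ.wf, decide_eq_true_eq] at hw
    exact h i hw
  | .add a b, hw => by
    simp only [PQ.wf, Bool.and_eq_true] at hw
    simp only [evalQ, evalQ_congr h a hw.1, evalQ_congr h b hw.2]
  | .mul a b, hw => by
    simp only [PQ.wf, Bool.and_eq_true] at hw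
    simp only [evalQ, evalQ_congr h a hw.1, evalQ_congr h b hw.2]
  | .pow a n, hw => by
    simp only [PQ.wf] at hw
    simp only [evalQ, evalQ_congr h a hw]

theorem moebius {x l h D : ℝ} (hne : h - D * x ≠ 0) :
    x * D * (1 + (D * x - l) / (h - D * x)) = l + h * ((D * x - l) / (h - D * x)) := by
  have hy : (D * x - l) / (h - D * x) * (h - D * x) = D * x - l := div_mul_cancel₀ _ hne
  generalize (D * x - l) / (h - D * x) = y at hy ⊢
  linear_combination -hy

/-- the check on a leaf -/
theorem leaf_sound {k : ℕ} {zs ds : List ℕ} {b : List (ℤ × ℤ × ℕ)} {e : PQ} (hw : PQ.wf k e = true)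
    (h : RS.checkRS (boxRS k b) k zs ds e = true) {x : ℕ → ℝ} (hx : InBox k b x)
    (hd : ∀ i, 0 < (b.getD i (0, 1, 1)).2.2) : 0 ≤ evalQ x e := by
  classical
  -- the values of the new variables
  let y : ℕ → ℝ := fun i => if i < k then
    (((b.getD i (0, 1, 1)).2.2 : ℝ) * x i - ((b.getD i (0, 1, 1)).1 : ℝ))
      / (((b.getD i (0, 1, 1)).2.1 : ℝ) - ((b.getD i (0, 1, 1)).2.2 : ℝ) * x i) else 0
  have hy : ∀ i, 0 ≤ y i := by
    intro i
    by_cases hi : i < k
    · obtain ⟨h1, h2⟩ := hx i hi
      simp only [y, hi, if_true]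
      exact div_nonneg (by linarith) (by linarith)
    · simp only [y, hi, if_false]
      exact le_refl _
  -- the point with the coordinates beyond `k` made harmless
  let x' : ℕ → ℝ := fun i => if i < k then x i else
    (((b.getD i (0, 1, 1)).1 : ℝ) / ((b.getD i (0, 1, 1)).2.2 : ℝ))
  have hcongr : evalQ x e = evalQ x' e :=
    evalQ_congr (fun i hi => by simp [x', hi]) e hw
  rw [hcongr]
  have hprod : ∀ i, RS.prodD (boxRS k b) y ((boxRS k b).deg i)
      = if i < k then 1 + y i else 1 := by
    intro i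
    unfold RS.prodD
    have e1 : ∀ j, (boxRS k b).deg i j = if i = j then 1 else 0 := fun j => rfl
    simp only [e1]
    have hm : (boxRS k b).m = k := rfl
    rw [hm]
    by_cases hi : i < k
    · rw [if_pos hi, Finset.prod_eq_single i]
      · simp [boxRS, evalE]
      · intro j _ hj
        simp [Ne.symm hj]
      · intro hni
        exact absurd (Finset.mem_range.2 hi) hni
    · rw [if_neg hi]
      refine Finset.prod_eq_one (fun j hj => ?_)
      have : i ≠ j := fun h => hi (h ▸ Finset.mem_range.1 hj)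
      simp [this]
  refine RS.checkRS_sound (boxRS k b) h y x' hy (fun j _ => ?_) (fun i => ?_)
  · show 0 < evalE y (.add (.const 1) (.var j))
    simp only [evalE]
    have := hy j
    push_cast
    linarith
  · rw [hprod i]
    have hD : ((b.getD i (0, 1, 1)).2.2 : ℝ) ≠ 0 := by
      have := hd i
      positivity
    have hden : (boxRS k b).den i = (b.getD i (0, 1, 1)).2.2 := rfl
    rw [hden]
    show _ = evalE y (.add (.const (b.getD i (0, 1, 1)).1)
      (.mul (.const (b.getD i (0, 1, 1)).2.1) (.var i)))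
    simp only [evalE]
    by_cases hi : i < k
    · obtain ⟨h1, h2⟩ := hx i hi
      have hpos : ((b.getD i (0, 1, 1)).2.1 : ℝ) - ((b.getD i (0, 1, 1)).2.2 : ℝ) * x i ≠ 0 := by
        intro h0
        linarith
      simp only [y, x', hi, if_true]
      exact moebius hpos
    · simp only [y, x', hi, if_false]
      field_simp
      simp

/-- the soundness of the check of a subdivision -/
theorem checkTree_sound {k : ℕ} {e : PQ} (hw : PQ.wf k e = true) :
    ∀ (t : BT) (b : List (ℤ × ℤ × ℕ)), checkTree k e b t = true →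
      (∀ i, 0 < (b.getD i (0, 1, 1)).2.2) → ∀ x : ℕ → ℝ, InBox k b x → 0 ≤ evalQ x e
  | .leaf _ _, b, h, hd, x, hx => leaf_sound hw h hx hd
  | .split i m l r, b, h, hd, x, hx => by
    simp only [checkTree, Bool.and_eq_true] at h
    have hlen : ∀ (z : ℤ × ℤ × ℕ), z.2.2 = (b.getD i (0, 1, 1)).2.2 → ∀ j,
        ((b.set i z).getD j (0, 1, 1)) = if j = i ∧ i < b.length then z else b.getD j (0, 1, 1) := by
      intro z _ j
      simp only [List.getD_eq_getElem?_getD, List.getElem?_set]
      by_cases hj : j = i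
      · subst hj
        by_cases hil : j < b.length
        · simp [hil]
        · simp [hil]
      · have : ¬ i = j := fun h => hj h.symm
        simp [hj, this]
    by_cases hc : ((b.getD i (0, 1, 1)).2.2 : ℝ) * x i < (m : ℝ)
    · refine checkTree_sound hw l _ h.1 ?_ x ?_
      · intro j
        rw [hlen ((b.getD i (0, 1, 1)).1, m, (b.getD i (0, 1, 1)).2.2) rfl j]
        split_ifs
        · exact hd i
        · exact hd j
      · intro j hj
        rw [hlen ((b.getD i (0, 1, 1)).1, m, (b.getD i (0, 1, 1)).2.2) rfl j]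
        split_ifs with h2
        · obtain ⟨rfl, _⟩ := h2
          exact ⟨(hx j hj).1, hc⟩
        · exact hx j hj
    · have hc' : (m : ℝ) ≤ ((b.getD i (0, 1, 1)).2.2 : ℝ) * x i := not_lt.1 hc
      refine checkTree_sound hw r _ h.2 ?_ x ?_
      · intro j
        rw [hlen (m, (b.getD i (0, 1, 1)).2.1, (b.getD i (0, 1, 1)).2.2) rfl j]
        split_ifs
        · exact hd i
        · exact hd j
      · intro j hj
        rw [hlen (m, (b.getD i (0, 1, 1)).2.1, (b.getD i (0, 1, 1)).2.2) rfl j]
        split_ifs with h2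
        · obtain ⟨rfl, _⟩ := h2
          exact ⟨hc', (hx j hj).2⟩
        · exact hx j hj

/-! ### closed boxes -/

/-- being in a closed box -/
def InBoxC (k : ℕ) (b : List (ℤ × ℤ × ℕ)) (x : ℕ → ℝ) : Prop :=
  ∀ i, i < k → (((b.getD i (0, 1, 1)).1 : ℝ) ≤ ((b.getD i (0, 1, 1)).2.2 : ℝ) * x i) ∧
    (((b.getD i (0, 1, 1)).2.2 : ℝ) * x i ≤ ((b.getD i (0, 1, 1)).2.1 : ℝ))

theorem evalQ_cont {f : ℕ → ℝ → ℝ} (hf : ∀ i, Continuous (f i)) :
    ∀ e : PQ, Continuous (fun s => evalQ (fun i => f i s) e)
  | .rat _ _ => continuous_const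
  | .var i => hf i
  | .add a b => (evalQ_cont hf a).add (evalQ_cont hf b)
  | .mul a b => (evalQ_cont hf a).mul (evalQ_cont hf b)
  | .pow a n => (evalQ_cont hf a).pow n

/-- from half-open boxes to closed boxes -/
theorem closure_box {k : ℕ} {b : List (ℤ × ℤ × ℕ)} {e : PQ}
    (h : ∀ x : ℕ → ℝ, InBox k b x → 0 ≤ evalQ x e)
    (hlt : ∀ i, i < k → (b.getD i (0, 1, 1)).1 < (b.getD i (0, 1, 1)).2.1)
    (hd : ∀ i, 0 < (b.getD i (0, 1, 1)).2.2) {x : ℕ → ℝ} (hx : InBoxC k b x) : 0 ≤ evalQ x e := by
  -- the centre of the box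
  let c : ℕ → ℝ := fun i => (((b.getD i (0, 1, 1)).1 : ℝ) + ((b.getD i (0, 1, 1)).2.1 : ℝ))
    / (2 * ((b.getD i (0, 1, 1)).2.2 : ℝ))
  let g : ℝ → ℝ := fun s => evalQ (fun i => x i + s * (c i - x i)) e
  have hg : Continuous g := evalQ_cont (f := fun i s => x i + s * (c i - x i))
    (fun i => by fun_prop) e
  have h0 : g 0 = evalQ x e := by
    simp [g]
  rw [← h0]
  have hpos : ∀ s : ℝ, 0 < s → s ≤ 1 → 0 ≤ g s := by
    intro s hs0 hs1
    refine h _ (fun i hi => ?_)
    obtain ⟨h1, h2⟩ := hx i hi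
    have hD : (0 : ℝ) < ((b.getD i (0, 1, 1)).2.2 : ℝ) := by exact_mod_cast hd i
    have hl : (((b.getD i (0, 1, 1)).1 : ℝ)) < ((b.getD i (0, 1, 1)).2.1 : ℝ) := by
      exact_mod_cast hlt i hi
    have hc : ((b.getD i (0, 1, 1)).2.2 : ℝ) * c i
        = (((b.getD i (0, 1, 1)).1 : ℝ) + ((b.getD i (0, 1, 1)).2.1 : ℝ)) / 2 := by
      simp only [c]
      field_simp
    have e1 : ((b.getD i (0, 1, 1)).2.2 : ℝ) * (x i + s * (c i - x i))
        = (1 - s) * (((b.getD i (0, 1, 1)).2.2 : ℝ) * x i)
          + s * (((b.getD i (0, 1, 1)).2.2 : ℝ) * c i) := by ring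
    rw [e1, hc]
    constructor
    · nlinarith
    · nlinarith
  have hlim : Filter.Tendsto g (nhdsWithin 0 (Set.Ioi 0)) (nhds (g 0)) :=
    (hg.tendsto 0).mono_left nhdsWithin_le_nhds
  refine ge_of_tendsto hlim ?_
  filter_upwards [Ioc_mem_nhdsGT (zero_lt_one' ℝ)] with s hs
  exact hpos s hs.1 hs.2

/-- the soundness of the check of a subdivision, on a closed box -/
theorem checkTree_closed {k : ℕ} {e : PQ} {t : BT} {b : List (ℤ × ℤ × ℕ)} (hw : PQ.wf k e = true)
    (h : checkTree k e b t = true) (hd : ∀ i, 0 < (b.getD i (0, 1, 1)).2.2)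
    (hlt : ∀ i, i < k → (b.getD i (0, 1, 1)).1 < (b.getD i (0, 1, 1)).2.1) {x : ℕ → ℝ}
    (hx : InBoxC k b x) : 0 ≤ evalQ x e :=
  closure_box (fun x' hx' => checkTree_sound hw t b h hd x' hx') hlt hd hx

end Vale.Agent.Lib.P154.Neg.Kron
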