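import Vale.Agent.Lib.P154.Neg.Bonf
import Vale.Agent.Lib.P154.Neg.Hom

/-!
Inequalities for characters on the simplex, reduced to polynomial inequalities on cones, in the
sixth roots of the coordinates.
-/

namespace Vale.Agent.Lib.P154.Neg

open Kron

/-- the two-variable environment -/
def env2 (a b : ℝ) : ℕ → ℝ
  | 0 => a
  | _ => b

/-- the two-variable substitution -/
def fm2 (a b : PQ) : ℕ → PQ
  | 0 => a
  | _ => b

/-- the five-variable environment -/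
def env5 (a b c d e : ℝ) : ℕ → ℝ
  | 0 => a
  | 1 => b
  | 2 => c
  | 3 => d
  | 4 => e
  | _ => 0

/-- the five-variable substitution -/
def fm5 (a b c d e : PQ) : ℕ → PQ
  | 0 => a
  | 1 => b
  | 2 => c
  | 3 => d
  | 4 => e
  | _ => .rat 0 1

theorem subst2 (env : ℕ → ℝ) (a b e : PQ) : evalQ env (PQ.subst (fm2 a b) e)
    = evalQ (env2 (evalQ env a) (evalQ env b)) e := by
  rw [evalQ_subst]
  congr 1
  funext i
  cases i <;> rfl

theorem subst1 (env : ℕ → ℝ) (a e : PQ) : evalQ env (PQ.subst (fun _ => a) e)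
    = evalQ (fun _ => evalQ env a) e := evalQ_subst env _ e

theorem subst5 (env : ℕ → ℝ) (a b c d e' e : PQ) : evalQ env (PQ.subst (fm5 a b c d e') e)
    = evalQ (env5 (evalQ env a) (evalQ env b) (evalQ env c) (evalQ env d) (evalQ env e')) e := by
  rw [evalQ_subst]
  congr 1
  funext i
  rcases i with _ | _ | _ | _ | _ | i
  · rfl
  · rfl
  · rfl
  · rfl
  · rfl
  · simp [fm5, env5, evalQ]

/-! ### the polynomial side -/

/-- the sum over permutations of a monomial, as an expression -/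
def nAtom (i j k : ℕ) (a b c : PE) : PE :=
  .add (.add (.add (.add (.add
    (.mul (.mul (.pow a i) (.pow b j)) (.pow c k))
    (.mul (.mul (.pow b i) (.pow c j)) (.pow a k)))
    (.mul (.mul (.pow c i) (.pow a j)) (.pow b k)))
    (.mul (.mul (.pow b i) (.pow a j)) (.pow c k)))
    (.mul (.mul (.pow a i) (.pow c j)) (.pow b k)))
    (.mul (.mul (.pow c i) (.pow b j)) (.pow a k))

/-- the sum of sixth powers, as an expression -/
def nS (a b c : PE) : PE := .add (.add (.pow a 6) (.pow b 6)) (.pow c 6)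

/-- the numerator of the second moment -/
def nP (a b c : PE) : PE :=
  .add (.mul (.const 9) (.add (.add (.pow a 12) (.pow b 12)) (.pow c 12)))
    (.mul (.const (-3)) (.pow (nS a b c) 2))

/-- the numerator of the third moment -/
def nQ (a b c : PE) : PE :=
  .add (.add (.mul (.const 27) (.add (.add (.pow a 18) (.pow b 18)) (.pow c 18)))
    (.mul (.mul (.const (-27)) (.add (.add (.pow a 12) (.pow b 12)) (.pow c 12))) (nS a b c)))
    (.mul (.const 6) (.pow (nS a b c) 3))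

/-- a row of integers -/
abbrev Row3 := ℤ × ℤ × ℤ

/-- a matrix of integers -/
abbrev Mat3 := Row3 × Row3 × Row3

/-- a linear form -/
def form (r : Row3) : PE :=
  .add (.add (.mul (.const r.1) (.var 0)) (.mul (.const r.2.1) (.var 1)))
    (.mul (.const r.2.2) (.var 2))

/-- the atoms of a certificate -/
structure Atoms6 where
  i1 : ℕ
  j1 : ℕ
  k1 : ℕ
  i2 : ℕ
  j2 : ℕ
  k2 : ℕ

/-- the rational substitution on a cone: the variables are the characters of the two positive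
atoms, the character of the negative atom and the two moments -/
def rsU (A : Atoms6) (M : Mat3) : RS where
  m := 1
  D _ := nS (form M.1) (form M.2.1) (form M.2.2)
  num i := match i with
    | 0 => nAtom A.i1 A.j1 A.k1 (form M.1) (form M.2.1) (form M.2.2)
    | 1 => nAtom A.i2 A.j2 A.k2 (form M.1) (form M.2.1) (form M.2.2)
    | 2 => nAtom 2 2 2 (form M.1) (form M.2.1) (form M.2.2)
    | 3 => nP (form M.1) (form M.2.1) (form M.2.2)
    | 4 => nQ (form M.1) (form M.2.1) (form M.2.2)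
    | _ => .const 0
  den i := match i with
    | 0 => 2
    | 1 => 2
    | 2 => 2
    | _ => 1
  deg i _ := match i with
    | 0 => 1
    | 1 => 1
    | 2 => 1
    | 3 => 2
    | 4 => 3
    | _ => 0

/-- the subdivision of a cone -/
inductive CT where
  | leaf : List ℕ → List ℕ → CT
  | s01 : CT → CT → CT
  | s02 : CT → CT → CT
  | s12 : CT → CT → CT

/-- add the first column of a matrix to the second -/
def c01 (M : Mat3) : Mat3 :=
  ((M.1.1, M.1.1 + M.1.2.1, M.1.2.2), (M.2.1.1, M.2.1.1 + M.2.1.2.1, M.2.1.2.2),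
    (M.2.2.1, M.2.2.1 + M.2.2.2.1, M.2.2.2.2))

/-- add the second column of a matrix to the first -/
def c10 (M : Mat3) : Mat3 :=
  ((M.1.1 + M.1.2.1, M.1.2.1, M.1.2.2), (M.2.1.1 + M.2.1.2.1, M.2.1.2.1, M.2.1.2.2),
    (M.2.2.1 + M.2.2.2.1, M.2.2.2.1, M.2.2.2.2))

/-- add the first column of a matrix to the third -/
def c02 (M : Mat3) : Mat3 :=
  ((M.1.1, M.1.2.1, M.1.1 + M.1.2.2), (M.2.1.1, M.2.1.2.1, M.2.1.1 + M.2.1.2.2),
    (M.2.2.1, M.2.2.2.1, M.2.2.1 + M.2.2.2.2))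

/-- add the third column of a matrix to the first -/
def c20 (M : Mat3) : Mat3 :=
  ((M.1.1 + M.1.2.2, M.1.2.1, M.1.2.2), (M.2.1.1 + M.2.1.2.2, M.2.1.2.1, M.2.1.2.2),
    (M.2.2.1 + M.2.2.2.2, M.2.2.2.1, M.2.2.2.2))

/-- add the second column of a matrix to the third -/
def c12 (M : Mat3) : Mat3 :=
  ((M.1.1, M.1.2.1, M.1.2.1 + M.1.2.2), (M.2.1.1, M.2.1.2.1, M.2.1.2.1 + M.2.1.2.2),
    (M.2.2.1, M.2.2.2.1, M.2.2.2.1 + M.2.2.2.2))

/-- add the third column of a matrix to the second -/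
def c21 (M : Mat3) : Mat3 :=
  ((M.1.1, M.1.2.1 + M.1.2.2, M.1.2.2), (M.2.1.1, M.2.1.2.1 + M.2.1.2.2, M.2.1.2.2),
    (M.2.2.1, M.2.2.2.1 + M.2.2.2.2, M.2.2.2.2))

/-- the check of a subdivision of a cone -/
def checkCT (A : Atoms6) (e : PQ) : Mat3 → CT → Bool
  | M, .leaf zs ds => RS.checkRS (rsU A M) 3 zs ds e
  | M, .s01 l r => checkCT A e (c01 M) l && checkCT A e (c10 M) r
  | M, .s02 l r => checkCT A e (c02 M) l && checkCT A e (c20 M) r
  | M, .s12 l r => checkCT A e (c12 M) l && checkCT A e (c21 M) r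

/-- the value of a form -/
noncomputable def fv (r : Row3) (l0 l1 l2 : ℝ) : ℝ := (r.1 : ℝ) * l0 + (r.2.1 : ℝ) * l1 + (r.2.2 : ℝ) * l2

/-- the sum over permutations of a monomial, halved -/
noncomputable def atomU (i j k : ℕ) (a b c : ℝ) : ℝ :=
  1 / 2 * (a ^ i * b ^ j * c ^ k + b ^ i * c ^ j * a ^ k + c ^ i * a ^ j * b ^ k
    + b ^ i * a ^ j * c ^ k + a ^ i * c ^ j * b ^ k + c ^ i * b ^ j * a ^ k)

/-- the second moment, in the sixth roots -/
noncomputable def pU (a b c : ℝ) : ℝ :=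
  9 * (a ^ 12 + b ^ 12 + c ^ 12) + (-3) * (a ^ 6 + b ^ 6 + c ^ 6) ^ 2

/-- the third moment, in the sixth roots -/
noncomputable def qU (a b c : ℝ) : ℝ :=
  27 * (a ^ 18 + b ^ 18 + c ^ 18) + (-27) * (a ^ 12 + b ^ 12 + c ^ 12) * (a ^ 6 + b ^ 6 + c ^ 6)
    + 6 * (a ^ 6 + b ^ 6 + c ^ 6) ^ 3

/-- the environment at a point of the cone -/
noncomputable def envU (A : Atoms6) (a b c : ℝ) : ℕ → ℝ :=
  env5 (atomU A.i1 A.j1 A.k1 a b c) (atomU A.i2 A.j2 A.k2 a b c) (atomU 2 2 2 a b c)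
    (pU a b c) (qU a b c)

/-- the variables of the cone -/
def envL (l0 l1 l2 : ℝ) : ℕ → ℝ
  | 0 => l0
  | 1 => l1
  | 2 => l2
  | _ => 0

theorem form_eval (r : Row3) (l0 l1 l2 : ℝ) : evalE (envL l0 l1 l2) (form r) = fv r l0 l1 l2 := by
  simp [form, evalE, envL, fv]

theorem nAtom_eval (env : ℕ → ℝ) (i j k : ℕ) (a b c : PE) :
    evalE env (nAtom i j k a b c) = 2 * atomU i j k (evalE env a) (evalE env b) (evalE env c) := by
  simp only [nAtom, evalE, atomU]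
  ring

theorem nS_eval (env : ℕ → ℝ) (a b c : PE) :
    evalE env (nS a b c) = (evalE env a) ^ 6 + (evalE env b) ^ 6 + (evalE env c) ^ 6 := rfl

theorem nP_eval (env : ℕ → ℝ) (a b c : PE) :
    evalE env (nP a b c) = pU (evalE env a) (evalE env b) (evalE env c) := by
  simp only [nP, evalE, nS_eval, pU]
  push_cast
  ring

theorem nQ_eval (env : ℕ → ℝ) (a b c : PE) :
    evalE env (nQ a b c) = qU (evalE env a) (evalE env b) (evalE env c) := by
  simp only [nQ, evalE, nS_eval, qU]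
  push_cast
  ring

/-- a leaf of a cone -/
theorem cone_leaf {A : Atoms6} {M : Mat3} {zs ds : List ℕ} {e : PQ}
    (h : RS.checkRS (rsU A M) 3 zs ds e = true)
    {l0 l1 l2 : ℝ} (h0 : 0 ≤ l0) (h1 : 0 ≤ l1) (h2 : 0 ≤ l2)
    (hS : (fv M.1 l0 l1 l2) ^ 6 + (fv M.2.1 l0 l1 l2) ^ 6 + (fv M.2.2 l0 l1 l2) ^ 6 = 1) :
    0 ≤ evalQ (envU A (fv M.1 l0 l1 l2) (fv M.2.1 l0 l1 l2) (fv M.2.2 l0 l1 l2)) e := by
  have hy : ∀ i, 0 ≤ envL l0 l1 l2 i := by
    intro i
    rcases i with _ | _ | _ | i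
    · exact h0
    · exact h1
    · exact h2
    · exact le_refl _
  have hSv : evalE (envL l0 l1 l2) (nS (form M.1) (form M.2.1) (form M.2.2)) = 1 := by
    rw [nS_eval, form_eval, form_eval, form_eval]
    exact hS
  have hprod : ∀ f : ℕ → ℕ, RS.prodD (rsU A M) (envL l0 l1 l2) f = 1 := by
    intro f
    unfold RS.prodD
    have hm : (rsU A M).m = 1 := rfl
    rw [hm, Finset.prod_range_one]
    have hD : (rsU A M).D 0 = nS (form M.1) (form M.2.1) (form M.2.2) := rfl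
    rw [hD, hSv, one_pow]
  refine RS.checkRS_sound (rsU A M) h (envL l0 l1 l2) _ hy (fun j hj => ?_) (fun i => ?_)
  · have hD : (rsU A M).D j = nS (form M.1) (form M.2.1) (form M.2.2) := rfl
    rw [hD, hSv]
    norm_num
  · rw [hprod, mul_one]
    rcases i with _ | _ | _ | _ | _ | i
    · show atomU _ _ _ _ _ _ * ((2 : ℕ) : ℝ) = evalE _ (nAtom _ _ _ _ _ _)
      rw [nAtom_eval, form_eval, form_eval, form_eval]
      push_cast
      ring
    · show atomU _ _ _ _ _ _ * ((2 : ℕ) : ℝ) = evalE _ (nAtom _ _ _ _ _ _)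
      rw [nAtom_eval, form_eval, form_eval, form_eval]
      push_cast
      ring
    · show atomU _ _ _ _ _ _ * ((2 : ℕ) : ℝ) = evalE _ (nAtom _ _ _ _ _ _)
      rw [nAtom_eval, form_eval, form_eval, form_eval]
      push_cast
      ring
    · show pU _ _ _ * ((1 : ℕ) : ℝ) = evalE _ (nP _ _ _)
      rw [nP_eval, form_eval, form_eval, form_eval]
      push_cast
      ring
    · show qU _ _ _ * ((1 : ℕ) : ℝ) = evalE _ (nQ _ _ _)
      rw [nQ_eval, form_eval, form_eval, form_eval]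
      push_cast
      ring
    · show (0 : ℝ) * ((1 : ℕ) : ℝ) = evalE _ (.const 0)
      simp [evalE]

/-- the check of a subdivision is sound -/
theorem cone_tree {A : Atoms6} {e : PQ} : ∀ (t : CT) (M : Mat3), checkCT A e M t = true →
    ∀ {l0 l1 l2 : ℝ}, 0 ≤ l0 → 0 ≤ l1 → 0 ≤ l2 →
    (fv M.1 l0 l1 l2) ^ 6 + (fv M.2.1 l0 l1 l2) ^ 6 + (fv M.2.2 l0 l1 l2) ^ 6 = 1 →
    0 ≤ evalQ (envU A (fv M.1 l0 l1 l2) (fv M.2.1 l0 l1 l2) (fv M.2.2 l0 l1 l2)) e
  | .leaf _ _, M, h, _, _, _, h0, h1, h2, hS => cone_leaf h h0 h1 h2 hS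
  | .s01 l r, M, h, l0, l1, l2, h0, h1, h2, hS => by
    simp only [checkCT, Bool.and_eq_true] at h
    have e1 : ∀ r : Row3, fv (r.1, r.1 + r.2.1, r.2.2) (l0 - l1) l1 l2 = fv r l0 l1 l2 := by
      intro r
      simp only [fv]
      push_cast
      ring
    have e2 : ∀ r : Row3, fv (r.1 + r.2.1, r.2.1, r.2.2) l0 (l1 - l0) l2 = fv r l0 l1 l2 := by
      intro r
      simp only [fv]
      push_cast
      ring
    rcases le_total l1 l0 with hc | hc
    · have := cone_tree l (c01 M) h.1 (l0 := l0 - l1) (l1 := l1) (l2 := l2) (by linarith) h1 h2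
      simp only [c01, e1] at this
      exact this hS
    · have := cone_tree r (c10 M) h.2 (l0 := l0) (l1 := l1 - l0) (l2 := l2) h0 (by linarith) h2
      simp only [c10, e2] at this
      exact this hS
  | .s02 l r, M, h, l0, l1, l2, h0, h1, h2, hS => by
    simp only [checkCT, Bool.and_eq_true] at h
    have e1 : ∀ r : Row3, fv (r.1, r.2.1, r.1 + r.2.2) (l0 - l2) l1 l2 = fv r l0 l1 l2 := by
      intro r
      simp only [fv]
      push_cast
      ring
    have e2 : ∀ r : Row3, fv (r.1 + r.2.2, r.2.1, r.2.2) l0 l1 (l2 - l0) = fv r l0 l1 l2 := by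
      intro r
      simp only [fv]
      push_cast
      ring
    rcases le_total l2 l0 with hc | hc
    · have := cone_tree l (c02 M) h.1 (l0 := l0 - l2) (l1 := l1) (l2 := l2) (by linarith) h1 h2
      simp only [c02, e1] at this
      exact this hS
    · have := cone_tree r (c20 M) h.2 (l0 := l0) (l1 := l1) (l2 := l2 - l0) h0 h1 (by linarith)
      simp only [c20, e2] at this
      exact this hS
  | .s12 l r, M, h, l0, l1, l2, h0, h1, h2, hS => by
    simp only [checkCT, Bool.and_eq_true] at h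
    have e1 : ∀ r : Row3, fv (r.1, r.2.1, r.2.1 + r.2.2) l0 (l1 - l2) l2 = fv r l0 l1 l2 := by
      intro r
      simp only [fv]
      push_cast
      ring
    have e2 : ∀ r : Row3, fv (r.1, r.2.1 + r.2.2, r.2.2) l0 l1 (l2 - l1) = fv r l0 l1 l2 := by
      intro r
      simp only [fv]
      push_cast
      ring
    rcases le_total l2 l1 with hc | hc
    · have := cone_tree l (c12 M) h.1 (l0 := l0) (l1 := l1 - l2) (l2 := l2) h0 (by linarith) h2
      simp only [c12, e1] at this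
      exact this hS
    · have := cone_tree r (c21 M) h.2 (l0 := l0) (l1 := l1) (l2 := l2 - l1) h0 h1 (by linarith)
      simp only [c21, e2] at this
      exact this hS

/-! ### from the simplex to the cone -/

/-- the second moment on the simplex -/
noncomputable def pF (a b c : ℝ) : ℝ := (3 * a - 1) ^ 2 + (3 * b - 1) ^ 2 + (3 * c - 1) ^ 2

/-- the third moment on the simplex -/
noncomputable def qF (a b c : ℝ) : ℝ := (3 * a - 1) ^ 3 + (3 * b - 1) ^ 3 + (3 * c - 1) ^ 3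

theorem rpow_six {x : ℝ} (hx : 0 ≤ x) (i : ℕ) : x ^ ((i : ℝ) / 6) = (x ^ ((1 : ℝ) / 6)) ^ i := by
  rw [← Real.rpow_natCast, ← Real.rpow_mul hx]
  congr 1
  ring

theorem root_six {x : ℝ} (hx : 0 ≤ x) : (x ^ ((1 : ℝ) / 6)) ^ 6 = x := by
  rw [← Real.rpow_natCast, ← Real.rpow_mul hx]
  norm_num

theorem chi_six (i j k : ℕ) {x y z : ℝ} (hx : 0 ≤ x) (hy : 0 ≤ y) (hz : 0 ≤ z) :
    chi ((i : ℝ) / 6) ((j : ℝ) / 6) ((k : ℝ) / 6) x y z
      = atomU i j k (x ^ ((1 : ℝ) / 6)) (y ^ ((1 : ℝ) / 6)) (z ^ ((1 : ℝ) / 6)) := by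
  unfold chi atomU mono
  simp only [rpow_six hx, rpow_six hy, rpow_six hz]

theorem pU_eq {a b c x y z : ℝ} (h1 : a ^ 6 = x) (h2 : b ^ 6 = y) (h3 : c ^ 6 = z)
    (hs : x + y + z = 1) : pU a b c = pF x y z := by
  have e1 : a ^ 12 = x ^ 2 := by rw [← h1]; ring
  have e2 : b ^ 12 = y ^ 2 := by rw [← h2]; ring
  have e3 : c ^ 12 = z ^ 2 := by rw [← h3]; ring
  unfold pU pF
  rw [e1, e2, e3, h1, h2, h3, hs]
  have hz : z = 1 - x - y := by linarith
  subst hz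
  ring

theorem qU_eq {a b c x y z : ℝ} (h1 : a ^ 6 = x) (h2 : b ^ 6 = y) (h3 : c ^ 6 = z)
    (hs : x + y + z = 1) : qU a b c = qF x y z := by
  have e1 : a ^ 12 = x ^ 2 := by rw [← h1]; ring
  have e2 : b ^ 12 = y ^ 2 := by rw [← h2]; ring
  have e3 : c ^ 12 = z ^ 2 := by rw [← h3]; ring
  have f1 : a ^ 18 = x ^ 3 := by rw [← h1]; ring
  have f2 : b ^ 18 = y ^ 3 := by rw [← h2]; ring
  have f3 : c ^ 18 = z ^ 3 := by rw [← h3]; ring
  unfold qU qF
  rw [e1, e2, e3, f1, f2, f3, h1, h2, h3, hs]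
  have hz : z = 1 - x - y := by linarith
  subst hz
  ring

/-- the environment on the simplex -/
noncomputable def envX (A : Atoms6) (x y z : ℝ) : ℕ → ℝ :=
  env5 (chi ((A.i1 : ℝ) / 6) ((A.j1 : ℝ) / 6) ((A.k1 : ℝ) / 6) x y z)
    (chi ((A.i2 : ℝ) / 6) ((A.j2 : ℝ) / 6) ((A.k2 : ℝ) / 6) x y z)
    (chi (((2 : ℕ) : ℝ) / 6) (((2 : ℕ) : ℝ) / 6) (((2 : ℕ) : ℝ) / 6) x y z) (pF x y z) (qF x y z)

theorem envX_eq (A : Atoms6) {x y z : ℝ} (h : Simp x y z) :
    envX A x y z = envU A (x ^ ((1 : ℝ) / 6)) (y ^ ((1 : ℝ) / 6)) (z ^ ((1 : ℝ) / 6)) := by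
  unfold envX envU
  rw [chi_six _ _ _ h.ha h.hb h.hc, chi_six _ _ _ h.ha h.hb h.hc, chi_six _ _ _ h.ha h.hb h.hc,
    pU_eq (root_six h.ha) (root_six h.hb) (root_six h.hc) h.hs,
    qU_eq (root_six h.ha) (root_six h.hb) (root_six h.hc) h.hs]

/-- the matrix of the sorted cone -/
def M0 : Mat3 := ((1, 1, 1), (0, 1, 1), (0, 0, 1))

/-- the certified inequality on the sorted part of the simplex -/
theorem sorted_cert {A : Atoms6} {e : PQ} {t : CT} (h : checkCT A e M0 t = true) {x y z : ℝ}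
    (hs : Simp x y z) (h12 : y ≤ x) (h23 : z ≤ y) : 0 ≤ evalQ (envX A x y z) e := by
  rw [envX_eq A hs]
  set a := x ^ ((1 : ℝ) / 6) with ha
  set b := y ^ ((1 : ℝ) / 6) with hb
  set c := z ^ ((1 : ℝ) / 6) with hc
  have h1 : b ≤ a := Real.rpow_le_rpow hs.hb h12 (by norm_num)
  have h2 : c ≤ b := Real.rpow_le_rpow hs.hc h23 (by norm_num)
  have h3 : 0 ≤ c := Real.rpow_nonneg hs.hc _
  have e1 : fv M0.1 (a - b) (b - c) c = a := by
    simp only [fv, M0]
    push_cast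
    ring
  have e2 : fv M0.2.1 (a - b) (b - c) c = b := by
    simp only [fv, M0]
    push_cast
    ring
  have e3 : fv M0.2.2 (a - b) (b - c) c = c := by
    simp only [fv, M0]
    push_cast
    ring
  have := cone_tree t M0 h (l0 := a - b) (l1 := b - c) (l2 := c) (by linarith) (by linarith) h3
  rw [e1, e2, e3] at this
  refine this ?_
  rw [ha, hb, hc, root_six hs.ha, root_six hs.hb, root_six hs.hc]
  exact hs.hs

/-- the matrix of the bounded cone -/
def MC (a b c : ℤ) : Mat3 := ((a, b, c), (a, a, c), (a, a, a))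

theorem coords1 {b c a0 c0 : ℝ} (ha0 : 0 < a0) (hc0 : a0 < c0) (h2 : c ≤ b)
    (h4 : a0 * b ≤ c0 * c) : ∃ m1 m2 : ℝ, 0 ≤ m1 ∧ 0 ≤ m2 ∧ a0 * m1 + a0 * m2 = c ∧
      a0 * m1 + c0 * m2 = b := by
  have hca : 0 < c0 - a0 := by linarith
  refine ⟨c / a0 - (b - c) / (c0 - a0), (b - c) / (c0 - a0), ?_, ?_, ?_, ?_⟩
  · rw [sub_nonneg, div_le_div_iff₀ hca ha0]
    nlinarith
  · exact div_nonneg (by linarith) hca.le
  · field_simp
    ring
  · field_simp
    ring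

theorem coords2 {a b a0 b0 c0 m1 m2 : ℝ} (hb0 : a0 < b0) (h1 : b ≤ a)
    (e : a0 * m1 + c0 * m2 = b) (h5 : a ≤ b0 * m1 + c0 * m2) :
    ∃ l0 l1 : ℝ, 0 ≤ l0 ∧ 0 ≤ l1 ∧ l0 + l1 = m1 ∧ a = a0 * l0 + b0 * l1 + c0 * m2 := by
  have hba : 0 < b0 - a0 := by linarith
  refine ⟨m1 - (a - b) / (b0 - a0), (a - b) / (b0 - a0), ?_, ?_, by ring, ?_⟩
  · rw [sub_nonneg, div_le_iff₀ hba]
    nlinarith
  · exact div_nonneg (by linarith) hba.le
  · have h6 : (b0 - a0) * ((a - b) / (b0 - a0)) = a - b := by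
      field_simp
    nlinarith

theorem ratio_bound {m0 a0 c0 y z b c : ℝ} (hm : 2 * m0 < 1) (ha0 : 0 < a0) (hc0 : 0 < c0)
    (hb : 0 ≤ b) (hc : 0 ≤ c) (hz : 0 ≤ z)
    (r2 : b ^ 6 = y) (r3 : c ^ 6 = z) (h6 : (1 - 2 * m0) * y ≤ m0 * z)
    (hratio : m0 * a0 ^ 6 ≤ (1 - 2 * m0) * c0 ^ 6) : a0 * b ≤ c0 * c := by
  by_contra hcon
  push Not at hcon
  have h5 : (c0 * c) ^ 6 < (a0 * b) ^ 6 := pow_lt_pow_left₀ hcon (by positivity) (by norm_num)
  rw [mul_pow, mul_pow, r2, r3] at h5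
  have h7 : 0 < a0 ^ 6 := by positivity
  have h20 : 0 < 1 - 2 * m0 := by linarith
  have h22 := mul_lt_mul_of_pos_left h5 h20
  have h23 := mul_le_mul_of_nonneg_right h6 h7.le
  have h24 := mul_le_mul_of_nonneg_right hratio hz
  nlinarith

/-- the cone where the largest coordinate is bounded -/
theorem chord_cert {A : Atoms6} {e : PQ} {t : CT} {a0 b0 c0 : ℤ}
    (h : checkCT A e (MC a0 b0 c0) t = true) (ha0 : 0 < a0) (hb0 : a0 < b0) (hc0 : a0 < c0)
    {x y z m0 : ℝ} (hs : Simp x y z) (h12 : y ≤ x) (h23 : z ≤ y)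
    (hm20 : 2 * m0 < 1) (hx : (1 - m0) * x ≤ m0 * (y + z))
    (hratio : m0 * (a0 : ℝ) ^ 6 ≤ (1 - 2 * m0) * (c0 : ℝ) ^ 6)
    (hpoly : ∀ m1 m2 : ℝ, 0 ≤ m1 → 0 ≤ m2 →
        m0 * (((a0 : ℝ) * m1 + (c0 : ℝ) * m2) ^ 6 + ((a0 : ℝ) * m1 + (a0 : ℝ) * m2) ^ 6)
          ≤ (1 - m0) * ((b0 : ℝ) * m1 + (c0 : ℝ) * m2) ^ 6) :
    0 ≤ evalQ (envX A x y z) e := by
  rw [envX_eq A hs]
  have r1 : (x ^ ((1 : ℝ) / 6)) ^ 6 = x := root_six hs.ha
  have r2 : (y ^ ((1 : ℝ) / 6)) ^ 6 = y := root_six hs.hb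
  have r3 : (z ^ ((1 : ℝ) / 6)) ^ 6 = z := root_six hs.hc
  have h1 : y ^ ((1 : ℝ) / 6) ≤ x ^ ((1 : ℝ) / 6) := Real.rpow_le_rpow hs.hb h12 (by norm_num)
  have h2 : z ^ ((1 : ℝ) / 6) ≤ y ^ ((1 : ℝ) / 6) := Real.rpow_le_rpow hs.hc h23 (by norm_num)
  have h3 : 0 ≤ z ^ ((1 : ℝ) / 6) := Real.rpow_nonneg hs.hc _
  generalize x ^ ((1 : ℝ) / 6) = a at *
  generalize y ^ ((1 : ℝ) / 6) = b at *
  generalize z ^ ((1 : ℝ) / 6) = c at *
  have ha0' : (0 : ℝ) < a0 := by exact_mod_cast ha0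
  have hb0' : (a0 : ℝ) < b0 := by exact_mod_cast hb0
  have hc0' : (a0 : ℝ) < c0 := by exact_mod_cast hc0
  have hc0p : (0 : ℝ) < c0 := by linarith
  have hb0p : (0 : ℝ) < b0 := by linarith
  have hm1 : 0 < 1 - m0 := by
    have : m0 < 1 / 2 := by linarith
    linarith
  have hxy : (1 - 2 * m0) * y ≤ m0 * z := by
    have := mul_le_mul_of_nonneg_left h12 hm1.le
    nlinarith
  have h4 := ratio_bound hm20 ha0' hc0p (h3.trans h2) h3 hs.hc r2 r3 hxy hratio
  obtain ⟨m1, m2, hm10, hm2, e1, e2⟩ := coords1 ha0' hc0' h2 h4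
  have hg := hpoly m1 m2 hm10 hm2
  rw [e1, e2, r2, r3] at hg
  have h5 : a ≤ (b0 : ℝ) * m1 + (c0 : ℝ) * m2 := by
    by_contra hcon
    push Not at hcon
    have h6 : ((b0 : ℝ) * m1 + (c0 : ℝ) * m2) ^ 6 < a ^ 6 :=
      pow_lt_pow_left₀ hcon (by positivity) (by norm_num)
    rw [r1] at h6
    have h8 := mul_lt_mul_of_pos_left h6 hm1
    linarith
  obtain ⟨l0, l1, hl0, hl1, hs1, hs2⟩ := coords2 hb0' h1 e2 h5
  have f1 : fv (MC a0 b0 c0).1 l0 l1 m2 = a := by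
    simp only [fv, MC]
    linarith
  have f2 : fv (MC a0 b0 c0).2.1 l0 l1 m2 = b := by
    simp only [fv, MC]
    rw [← e2, ← hs1]
    ring
  have f3 : fv (MC a0 b0 c0).2.2 l0 l1 m2 = c := by
    simp only [fv, MC]
    rw [← e1, ← hs1]
    ring
  have := cone_tree t (MC a0 b0 c0) h hl0 hl1 hm2
  rw [f1, f2, f3] at this
  refine this ?_
  rw [r1, r2, r3]
  exact hs.hs

end Vale.Agent.Lib.P154.Neg
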