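import Vale.Agent.Lib.P154.Neg.Base

/-!
The convex order: the Bayesian product, the channel and mixtures are monotone for the convex order,
and the law of the posterior decreases in the convex order along the generations.
-/

namespace Vale.Agent.Lib.P154.Neg

/-- bounded and convex on the simplex -/
structure Cvx (f : Fn3) : Prop where
  bd : Bd f
  cv : ∀ a b c a' b' c' s : ℝ, Simp a b c → Simp a' b' c' → 0 ≤ s → s ≤ 1 →
    f (s * a + (1 - s) * a') (s * b + (1 - s) * b') (s * c + (1 - s) * c')
      ≤ s * f a b c + (1 - s) * f a' b' c'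

/-- the convex order -/
def CO (E F : Ex3) : Prop := ∀ f : Fn3, Cvx f → E f ≤ F f

theorem CO.refl (E : Ex3) : CO E E := fun _ _ => le_refl _

theorem CO.trans {E F G : Ex3} (h1 : CO E F) (h2 : CO F G) : CO E G :=
  fun f hf => (h1 f hf).trans (h2 f hf)

theorem simp_comb {a b c a' b' c' s : ℝ} (h : Simp a b c) (h' : Simp a' b' c') (h0 : 0 ≤ s)
    (h1 : s ≤ 1) : Simp (s * a + (1 - s) * a') (s * b + (1 - s) * b') (s * c + (1 - s) * c') := by
  have h2 : 0 ≤ 1 - s := by linarith
  refine ⟨add_nonneg (mul_nonneg h0 h.ha) (mul_nonneg h2 h'.ha),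
    add_nonneg (mul_nonneg h0 h.hb) (mul_nonneg h2 h'.hb),
    add_nonneg (mul_nonneg h0 h.hc) (mul_nonneg h2 h'.hc), ?_⟩
  have e1 := h.hs
  have e2 := h'.hs
  linear_combination s * e1 + (1 - s) * e2

theorem wt_convex {f : Fn3} (hf : Cvx f) {a b c p q r p' q' r' s : ℝ} (ha : Simp a b c)
    (hp : Simp p q r) (hp' : Simp p' q' r') (h0 : 0 ≤ s) (h1 : s ≤ 1) :
    wt f a b c (s * p + (1 - s) * p') (s * q + (1 - s) * q') (s * r + (1 - s) * r')
      ≤ s * wt f a b c p q r + (1 - s) * wt f a b c p' q' r' := by
  have hD := dot_nonneg ha hp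
  have hD' := dot_nonneg ha hp'
  have h1s : 0 ≤ 1 - s := by linarith
  have hsum : a * (s * p + (1 - s) * p') + b * (s * q + (1 - s) * q') + c * (s * r + (1 - s) * r')
      = s * (a * p + b * q + c * r) + (1 - s) * (a * p' + b * q' + c * r') := by ring
  have n1 := mul_nonneg ha.ha hp.ha
  have n2 := mul_nonneg ha.hb hp.hb
  have n3 := mul_nonneg ha.hc hp.hc
  have n1' := mul_nonneg ha.ha hp'.ha
  have n2' := mul_nonneg ha.hb hp'.hb
  have n3' := mul_nonneg ha.hc hp'.hc
  by_cases hz : s * (a * p + b * q + c * r) + (1 - s) * (a * p' + b * q' + c * r') = 0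
  · -- the whole segment has zero weight
    have hA := mul_nonneg h0 hD
    have hB := mul_nonneg h1s hD'
    have hA0 : s * (a * p + b * q + c * r) = 0 := by linarith
    have hB0 : (1 - s) * (a * p' + b * q' + c * r') = 0 := by linarith
    have e0 := wt_of_dot_zero f (a := a) (b := b) (c := c) (p := s * p + (1 - s) * p')
      (q := s * q + (1 - s) * q') (r := s * r + (1 - s) * r') (hsum.trans hz)
    rw [e0]
    unfold wt
    have e1 : s * (3 * (a * p + b * q + c * r) * f (a * p / (a * p + b * q + c * r))
        (b * q / (a * p + b * q + c * r)) (c * r / (a * p + b * q + c * r)))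
        = 3 * (s * (a * p + b * q + c * r)) * f (a * p / (a * p + b * q + c * r))
        (b * q / (a * p + b * q + c * r)) (c * r / (a * p + b * q + c * r)) := by ring
    have e2 : (1 - s) * (3 * (a * p' + b * q' + c * r') * f (a * p' / (a * p' + b * q' + c * r'))
        (b * q' / (a * p' + b * q' + c * r')) (c * r' / (a * p' + b * q' + c * r')))
        = 3 * ((1 - s) * (a * p' + b * q' + c * r')) * f (a * p' / (a * p' + b * q' + c * r'))
        (b * q' / (a * p' + b * q' + c * r')) (c * r' / (a * p' + b * q' + c * r')) := by ring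
    rw [e1, e2, hA0, hB0]
    simp
  · have hpos : 0 < s * (a * p + b * q + c * r) + (1 - s) * (a * p' + b * q' + c * r') :=
      lt_of_le_of_ne (add_nonneg (mul_nonneg h0 hD) (mul_nonneg h1s hD')) (Ne.symm hz)
    rcases hD.eq_or_lt with hD0 | hDp
    · -- the first point has zero weight
      have w0 : wt f a b c p q r = 0 := wt_of_dot_zero f hD0.symm
      rw [w0, mul_zero, zero_add]
      have z1 : a * p = 0 := by linarith
      have z2 : b * q = 0 := by linarith
      have z3 : c * r = 0 := by linarith
      have hD2 : 0 < (1 - s) * (a * p' + b * q' + c * r') := by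
        have : s * (a * p + b * q + c * r) = 0 := by rw [← hD0]; ring
        linarith
      have hs1 : 0 < 1 - s := by
        by_contra hc
        have : 1 - s = 0 := by linarith
        rw [this] at hD2
        simp at hD2
      have hDp' : 0 < a * p' + b * q' + c * r' := by
        by_contra hc
        have : a * p' + b * q' + c * r' = 0 := by linarith
        rw [this] at hD2
        simp at hD2
      unfold wt
      rw [hsum, ← hD0]
      have c1 : a * (s * p + (1 - s) * p') / (s * 0 + (1 - s) * (a * p' + b * q' + c * r'))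
          = a * p' / (a * p' + b * q' + c * r') := by
        have : a * (s * p + (1 - s) * p') = (1 - s) * (a * p') := by
          linear_combination s * z1
        rw [this, mul_zero, zero_add]
        field_simp
      have c2 : b * (s * q + (1 - s) * q') / (s * 0 + (1 - s) * (a * p' + b * q' + c * r'))
          = b * q' / (a * p' + b * q' + c * r') := by
        have : b * (s * q + (1 - s) * q') = (1 - s) * (b * q') := by
          linear_combination s * z2
        rw [this, mul_zero, zero_add]
        field_simp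
      have c3 : c * (s * r + (1 - s) * r') / (s * 0 + (1 - s) * (a * p' + b * q' + c * r'))
          = c * r' / (a * p' + b * q' + c * r') := by
        have : c * (s * r + (1 - s) * r') = (1 - s) * (c * r') := by
          linear_combination s * z3
        rw [this, mul_zero, zero_add]
        field_simp
      rw [c1, c2, c3]
      apply le_of_eq
      ring
    · rcases hD'.eq_or_lt with hD0 | hDp'
      · -- the second point has zero weight
        have w0 : wt f a b c p' q' r' = 0 := wt_of_dot_zero f hD0.symm
        rw [w0, mul_zero, add_zero]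
        have z1 : a * p' = 0 := by linarith
        have z2 : b * q' = 0 := by linarith
        have z3 : c * r' = 0 := by linarith
        have hD2 : 0 < s * (a * p + b * q + c * r) := by
          have : (1 - s) * (a * p' + b * q' + c * r') = 0 := by rw [← hD0]; ring
          linarith
        have hs1 : 0 < s := by
          by_contra hc
          have : s = 0 := by linarith
          rw [this] at hD2
          simp at hD2
        unfold wt
        rw [hsum, ← hD0]
        have c1 : a * (s * p + (1 - s) * p') / (s * (a * p + b * q + c * r) + (1 - s) * 0)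
            = a * p / (a * p + b * q + c * r) := by
          have : a * (s * p + (1 - s) * p') = s * (a * p) := by
            linear_combination (1 - s) * z1
          rw [this, mul_zero, add_zero]
          field_simp
        have c2 : b * (s * q + (1 - s) * q') / (s * (a * p + b * q + c * r) + (1 - s) * 0)
            = b * q / (a * p + b * q + c * r) := by
          have : b * (s * q + (1 - s) * q') = s * (b * q) := by
            linear_combination (1 - s) * z2
          rw [this, mul_zero, add_zero]
          field_simp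
        have c3 : c * (s * r + (1 - s) * r') / (s * (a * p + b * q + c * r) + (1 - s) * 0)
            = c * r / (a * p + b * q + c * r) := by
          have : c * (s * r + (1 - s) * r') = s * (c * r) := by
            linear_combination (1 - s) * z3
          rw [this, mul_zero, add_zero]
          field_simp
        rw [c1, c2, c3]
        apply le_of_eq
        ring
      · -- both points have positive weight
        set D := a * p + b * q + c * r with hDdef
        set D' := a * p' + b * q' + c * r' with hD'def
        set T := s * D + (1 - s) * D' with hT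
        have hu0 : 0 ≤ s * D / T := by positivity
        have hu1 : s * D / T ≤ 1 := by
          rw [div_le_one hpos, hT]
          have := mul_nonneg h1s hD'
          linarith
        have hu2 : 1 - s * D / T = (1 - s) * D' / T := by
          rw [eq_div_iff hpos.ne', sub_mul, div_mul_cancel₀ _ hpos.ne', hT]
          ring
        have hc := hf.cv _ _ _ _ _ _ (s * D / T) (prod_simp ha hp hDp) (prod_simp ha hp' hDp') hu0 hu1
        rw [hu2] at hc
        have c1 : s * D / T * (a * p / D) + (1 - s) * D' / T * (a * p' / D')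
            = a * (s * p + (1 - s) * p') / T := by
          field_simp
        have c2 : s * D / T * (b * q / D) + (1 - s) * D' / T * (b * q' / D')
            = b * (s * q + (1 - s) * q') / T := by
          field_simp
        have c3 : s * D / T * (c * r / D) + (1 - s) * D' / T * (c * r' / D')
            = c * (s * r + (1 - s) * r') / T := by
          field_simp
        rw [c1, c2, c3] at hc
        unfold wt
        rw [hsum]
        have h3T : 0 ≤ 3 * T := by positivity
        have := mul_le_mul_of_nonneg_left hc h3T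
        refine this.trans (le_of_eq ?_)
        field_simp
        rfl

/-- the integrand is convex in the message -/
theorem wt_cvx {f : Fn3} (hf : Cvx f) {a b c : ℝ} (ha : Simp a b c) :
    Cvx (fun p q r => wt f a b c p q r) :=
  ⟨bd_wt hf.bd ha, fun _ _ _ _ _ _ _ hp hp' h0 h1 => wt_convex hf ha hp hp' h0 h1⟩

theorem wt_comm (f : Fn3) (a b c p q r : ℝ) : wt f a b c p q r = wt f p q r a b c := by
  unfold wt
  have e1 : a * p = p * a := mul_comm _ _
  have e2 : b * q = q * b := mul_comm _ _
  have e3 : c * r = r * c := mul_comm _ _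
  rw [e1, e2, e3]

/-- the inner integral is convex in the first factor -/
theorem inner_cvx {f : Fn3} (hf : Cvx f) {F' : Ex3} (hF' : BExp F' Simp) :
    Cvx (fun a b c => F' (fun p q r => wt f a b c p q r)) := by
  refine ⟨bd_inner hf.bd hF', fun a b c a' b' c' s ha ha' h0 h1 => ?_⟩
  have hb := bd_wt hf.bd ha
  have hb' := bd_wt hf.bd ha'
  have hs := simp_comb ha ha' h0 h1
  have hm := hF'.mono (f := fun p q r => wt f (s * a + (1 - s) * a') (s * b + (1 - s) * b')
      (s * c + (1 - s) * c') p q r)
    (g := fun p q r => s * wt f a b c p q r + (1 - s) * wt f a' b' c' p q r)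
    (bd_wt hf.bd hs) ((Bd.smul s hb).add (Bd.smul (1 - s) hb'))
    (fun p q r hp => by
      have := wt_convex hf hp ha ha' h0 h1
      rw [wt_comm f (s * a + (1 - s) * a'), wt_comm f a, wt_comm f a']
      exact this)
  rw [hF'.add _ _ (Bd.smul s hb) (Bd.smul (1 - s) hb'), hF'.smul, hF'.smul] at hm
  exact hm

/-- the Bayesian product is monotone for the convex order -/
theorem bprod_co {E F E' F' : Ex3} (hE : BExp E Simp) (hE' : BExp E' Simp) (hF' : BExp F' Simp)
    (h1 : CO E F) (h2 : CO E' F') : CO (bprod E E') (bprod F F') := by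
  intro f hf
  unfold bprod
  refine le_trans (hE.mono (bd_inner hf.bd hE') (bd_inner hf.bd hF')
    (fun a b c h => h2 _ (wt_cvx hf h))) (h1 _ (inner_cvx hf hF'))

theorem Pk_co {E' F' : Ex3} (hE' : BExp E' Simp) (hF' : BExp F' Simp) (h : CO E' F') (k : ℕ) :
    CO (Pk E' k) (Pk F' k) := by
  induction k with
  | zero => exact CO.refl _
  | succ k ih => exact bprod_co (Pk_bexp hE' k) hE' hF' ih h

theorem chanPt_comb (lam x y s : ℝ) :
    chanPt lam (s * x + (1 - s) * y) = s * chanPt lam x + (1 - s) * chanPt lam y := by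
  unfold chanPt
  ring

theorem cvx_chan {f : Fn3} (hf : Cvx f) {lam : ℝ} (hl : Adm lam) :
    Cvx (fun a b c => f (chanPt lam a) (chanPt lam b) (chanPt lam c)) := by
  refine ⟨bd_chan hl hf.bd, fun a b c a' b' c' s ha ha' h0 h1 => ?_⟩
  have := hf.cv _ _ _ _ _ _ s (chan_simp hl ha) (chan_simp hl ha') h0 h1
  simp only [chanPt_comb]
  exact this

theorem chan_co {E F : Ex3} {lam : ℝ} (hl : Adm lam) (h : CO E F) : CO (chan lam E) (chan lam F) :=
  fun _ hf => h _ (cvx_chan hf hl)

theorem mix_co {p : ℕ → ℝ} (hp0 : ∀ k, 0 ≤ p k) (hp1 : Summable p) {G H : ℕ → Ex3}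
    (hG : ∀ k, BExp (G k) Simp) (hH : ∀ k, BExp (H k) Simp) (h : ∀ k, CO (G k) (H k)) :
    CO (mix p G) (mix p H) := by
  intro f hf
  unfold mix
  exact (mix_summable hp0 hp1 hG hf.bd).tsum_le_tsum
    (fun k => mul_le_mul_of_nonneg_left (h k f hf) (hp0 k)) (mix_summable hp0 hp1 hH hf.bd) |> id

/-- a convex function is below the interpolation of its values at the vertices -/
theorem cvx_vertex {f : Fn3} (hf : Cvx f) {a b c : ℝ} (h : Simp a b c) :
    f a b c ≤ a * f 1 0 0 + b * f 0 1 0 + c * f 0 0 1 := by
  obtain ⟨a1, -, -⟩ := simp_le_one h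
  have hs := h.hs
  rcases a1.eq_or_lt with ha | ha
  · have hb : b = 0 := by linarith [h.hb, h.hc]
    have hc : c = 0 := by linarith [h.hb, h.hc]
    rw [ha, hb, hc]
    simp
  · have h1a : 0 < 1 - a := by linarith
    have hu0 : 0 ≤ b / (1 - a) := div_nonneg h.hb h1a.le
    have hu1 : b / (1 - a) ≤ 1 := by
      rw [div_le_one h1a]
      linarith [h.hc]
    have hy : Simp (0 : ℝ) (b / (1 - a)) (c / (1 - a)) := by
      refine ⟨le_refl _, hu0, div_nonneg h.hc h1a.le, ?_⟩
      field_simp
      linarith
    have c1 := hf.cv 0 1 0 0 0 1 (b / (1 - a)) simp_v2 simp_v3 hu0 hu1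
    have e1 : 1 - b / (1 - a) = c / (1 - a) := by
      field_simp
      linarith
    rw [e1] at c1
    have e2 : b / (1 - a) * 0 + c / (1 - a) * 0 = 0 := by ring
    have e3 : b / (1 - a) * 1 + c / (1 - a) * 0 = b / (1 - a) := by ring
    have e4 : b / (1 - a) * 0 + c / (1 - a) * 1 = c / (1 - a) := by ring
    rw [e2, e3, e4] at c1
    have c2 := hf.cv 1 0 0 0 (b / (1 - a)) (c / (1 - a)) a simp_v1 hy h.ha a1
    have e5 : a * 1 + (1 - a) * 0 = a := by ring
    have e6 : a * 0 + (1 - a) * (b / (1 - a)) = b := by
      field_simp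
      ring
    have e7 : a * 0 + (1 - a) * (c / (1 - a)) = c := by
      field_simp
      ring
    rw [e5, e6, e7] at c2
    have c3 := mul_le_mul_of_nonneg_left c1 h1a.le
    have e8 : (1 - a) * (b / (1 - a) * f 0 1 0 + c / (1 - a) * f 0 0 1)
        = b * f 0 1 0 + c * f 0 0 1 := by
      field_simp
    rw [e8] at c3
    linarith

/-- every functional of mean the centre is below the law on the vertices -/
theorem vertex_co {E : Ex3} (hE : BExp E Simp) : CO E vertexEx := by
  intro f hf
  obtain ⟨m1, m2, m3⟩ := hE.means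
  have hm := hE.mono (f := f)
    (g := fun a b c => f 1 0 0 * a + f 0 1 0 * b + f 0 0 1 * c) hf.bd
    (((Bd.smul _ Bd.fst).add (Bd.smul _ Bd.snd)).add (Bd.smul _ Bd.thd))
    (fun a b c h => by
      have := cvx_vertex hf h
      linarith)
  rw [hE.add _ _ ((Bd.smul _ Bd.fst).add (Bd.smul _ Bd.snd)) (Bd.smul _ Bd.thd),
    hE.add _ _ (Bd.smul _ Bd.fst) (Bd.smul _ Bd.snd), hE.smul, hE.smul, hE.smul, m1, m2, m3] at hm
  unfold vertexEx
  linarith

/-- the recursion is monotone for the convex order -/
theorem gwEx_next_co {p : ℕ → ℝ} (hp0 : ∀ k, 0 ≤ p k) (hp1 : HasSum p 1) {lam : ℝ} (hl : Adm lam)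
    {E F : Ex3} (hE : BExp E Simp) (hF : BExp F Simp) (h : CO E F) :
    CO (mix p (fun k => Pk (chan lam E) k)) (mix p (fun k => Pk (chan lam F) k)) :=
  mix_co hp0 hp1.summable (fun k => Pk_bexp (chan_bexp hE hl) k)
    (fun k => Pk_bexp (chan_bexp hF hl) k)
    (fun k => Pk_co (chan_bexp hE hl) (chan_bexp hF hl) (chan_co hl h) k)

/-- the law of the posterior decreases in the convex order along the generations -/
theorem gwEx_succ_co {p : ℕ → ℝ} (hp0 : ∀ k, 0 ≤ p k) (hp1 : HasSum p 1) {lam : ℝ} (hl : Adm lam)
    (n : ℕ) : CO (gwEx p lam (n + 1)) (gwEx p lam n) := by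
  induction n with
  | zero => exact vertex_co (gwEx_bexp hp0 hp1 hl 1)
  | succ n ih =>
    exact gwEx_next_co hp0 hp1 hl (gwEx_bexp hp0 hp1 hl (n + 1)) (gwEx_bexp hp0 hp1 hl n) ih

/-- bounded convex functionals are antitone along the generations -/
theorem gwEx_antitone {p : ℕ → ℝ} (hp0 : ∀ k, 0 ≤ p k) (hp1 : HasSum p 1) {lam : ℝ} (hl : Adm lam)
    {f : Fn3} (hf : Cvx f) {m n : ℕ} (hmn : m ≤ n) : gwEx p lam n f ≤ gwEx p lam m f := by
  induction n, hmn using Nat.le_induction with
  | base => exact le_refl _
  | succ n _ ih => exact (gwEx_succ_co hp0 hp1 hl n f hf).trans ih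

/-! ### more children, smaller eigenvalue -/

/-- the three-point inequality at the centre -/
theorem cvx_centre_pt {f : Fn3} (hf : Cvx f) {a b c : ℝ} (h : Simp a b c) :
    f (1 / 3) (1 / 3) (1 / 3) ≤ 1 / 3 * (f a b c + f b c a + f c a b) := by
  have h2 := simp_cyc h
  have h3 := simp_cyc h2
  have hm := simp_comb h2 h3 (s := 1 / 2) (by norm_num) (by norm_num)
  have c1 := hf.cv _ _ _ _ _ _ (1 / 2) h2 h3 (by norm_num) (by norm_num)
  have c2 := hf.cv _ _ _ _ _ _ (1 / 3) h hm (by norm_num) (by norm_num)
  have hs := h.hs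
  have e1 : 1 / 3 * a + (1 - 1 / 3) * (1 / 2 * b + (1 - 1 / 2) * c) = 1 / 3 := by
    linear_combination (1 / 3) * hs
  have e2 : 1 / 3 * b + (1 - 1 / 3) * (1 / 2 * c + (1 - 1 / 2) * a) = 1 / 3 := by
    linear_combination (1 / 3) * hs
  have e3 : 1 / 3 * c + (1 - 1 / 3) * (1 / 2 * a + (1 - 1 / 2) * b) = 1 / 3 := by
    linear_combination (1 / 3) * hs
  rw [e1, e2, e3] at c2
  linarith

/-- the centre is below every law on the simplex -/
theorem centre_co {E : Ex3} (hE : BExp E Simp) : CO centre E := by
  intro f hf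
  show f (1 / 3) (1 / 3) (1 / 3) ≤ E f
  have c1 : E (fun a b c => f b c a) = E f := hE.cyc f
  have c2 : E (fun a b c => f c a b) = E f := by
    have := hE.cyc (fun a b c => f b c a)
    rw [c1] at this
    exact this
  have b1 : Bd (fun a b c => f b c a) := hf.bd.cyc
  have b2 : Bd (fun a b c => f c a b) := hf.bd.cyc.cyc
  have hm := hE.mono (f := fun _ _ _ => f (1 / 3) (1 / 3) (1 / 3))
    (g := fun a b c => 1 / 3 * (f a b c + f b c a + f c a b)) (Bd.const _)
    (Bd.smul _ ((hf.bd.add b1).add b2))
    (fun a b c h => cvx_centre_pt hf h)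
  rw [hE.const, hE.smul, hE.add _ _ (hf.bd.add b1) b2, hE.add _ _ hf.bd b1, c1, c2] at hm
  linarith

theorem wt_centre (f : Fn3) {a b c : ℝ} (h : Simp a b c) :
    wt f a b c (1 / 3) (1 / 3) (1 / 3) = f a b c := by
  have hs := h.hs
  unfold wt
  have e : a * (1 / 3) + b * (1 / 3) + c * (1 / 3) = 1 / 3 := by
    linear_combination (1 / 3) * hs
  rw [e]
  have e1 : a * (1 / 3) / (1 / 3) = a := by field_simp
  have e2 : b * (1 / 3) / (1 / 3) = b := by field_simp
  have e3 : c * (1 / 3) / (1 / 3) = c := by field_simp
  rw [e1, e2, e3]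
  ring

/-- one more child makes the law larger in the convex order -/
theorem bprod_ge_co {G E' : Ex3} (hG : BExp G Simp) (hE' : BExp E' Simp) : CO G (bprod G E') := by
  intro f hf
  unfold bprod
  refine hG.mono hf.bd (bd_inner hf.bd hE') (fun a b c h => ?_)
  have := centre_co hE' _ (wt_cvx hf h)
  show f a b c ≤ _
  rw [← wt_centre f h]
  exact this

theorem Pk_succ_co {E' : Ex3} (hE' : BExp E' Simp) (k : ℕ) : CO (Pk E' k) (Pk E' (k + 1)) :=
  bprod_ge_co (Pk_bexp hE' k) hE'

theorem Pk_le_co {E' : Ex3} (hE' : BExp E' Simp) {j k : ℕ} (h : j ≤ k) : CO (Pk E' j) (Pk E' k) := by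
  induction k, h using Nat.le_induction with
  | base => exact CO.refl _
  | succ k _ ih => exact ih.trans (Pk_succ_co hE' k)

/-- a channel output with a smaller eigenvalue of the same sign is below, in the convex order -/
theorem chan_mono_co {E : Ex3} (hE : BExp E Simp) {t t' : ℝ} (h0 : 0 < t) (h1 : t ≤ t')
    (h2 : t' ≤ 1 / 2) : CO (chan (-t) E) (chan (-t') E) := by
  intro f hf
  have hl' : Adm (-t') := ⟨by linarith, by linarith⟩
  have hcv := cvx_chan hf hl'
  have ht' : 0 < t' := by linarith
  have hr0 : 0 ≤ t / t' := by positivity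
  have hr1 : t / t' ≤ 1 := (div_le_one ht').2 h1
  have hE' := chan_bexp hE hl'
  -- pointwise
  have hpt : ∀ a b c, Simp a b c →
      f (chanPt (-t) a) (chanPt (-t) b) (chanPt (-t) c)
        ≤ t / t' * f (chanPt (-t') a) (chanPt (-t') b) (chanPt (-t') c)
          + (1 - t / t') * f (1 / 3) (1 / 3) (1 / 3) := by
    intro a b c h
    have := hf.cv _ _ _ _ _ _ (t / t') (chan_simp hl' h) simp_centre hr0 hr1
    have e : ∀ x : ℝ, t / t' * chanPt (-t') x + (1 - t / t') * (1 / 3) = chanPt (-t) x := by
      intro x
      unfold chanPt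
      field_simp
      ring
    rw [e, e, e] at this
    exact this
  have hm := hE.mono (f := fun a b c => f (chanPt (-t) a) (chanPt (-t) b) (chanPt (-t) c))
    (g := fun a b c => t / t' * f (chanPt (-t') a) (chanPt (-t') b) (chanPt (-t') c)
      + (1 - t / t') * f (1 / 3) (1 / 3) (1 / 3))
    (bd_chan ⟨by linarith, by linarith⟩ hf.bd) ((Bd.smul _ hcv.bd).add (Bd.const _)) hpt
  rw [hE.add _ _ (Bd.smul _ hcv.bd) (Bd.const _), hE.smul, hE.const] at hm
  have hc := centre_co hE' f hf
  have hc' : f (1 / 3) (1 / 3) (1 / 3) ≤ chan (-t') E f := hc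
  have h1s : 0 ≤ 1 - t / t' := by linarith
  have h5 := mul_le_mul_of_nonneg_left hc' h1s
  show E _ ≤ chan (-t') E f
  have h6 : E (fun a b c => f (chanPt (-t') a) (chanPt (-t') b) (chanPt (-t') c))
      = chan (-t') E f := rfl
  rw [h6] at hm
  nlinarith

end Vale.Agent.Lib.P154.Neg
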