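import Vale.Agent.Lib.P154.Neg.Tree

/-!
The link between the `d`-ary tree and the functionals.
-/

namespace Vale.Agent.Lib.P154.Neg

open scoped BigOperators
open Filter Topology

/-- the offspring law of the `d`-ary tree -/
noncomputable def deltaLaw (d : ℕ) (k : ℕ) : ℝ := if k = d then 1 else 0

theorem deltaLaw_nonneg (d k : ℕ) : 0 ≤ deltaLaw d k := by
  unfold deltaLaw
  split_ifs <;> norm_num

theorem deltaLaw_hasSum (d : ℕ) : HasSum (deltaLaw d) 1 := by
  have := hasSum_ite_eq d (1 : ℝ)
  exact this

theorem mix_delta (d : ℕ) (F : ℕ → Ex3) (f : Fn3) : mix (deltaLaw d) F f = F d f := by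
  unfold mix
  rw [tsum_eq_single d]
  · simp [deltaLaw]
  · intro k hk
    simp [deltaLaw, hk]

section dary

variable {d : ℕ} {lam : ℝ}

/-- the total likelihood of a configuration -/
noncomputable def totLik (d : ℕ) (lam : ℝ) (n : ℕ) (s : LeafConfig d 3 n) : ℝ :=
  leafLik d 3 lam n 0 s + leafLik d 3 lam n 1 s + leafLik d 3 lam n 2 s

/-- the coordinates of the posterior -/
noncomputable def leafPost (d : ℕ) (lam : ℝ) (n : ℕ) (i : Fin 3) (s : LeafConfig d 3 n) : ℝ :=
  leafLik d 3 lam n i s / totLik d lam n s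

theorem leafLik_succ (lam : ℝ) (n : ℕ) (i : Fin 3) (s : LeafConfig d 3 (n + 1)) :
    leafLik d 3 lam (n + 1) i s = ∏ c : Fin d,
      (lam * leafLik d 3 lam n i ((s : Fin d → LeafConfig d 3 n) c)
        + (1 - lam) / 3 * totLik d lam n ((s : Fin d → LeafConfig d 3 n) c)) := by
  show (∏ c : Fin d, ∑ j : Fin 3, potts 3 lam i j * leafLik d 3 lam n j
    ((s : Fin d → LeafConfig d 3 n) c)) = _
  refine Finset.prod_congr rfl (fun c _ => ?_)
  rw [sum_potts]
  rfl

theorem leafLik_nonneg (hl : Adm lam) (n : ℕ) :
    ∀ (i : Fin 3) (s : LeafConfig d 3 n), 0 ≤ leafLik d 3 lam n i s := by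
  induction n with
  | zero =>
    intro i s
    show 0 ≤ spinDelta 3 i s
    unfold spinDelta
    split_ifs <;> norm_num
  | succ n ih =>
    intro i s
    rw [leafLik_succ]
    refine Finset.prod_nonneg (fun c _ => ?_)
    have h2 := ih i ((s : Fin d → LeafConfig d 3 n) c)
    have h3 : leafLik d 3 lam n i ((s : Fin d → LeafConfig d 3 n) c)
        ≤ totLik d lam n ((s : Fin d → LeafConfig d 3 n) c) := by
      unfold totLik
      have a0 := ih 0 ((s : Fin d → LeafConfig d 3 n) c)
      have a1 := ih 1 ((s : Fin d → LeafConfig d 3 n) c)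
      have a2 := ih 2 ((s : Fin d → LeafConfig d 3 n) c)
      have hs : ∀ t : Fin 3, t = 0 ∨ t = 1 ∨ t = 2 := by decide
      rcases hs i with rfl | rfl | rfl <;> linarith
    exact mix_factor_nonneg hl h2 h3

theorem totLik_nonneg (hl : Adm lam) (n : ℕ) (s : LeafConfig d 3 n) : 0 ≤ totLik d lam n s :=
  add_nonneg (add_nonneg (leafLik_nonneg hl n 0 s) (leafLik_nonneg hl n 1 s))
    (leafLik_nonneg hl n 2 s)

theorem leafPost_nonneg (hl : Adm lam) (n : ℕ) (i : Fin 3) (s : LeafConfig d 3 n) :
    0 ≤ leafPost d lam n i s :=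
  div_nonneg (leafLik_nonneg hl n i s) (totLik_nonneg hl n s)

theorem leafLik_eq_zero (hl : Adm lam) (n : ℕ) (i : Fin 3) (s : LeafConfig d 3 n)
    (hT : totLik d lam n s = 0) : leafLik d 3 lam n i s = 0 := by
  have a0 := leafLik_nonneg hl n 0 s
  have a1 := leafLik_nonneg hl n 1 s
  have a2 := leafLik_nonneg hl n 2 s
  unfold totLik at hT
  have hs : ∀ t : Fin 3, t = 0 ∨ t = 1 ∨ t = 2 := by decide
  rcases hs i with rfl | rfl | rfl <;> linarith

theorem leafPost_simp {n : ℕ} (hl : Adm lam) (s : LeafConfig d 3 n)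
    (hT : totLik d lam n s ≠ 0) :
    Simp (leafPost d lam n 0 s) (leafPost d lam n 1 s) (leafPost d lam n 2 s) := by
  refine ⟨leafPost_nonneg hl n 0 s, leafPost_nonneg hl n 1 s, leafPost_nonneg hl n 2 s, ?_⟩
  unfold leafPost
  rw [← add_div, ← add_div]
  exact div_self hT

theorem leafPost_le_one (hl : Adm lam) (n : ℕ) (i : Fin 3) (s : LeafConfig d 3 n) :
    leafPost d lam n i s ≤ 1 := by
  by_cases hT : totLik d lam n s = 0
  · unfold leafPost
    rw [hT, div_zero]
    norm_num
  · have h := leafPost_simp hl s hT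
    obtain ⟨a, b, c⟩ := simp_le_one h
    have hs : ∀ t : Fin 3, t = 0 ∨ t = 1 ∨ t = 2 := by decide
    rcases hs i with rfl | rfl | rfl <;> assumption

/-- The functional of the recursion is the law of the posterior. -/
theorem dEx_rep (hl : Adm lam) (n : ℕ) :
    Rep (gwEx (deltaLaw d) lam n) (fun s : LeafConfig d 3 n => 1 / 3 * totLik d lam n s)
      (leafPost d lam n 0) (leafPost d lam n 1) (leafPost d lam n 2) := by
  induction n with
  | zero =>
    have hT : ∀ s : Fin 3, totLik d lam 0 s = 1 := by
      intro s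
      show spinDelta 3 0 s + spinDelta 3 1 s + spinDelta 3 2 s = 1
      exact delta_sum s
    let _ : Fintype (LeafConfig d 3 0) := inferInstanceAs (Fintype (Fin 3))
    refine ⟨fun s => ?_, (hasSum_fintype _).summable, fun s hs => ?_, fun f _ => ?_⟩
    · have := totLik_nonneg hl 0 s
      positivity
    · exact leafPost_simp hl s (fun h => hs (by rw [h]; ring))
    · show vertexEx f = ∑' s : Fin 3, _
      rw [tsum_fintype, Fin.sum_univ_three]
      have v : ∀ (s i : Fin 3), leafPost d lam 0 i s = spinDelta 3 i s := by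
        intro s i
        unfold leafPost
        rw [hT s, div_one]
        rfl
      have d00 : spinDelta 3 0 0 = 1 := by simp [spinDelta]
      have d01 : spinDelta 3 0 1 = 0 := by simp [spinDelta]
      have d02 : spinDelta 3 0 2 = 0 := by simp [spinDelta]
      have d10 : spinDelta 3 1 0 = 0 := by simp [spinDelta]
      have d11 : spinDelta 3 1 1 = 1 := by simp [spinDelta]
      have d12 : spinDelta 3 1 2 = 0 := by simp [spinDelta]
      have d20 : spinDelta 3 2 0 = 0 := by simp [spinDelta]
      have d21 : spinDelta 3 2 1 = 0 := by simp [spinDelta]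
      have d22 : spinDelta 3 2 2 = 1 := by simp [spinDelta]
      simp only [v, hT, d00, d01, d02, d10, d11, d12, d20, d21, d22]
      unfold vertexEx
      ring
  | succ n ih =>
    have hB := gwEx_bexp (fun k => deltaLaw_nonneg d k) (deltaLaw_hasSum d) hl n
    have hcB : BExp (chan lam (gwEx (deltaLaw d) lam n)) Simp := chan_bexp hB hl
    have hc := ih.chan hl
    have hy : ∀ (i : Fin 3) (t : LeafConfig d 3 n), 0 ≤ chanPt lam (leafPost d lam n i t) :=
      fun i t => chanPt_nonneg hl (leafPost_nonneg hl n i t) (leafPost_le_one hl n i t)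
    have hM := Pk_rep hcB hc (hy 0) (hy 1) (hy 2) d
    have hM' : Rep (gwEx (deltaLaw d) lam (n + 1))
        (tupW (fun s : LeafConfig d 3 n => 1 / 3 * totLik d lam n s)
          (fun t => chanPt lam (leafPost d lam n 0 t)) (fun t => chanPt lam (leafPost d lam n 1 t))
          (fun t => chanPt lam (leafPost d lam n 2 t)) d)
        (tupX (fun t => chanPt lam (leafPost d lam n 0 t))
          (fun t => chanPt lam (leafPost d lam n 1 t)) (fun t => chanPt lam (leafPost d lam n 2 t))
          (fun t => chanPt lam (leafPost d lam n 0 t)) d)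
        (tupX (fun t => chanPt lam (leafPost d lam n 0 t))
          (fun t => chanPt lam (leafPost d lam n 1 t)) (fun t => chanPt lam (leafPost d lam n 2 t))
          (fun t => chanPt lam (leafPost d lam n 1 t)) d)
        (tupX (fun t => chanPt lam (leafPost d lam n 0 t))
          (fun t => chanPt lam (leafPost d lam n 1 t)) (fun t => chanPt lam (leafPost d lam n 2 t))
          (fun t => chanPt lam (leafPost d lam n 2 t)) d) :=
      ⟨hM.w_nonneg, hM.w_summable, hM.pts, fun f hf => by
        rw [← hM.eq f hf]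
        exact mix_delta d _ f⟩
    -- the child factor
    have hchild : ∀ (i : Fin 3) (t : LeafConfig d 3 n),
        lam * leafLik d 3 lam n i t + (1 - lam) / 3 * totLik d lam n t
          = totLik d lam n t * chanPt lam (leafPost d lam n i t) := by
      intro i t
      by_cases hT : totLik d lam n t = 0
      · rw [hT, leafLik_eq_zero hl n i t hT]
        ring
      · unfold chanPt leafPost
        field_simp
    have hL : ∀ (i : Fin 3) (s : Fin d → LeafConfig d 3 n),
        leafLik d 3 lam (n + 1) i s = (∏ c, totLik d lam n (s c))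
          * ∏ c, chanPt lam (leafPost d lam n i (s c)) := by
      intro i s
      refine (leafLik_succ (d := d) lam n i s).trans ?_
      rw [← Finset.prod_mul_distrib]
      exact Finset.prod_congr rfl (fun c _ => hchild i (s c))
    have hW : ∀ (s : Fin d → LeafConfig d 3 n), ∏ c, (1 / 3 * totLik d lam n (s c))
        = (1 / 3) ^ d * ∏ c, totLik d lam n (s c) := by
      intro s
      rw [Finset.prod_mul_distrib]
      simp
    refine hM'.congr ?_ ?_
    · intro s
      show 1 / 3 * totLik d lam (n + 1) s = tupW _ _ _ _ d s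
      have htot : totLik d lam (n + 1) s = leafLik d 3 lam (n + 1) 0 s
          + leafLik d 3 lam (n + 1) 1 s + leafLik d 3 lam (n + 1) 2 s := rfl
      rw [htot, hL, hL, hL]
      unfold tupW
      dsimp only
      rw [hW]
      have e3 : ((1 : ℝ) / 3) ^ d * 3 ^ d = 1 := by
        rw [← mul_pow]
        norm_num
      set T := ∏ c, totLik d lam n ((s : Fin d → LeafConfig d 3 n) c)
      set L0 := ∏ c, chanPt lam (leafPost d lam n 0 ((s : Fin d → LeafConfig d 3 n) c))
      set L1 := ∏ c, chanPt lam (leafPost d lam n 1 ((s : Fin d → LeafConfig d 3 n) c))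
      set L2 := ∏ c, chanPt lam (leafPost d lam n 2 ((s : Fin d → LeafConfig d 3 n) c))
      linear_combination (-(1 / 3) * T * (L0 + L1 + L2)) * e3
    · intro s hs
      have hs' : tupW (fun s => 1 / 3 * totLik d lam n s)
          (fun t => chanPt lam (leafPost d lam n 0 t)) (fun t => chanPt lam (leafPost d lam n 1 t))
          (fun t => chanPt lam (leafPost d lam n 2 t)) d s ≠ 0 := hs
      have hs2 := hs'
      unfold tupW at hs2
      simp only [hW] at hs2
      have hTne : ∏ c, totLik d lam n ((s : Fin d → LeafConfig d 3 n) c) ≠ 0 :=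
        right_ne_zero_of_mul (left_ne_zero_of_mul hs2)
      have hSne : ∏ c, chanPt lam (leafPost d lam n 0 ((s : Fin d → LeafConfig d 3 n) c))
          + ∏ c, chanPt lam (leafPost d lam n 1 ((s : Fin d → LeafConfig d 3 n) c))
          + ∏ c, chanPt lam (leafPost d lam n 2 ((s : Fin d → LeafConfig d 3 n) c)) ≠ 0 :=
        right_ne_zero_of_mul (right_ne_zero_of_mul hs2)
      have hP : ∀ i : Fin 3, leafPost d lam (n + 1) i s
          = (∏ c, chanPt lam (leafPost d lam n i ((s : Fin d → LeafConfig d 3 n) c)))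
            / (∏ c, chanPt lam (leafPost d lam n 0 ((s : Fin d → LeafConfig d 3 n) c))
              + ∏ c, chanPt lam (leafPost d lam n 1 ((s : Fin d → LeafConfig d 3 n) c))
              + ∏ c, chanPt lam (leafPost d lam n 2 ((s : Fin d → LeafConfig d 3 n) c))) := by
        intro i
        have hpost : leafPost d lam (n + 1) i s = leafLik d 3 lam (n + 1) i s
            / (leafLik d 3 lam (n + 1) 0 s + leafLik d 3 lam (n + 1) 1 s
              + leafLik d 3 lam (n + 1) 2 s) := rfl
        rw [hpost, hL, hL, hL, hL]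
        set T := ∏ c, totLik d lam n ((s : Fin d → LeafConfig d 3 n) c)
        set L0 := ∏ c, chanPt lam (leafPost d lam n 0 ((s : Fin d → LeafConfig d 3 n) c))
        set L1 := ∏ c, chanPt lam (leafPost d lam n 1 ((s : Fin d → LeafConfig d 3 n) c))
        set L2 := ∏ c, chanPt lam (leafPost d lam n 2 ((s : Fin d → LeafConfig d 3 n) c))
        have : T * L0 + T * L1 + T * L2 = T * (L0 + L1 + L2) := by ring
        rw [this, mul_div_mul_left _ _ hTne]
      exact ⟨hP 0, hP 1, hP 2⟩

theorem leafProb_eq (n : ℕ) (s : LeafConfig d 3 n) :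
    leafProb d 3 lam n s = 1 / 3 * totLik d lam n s := by
  unfold leafProb totLik
  rw [Fin.sum_univ_three]
  push_cast
  ring

theorem rootPosterior_eq (n : ℕ) (s : LeafConfig d 3 n) (i : Fin 3) :
    rootPosterior d 3 lam n s i = leafPost d lam n i s := by
  unfold rootPosterior leafPost
  rw [leafProb_eq]
  push_cast
  exact mul_div_mul_left _ _ (by norm_num)

theorem reconError_eq (hl : Adm lam) (n : ℕ) :
    reconError d 3 lam n = gwEx (deltaLaw d) lam n errFn := by
  rw [(dEx_rep (d := d) hl n).eq errFn bd_errFn, tsum_fintype]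
  unfold reconError
  refine Finset.sum_congr rfl (fun s _ => ?_)
  rw [leafProb_eq, Fin.sum_univ_three, rootPosterior_eq, rootPosterior_eq, rootPosterior_eq]
  unfold errFn
  push_cast
  ring

/-- Nonreconstruction on the `d`-ary tree from the decay of the second moment. -/
theorem dary_of_I2 (hl : Adm lam)
    (hm : Tendsto (fun n => gwEx (deltaLaw d) lam n I2) atTop (𝓝 0)) :
    Tendsto (reconError d 3 lam) atTop (𝓝 0) := by
  have e : reconError d 3 lam = fun n => gwEx (deltaLaw d) lam n errFn :=
    funext (fun n => reconError_eq hl n)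
  rw [e]
  exact err_tendsto_of_I2
    (fun n => gwEx_bexp (fun k => deltaLaw_nonneg d k) (deltaLaw_hasSum d) hl n) hm

end dary

end Vale.Agent.Lib.P154.Neg
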