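import Vale.Agent.Lib.P154.Neg.Char

/-!
The derivative atoms at the centre of the simplex: with `W = 3 (a b c)^(1/3)` and
`v = log a - mean log`, the functions `W * sum v_i^2` and `W * sum v_i^3` obey an exact recursion on the tree.
-/

namespace Vale.Agent.Lib.P154.Neg

open Filter Topology

/-- the exponents of the centre -/
theorem exps_c : Exps (1 / 3) (1 / 3) (1 / 3) :=
  ⟨by norm_num, by norm_num, by norm_num, by norm_num⟩

/-- the central monomial -/
noncomputable abbrev mc : Fn3 := mono (1 / 3) (1 / 3) (1 / 3)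

/-- the central character `3 (a b c)^(1/3)` -/
noncomputable def Wc : Fn3 := fun a b c => 3 * mc a b c

theorem mc_cyc (a b c : ℝ) : mc b c a = mc a b c := by
  unfold mc mono
  ring

theorem mc_swap (a b c : ℝ) : mc b a c = mc a b c := by
  unfold mc mono
  ring

theorem Wc_cyc (a b c : ℝ) : Wc b c a = Wc a b c := by
  unfold Wc
  rw [mc_cyc]

theorem Wc_swap (a b c : ℝ) : Wc b a c = Wc a b c := by
  unfold Wc
  rw [mc_swap]

theorem Wc_eq_chi : Wc = chi (1 / 3) (1 / 3) (1 / 3) := by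
  funext a b c
  have e1 := mc_cyc a b c
  have e2 := mc_cyc b c a
  have e3 := mc_swap a b c
  have e4 := mc_cyc b a c
  have e5 := mc_cyc a c b
  unfold mc at e1 e2 e3 e4 e5
  unfold Wc mc chi
  rw [e1, e2, e3]
  linarith

theorem bd_Wc : Bd Wc := Bd.smul 3 (bd_mono exps_c)

/-- the centred logarithm of the first coordinate -/
noncomputable def v1 (a b c : ℝ) : ℝ := Real.log a - (Real.log a + Real.log b + Real.log c) / 3

theorem v1_sum (a b c : ℝ) : v1 a b c + v1 b c a + v1 c a b = 0 := by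
  unfold v1
  ring

theorem v1_swap (a b c : ℝ) : v1 a c b = v1 a b c := by
  unfold v1
  ring

/-- `W` times a power of the centred logarithm -/
noncomputable def wv (k : ℕ) : Fn3 := fun a b c => Wc a b c * (v1 a b c) ^ k

/-- the second derivative atom -/
noncomputable def wP2 : Fn3 := fun a b c =>
  Wc a b c * ((v1 a b c) ^ 2 + (v1 b c a) ^ 2 + (v1 c a b) ^ 2)

/-- the third derivative atom -/
noncomputable def wP3 : Fn3 := fun a b c =>
  Wc a b c * ((v1 a b c) ^ 3 + (v1 b c a) ^ 3 + (v1 c a b) ^ 3)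

theorem mc_zero_left {b c : ℝ} : mc 0 b c = 0 := by
  unfold mc mono
  rw [Real.zero_rpow (by norm_num)]
  ring

theorem mc_zero_mid {a c : ℝ} : mc a 0 c = 0 := by
  unfold mc mono
  rw [Real.zero_rpow (by norm_num)]
  ring

theorem mc_zero_right {a b : ℝ} : mc a b 0 = 0 := by
  unfold mc mono
  rw [Real.zero_rpow (by norm_num)]
  ring

/-- the central monomial as an exponential of the logarithms -/
theorem mc_eq_exp {a b c : ℝ} (ha : 0 < a) (hb : 0 < b) (hc : 0 < c) :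
    mc a b c = Real.exp (-((-Real.log a - Real.log b - Real.log c) / 3)) := by
  unfold mc mono
  rw [Real.rpow_def_of_pos ha, Real.rpow_def_of_pos hb, Real.rpow_def_of_pos hc, ← Real.exp_add,
    ← Real.exp_add]
  congr 1
  ring

theorem pow_le_exp_third {s : ℝ} (hs : 0 ≤ s) (k : ℕ) :
    s ^ k * Real.exp (-(s / 3)) ≤ (k.factorial : ℝ) * 3 ^ k := by
  have h1 : (s / 3) ^ k / (k.factorial : ℝ) ≤ Real.exp (s / 3) :=
    Real.pow_div_factorial_le_exp (s / 3) (by positivity) k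
  have hf : (0 : ℝ) < (k.factorial : ℝ) := by exact_mod_cast Nat.factorial_pos k
  have h2 : (s / 3) ^ k ≤ Real.exp (s / 3) * (k.factorial : ℝ) := by
    rwa [div_le_iff₀ hf] at h1
  have h3 : s ^ k = (s / 3) ^ k * 3 ^ k := by
    rw [← mul_pow]
    congr 1
    ring
  have h4 : Real.exp (s / 3) * Real.exp (-(s / 3)) = 1 := by
    rw [← Real.exp_add]
    simp
  have h5 : 0 < Real.exp (-(s / 3)) := Real.exp_pos _
  calc s ^ k * Real.exp (-(s / 3)) = (s / 3) ^ k * 3 ^ k * Real.exp (-(s / 3)) := by rw [h3]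
    _ ≤ (Real.exp (s / 3) * (k.factorial : ℝ)) * 3 ^ k * Real.exp (-(s / 3)) := by gcongr
    _ = (Real.exp (s / 3) * Real.exp (-(s / 3))) * ((k.factorial : ℝ) * 3 ^ k) := by ring
    _ = (k.factorial : ℝ) * 3 ^ k := by rw [h4, one_mul]

/-- the basic bound of an atom -/
theorem wv_bound (k : ℕ) {a b c : ℝ} (hs : Simp a b c) :
    |wv k a b c| ≤ 3 * ((k.factorial : ℝ) * 3 ^ k) := by
  have hB : (0 : ℝ) ≤ 3 * ((k.factorial : ℝ) * 3 ^ k) := by positivity
  unfold wv Wc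
  by_cases h0 : a = 0 ∨ b = 0 ∨ c = 0
  · have : mc a b c = 0 := by
      rcases h0 with h | h | h
      · rw [h]; exact mc_zero_left
      · rw [h]; exact mc_zero_mid
      · rw [h]; exact mc_zero_right
    rw [this]
    simp only [mul_zero, zero_mul, abs_zero]
    exact hB
  · push Not at h0
    obtain ⟨ha, hb, hc⟩ := h0
    have ha' : 0 < a := lt_of_le_of_ne hs.ha (Ne.symm ha)
    have hb' : 0 < b := lt_of_le_of_ne hs.hb (Ne.symm hb)
    have hc' : 0 < c := lt_of_le_of_ne hs.hc (Ne.symm hc)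
    obtain ⟨a1, b1, c1⟩ := simp_le_one hs
    have la : Real.log a ≤ 0 := Real.log_nonpos hs.ha a1
    have lb : Real.log b ≤ 0 := Real.log_nonpos hs.hb b1
    have lc : Real.log c ≤ 0 := Real.log_nonpos hs.hc c1
    set s := -Real.log a - Real.log b - Real.log c with hs'
    have hs0 : 0 ≤ s := by rw [hs']; linarith
    have hv : |v1 a b c| ≤ s := by
      unfold v1
      rw [abs_le]
      constructor <;> rw [hs'] <;> linarith
    have h1 := pow_le_exp_third hs0 k
    have h2 : |v1 a b c| ^ k ≤ s ^ k := pow_le_pow_left₀ (abs_nonneg _) hv k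
    have h3 := mc_eq_exp ha' hb' hc'
    rw [← hs'] at h3
    rw [h3, abs_mul, abs_mul, abs_pow, abs_of_pos (Real.exp_pos _), abs_of_pos (by norm_num : (0 : ℝ) < 3)]
    have h5 : 0 < Real.exp (-(s / 3)) := Real.exp_pos _
    calc 3 * Real.exp (-(s / 3)) * |v1 a b c| ^ k ≤ 3 * Real.exp (-(s / 3)) * s ^ k := by gcongr
      _ = 3 * (s ^ k * Real.exp (-(s / 3))) := by ring
      _ ≤ 3 * ((k.factorial : ℝ) * 3 ^ k) := by gcongr

theorem bd_wv (k : ℕ) : Bd (wv k) := ⟨_, fun _ _ _ hs => wv_bound k hs⟩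

theorem wP2_eq (a b c : ℝ) : wP2 a b c = wv 2 a b c + wv 2 b c a + wv 2 c a b := by
  unfold wP2 wv
  rw [Wc_cyc a b c, show Wc c a b = Wc a b c from by rw [Wc_cyc c a b, Wc_cyc b c a]]
  ring

theorem wP3_eq (a b c : ℝ) : wP3 a b c = wv 3 a b c + wv 3 b c a + wv 3 c a b := by
  unfold wP3 wv
  rw [Wc_cyc a b c, show Wc c a b = Wc a b c from by rw [Wc_cyc c a b, Wc_cyc b c a]]
  ring

theorem bd_wP2 : Bd wP2 := by
  have h := ((bd_wv 2).add (bd_wv 2).cyc).add (bd_wv 2).cyc.cyc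
  obtain ⟨C, hC⟩ := h
  exact ⟨C, fun a b c hs => by rw [wP2_eq]; exact hC a b c hs⟩

theorem bd_wP3 : Bd wP3 := by
  have h := ((bd_wv 3).add (bd_wv 3).cyc).add (bd_wv 3).cyc.cyc
  obtain ⟨C, hC⟩ := h
  exact ⟨C, fun a b c hs => by rw [wP3_eq]; exact hC a b c hs⟩

/-- the additivity of the centred logarithms -/
theorem v1_prod {a b c p q r D : ℝ} (ha : a ≠ 0) (hb : b ≠ 0) (hc : c ≠ 0) (hp : p ≠ 0) (hq : q ≠ 0)
    (hr : r ≠ 0) (hD : D ≠ 0) :
    v1 (a * p / D) (b * q / D) (c * r / D) = v1 a b c + v1 p q r := by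
  unfold v1
  rw [Real.log_div (mul_ne_zero ha hp) hD, Real.log_div (mul_ne_zero hb hq) hD,
    Real.log_div (mul_ne_zero hc hr) hD, Real.log_mul ha hp, Real.log_mul hb hq, Real.log_mul hc hr]
  ring

/-- the weight of an atom -/
theorem wt_atom (g : ℝ → ℝ → ℝ → ℝ) {a b c p q r : ℝ} (hs : Simp a b c) (hs' : Simp p q r) :
    wt (fun x y z => Wc x y z * g (v1 x y z) (v1 y z x) (v1 z x y)) a b c p q r =
      Wc a b c * Wc p q r * g (v1 a b c + v1 p q r) (v1 b c a + v1 q r p) (v1 c a b + v1 r p q) := by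
  have ha := hs.ha
  have hb := hs.hb
  have hc := hs.hc
  have hp := hs'.ha
  have hq := hs'.hb
  have hr := hs'.hc
  set D := a * p + b * q + c * r with hD
  have hD0 : 0 ≤ D := dot_nonneg hs hs'
  have z1 : 0 ≤ a * p := mul_nonneg ha hp
  have z2 : 0 ≤ b * q := mul_nonneg hb hq
  have z3 : 0 ≤ c * r := mul_nonneg hc hr
  have za : D = 0 → a * p = 0 := fun h0 => by rw [hD] at h0; linarith
  have e1 : D * mc (a * p / D) (b * q / D) (c * r / D) = mc a b c * mc p q r :=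
    mono_div exps_c ha hb hc hp hq hr hD0 za
  have ew : wt (fun x y z => Wc x y z * g (v1 x y z) (v1 y z x) (v1 z x y)) a b c p q r =
      9 * (mc a b c * mc p q r) * g (v1 (a * p / D) (b * q / D) (c * r / D))
        (v1 (b * q / D) (c * r / D) (a * p / D)) (v1 (c * r / D) (a * p / D) (b * q / D)) := by
    unfold wt
    rw [← hD, ← e1]
    unfold Wc
    ring
  rw [ew]
  unfold Wc
  by_cases h0 : a = 0 ∨ b = 0 ∨ c = 0 ∨ p = 0 ∨ q = 0 ∨ r = 0
  · have : mc a b c * mc p q r = 0 := by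
      rcases h0 with h | h | h | h | h | h
      · rw [h, mc_zero_left, zero_mul]
      · rw [h, mc_zero_mid, zero_mul]
      · rw [h, mc_zero_right, zero_mul]
      · rw [h, mc_zero_left, mul_zero]
      · rw [h, mc_zero_mid, mul_zero]
      · rw [h, mc_zero_right, mul_zero]
    rw [this]
    have e : 3 * mc a b c * (3 * mc p q r) = 9 * (mc a b c * mc p q r) := by ring
    rw [e, this]
    ring
  · push Not at h0
    obtain ⟨h1, h2, h3, h4, h5, h6⟩ := h0
    have hpos : 0 < a * p := lt_of_le_of_ne z1 (Ne.symm (mul_ne_zero h1 h4))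
    have hDne : D ≠ 0 := by
      have : 0 < D := by rw [hD]; linarith
      exact this.ne'
    rw [v1_prod h1 h2 h3 h4 h5 h6 hDne, v1_prod h2 h3 h1 h5 h6 h4 hDne,
      v1_prod h3 h1 h2 h6 h4 h5 hDne]
    ring

theorem wt_wP2 {a b c p q r : ℝ} (hs : Simp a b c) (hs' : Simp p q r) :
    wt wP2 a b c p q r = Wc a b c * Wc p q r *
      ((v1 a b c + v1 p q r) ^ 2 + (v1 b c a + v1 q r p) ^ 2 + (v1 c a b + v1 r p q) ^ 2) :=
  wt_atom (fun x y z => x ^ 2 + y ^ 2 + z ^ 2) hs hs'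

theorem wt_wP3 {a b c p q r : ℝ} (hs : Simp a b c) (hs' : Simp p q r) :
    wt wP3 a b c p q r = Wc a b c * Wc p q r *
      ((v1 a b c + v1 p q r) ^ 3 + (v1 b c a + v1 q r p) ^ 3 + (v1 c a b + v1 r p q) ^ 3) :=
  wt_atom (fun x y z => x ^ 3 + y ^ 3 + z ^ 3) hs hs'

section Sym

variable {E' : Ex3} {K' : ℝ → ℝ → ℝ → Prop}

/-- the first moment vanishes by symmetry -/
theorem wv1_mean (hE' : BExp E' K') : E' (wv 1) = 0 := by
  have c1 : E' (fun p q r => wv 1 q r p) = E' (wv 1) := hE'.cyc (wv 1)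
  have c2 : E' (fun p q r => wv 1 r p q) = E' (wv 1) := by
    have := hE'.cyc (fun p q r => wv 1 q r p)
    simpa [c1] using this
  have b1 : Bd (wv 1) := bd_wv 1
  have b2 : Bd (fun p q r => wv 1 q r p) := b1.cyc
  have b3 : Bd (fun p q r => wv 1 r p q) := b1.cyc.cyc
  have hs : E' (fun p q r => wv 1 p q r + wv 1 q r p + wv 1 r p q) = 0 := by
    have e : (fun p q r => wv 1 p q r + wv 1 q r p + wv 1 r p q) = fun _ _ _ => (0 : ℝ) := by
      funext p q r
      unfold wv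
      rw [Wc_cyc p q r, show Wc r p q = Wc p q r from by rw [Wc_cyc r p q, Wc_cyc q r p]]
      have := v1_sum p q r
      linear_combination (Wc p q r) * this
    rw [e]
    exact hE'.const 0
  rw [hE'.add _ _ (b1.add b2) b3, hE'.add _ _ b1 b2, c1, c2] at hs
  linarith

theorem wv2_mean (hE' : BExp E' K') : E' wP2 = 3 * E' (wv 2) := by
  have c1 : E' (fun p q r => wv 2 q r p) = E' (wv 2) := hE'.cyc (wv 2)
  have c2 : E' (fun p q r => wv 2 r p q) = E' (wv 2) := by
    have := hE'.cyc (fun p q r => wv 2 q r p)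
    simpa [c1] using this
  have b1 : Bd (wv 2) := bd_wv 2
  have b2 : Bd (fun p q r => wv 2 q r p) := b1.cyc
  have b3 : Bd (fun p q r => wv 2 r p q) := b1.cyc.cyc
  have e : wP2 = fun p q r => wv 2 p q r + wv 2 q r p + wv 2 r p q := by
    funext p q r
    exact wP2_eq p q r
  rw [e, hE'.add _ _ (b1.add b2) b3, hE'.add _ _ b1 b2, c1, c2]
  ring

/-- the moment of a product by a constant row, second atom -/
theorem inner_wP2 (hE' : BExp E' K') {a b c : ℝ} (hs : Simp a b c) (hsup : ∀ p q r, K' p q r → Simp p q r) :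
    E' (fun p q r => wt wP2 a b c p q r) =
      wP2 a b c * E' Wc + Wc a b c * E' wP2 := by
  set x := v1 a b c with hx
  set y := v1 b c a with hy
  set z := v1 c a b with hz
  have hxyz : x + y + z = 0 := v1_sum a b c
  have hform : ∀ p q r, K' p q r → wt wP2 a b c p q r =
      Wc a b c * ((x ^ 2 + y ^ 2 + z ^ 2) * Wc p q r + wP2 p q r
        + (2 * x * wv 1 p q r + 2 * y * wv 1 q r p + 2 * z * wv 1 r p q)) := by
    intro p q r hK
    rw [wt_wP2 hs (hsup p q r hK)]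
    unfold wP2 wv
    rw [Wc_cyc p q r, show Wc r p q = Wc p q r from by rw [Wc_cyc r p q, Wc_cyc q r p]]
    ring
  rw [hE'.congr _ _ hform, hE'.smul]
  have b0 : Bd Wc := bd_Wc
  have b1 : Bd (wv 1) := bd_wv 1
  have b2 : Bd (fun p q r => wv 1 q r p) := b1.cyc
  have b3 : Bd (fun p q r => wv 1 r p q) := b1.cyc.cyc
  have c1 : E' (fun p q r => wv 1 q r p) = 0 := by rw [hE'.cyc (wv 1)]; exact wv1_mean hE'
  have c2 : E' (fun p q r => wv 1 r p q) = 0 := by
    rw [hE'.cyc (fun p q r => wv 1 q r p)]; exact c1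
  have c0 : E' (wv 1) = 0 := wv1_mean hE'
  rw [hE'.add _ _ ((Bd.smul _ b0).add bd_wP2)
      (((Bd.smul _ b1).add (Bd.smul _ b2)).add (Bd.smul _ b3)),
    hE'.add _ _ (Bd.smul _ b0) bd_wP2,
    hE'.add _ _ ((Bd.smul _ b1).add (Bd.smul _ b2)) (Bd.smul _ b3),
    hE'.add _ _ (Bd.smul _ b1) (Bd.smul _ b2),
    hE'.smul, hE'.smul, hE'.smul, hE'.smul, c0, c1, c2]
  unfold wP2
  rw [← hx, ← hy, ← hz]
  ring

theorem inner_wP3 (hE' : BExp E' K') {a b c : ℝ} (hs : Simp a b c) (hsup : ∀ p q r, K' p q r → Simp p q r) :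
    E' (fun p q r => wt wP3 a b c p q r) =
      wP3 a b c * E' Wc + Wc a b c * E' wP3 := by
  set x := v1 a b c with hx
  set y := v1 b c a with hy
  set z := v1 c a b with hz
  have hxyz : x + y + z = 0 := v1_sum a b c
  have hform : ∀ p q r, K' p q r → wt wP3 a b c p q r =
      Wc a b c * ((x ^ 3 + y ^ 3 + z ^ 3) * Wc p q r + wP3 p q r
        + (3 * x ^ 2 * wv 1 p q r + 3 * y ^ 2 * wv 1 q r p + 3 * z ^ 2 * wv 1 r p q)
        + (3 * x * wv 2 p q r + 3 * y * wv 2 q r p + 3 * z * wv 2 r p q)) := by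
    intro p q r hK
    rw [wt_wP3 hs (hsup p q r hK)]
    unfold wP3 wv
    rw [Wc_cyc p q r, show Wc r p q = Wc p q r from by rw [Wc_cyc r p q, Wc_cyc q r p]]
    ring
  rw [hE'.congr _ _ hform, hE'.smul]
  have b0 : Bd Wc := bd_Wc
  have b1 : Bd (wv 1) := bd_wv 1
  have b2 : Bd (fun p q r => wv 1 q r p) := b1.cyc
  have b3 : Bd (fun p q r => wv 1 r p q) := b1.cyc.cyc
  have d1 : Bd (wv 2) := bd_wv 2
  have d2 : Bd (fun p q r => wv 2 q r p) := d1.cyc
  have d3 : Bd (fun p q r => wv 2 r p q) := d1.cyc.cyc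
  have c1 : E' (fun p q r => wv 1 q r p) = 0 := by rw [hE'.cyc (wv 1)]; exact wv1_mean hE'
  have c2 : E' (fun p q r => wv 1 r p q) = 0 := by
    rw [hE'.cyc (fun p q r => wv 1 q r p)]; exact c1
  have c0 : E' (wv 1) = 0 := wv1_mean hE'
  have f1 : E' (fun p q r => wv 2 q r p) = E' (wv 2) := hE'.cyc (wv 2)
  have f2 : E' (fun p q r => wv 2 r p q) = E' (wv 2) := by
    rw [hE'.cyc (fun p q r => wv 2 q r p)]; exact f1
  rw [hE'.add _ _ (((Bd.smul _ b0).add bd_wP3).add
        (((Bd.smul _ b1).add (Bd.smul _ b2)).add (Bd.smul _ b3)))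
      (((Bd.smul _ d1).add (Bd.smul _ d2)).add (Bd.smul _ d3)),
    hE'.add _ _ ((Bd.smul _ b0).add bd_wP3)
      (((Bd.smul _ b1).add (Bd.smul _ b2)).add (Bd.smul _ b3)),
    hE'.add _ _ (Bd.smul _ b0) bd_wP3,
    hE'.add _ _ ((Bd.smul _ b1).add (Bd.smul _ b2)) (Bd.smul _ b3),
    hE'.add _ _ (Bd.smul _ b1) (Bd.smul _ b2),
    hE'.add _ _ ((Bd.smul _ d1).add (Bd.smul _ d2)) (Bd.smul _ d3),
    hE'.add _ _ (Bd.smul _ d1) (Bd.smul _ d2),
    hE'.smul, hE'.smul, hE'.smul, hE'.smul, hE'.smul, hE'.smul, hE'.smul, c0, c1, c2, f1, f2]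
  unfold wP3
  rw [← hx, ← hy, ← hz]
  linear_combination (Wc a b c * (3 * E' (wv 2))) * hxyz

end Sym

/-- the derivation rule for the Bayesian product, second atom -/
theorem bprod_wP2 {E E' : Ex3} {K : ℝ → ℝ → ℝ → Prop} (hE : BExp E K) (hE' : BExp E' Simp) :
    bprod E E' wP2 = E wP2 * E' Wc + E Wc * E' wP2 := by
  unfold bprod
  have e := hE.congr (fun a b c => E' (fun p q r => wt wP2 a b c p q r))
    (fun a b c => E' Wc * wP2 a b c + E' wP2 * Wc a b c)
    (fun a b c hK => by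
      rw [inner_wP2 hE' (hE.sup a b c hK) (fun _ _ _ h => h)]
      ring)
  rw [e, hE.add _ _ (Bd.smul _ bd_wP2) (Bd.smul _ bd_Wc), hE.smul, hE.smul]
  ring

/-- the derivation rule for the Bayesian product, third atom -/
theorem bprod_wP3 {E E' : Ex3} {K : ℝ → ℝ → ℝ → Prop} (hE : BExp E K) (hE' : BExp E' Simp) :
    bprod E E' wP3 = E wP3 * E' Wc + E Wc * E' wP3 := by
  unfold bprod
  have e := hE.congr (fun a b c => E' (fun p q r => wt wP3 a b c p q r))
    (fun a b c => E' Wc * wP3 a b c + E' wP3 * Wc a b c)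
    (fun a b c hK => by
      rw [inner_wP3 hE' (hE.sup a b c hK) (fun _ _ _ h => h)]
      ring)
  rw [e, hE.add _ _ (Bd.smul _ bd_wP3) (Bd.smul _ bd_Wc), hE.smul, hE.smul]
  ring

theorem bprod_Wc {E E' : Ex3} {K K' : ℝ → ℝ → ℝ → Prop} (hE : BExp E K) (hE' : BExp E' K') :
    bprod E E' Wc = E Wc * E' Wc := by
  rw [Wc_eq_chi]
  exact bprod_chi hE hE' exps_c

theorem v1_centre : v1 (1 / 3) (1 / 3) (1 / 3) = 0 := by
  unfold v1
  ring

theorem Pk_Wc {E' : Ex3} (hE' : BExp E' Simp) (k : ℕ) : Pk E' k Wc = (E' Wc) ^ k := by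
  rw [Wc_eq_chi]
  exact Pk_chi hE' exps_c k

theorem Pk_wP2 {E' : Ex3} (hE' : BExp E' Simp) (k : ℕ) :
    Pk E' k wP2 = (k : ℝ) * (E' Wc) ^ (k - 1) * E' wP2 := by
  induction k with
  | zero =>
    show wP2 (1 / 3) (1 / 3) (1 / 3) = _
    unfold wP2
    rw [v1_centre]
    simp
  | succ k ih =>
    show bprod (Pk E' k) E' wP2 = _
    rw [bprod_wP2 (Pk_bexp hE' k) hE', ih, Pk_Wc hE']
    rcases k with _ | k
    · simp
    · simp only [Nat.add_sub_cancel]
      push_cast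
      ring

theorem Pk_wP3 {E' : Ex3} (hE' : BExp E' Simp) (k : ℕ) :
    Pk E' k wP3 = (k : ℝ) * (E' Wc) ^ (k - 1) * E' wP3 := by
  induction k with
  | zero =>
    show wP3 (1 / 3) (1 / 3) (1 / 3) = _
    unfold wP3
    rw [v1_centre]
    simp
  | succ k ih =>
    show bprod (Pk E' k) E' wP3 = _
    rw [bprod_wP3 (Pk_bexp hE' k) hE', ih, Pk_Wc hE']
    rcases k with _ | k
    · simp
    · simp only [Nat.add_sub_cancel]
      push_cast
      ring

/-- the derivative of the generating function -/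
noncomputable def genD (p : ℕ → ℝ) (K : ℝ) : ℝ := ∑' k, p k * ((k : ℝ) * K ^ (k - 1))

theorem genD_poisson (d K : ℝ) : genD (poissonLaw d) K = d * Real.exp (- (d * (1 - K))) := by
  unfold genD
  have h := (NormedSpace.expSeries_div_hasSum_exp (d * K)).mul_left (d * Real.exp (-d))
  rw [← Real.exp_eq_exp_ℝ] at h
  have e : (fun k : ℕ => poissonLaw d (k + 1) * (((k + 1 : ℕ) : ℝ) * K ^ (k + 1 - 1)))
      = fun k : ℕ => d * Real.exp (-d) * ((d * K) ^ k / (k.factorial : ℝ)) := by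
    funext k
    unfold poissonLaw
    rw [Nat.factorial_succ, mul_pow]
    simp only [Nat.add_sub_cancel]
    have hf : ((k.factorial : ℕ) : ℝ) ≠ 0 := by exact_mod_cast Nat.factorial_ne_zero k
    have hk : ((k : ℝ) + 1) ≠ 0 := by positivity
    push_cast
    field_simp
    ring
  have h2 : HasSum (fun k : ℕ => poissonLaw d (k + 1) * (((k + 1 : ℕ) : ℝ) * K ^ (k + 1 - 1)))
      (d * Real.exp (-d) * Real.exp (d * K)) := by
    rw [e]
    exact h
  have h3 := (hasSum_nat_add_iff' (f := fun k : ℕ => poissonLaw d k * ((k : ℝ) * K ^ (k - 1))) 1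
    (g := d * Real.exp (-d) * Real.exp (d * K))).1 (by simpa using h2)
  rw [h3.tsum_eq, mul_assoc, ← Real.exp_add]
  congr 2
  ring

section Tree

variable {p : ℕ → ℝ} {lam : ℝ}

/-- the recursion of the central character -/
theorem gwEx_Wc (hp0 : ∀ k, 0 ≤ p k) (hp1 : HasSum p 1) (hl : Adm lam) (n : ℕ) :
    gwEx p lam (n + 1) Wc = genJ p (chan lam (gwEx p lam n) Wc) := by
  rw [Wc_eq_chi]
  exact gwEx_chi hp0 hp1 hl n exps_c

/-- the recursion of the second atom -/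
theorem gwEx_wP2 (hp0 : ∀ k, 0 ≤ p k) (hp1 : HasSum p 1) (hl : Adm lam) (n : ℕ) :
    gwEx p lam (n + 1) wP2 =
      genD p (chan lam (gwEx p lam n) Wc) * chan lam (gwEx p lam n) wP2 := by
  show mix p (fun k => Pk (chan lam (gwEx p lam n)) k) wP2 = _
  unfold mix genD
  rw [← tsum_mul_right]
  refine tsum_congr (fun k => ?_)
  dsimp only
  rw [Pk_wP2 (chan_bexp (gwEx_bexp hp0 hp1 hl n) hl) k]
  ring

/-- the recursion of the third atom -/
theorem gwEx_wP3 (hp0 : ∀ k, 0 ≤ p k) (hp1 : HasSum p 1) (hl : Adm lam) (n : ℕ) :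
    gwEx p lam (n + 1) wP3 =
      genD p (chan lam (gwEx p lam n) Wc) * chan lam (gwEx p lam n) wP3 := by
  show mix p (fun k => Pk (chan lam (gwEx p lam n)) k) wP3 = _
  unfold mix genD
  rw [← tsum_mul_right]
  refine tsum_congr (fun k => ?_)
  dsimp only
  rw [Pk_wP3 (chan_bexp (gwEx_bexp hp0 hp1 hl n) hl) k]
  ring

end Tree

/-- the value of the exponent on the Poisson tree -/
noncomputable def Aat (d : ℝ) (E : Ex3) (lam : ℝ) : ℝ := d * (1 - chan lam E Wc)

theorem poisson_Wc {d lam : ℝ} (hd : 0 ≤ d) (hl : Adm lam) (n : ℕ) :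
    gwEx (poissonLaw d) lam (n + 1) Wc = Real.exp (- Aat d (gwEx (poissonLaw d) lam n) lam) := by
  rw [gwEx_Wc (poisson_nonneg hd) (poisson_hasSum d) hl, genJ_poisson]
  rfl

theorem poisson_wP2 {d lam : ℝ} (hd : 0 ≤ d) (hl : Adm lam) (n : ℕ) :
    gwEx (poissonLaw d) lam (n + 1) wP2 = Real.exp (- Aat d (gwEx (poissonLaw d) lam n) lam) *
      (d * chan lam (gwEx (poissonLaw d) lam n) wP2) := by
  rw [gwEx_wP2 (poisson_nonneg hd) (poisson_hasSum d) hl, genD_poisson]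
  unfold Aat
  ring

theorem poisson_wP3 {d lam : ℝ} (hd : 0 ≤ d) (hl : Adm lam) (n : ℕ) :
    gwEx (poissonLaw d) lam (n + 1) wP3 = Real.exp (- Aat d (gwEx (poissonLaw d) lam n) lam) *
      (d * chan lam (gwEx (poissonLaw d) lam n) wP3) := by
  rw [gwEx_wP3 (poisson_nonneg hd) (poisson_hasSum d) hl, genD_poisson]
  unfold Aat
  ring

end Vale.Agent.Lib.P154.Neg
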