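import Vale.Agent.Lib.P154.Neg.Char

/-!
The Lyapunov functional from characters: an abstract step.

The functional is `a V_A + b V_C - c V_D`, where `V = 1 - chi`. Each `V` obeys a closed
recursion, through the generating function of the offspring law. The positive atoms are bounded by
tangent lines, the negative atom by the lower bound of the generating function, with a multiplier.
-/

namespace Vale.Agent.Lib.P154.Neg

open Filter Topology

/-- the upper truncation of `1 - (1 - w * e) ^ (1 / e)`, in powers of `w` -/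
noncomputable def Gu (e w : ℝ) : ℝ :=
  w - (1 - e) / 2 * w ^ 2 + (1 - e) * (1 - 2 * e) / 6 * w ^ 3
    - (1 - e) * (1 - 2 * e) * (1 - 3 * e) / 24 * w ^ 4
    + (1 - e) * (1 - 2 * e) * (1 - 3 * e) * (1 - 4 * e) / 120 * w ^ 5

/-- the lower truncation -/
noncomputable def Gl (e w : ℝ) : ℝ :=
  Gu e w - (1 - e) * (1 - 2 * e) * (1 - 3 * e) * (1 - 4 * e) * (1 - 5 * e) / 720 * w ^ 6

/-- the derivative of the upper truncation -/
noncomputable def Gd (e w : ℝ) : ℝ :=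
  1 - (1 - e) * w + (1 - e) * (1 - 2 * e) / 2 * w ^ 2
    - (1 - e) * (1 - 2 * e) * (1 - 3 * e) / 6 * w ^ 3
    + (1 - e) * (1 - 2 * e) * (1 - 3 * e) * (1 - 4 * e) / 24 * w ^ 4

/-- the function `1 - chi` -/
noncomputable def vv (α β γ : ℝ) : Fn3 := fun a b c => 1 - chi α β γ a b c

theorem bd_vv {α β γ : ℝ} (h : Exps α β γ) : Bd (vv α β γ) :=
  (Bd.const 1).sub (bd_chi h)

/-- the recursion for `1 - chi` -/
theorem gwEx_vv {p : ℕ → ℝ} (hp0 : ∀ k, 0 ≤ p k) (hp1 : HasSum p 1) {lam : ℝ} (hl : Adm lam) (n : ℕ)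
    {α β γ : ℝ} (h : Exps α β γ) :
    gwEx p lam (n + 1) (vv α β γ)
      = 1 - genJ p (1 - chan lam (gwEx p lam n) (vv α β γ)) := by
  have hE := gwEx_bexp hp0 hp1 hl (n + 1)
  have hE' := chan_bexp (gwEx_bexp hp0 hp1 hl n) hl
  have h1 : gwEx p lam (n + 1) (vv α β γ) = 1 - gwEx p lam (n + 1) (chi α β γ) := by
    have := hE.sub (Bd.const 1) (bd_chi h)
    rw [hE.one] at this
    exact this
  have h2 : chan lam (gwEx p lam n) (vv α β γ) = 1 - chan lam (gwEx p lam n) (chi α β γ) := by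
    have := hE'.sub (Bd.const 1) (bd_chi h)
    rw [hE'.one] at this
    exact this
  rw [h1, h2, gwEx_chi hp0 hp1 hl n h]
  congr 2
  ring

/-- the data of the Lyapunov functional and the inequalities to be certified -/
structure LyapData where
  /-- exponents of the first positive atom -/
  e1 : ℝ × ℝ × ℝ
  /-- exponents of the second positive atom -/
  e2 : ℝ × ℝ × ℝ
  /-- exponents of the negative atom -/
  e3 : ℝ × ℝ × ℝ
  a : ℝ
  b : ℝ
  c : ℝ
  r1 : ℝ
  r2 : ℝ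
  /-- the multiplier -/
  M : ℝ → ℝ → ℝ
  /-- the margin -/
  g : ℝ
  /-- the bound for `theta` -/
  thm : ℝ
  /-- the range of `t` -/
  t1 : ℝ
  t2 : ℝ

namespace LyapData

variable (D : LyapData)

/-- first positive atom -/
noncomputable def V1 : Fn3 := vv D.e1.1 D.e1.2.1 D.e1.2.2
/-- second positive atom -/
noncomputable def V2 : Fn3 := vv D.e2.1 D.e2.2.1 D.e2.2.2
/-- negative atom -/
noncomputable def V3 : Fn3 := vv D.e3.1 D.e3.2.1 D.e3.2.2

/-- the Lyapunov function -/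
noncomputable def psi : Fn3 := fun x y z => D.a * D.V1 x y z + D.b * D.V2 x y z - D.c * D.V3 x y z

/-- the constant of the row -/
noncomputable def K0 (th e : ℝ) : ℝ :=
  D.a * (Gd e (D.r1 * th) * (D.r1 * th) - Gu e (D.r1 * th))
    + D.b * (Gd e (D.r2 * th) * (D.r2 * th) - Gu e (D.r2 * th))
    + D.c * Gl e th - D.M th e * th

/-- the row, without the channel -/
noncomputable def bRow (th e : ℝ) (y1 y2 y3 : ℝ) : ℝ :=
  D.a * Gd e (D.r1 * th) * D.V1 y1 y2 y3 + D.b * Gd e (D.r2 * th) * D.V2 y1 y2 y3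
    - D.M th e * D.V3 y1 y2 y3

/-- the inequalities to be certified -/
structure Good : Prop where
  x1 : Exps D.e1.1 D.e1.2.1 D.e1.2.2
  x2 : Exps D.e2.1 D.e2.2.1 D.e2.2.2
  x3 : Exps D.e3.1 D.e3.2.1 D.e3.2.2
  ha : 0 ≤ D.a
  hb : 0 ≤ D.b
  hc : 0 ≤ D.c
  hg : 0 < D.g
  hr1 : 0 ≤ D.r1
  hr2 : 0 ≤ D.r2
  ht2 : D.t2 ≤ 1 / 2
  /-- the functional is bounded below -/
  psi_nonneg : ∀ x y z, Simp x y z → 0 ≤ D.psi x y z
  /-- the row with no weight -/
  k0 : ∀ th e, 0 ≤ th → th ≤ D.thm → 0 ≤ e → e ≤ 1 / 2 → D.g * th ^ 2 ≤ D.K0 th e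
  /-- the main row -/
  row : ∀ x y z, Simp x y z → ∀ t, 0 < t → D.t1 ≤ t → t ≤ D.t2 → ∀ th e, 0 ≤ th → th ≤ D.thm → 0 ≤ e →
    e ≤ 1 / 2 →
    D.g * th ^ 2 ≤ D.psi x y z
      - D.bRow th e (chanPt (-t) x) (chanPt (-t) y) (chanPt (-t) z) / t ^ 2 + D.K0 th e
  /-- the tangent lines -/
  tan : ∀ e w v, 0 ≤ e → e ≤ 1 / 2 → 0 ≤ w → w ≤ D.thm → 0 ≤ v → v ≤ D.thm →
    Gu e w ≤ Gu e v + Gd e v * (w - v)
  /-- the points of tangency -/
  r1_le : ∀ th, 0 ≤ th → th ≤ D.thm → D.r1 * th ≤ D.thm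
  r2_le : ∀ th, 0 ≤ th → th ≤ D.thm → D.r2 * th ≤ D.thm
  /-- the atoms are dominated by the negative atom -/
  v13 : ∀ x y z, Simp x y z → D.V1 x y z ≤ D.V3 x y z
  v23 : ∀ x y z, Simp x y z → D.V2 x y z ≤ D.V3 x y z
  /-- positivity of the atoms -/
  v1_nn : ∀ x y z, Simp x y z → 0 ≤ D.V1 x y z
  v2_nn : ∀ x y z, Simp x y z → 0 ≤ D.V2 x y z
  /-- the size of the negative atom -/
  v3_le : ∀ x y z, Simp x y z → ∀ t, 0 < t → D.t1 ≤ t → t ≤ D.t2 →
    D.V3 (chanPt (-t) x) (chanPt (-t) y) (chanPt (-t) z) ≤ D.thm * t ^ 2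
  /-- the negative atom controls the second moment -/
  v3_ge : ∀ x y z, Simp x y z → ∀ t, 0 < t → D.t1 ≤ t → t ≤ D.t2 →
    t ^ 2 * I2 x y z ≤ D.V3 (chanPt (-t) x) (chanPt (-t) y) (chanPt (-t) z)

end LyapData

/-- the properties of the offspring law -/
structure Model (p : ℕ → ℝ) (d e : ℝ) : Prop where
  hp0 : ∀ k, 0 ≤ p k
  hp1 : HasSum p 1
  hd : 0 < d
  he0 : 0 ≤ e
  he1 : e ≤ 1 / 2
  up : ∀ u, 0 ≤ u → u ≤ 1 → 1 - genJ p (1 - u) ≤ Gu e (d * u)
  lo : ∀ u, 0 ≤ u → u ≤ 1 → Gl e (d * u) ≤ 1 - genJ p (1 - u)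

theorem tendsto_zero_of_step {L th : ℕ → ℝ} {g : ℝ} (hg : 0 < g) (hL : ∀ n, 0 ≤ L n)
    (hth : ∀ n, 0 ≤ th n) (hs : ∀ n, g * (th n) ^ 2 ≤ L n - L (n + 1)) :
    Tendsto th atTop (𝓝 0) := by
  have hsum : ∀ N, ∑ n ∈ Finset.range N, g * (th n) ^ 2 ≤ L 0 := by
    intro N
    have : ∑ n ∈ Finset.range N, g * (th n) ^ 2 ≤ L 0 - L N := by
      induction N with
      | zero => simp
      | succ N ih =>
        rw [Finset.sum_range_succ]
        have := hs N
        linarith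
    have := hL N
    linarith
  have hsm : Summable (fun n => g * (th n) ^ 2) :=
    summable_of_sum_range_le (fun n => by positivity) hsum
  have h0 := hsm.tendsto_atTop_zero
  have h1 : Tendsto (fun n => (th n) ^ 2) atTop (𝓝 0) := by
    have := h0.const_mul (1 / g)
    simp only [mul_zero] at this
    refine this.congr (fun n => ?_)
    field_simp
  have h2 : Tendsto (fun n => Real.sqrt ((th n) ^ 2)) atTop (𝓝 (Real.sqrt 0)) :=
    (Real.continuous_sqrt.tendsto 0).comp h1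
  rw [Real.sqrt_zero] at h2
  refine h2.congr (fun n => ?_)
  exact Real.sqrt_sq (hth n)

section main

/-- the pointwise inequality with the weight -/
theorem interp_row {P B K G d t : ℝ} (hd : 0 < d) (ht : 0 < t) (hKS : d * t ^ 2 ≤ 1) (hk0 : G ≤ K)
    (hp : 0 ≤ P) (hr : G ≤ P - B / t ^ 2 + K) : 0 ≤ P - d * B + K - G := by
  have ht20 : 0 < t ^ 2 := by positivity
  have eta0 : 0 ≤ d * t ^ 2 := by positivity
  have e1 : d * B = (d * t ^ 2) * (B / t ^ 2) := by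
    field_simp
  rw [e1]
  have h5 : 0 ≤ (1 - d * t ^ 2) * (P + K - G) := mul_nonneg (by linarith) (by linarith)
  have h6 : 0 ≤ (d * t ^ 2) * (P - B / t ^ 2 + K - G) := mul_nonneg eta0 (by linarith)
  nlinarith

/-- the final algebra of the step -/
theorem alg_final {g th P a b c s1 s2 M w1 w2 v1 v2 G1 G2 G3 F1 F2 F3 : ℝ}
    (hint : 0 ≤ P - (a * (s1 * v1) + b * (s2 * v2) - M * th)
      + (a * (s1 * w1 - G1) + b * (s2 * w2 - G2) + c * G3 - M * th) - g)
    (h7 : a * F1 ≤ a * (G1 + s1 * (v1 - w1))) (h8 : b * F2 ≤ b * (G2 + s2 * (v2 - w2)))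
    (h9 : c * G3 ≤ c * F3) : g ≤ P - (a * F1 + b * F2 - c * F3) := by
  have e1 : a * (G1 + s1 * (v1 - w1)) = a * G1 + a * (s1 * v1) - a * (s1 * w1) := by ring
  have e2 : b * (G2 + s2 * (v2 - w2)) = b * G2 + b * (s2 * v2) - b * (s2 * w2) := by ring
  have e3 : a * (s1 * w1 - G1) = a * (s1 * w1) - a * G1 := by ring
  have e4 : b * (s2 * w2 - G2) = b * (s2 * w2) - b * G2 := by ring
  rw [e1] at h7
  rw [e2] at h8
  rw [e3, e4] at hint
  linarith

variable {D : LyapData} (hD : D.Good)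
include hD

theorem main_step {E : Ex3} (hE : BExp E Simp) {d e t : ℝ} (hd : 0 < d) (he0 : 0 ≤ e)
    (he1 : e ≤ 1 / 2) (ht0 : 0 < t) (ht1 : D.t1 ≤ t) (ht2 : t ≤ D.t2) (hKS : d * t ^ 2 ≤ 1)
    (hl : Adm (-t)) {u1 u2 u3 F1 F2 F3 : ℝ}
    (h1 : u1 = chan (-t) E D.V1) (h2 : u2 = chan (-t) E D.V2) (h3 : u3 = chan (-t) E D.V3)
    (hF1 : F1 ≤ Gu e (d * u1)) (hF2 : F2 ≤ Gu e (d * u2)) (hF3 : Gl e (d * u3) ≤ F3) :
    D.g * (d * u3) ^ 2 ≤ E D.psi - (D.a * F1 + D.b * F2 - D.c * F3) := by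
  have hE' := chan_bexp hE hl
  have b1 : Bd D.V1 := bd_vv hD.x1
  have b2 : Bd D.V2 := bd_vv hD.x2
  have b3 : Bd D.V3 := bd_vv hD.x3
  have ht20 : 0 < t ^ 2 := by positivity
  -- ranges
  have v13' : chan (-t) E D.V1 ≤ chan (-t) E D.V3 :=
    hE'.mono b1 b3 (fun x y z h => hD.v13 x y z h)
  have v23' : chan (-t) E D.V2 ≤ chan (-t) E D.V3 :=
    hE'.mono b2 b3 (fun x y z h => hD.v23 x y z h)
  have v1nn : 0 ≤ chan (-t) E D.V1 := hE'.nonneg _ (fun x y z h => hD.v1_nn x y z h)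
  have v2nn : 0 ≤ chan (-t) E D.V2 := hE'.nonneg _ (fun x y z h => hD.v2_nn x y z h)
  have u3le : u3 ≤ D.thm * t ^ 2 := by
    rw [h3]
    have := hE.mono (f := fun x y z => D.V3 (chanPt (-t) x) (chanPt (-t) y) (chanPt (-t) z))
      (g := fun _ _ _ => D.thm * t ^ 2) (bd_chan hl b3) (Bd.const _)
      (fun x y z h => hD.v3_le x y z h t ht0 ht1 ht2)
    rwa [hE.const] at this
  have u1nn : 0 ≤ u1 := h1 ▸ v1nn
  have u2nn : 0 ≤ u2 := h2 ▸ v2nn
  have u13 : u1 ≤ u3 := by rw [h1, h3]; exact v13'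
  have u23 : u2 ≤ u3 := by rw [h2, h3]; exact v23'
  have u3nn : 0 ≤ u3 := u1nn.trans u13
  obtain ⟨th, hth⟩ : ∃ th, th = d * u3 := ⟨_, rfl⟩
  rw [← hth]
  rw [← hth] at hF3
  have hth0 : 0 ≤ th := by rw [hth]; positivity
  have hthm0 : 0 ≤ D.thm := by
    by_contra hneg
    push Not at hneg
    have : D.thm * t ^ 2 < 0 := mul_neg_of_neg_of_pos hneg ht20
    linarith
  have hthm : th ≤ D.thm := by
    rw [hth]
    calc d * u3 ≤ d * (D.thm * t ^ 2) := mul_le_mul_of_nonneg_left u3le hd.le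
      _ = D.thm * (d * t ^ 2) := by ring
      _ ≤ D.thm * 1 := mul_le_mul_of_nonneg_left hKS hthm0
      _ = D.thm := mul_one _
  have w1 : d * u1 ≤ th := by rw [hth]; exact mul_le_mul_of_nonneg_left u13 hd.le
  have w2 : d * u2 ≤ th := by rw [hth]; exact mul_le_mul_of_nonneg_left u23 hd.le
  have w10 : 0 ≤ d * u1 := by positivity
  have w20 : 0 ≤ d * u2 := by positivity
  -- tangent lines
  have r10 : 0 ≤ D.r1 * th := mul_nonneg hD.hr1 hth0
  have r20 : 0 ≤ D.r2 * th := mul_nonneg hD.hr2 hth0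
  have t1 := hD.tan e (d * u1) (D.r1 * th) he0 he1 w10 (w1.trans hthm) r10 (hD.r1_le th hth0 hthm)
  have t2 := hD.tan e (d * u2) (D.r2 * th) he0 he1 w20 (w2.trans hthm) r20 (hD.r2_le th hth0 hthm)
  -- the pointwise inequality
  have hk0 := hD.k0 th e hth0 hthm he0 he1
  have hpt : ∀ x y z, Simp x y z → 0 ≤ D.psi x y z
      - d * D.bRow th e (chanPt (-t) x) (chanPt (-t) y) (chanPt (-t) z) + D.K0 th e
        - D.g * th ^ 2 := by
    intro x y z hxyz
    exact interp_row hd ht0 hKS hk0 (hD.psi_nonneg x y z hxyz)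
      (hD.row x y z hxyz t ht0 ht1 ht2 th e hth0 hthm he0 he1)
  -- integrate
  have bB0 : Bd (fun x y z => D.bRow th e x y z) :=
    ((Bd.smul _ b1).add (Bd.smul _ b2)).sub (Bd.smul _ b3)
  have bB : Bd (fun x y z => D.bRow th e (chanPt (-t) x) (chanPt (-t) y) (chanPt (-t) z)) :=
    bd_chan hl bB0
  have bpsi : Bd D.psi := ((Bd.smul _ b1).add (Bd.smul _ b2)).sub (Bd.smul _ b3)
  have hint := hE.nonneg _ (fun x y z h => hpt x y z h)
  have hc1 : Bd (fun x y z => D.psi x y z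
      - d * D.bRow th e (chanPt (-t) x) (chanPt (-t) y) (chanPt (-t) z)) :=
    bpsi.sub (Bd.smul _ bB)
  have hc2 : Bd (fun x y z => D.psi x y z
      - d * D.bRow th e (chanPt (-t) x) (chanPt (-t) y) (chanPt (-t) z) + D.K0 th e) :=
    hc1.add (Bd.const _)
  rw [hE.sub hc2 (Bd.const _), hE.add _ _ hc1 (Bd.const _), hE.sub bpsi (Bd.smul _ bB), hE.smul,
    hE.const, hE.const] at hint
  have hE2 : E (fun x y z => D.bRow th e (chanPt (-t) x) (chanPt (-t) y) (chanPt (-t) z))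
      = D.a * Gd e (D.r1 * th) * u1 + D.b * Gd e (D.r2 * th) * u2 - D.M th e * u3 := by
    have c1 : chan (-t) E (fun x y z => D.bRow th e x y z)
        = E (fun x y z => D.bRow th e (chanPt (-t) x) (chanPt (-t) y) (chanPt (-t) z)) := rfl
    rw [← c1]
    have c2 : chan (-t) E (fun x y z => D.bRow th e x y z)
        = chan (-t) E (fun x y z => D.a * Gd e (D.r1 * th) * D.V1 x y z
            + D.b * Gd e (D.r2 * th) * D.V2 x y z - D.M th e * D.V3 x y z) := rfl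
    rw [c2, hE'.sub ((Bd.smul _ b1).add (Bd.smul _ b2)) (Bd.smul _ b3),
      hE'.add _ _ (Bd.smul _ b1) (Bd.smul _ b2), hE'.smul, hE'.smul, hE'.smul, ← h1, ← h2, ← h3]
  rw [hE2] at hint
  have e2 : d * (D.a * Gd e (D.r1 * th) * u1 + D.b * Gd e (D.r2 * th) * u2 - D.M th e * u3)
      = D.a * (Gd e (D.r1 * th) * (d * u1)) + D.b * (Gd e (D.r2 * th) * (d * u2))
        - D.M th e * th := by
    rw [hth]
    ring
  rw [e2] at hint
  exact alg_final (w1 := D.r1 * th) (w2 := D.r2 * th) (G1 := Gu e (D.r1 * th))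
    (G2 := Gu e (D.r2 * th)) (G3 := Gl e th) (s1 := Gd e (D.r1 * th)) (s2 := Gd e (D.r2 * th))
    (M := D.M th e) (th := th) (v1 := d * u1) (v2 := d * u2) hint
    (mul_le_mul_of_nonneg_left (hF1.trans t1) hD.ha)
    (mul_le_mul_of_nonneg_left (hF2.trans t2) hD.hb)
    (mul_le_mul_of_nonneg_left hF3 hD.hc)

/-- the main abstract theorem -/
theorem main_tendsto {p : ℕ → ℝ} {d e t : ℝ} (hm : Model p d e) (ht0 : 0 < t) (ht1 : D.t1 ≤ t)
    (ht2 : t ≤ D.t2) (hKS : d * t ^ 2 ≤ 1) : Tendsto (fun n => gwEx p (-t) n I2) atTop (𝓝 0) := by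
  have ht12 : t ≤ 1 / 2 := ht2.trans hD.ht2
  have hl : Adm (-t) := ⟨by linarith, by linarith⟩
  have hE := gwEx_bexp hm.hp0 hm.hp1 hl
  have hd := hm.hd
  have b1 : Bd D.V1 := bd_vv hD.x1
  have b2 : Bd D.V2 := bd_vv hD.x2
  have b3 : Bd D.V3 := bd_vv hD.x3
  set u3 : ℕ → ℝ := fun n => chan (-t) (gwEx p (-t) n) D.V3 with hu3
  -- the ranges of `u`
  have hr : ∀ {F : Fn3}, Bd F → (∀ x y z, Simp x y z → 0 ≤ F x y z) →
      (∀ x y z, Simp x y z → F x y z ≤ 1) → ∀ n, 0 ≤ chan (-t) (gwEx p (-t) n) F ∧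
        chan (-t) (gwEx p (-t) n) F ≤ 1 := by
    intro F hF h0 h1 n
    have hE' := chan_bexp (hE n) hl
    refine ⟨hE'.nonneg _ (fun x y z h => h0 x y z h), ?_⟩
    have := hE'.mono (f := F) (g := fun _ _ _ => 1) hF (Bd.const 1) (fun x y z h => h1 x y z h)
    rwa [hE'.const] at this
  have chi_nn : ∀ {α β γ : ℝ}, Exps α β γ → ∀ x y z, Simp x y z → 0 ≤ chi α β γ x y z := by
    intro α β γ h x y z hs
    unfold chi
    have a1 := (mono_unit h hs).1
    have a2 := (mono_unit h (simp_cyc hs)).1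
    have a3 := (mono_unit h (simp_cyc (simp_cyc hs))).1
    have a4 := (mono_unit h (simp_swap hs)).1
    have a5 := (mono_unit h (simp_cyc (simp_swap hs))).1
    have a6 := (mono_unit h (simp_cyc (simp_cyc (simp_swap hs)))).1
    -- the six monomials
    have : 0 ≤ mono α β γ x z y := by
      unfold mono
      have := hs.ha
      have := hs.hb
      have := hs.hc
      positivity
    have : 0 ≤ mono α β γ z y x := by
      unfold mono
      have := hs.ha
      have := hs.hb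
      have := hs.hc
      positivity
    have : 0 ≤ mono α β γ y x z := by
      unfold mono
      have := hs.ha
      have := hs.hb
      have := hs.hc
      positivity
    positivity
  have hle1 : ∀ {α β γ : ℝ}, Exps α β γ → ∀ x y z, Simp x y z → vv α β γ x y z ≤ 1 := by
    intro α β γ h x y z hs
    have := chi_nn h x y z hs
    unfold vv
    linarith
  have hu1r := hr b1 hD.v1_nn (fun x y z h => hle1 hD.x1 x y z h)
  have hu2r := hr b2 hD.v2_nn (fun x y z h => hle1 hD.x2 x y z h)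
  have hu3r := hr b3 (fun x y z h => (hD.v1_nn x y z h).trans (hD.v13 x y z h))
    (fun x y z h => hle1 hD.x3 x y z h)
  -- the step
  have hstep : ∀ n, D.g * (d * u3 n) ^ 2
      ≤ gwEx p (-t) n D.psi - gwEx p (-t) (n + 1) D.psi := by
    intro n
    have e1 : gwEx p (-t) (n + 1) D.psi = D.a * gwEx p (-t) (n + 1) D.V1
        + D.b * gwEx p (-t) (n + 1) D.V2 - D.c * gwEx p (-t) (n + 1) D.V3 := by
      unfold LyapData.psi
      rw [(hE (n + 1)).sub ((Bd.smul _ b1).add (Bd.smul _ b2)) (Bd.smul _ b3),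
        (hE (n + 1)).add _ _ (Bd.smul _ b1) (Bd.smul _ b2), (hE (n + 1)).smul, (hE (n + 1)).smul,
        (hE (n + 1)).smul]
    rw [e1]
    refine main_step hD (hE n) hd hm.he0 hm.he1 ht0 ht1 ht2 hKS hl rfl rfl rfl ?_ ?_ ?_
    · have : gwEx p (-t) (n + 1) D.V1 = _ := gwEx_vv hm.hp0 hm.hp1 hl n hD.x1
      rw [this]
      exact hm.up _ (hu1r n).1 (hu1r n).2
    · have : gwEx p (-t) (n + 1) D.V2 = _ := gwEx_vv hm.hp0 hm.hp1 hl n hD.x2
      rw [this]
      exact hm.up _ (hu2r n).1 (hu2r n).2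
    · have : gwEx p (-t) (n + 1) D.V3 = _ := gwEx_vv hm.hp0 hm.hp1 hl n hD.x3
      rw [this]
      exact hm.lo _ (hu3r n).1 (hu3r n).2
  have hL : ∀ n, 0 ≤ gwEx p (-t) n D.psi := fun n =>
    (hE n).nonneg _ (fun x y z h => hD.psi_nonneg x y z h)
  have hth : Tendsto (fun n => d * u3 n) atTop (𝓝 0) :=
    tendsto_zero_of_step hD.hg hL (fun n => mul_nonneg hd.le (hu3r n).1) hstep
  -- from the negative atom to the second moment
  have hI : ∀ n, gwEx p (-t) n I2 ≤ 1 / (d * t ^ 2) * (d * u3 n) := by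
    intro n
    have hm1 : t ^ 2 * gwEx p (-t) n I2 ≤ u3 n := by
      have := (hE n).mono (f := fun x y z => t ^ 2 * I2 x y z)
        (g := fun x y z => D.V3 (chanPt (-t) x) (chanPt (-t) y) (chanPt (-t) z))
        (Bd.smul _ bd_I2) (bd_chan hl b3) (fun x y z h => hD.v3_ge x y z h t ht0 ht1 ht2)
      rw [(hE n).smul] at this
      exact this
    have e : 1 / (d * t ^ 2) * (d * u3 n) = u3 n / t ^ 2 := by
      field_simp
    rw [e, le_div_iff₀ (by positivity)]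
    linarith
  have hlim : Tendsto (fun n => 1 / (d * t ^ 2) * (d * u3 n)) atTop (𝓝 0) := by
    have := hth.const_mul (1 / (d * t ^ 2))
    simpa using this
  exact squeeze_zero (fun n => I2_mean_nonneg (hE n)) hI hlim

end main

end Vale.Agent.Lib.P154.Neg
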