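import Vale.Agent.Lib.P154.Neg.DerivAtoms
import Vale.Agent.Lib.P154.Neg.Lyap

/-!
The abstract step of the potential with derivative atoms: for a fixed value of the exponent `A` the drift is
linear in the law, so a pointwise family with a multiplier for the constraint on `A` bounds it.
-/

namespace Vale.Agent.Lib.P154.Neg

open Filter Topology

/-- the derivative part of the potential -/
noncomputable def phiD (c2 c3 : ℝ) : Fn3 := fun a b c => c2 * wP2 a b c + c3 * wP3 a b c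

/-- the potential -/
noncomputable def PhiD (c0 c2 c3 : ℝ) : Fn3 := fun a b c =>
  c0 * (1 - Wc a b c) + c2 * wP2 a b c + c3 * wP3 a b c

theorem bd_phiD (c2 c3 : ℝ) : Bd (phiD c2 c3) := (Bd.smul c2 bd_wP2).add (Bd.smul c3 bd_wP3)

theorem bd_PhiD (c0 c2 c3 : ℝ) : Bd (PhiD c0 c2 c3) :=
  ((Bd.smul c0 ((Bd.const 1).sub bd_Wc)).add (Bd.smul c2 bd_wP2)).add (Bd.smul c3 bd_wP3)

/-- the central character is at most one on the simplex -/
theorem Wc_le_one {a b c : ℝ} (hs : Simp a b c) : Wc a b c ≤ 1 := by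
  have h := Real.geom_mean_le_arith_mean3_weighted (w₁ := 1 / 3) (w₂ := 1 / 3) (w₃ := 1 / 3)
    (by norm_num) (by norm_num) (by norm_num) hs.ha hs.hb hs.hc (by norm_num)
  unfold Wc mc mono
  have := hs.hs
  linarith

theorem Wc_nonneg {a b c : ℝ} (hs : Simp a b c) : 0 ≤ Wc a b c := by
  obtain ⟨m0, _⟩ := mono_unit exps_c hs
  unfold Wc mc
  linarith

/-- the second moment is bounded by the defect of the central character -/
theorem I2_le_Wc {a b c : ℝ} (hs : Simp a b c) : I2 a b c ≤ 8 / 3 * (1 - Wc a b c) := by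
  have cube : ∀ u : ℝ, 0 ≤ u → (u ^ ((1 : ℝ) / 3)) ^ 3 = u := by
    intro u hu
    rw [← Real.rpow_natCast, ← Real.rpow_mul hu]
    norm_num
  obtain ⟨x, hx0, hx⟩ : ∃ x : ℝ, 0 ≤ x ∧ x ^ 3 = a :=
    ⟨a ^ ((1 : ℝ) / 3), Real.rpow_nonneg hs.ha _, cube a hs.ha⟩
  obtain ⟨y, hy0, hy⟩ : ∃ y : ℝ, 0 ≤ y ∧ y ^ 3 = b :=
    ⟨b ^ ((1 : ℝ) / 3), Real.rpow_nonneg hs.hb _, cube b hs.hb⟩
  obtain ⟨z, hz0, hz⟩ : ∃ z : ℝ, 0 ≤ z ∧ z ^ 3 = c :=
    ⟨c ^ ((1 : ℝ) / 3), Real.rpow_nonneg hs.hc _, cube c hs.hc⟩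
  have hW : Wc a b c = 3 * (x * y * z) := by
    have root : ∀ u : ℝ, 0 ≤ u → (u ^ 3) ^ ((1 : ℝ) / 3) = u := by
      intro u hu
      rw [← Real.rpow_natCast, ← Real.rpow_mul hu]
      norm_num
    unfold Wc mc mono
    rw [← hx, ← hy, ← hz, root x hx0, root y hy0, root z hz0]
  have hsum : x ^ 3 + y ^ 3 + z ^ 3 = 1 := by
    rw [hx, hy, hz]
    exact hs.hs
  have key : ∀ u v w : ℝ, 0 ≤ u → 0 ≤ v → 0 ≤ w → u ^ 3 + v ^ 3 + w ^ 3 = 1 →
      (u ^ 2 + u * v + v ^ 2) ^ 2 ≤ 4 * (u + v + w) := by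
    intro u v w hu hv hw h1
    have h2 : (u + v) ^ 3 ≤ 4 * (u ^ 3 + v ^ 3) := by
      nlinarith [mul_nonneg (add_nonneg hu hv) (sq_nonneg (u - v))]
    have h3 : (u + v) ^ 3 ≤ 4 := by
      have : 0 ≤ w ^ 3 := by positivity
      linarith
    have h4 : u ^ 2 + u * v + v ^ 2 ≤ (u + v) ^ 2 := by nlinarith [mul_nonneg hu hv]
    have h5 : 0 ≤ u ^ 2 + u * v + v ^ 2 := by positivity
    have h6 : (u ^ 2 + u * v + v ^ 2) ^ 2 ≤ ((u + v) ^ 2) ^ 2 := pow_le_pow_left₀ h5 h4 2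
    have h7 : ((u + v) ^ 2) ^ 2 = (u + v) * (u + v) ^ 3 := by ring
    have h8 : (u + v) * (u + v) ^ 3 ≤ (u + v) * 4 :=
      mul_le_mul_of_nonneg_left h3 (add_nonneg hu hv)
    linarith
  have k1 := key x y z hx0 hy0 hz0 hsum
  have k2 := key y z x hy0 hz0 hx0 (by linarith)
  have k3 := key z x y hz0 hx0 hy0 (by linarith)
  have e1 : (a - b) ^ 2 = (x - y) ^ 2 * (x ^ 2 + x * y + y ^ 2) ^ 2 := by rw [← hx, ← hy]; ring
  have e2 : (b - c) ^ 2 = (y - z) ^ 2 * (y ^ 2 + y * z + z ^ 2) ^ 2 := by rw [← hy, ← hz]; ring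
  have e3 : (c - a) ^ 2 = (z - x) ^ 2 * (z ^ 2 + z * x + x ^ 2) ^ 2 := by rw [← hz, ← hx]; ring
  have f1 := mul_le_mul_of_nonneg_left k1 (sq_nonneg (x - y))
  have f2 := mul_le_mul_of_nonneg_left k2 (sq_nonneg (y - z))
  have f3 := mul_le_mul_of_nonneg_left k3 (sq_nonneg (z - x))
  have hI : I2 a b c = ((a - b) ^ 2 + (b - c) ^ 2 + (c - a) ^ 2) / 3 := by
    have hs3 : c = 1 - a - b := by have := hs.hs; linarith
    unfold I2
    rw [hs3]
    ring
  have hW2 : 1 - Wc a b c = (x + y + z) * ((x - y) ^ 2 + (y - z) ^ 2 + (z - x) ^ 2) / 2 := by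
    rw [hW]
    linear_combination (-1 : ℝ) * hsum
  rw [hI, hW2, e1, e2, e3]
  have hR : 8 / 3 * ((x + y + z) * ((x - y) ^ 2 + (y - z) ^ 2 + (z - x) ^ 2) / 2)
      = ((x - y) ^ 2 * (4 * (x + y + z)) + (y - z) ^ 2 * (4 * (y + z + x))
        + (z - x) ^ 2 * (4 * (z + x + y))) / 3 := by ring
  rw [hR]
  gcongr

section Step

variable {d lam c0 c2 c3 : ℝ}

/-- the value of the potential at the next generation -/
theorem poisson_PhiD (hd : 0 ≤ d) (hl : Adm lam) (n : ℕ) :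
    gwEx (poissonLaw d) lam (n + 1) (PhiD c0 c2 c3) =
      c0 * (1 - Real.exp (- Aat d (gwEx (poissonLaw d) lam n) lam))
        + Real.exp (- Aat d (gwEx (poissonLaw d) lam n) lam)
          * (d * chan lam (gwEx (poissonLaw d) lam n) (phiD c2 c3)) := by
  have hE := gwEx_bexp (poisson_nonneg hd) (poisson_hasSum d) hl (n + 1)
  have hE0 := chan_bexp (gwEx_bexp (poisson_nonneg hd) (poisson_hasSum d) hl n) hl
  have b0 : Bd (fun a b c => c0 * (1 - Wc a b c)) := Bd.smul c0 ((Bd.const 1).sub bd_Wc)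
  have e : PhiD c0 c2 c3 = fun a b c => c0 * (1 - Wc a b c) + c2 * wP2 a b c + c3 * wP3 a b c := rfl
  rw [e, hE.add _ _ (b0.add (Bd.smul c2 bd_wP2)) (Bd.smul c3 bd_wP3),
    hE.add _ _ b0 (Bd.smul c2 bd_wP2), hE.smul, hE.smul, hE.smul,
    hE.sub (Bd.const 1) bd_Wc, hE.const, poisson_Wc hd hl, poisson_wP2 hd hl, poisson_wP3 hd hl]
  have e2 : chan lam (gwEx (poissonLaw d) lam n) (phiD c2 c3)
      = c2 * chan lam (gwEx (poissonLaw d) lam n) wP2 + c3 * chan lam (gwEx (poissonLaw d) lam n) wP3 := by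
    have e3 : phiD c2 c3 = fun a b c => c2 * wP2 a b c + c3 * wP3 a b c := rfl
    rw [e3, hE0.add _ _ (Bd.smul c2 bd_wP2) (Bd.smul c3 bd_wP3), hE0.smul, hE0.smul]
  rw [e2]
  ring

/-- the pointwise function of the family: `- R - h(A) d phi o T + mu (d (1 - W o T) - A)` with
`R = Phi - d Phi o T` and `h(A) = 1 - exp(-A)` -/
noncomputable def sFam (d lam c0 c2 c3 A mu : ℝ) : Fn3 := fun a b c =>
  - (PhiD c0 c2 c3 a b c
      - d * PhiD c0 c2 c3 (chanPt lam a) (chanPt lam b) (chanPt lam c))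
    - (1 - Real.exp (-A)) * (d * phiD c2 c3 (chanPt lam a) (chanPt lam b) (chanPt lam c))
    + mu * (d * (1 - Wc (chanPt lam a) (chanPt lam b) (chanPt lam c)) - A)

/-- One step: the drift of the potential is bounded by the pointwise family. -/
theorem drift_le {A mu mu0 : ℝ} (hd : 0 ≤ d) (hl : Adm lam) (n : ℕ)
    (hA : A = Aat d (gwEx (poissonLaw d) lam n) lam)
    (hS : ∀ a b c, Simp a b c → sFam d lam c0 c2 c3 A mu a b c ≤ mu0) :
    gwEx (poissonLaw d) lam (n + 1) (PhiD c0 c2 c3) - gwEx (poissonLaw d) lam n (PhiD c0 c2 c3)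
      ≤ mu0 - c0 * (Real.exp (-A) - 1 + A) := by
  have hE := gwEx_bexp (poisson_nonneg hd) (poisson_hasSum d) hl n
  set E := gwEx (poissonLaw d) lam n with hEdef
  have hS' : E (sFam d lam c0 c2 c3 A mu) ≤ mu0 := by
    have bS : Bd (sFam d lam c0 c2 c3 A mu) := by
      have b1 := (bd_PhiD c0 c2 c3)
      have b2 := Bd.smul d (bd_chan hl b1)
      have b3 := Bd.smul (1 - Real.exp (-A)) (Bd.smul d (bd_chan hl (bd_phiD c2 c3)))
      have b4 : Bd (fun a b c => mu * (d * (1 - Wc (chanPt lam a) (chanPt lam b) (chanPt lam c)) - A)) :=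
        Bd.smul mu ((Bd.smul d ((Bd.const 1).sub (bd_chan hl bd_Wc))).sub (Bd.const A))
      obtain ⟨C, hC⟩ := (((b1.neg.add b2)).sub b3).add b4
      refine ⟨C, fun a b c hs => ?_⟩
      have := hC a b c hs
      unfold sFam
      convert this using 3
      ring
    have := hE.mono (f := sFam d lam c0 c2 c3 A mu) (g := fun _ _ _ => mu0) bS (Bd.const mu0)
      (fun a b c hK => hS a b c hK)
    rwa [hE.const] at this
  -- compute the mean of the family
  have hmean : E (sFam d lam c0 c2 c3 A mu) = - E (PhiD c0 c2 c3) + c0 * A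
      + Real.exp (-A) * (d * chan lam E (phiD c2 c3)) := by
    have b1 := bd_PhiD c0 c2 c3
    have bW : Bd (fun a b c => Wc (chanPt lam a) (chanPt lam b) (chanPt lam c)) := bd_chan hl bd_Wc
    have bp : Bd (fun a b c => phiD c2 c3 (chanPt lam a) (chanPt lam b) (chanPt lam c)) :=
      bd_chan hl (bd_phiD c2 c3)
    have hAeq : d * (1 - E (fun a b c => Wc (chanPt lam a) (chanPt lam b) (chanPt lam c))) = A := by
      rw [hA]
      rfl
    have eS : sFam d lam c0 c2 c3 A mu = fun a b c =>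
        (d * c0 + mu * d - mu * A) + (-1) * PhiD c0 c2 c3 a b c
        + (-(d * c0) - mu * d) * Wc (chanPt lam a) (chanPt lam b) (chanPt lam c)
        + (d * Real.exp (-A)) * phiD c2 c3 (chanPt lam a) (chanPt lam b) (chanPt lam c) := by
      funext a b c
      unfold sFam
      have e3 : PhiD c0 c2 c3 (chanPt lam a) (chanPt lam b) (chanPt lam c)
          = c0 * (1 - Wc (chanPt lam a) (chanPt lam b) (chanPt lam c))
            + phiD c2 c3 (chanPt lam a) (chanPt lam b) (chanPt lam c) := by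
        unfold PhiD phiD
        ring
      rw [e3]
      ring
    rw [eS, hE.lin4 _ _ _ _ b1 bW bp]
    have e4 : chan lam E (phiD c2 c3)
        = E (fun a b c => phiD c2 c3 (chanPt lam a) (chanPt lam b) (chanPt lam c)) := rfl
    rw [e4]
    linear_combination (c0 + mu) * hAeq
  rw [hmean] at hS'
  have hnext := poisson_PhiD (c0 := c0) (c2 := c2) (c3 := c3) hd hl n
  rw [← hEdef, ← hA] at hnext
  rw [hnext]
  linarith

/-- the exponent is between `0` and `d` -/
theorem Aat_bounds {E : Ex3} (hE : BExp E Simp) (hd : 0 ≤ d) (hl : Adm lam) :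
    0 ≤ Aat d E lam ∧ Aat d E lam ≤ d := by
  have bW : Bd (fun a b c => Wc (chanPt lam a) (chanPt lam b) (chanPt lam c)) := bd_chan hl bd_Wc
  have h1 : chan lam E Wc ≤ 1 := by
    have := hE.mono (f := fun a b c => Wc (chanPt lam a) (chanPt lam b) (chanPt lam c))
      (g := fun _ _ _ => 1) bW (Bd.const 1) (fun a b c hs => Wc_le_one (chan_simp hl hs))
    rwa [hE.const] at this
  have h0 : 0 ≤ chan lam E Wc := hE.nonneg _ (fun a b c hs => Wc_nonneg (chan_simp hl hs))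
  unfold Aat
  constructor
  · exact mul_nonneg hd (by linarith)
  · nlinarith

/-- the potential has a bounded value -/
theorem PhiD_lower (c0 c2 c3 : ℝ) : ∃ C : ℝ, ∀ E : Ex3, BExp E Simp → - C ≤ E (PhiD c0 c2 c3) := by
  obtain ⟨C, hC⟩ := bd_PhiD c0 c2 c3
  refine ⟨C, fun E hE => ?_⟩
  have := hE.abs_le hC
  exact (abs_le.1 this).1

/-- Convergence from the drift along the tail of the sequence. -/
theorem tendsto_of_drift {g : ℝ} {N : ℕ} (hd : 0 ≤ d) (hl : Adm lam) (hg : 0 < g)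
    (hdr : ∀ n, N ≤ n → gwEx (poissonLaw d) lam (n + 1) (PhiD c0 c2 c3)
      - gwEx (poissonLaw d) lam n (PhiD c0 c2 c3) ≤ - (g * Aat d (gwEx (poissonLaw d) lam n) lam ^ 2)) :
    Tendsto (fun n => gwEx (poissonLaw d) lam n I2) atTop (𝓝 0) := by
  have hE := gwEx_bexp (poisson_nonneg hd) (poisson_hasSum d) hl
  obtain ⟨C, hC⟩ := PhiD_lower c0 c2 c3
  have hA0 : Tendsto (fun n => Aat d (gwEx (poissonLaw d) lam (N + n)) lam) atTop (𝓝 0) := by
    refine tendsto_zero_of_step (L := fun n => gwEx (poissonLaw d) lam (N + n) (PhiD c0 c2 c3) + C)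
      hg (fun n => ?_) (fun n => (Aat_bounds (hE _) hd hl).1) (fun n => ?_)
    · have := hC _ (hE (N + n))
      linarith
    · have := hdr (N + n) (Nat.le_add_right _ _)
      have e : N + (n + 1) = N + n + 1 := by ring
      rw [e]
      linarith
  have hexp : Tendsto (fun n => 1 - Real.exp (- Aat d (gwEx (poissonLaw d) lam (N + n)) lam)) atTop (𝓝 0) := by
    have h1 : Tendsto (fun n => Real.exp (- Aat d (gwEx (poissonLaw d) lam (N + n)) lam)) atTop
        (𝓝 (Real.exp (- 0))) :=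
      (Real.continuous_exp.tendsto _).comp hA0.neg
    have h2 := h1.const_sub 1
    simpa using h2
  have hup : ∀ n, gwEx (poissonLaw d) lam (N + n + 1) I2
      ≤ 8 / 3 * (1 - Real.exp (- Aat d (gwEx (poissonLaw d) lam (N + n)) lam)) := by
    intro n
    have h1 := (hE (N + n + 1)).mono (f := I2) (g := fun a b c => 8 / 3 * (1 - Wc a b c)) bd_I2
      (Bd.smul _ ((Bd.const 1).sub bd_Wc)) (fun a b c hs => I2_le_Wc hs)
    rw [(hE (N + n + 1)).smul, (hE (N + n + 1)).sub (Bd.const 1) bd_Wc, (hE (N + n + 1)).const,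
      poisson_Wc hd hl] at h1
    exact h1
  have hlo : ∀ n, 0 ≤ gwEx (poissonLaw d) lam n I2 := by
    intro n
    refine (hE n).nonneg _ (fun a b c _ => ?_)
    unfold I2
    positivity
  have hsq : Tendsto (fun n => gwEx (poissonLaw d) lam (N + n + 1) I2) atTop (𝓝 0) := by
    have h3 := hexp.const_mul (8 / 3)
    rw [mul_zero] at h3
    exact squeeze_zero (fun n => hlo _) hup h3
  have hcomp : Tendsto (fun n => gwEx (poissonLaw d) lam (n + (N + 1)) I2) atTop (𝓝 0) := by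
    refine hsq.congr (fun n => ?_)
    have e : N + n + 1 = n + (N + 1) := by ring
    rw [e]
  exact (tendsto_add_atTop_iff_nat (f := fun n => gwEx (poissonLaw d) lam n I2) (N + 1)).1 hcomp

/-- The theorem of a potential on all laws: a pointwise family for every value of the exponent. -/
theorem potential_global {g : ℝ} (hd : 0 ≤ d) (hl : Adm lam) (hg : 0 < g)
    (hfam : ∀ A, 0 ≤ A → A ≤ d → ∃ mu mu0 : ℝ,
      mu0 - c0 * (Real.exp (-A) - 1 + A) ≤ - (g * A ^ 2) ∧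
      ∀ a b c, Simp a b c → sFam d lam c0 c2 c3 A mu a b c ≤ mu0) :
    Tendsto (fun n => gwEx (poissonLaw d) lam n I2) atTop (𝓝 0) := by
  have hE := gwEx_bexp (poisson_nonneg hd) (poisson_hasSum d) hl
  refine tendsto_of_drift (c0 := c0) (c2 := c2) (c3 := c3) (N := 0) hd hl hg (fun n _ => ?_)
  obtain ⟨h0, h1⟩ := Aat_bounds (hE n) hd hl
  obtain ⟨mu, mu0, hmu, hS⟩ := hfam _ h0 h1
  have := drift_le (c0 := c0) (c2 := c2) (c3 := c3) hd hl n rfl hS
  linarith

/-- The theorem of a potential on laws with a small value of the potential. -/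
theorem potential_tail {g M A1 κ : ℝ} {N : ℕ} (hd : 0 ≤ d) (hl : Adm lam) (hg : 0 < g) (hκ : 0 ≤ κ)
    (hM : κ * M ≤ A1)
    (hcap : ∀ a b c, Simp a b c →
      d * (1 - Wc (chanPt lam a) (chanPt lam b) (chanPt lam c)) ≤ κ * PhiD c0 c2 c3 a b c)
    (hfam : ∀ A, 0 ≤ A → A ≤ A1 → ∃ mu mu0 : ℝ,
      mu0 - c0 * (Real.exp (-A) - 1 + A) ≤ - (g * A ^ 2) ∧
      ∀ a b c, Simp a b c → sFam d lam c0 c2 c3 A mu a b c ≤ mu0)
    (hN : gwEx (poissonLaw d) lam N (PhiD c0 c2 c3) ≤ M) :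
    Tendsto (fun n => gwEx (poissonLaw d) lam n I2) atTop (𝓝 0) := by
  have hE := gwEx_bexp (poisson_nonneg hd) (poisson_hasSum d) hl
  have hcapE : ∀ n, Aat d (gwEx (poissonLaw d) lam n) lam
      ≤ κ * gwEx (poissonLaw d) lam n (PhiD c0 c2 c3) := by
    intro n
    have h1 := (hE n).mono (f := fun a b c => d * (1 - Wc (chanPt lam a) (chanPt lam b) (chanPt lam c)))
      (g := fun a b c => κ * PhiD c0 c2 c3 a b c)
      (Bd.smul _ ((Bd.const 1).sub (bd_chan hl bd_Wc))) (Bd.smul _ (bd_PhiD c0 c2 c3)) hcap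
    rw [(hE n).smul, (hE n).smul, (hE n).sub (Bd.const 1) (bd_chan hl bd_Wc), (hE n).const] at h1
    exact h1
  have hdrift : ∀ n, gwEx (poissonLaw d) lam n (PhiD c0 c2 c3) ≤ M →
      gwEx (poissonLaw d) lam (n + 1) (PhiD c0 c2 c3) - gwEx (poissonLaw d) lam n (PhiD c0 c2 c3)
        ≤ - (g * Aat d (gwEx (poissonLaw d) lam n) lam ^ 2) := by
    intro n hn
    obtain ⟨h0, _⟩ := Aat_bounds (hE n) hd hl
    have h1 : Aat d (gwEx (poissonLaw d) lam n) lam ≤ A1 := by
      have := hcapE n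
      have h2 := mul_le_mul_of_nonneg_left hn hκ
      linarith
    obtain ⟨mu, mu0, hmu, hS⟩ := hfam _ h0 h1
    have := drift_le (c0 := c0) (c2 := c2) (c3 := c3) hd hl n rfl hS
    linarith
  have hinv : ∀ n, N ≤ n → gwEx (poissonLaw d) lam n (PhiD c0 c2 c3) ≤ M := by
    intro n hn
    induction n, hn using Nat.le_induction with
    | base => exact hN
    | succ n _ ih =>
      have := hdrift n ih
      have h2 : 0 ≤ g * Aat d (gwEx (poissonLaw d) lam n) lam ^ 2 := by positivity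
      linarith
  exact tendsto_of_drift (c0 := c0) (c2 := c2) (c3 := c3) (N := N) hd hl hg
    (fun n hn => hdrift n (hinv n hn))

end Step

end Vale.Agent.Lib.P154.Neg
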