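import Vale.Agent.Lib.P154.Neg.Cone

/-!
The framework of the certificates: the data, the expressions to be checked, and the proof that
successful checks give the hypotheses of the abstract Lyapunov step.
-/

namespace Vale.Agent.Lib.P154.Neg

open Kron

/-- a rational constant -/
abbrev RC := ℤ × ℕ

/-- its value -/
noncomputable def rv (q : RC) : ℝ := (q.1 : ℝ) / (q.2 : ℝ)

/-- it as an expression -/
def rq (q : RC) : PQ := .rat q.1 q.2

/-- the integer constant -/
def pk (n : ℤ) : PQ := .rat n 1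

/-- the difference -/
def psub (a b : PQ) : PQ := .add a (.mul (.rat (-1) 1) b)

/-- the factor `1 - j e` -/
def om (j : ℤ) (e : PQ) : PQ := psub (pk 1) (.mul (pk j) e)

section evals

variable (env : ℕ → ℝ)

@[simp] theorem eval_rq (q : RC) : evalQ env (rq q) = rv q := rfl

@[simp] theorem eval_pk (n : ℤ) : evalQ env (pk n) = (n : ℝ) := by
  simp [pk, evalQ]

@[simp] theorem eval_psub (a b : PQ) : evalQ env (psub a b) = evalQ env a - evalQ env b := by
  simp [psub, evalQ]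
  ring

@[simp] theorem eval_om (j : ℤ) (e : PQ) : evalQ env (om j e) = 1 - (j : ℝ) * evalQ env e := by
  simp [om, evalQ]

end evals

/-- the upper truncation, as an expression -/
def eGu (e w : PQ) : PQ :=
  .add (.add (.add (.add w
    (.mul (.mul (om 1 e) (.rat (-1) 2)) (.pow w 2)))
    (.mul (.mul (.mul (om 1 e) (om 2 e)) (.rat 1 6)) (.pow w 3)))
    (.mul (.mul (.mul (.mul (om 1 e) (om 2 e)) (om 3 e)) (.rat (-1) 24)) (.pow w 4)))
    (.mul (.mul (.mul (.mul (.mul (om 1 e) (om 2 e)) (om 3 e)) (om 4 e)) (.rat 1 120)) (.pow w 5))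

/-- the lower truncation, as an expression -/
def eGl (e w : PQ) : PQ :=
  .add (eGu e w)
    (.mul (.mul (.mul (.mul (.mul (.mul (om 1 e) (om 2 e)) (om 3 e)) (om 4 e)) (om 5 e))
      (.rat (-1) 720)) (.pow w 6))

/-- the derivative of the upper truncation, as an expression -/
def eGd (e w : PQ) : PQ :=
  .add (.add (.add (.add (pk 1)
    (.mul (.mul (om 1 e) (.rat (-1) 1)) w))
    (.mul (.mul (.mul (om 1 e) (om 2 e)) (.rat 1 2)) (.pow w 2)))
    (.mul (.mul (.mul (.mul (om 1 e) (om 2 e)) (om 3 e)) (.rat (-1) 6)) (.pow w 3)))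
    (.mul (.mul (.mul (.mul (.mul (om 1 e) (om 2 e)) (om 3 e)) (om 4 e)) (.rat 1 24)) (.pow w 4))

theorem eval_eGu (env : ℕ → ℝ) (e w : PQ) :
    evalQ env (eGu e w) = Gu (evalQ env e) (evalQ env w) := by
  simp only [eGu, Gu, evalQ, eval_om]
  push_cast
  ring

theorem eval_eGl (env : ℕ → ℝ) (e w : PQ) :
    evalQ env (eGl e w) = Gl (evalQ env e) (evalQ env w) := by
  simp only [eGl, Gl, evalQ, eval_om, eval_eGu]
  push_cast
  ring

theorem eval_eGd (env : ℕ → ℝ) (e w : PQ) :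
    evalQ env (eGd e w) = Gd (evalQ env e) (evalQ env w) := by
  simp only [eGd, Gd, evalQ, eval_om, eval_pk]
  push_cast
  ring

/-- the remainder of the tangent line -/
noncomputable def Rr (e w v : ℝ) : ℝ :=
  -((1 - e) / 2) + (1 - e) * (1 - 2 * e) / 6 * (w + 2 * v)
    - (1 - e) * (1 - 2 * e) * (1 - 3 * e) / 24 * (w ^ 2 + 2 * w * v + 3 * v ^ 2)
    + (1 - e) * (1 - 2 * e) * (1 - 3 * e) * (1 - 4 * e) / 120
      * (w ^ 3 + 2 * w ^ 2 * v + 3 * w * v ^ 2 + 4 * v ^ 3)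

theorem tangent_id (e w v : ℝ) : Gu e w - (Gu e v + Gd e v * (w - v)) = (w - v) ^ 2 * Rr e w v := by
  unfold Gu Gd Rr
  ring

/-- minus the remainder, as an expression -/
def eRr (e w v : PQ) : PQ :=
  .add (.add (.add
    (.mul (om 1 e) (.rat 1 2))
    (.mul (.mul (.mul (om 1 e) (om 2 e)) (.rat (-1) 6)) (.add w (.mul (pk 2) v))))
    (.mul (.mul (.mul (.mul (om 1 e) (om 2 e)) (om 3 e)) (.rat 1 24))
      (.add (.add (.pow w 2) (.mul (pk 2) (.mul w v))) (.mul (pk 3) (.pow v 2)))))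
    (.mul (.mul (.mul (.mul (.mul (om 1 e) (om 2 e)) (om 3 e)) (om 4 e)) (.rat (-1) 120))
      (.add (.add (.add (.pow w 3) (.mul (pk 2) (.mul (.pow w 2) v)))
        (.mul (pk 3) (.mul w (.pow v 2)))) (.mul (pk 4) (.pow v 3))))

theorem eval_eRr (env : ℕ → ℝ) (e w v : PQ) :
    evalQ env (eRr e w v) = - Rr (evalQ env e) (evalQ env w) (evalQ env v) := by
  simp only [eRr, Rr, evalQ, eval_om, eval_pk]
  push_cast
  ring

/-- the data of a certificate -/
structure Cst where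
  A : Atoms6
  a : RC
  b : RC
  c : RC
  r1 : RC
  r2 : RC
  rho1 : RC
  rho2 : RC
  g : RC
  er : RC
  kap : RC
  thm : RC
  t1 : RC
  t2 : RC
  m0 : RC
  kp0 : RC
  /-- polynomials: the lower bound of the Lyapunov function in the moments -/
  W : PQ
  /-- the upper bounds of the positive atoms -/
  V1h : PQ
  V2h : PQ
  /-- the multiplier, in `theta` and `e` -/
  Xi : PQ
  /-- the penalty for the upper bound of the negative atom, in `theta` and `e` -/
  Ek : PQ
  /-- the lower bound of the negative atom -/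
  Sz : PQ
  /-- the cone at the channel output -/
  a0 : ℤ
  b0 : ℤ
  c0 : ℤ
  /-- the boxes -/
  bRho : ℤ × ℤ × ℕ
  bBeta : ℤ × ℤ × ℕ
  bT : ℤ × ℤ × ℕ
  bKap : ℤ × ℤ × ℕ
  bEps : ℤ × ℤ × ℕ
  bSig : ℤ × ℤ × ℕ
  bNu : ℤ × ℤ × ℕ
  bTh : ℤ × ℤ × ℕ
  bZ : ℤ × ℤ × ℕ
  /-- the subdivisions -/
  tX : CT
  tY1 : CT
  tY2 : CT
  tM1 : CT
  tM2 : CT
  tN1 : CT
  tN2 : CT
  tQ1 : BT
  tQ2 : BT
  tW : BT
  tK : BT
  tS1 : BT
  tS2 : BT
  tC : BT
  tXi : BT
  tE : BT
  tZ : BT

namespace Cst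

variable (C : Cst)

/-- the expression of the certificate at the Lyapunov function -/
def eX : PQ :=
  psub (psub (.add (.mul (rq C.a) (psub (pk 1) (.var 0))) (.mul (rq C.b) (psub (pk 1) (.var 1))))
    (.mul (rq C.c) (psub (pk 1) (.var 2)))) (PQ.subst (fm2 (.var 3) (.var 4)) C.W)

/-- the expression of the bound of the first atom -/
def eY1 : PQ :=
  .add (psub (PQ.subst (fm2 (.var 3) (.var 4)) C.V1h) (psub (pk 1) (.var 0)))
    (.mul (rq C.rho1) (psub (pk 1) (.var 2)))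

/-- the expression of the bound of the second atom -/
def eY2 : PQ :=
  .add (psub (PQ.subst (fm2 (.var 3) (.var 4)) C.V2h) (psub (pk 1) (.var 1)))
    (.mul (rq C.rho2) (psub (pk 1) (.var 2)))

/-- the polynomial of the cone at the channel output -/
def eChord : PE :=
  .add (.mul (.add (.const (C.m0.2 : ℤ)) (.const (-C.m0.1)))
      (.pow (.add (.mul (.const C.b0) (.var 0)) (.mul (.const C.c0) (.var 1))) 6))
    (.mul (.const (-C.m0.1))
      (.add (.pow (.add (.mul (.const C.a0) (.var 0)) (.mul (.const C.c0) (.var 1))) 6)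
        (.pow (.add (.mul (.const C.a0) (.var 0)) (.mul (.const C.a0) (.var 1))) 6)))

/-! the expressions in the moments -/

/-- the second moment of the channel output -/
def sE (P T : PQ) : PQ := .mul (.pow T 2) P

/-- the third moment of the channel output -/
def tauE (Q T : PQ) : PQ := .mul (.rat (-1) 1) (.mul (.pow T 3) Q)

/-- the defect of the product -/
def zE (P Q T : PQ) : PQ := psub (.mul (.rat 1 2) (sE P T)) (.mul (.rat 1 3) (tauE Q T))

/-- the multiplier, as an expression -/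
def eM (Th Ep : PQ) : PQ :=
  .add (.add (.mul (.mul (rq C.rho1) (rq C.a)) (eGd Ep (.mul (rq C.r1) Th)))
    (.mul (.mul (rq C.rho2) (rq C.b)) (eGd Ep (.mul (rq C.r2) Th))))
    (PQ.subst (fm2 Th Ep) C.Xi)

/-- the constant of the row, as an expression -/
def eK0 (Th Ep : PQ) : PQ :=
  psub (.add (.add
    (.mul (rq C.a) (psub (.mul (eGd Ep (.mul (rq C.r1) Th)) (.mul (rq C.r1) Th))
      (eGu Ep (.mul (rq C.r1) Th))))
    (.mul (rq C.b) (psub (.mul (eGd Ep (.mul (rq C.r2) Th)) (.mul (rq C.r2) Th))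
      (eGu Ep (.mul (rq C.r2) Th)))))
    (.mul (rq C.c) (eGl Ep Th)))
    (.mul (eM C Th Ep) Th)

/-- the main expression, in `p, q, t, theta, e` -/
def eQ (P Q T Th Ep : PQ) : PQ :=
  psub (.add (psub (psub
    (.mul (.pow T 2) (psub (.add (PQ.subst (fm2 P Q) C.W) (eK0 C Th Ep))
      (.mul (rq C.g) (.pow Th 2))))
    (.mul (.mul (rq C.a) (eGd Ep (.mul (rq C.r1) Th))) (PQ.subst (fm2 (sE P T) (tauE Q T)) C.V1h)))
    (.mul (.mul (rq C.b) (eGd Ep (.mul (rq C.r2) Th))) (PQ.subst (fm2 (sE P T) (tauE Q T)) C.V2h)))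
    (.mul (PQ.subst (fm2 Th Ep) C.Xi) (PQ.subst (fun _ => zE P Q T) C.Sz)))
    (.mul (PQ.subst (fm2 Th Ep) C.Ek) (.pow (zE P Q T) 3))

/-- the second moment in the parameters of the sorted simplex -/
def pE (Rho Beta : PQ) : PQ :=
  .mul (.pow Rho 2) (.add (.add (pk 6) (.mul (pk (-9)) Beta)) (.mul (.rat 9 2) (.pow Beta 2)))

/-- the third moment in the parameters of the sorted simplex -/
def qE (Rho Beta : PQ) : PQ :=
  .mul (.pow Rho 3) (.add (.add (pk 6) (.mul (.rat (-27) 2) Beta)) (.mul (.rat 27 4) (.pow Beta 2)))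

/-- the first chart, in the variables `rho, beta, t, kappa, e` -/
def eQ1 : PQ :=
  eQ C (pE (.var 0) (.var 1)) (qE (.var 0) (.var 1)) (.var 2)
    (.mul (.var 3) (.pow (.var 0) 2)) (.var 4)

/-- the second chart, in the variables `sigma, nu, beta, t, e` -/
def eQ2 : PQ :=
  eQ C (pE (.mul (.var 0) (.var 1)) (.var 2)) (qE (.mul (.var 0) (.var 1)) (.var 2)) (.var 3)
    (.pow (.var 0) 2) (.var 4)

/-- the check that the lower bound is nonnegative, in `rho, beta` -/
def eWp : PQ := PQ.subst (fm2 (pE (.var 0) (.var 1)) (qE (.var 0) (.var 1))) C.W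

/-- the check of the constant of the row, in `theta, e` -/
def eKg : PQ := psub (eK0 C (.var 0) (.var 1)) (.mul (rq C.g) (.pow (.var 0) 2))

/-- the slope at the first point -/
def eS1 : PQ := eGd (.var 1) (.mul (rq C.r1) (.var 0))

/-- the slope at the second point -/
def eS2 : PQ := eGd (.var 1) (.mul (rq C.r2) (.var 0))

/-- the bound for the multiplier -/
def eXiE : PQ := .add C.Ek (.mul (rq C.er) C.Xi)

/-- first bound in `z` -/
def eZ1 : PQ := psub (pk 1) C.Sz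

/-- second bound in `z` -/
def eZ2 : PQ := psub (.pow (psub (pk 1) C.Sz) 3) (psub (pk 1) (.var 0))

/-- third bound in `z` -/
def eZ3 : PQ :=
  psub (psub (pk 1) (.var 0))
    (.pow (psub (psub (pk 1) C.Sz) (.mul (rq C.er) (.pow (.var 0) 3))) 3)

/-- fourth bound in `z` -/
def eZ4 : PQ :=
  psub (psub (.mul (rq C.kap) (.var 0)) C.Sz) (.mul (rq C.er) (.pow (.var 0) 3))

/-- the real value of the multiplier -/
noncomputable def xiV (th e : ℝ) : ℝ := evalQ (env2 th e) C.Xi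

/-- the data of the abstract theorem -/
noncomputable def toData : LyapData where
  e1 := ((C.A.i1 : ℝ) / 6, (C.A.j1 : ℝ) / 6, (C.A.k1 : ℝ) / 6)
  e2 := ((C.A.i2 : ℝ) / 6, (C.A.j2 : ℝ) / 6, (C.A.k2 : ℝ) / 6)
  e3 := (((2 : ℕ) : ℝ) / 6, ((2 : ℕ) : ℝ) / 6, ((2 : ℕ) : ℝ) / 6)
  a := rv C.a
  b := rv C.b
  c := rv C.c
  r1 := rv C.r1
  r2 := rv C.r2
  M := fun th e => rv C.rho1 * rv C.a * Gd e (rv C.r1 * th) + rv C.rho2 * rv C.b * Gd e (rv C.r2 * th)
    + C.xiV th e
  g := rv C.g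
  thm := rv C.thm
  t1 := rv C.t1
  t2 := rv C.t2

theorem eval_eM (env : ℕ → ℝ) (Th Ep : PQ) : evalQ env (eM C Th Ep)
    = C.toData.M (evalQ env Th) (evalQ env Ep) := by
  simp only [eM, evalQ, eval_rq, eval_eGd, subst2]
  rfl

theorem eval_eK0 (env : ℕ → ℝ) (Th Ep : PQ) : evalQ env (eK0 C Th Ep)
    = C.toData.K0 (evalQ env Th) (evalQ env Ep) := by
  simp only [eK0, evalQ, eval_rq, eval_eGd, eval_eGu, eval_eGl, eval_psub, eval_eM]
  rfl

/-- the real value of the main expression -/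
noncomputable def qV (p q t th e : ℝ) : ℝ :=
  t ^ 2 * (evalQ (env2 p q) C.W + C.toData.K0 th e - rv C.g * th ^ 2)
    - rv C.a * Gd e (rv C.r1 * th) * evalQ (env2 (t ^ 2 * p) (-(t ^ 3 * q))) C.V1h
    - rv C.b * Gd e (rv C.r2 * th) * evalQ (env2 (t ^ 2 * p) (-(t ^ 3 * q))) C.V2h
    + C.xiV th e * evalQ (fun _ => 1 / 2 * (t ^ 2 * p) + 1 / 3 * (t ^ 3 * q)) C.Sz
    - evalQ (env2 th e) C.Ek * (1 / 2 * (t ^ 2 * p) + 1 / 3 * (t ^ 3 * q)) ^ 3

theorem eval_sE (env : ℕ → ℝ) (P T : PQ) :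
    evalQ env (sE P T) = (evalQ env T) ^ 2 * evalQ env P := rfl

theorem eval_tauE (env : ℕ → ℝ) (Q T : PQ) :
    evalQ env (tauE Q T) = -((evalQ env T) ^ 3 * evalQ env Q) := by
  simp [tauE, evalQ]

theorem eval_zE (env : ℕ → ℝ) (P Q T : PQ) : evalQ env (zE P Q T)
    = 1 / 2 * ((evalQ env T) ^ 2 * evalQ env P) + 1 / 3 * ((evalQ env T) ^ 3 * evalQ env Q) := by
  simp only [zE, eval_psub, evalQ, eval_sE, eval_tauE]
  push_cast
  ring

theorem eval_eQ (env : ℕ → ℝ) (P Q T Th Ep : PQ) : evalQ env (eQ C P Q T Th Ep)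
    = C.qV (evalQ env P) (evalQ env Q) (evalQ env T) (evalQ env Th) (evalQ env Ep) := by
  simp only [eQ, evalQ, eval_psub, eval_rq, eval_eGd, eval_eK0, subst2, subst1, eval_sE, eval_tauE,
    eval_zE, qV, xiV]

end Cst

end Vale.Agent.Lib.P154.Neg
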