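import Vale.Agent.Lib.P154.Neg.Frame

/-!
From the checks to the hypotheses of the abstract theorem.
-/

namespace Vale.Agent.Lib.P154.Neg

open Kron

/-- being in an interval -/
def ivv (q : ℤ × ℤ × ℕ) (x : ℝ) : Prop := (q.1 : ℝ) ≤ (q.2.2 : ℝ) * x ∧ (q.2.2 : ℝ) * x ≤ (q.2.1 : ℝ)

/-- the interval contains a range -/
structure Iv (q : ℤ × ℤ × ℕ) (lo hi : ℝ) : Prop where
  h0 : 0 < q.2.2
  hl : q.1 < q.2.1
  h1 : (q.1 : ℝ) ≤ (q.2.2 : ℝ) * lo
  h2 : (q.2.2 : ℝ) * hi ≤ (q.2.1 : ℝ)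

theorem Iv.mem {q : ℤ × ℤ × ℕ} {lo hi x : ℝ} (h : Iv q lo hi) (h1 : lo ≤ x) (h2 : x ≤ hi) :
    ivv q x := by
  have hd : (0 : ℝ) ≤ (q.2.2 : ℝ) := by positivity
  exact ⟨h.h1.trans (mul_le_mul_of_nonneg_left h1 hd),
    le_trans (mul_le_mul_of_nonneg_left h2 hd) h.h2⟩

section boxes

variable {q0 q1 q2 q3 q4 : ℤ × ℤ × ℕ}

theorem inBox5 {x0 x1 x2 x3 x4 : ℝ} (h0 : ivv q0 x0) (h1 : ivv q1 x1) (h2 : ivv q2 x2)
    (h3 : ivv q3 x3) (h4 : ivv q4 x4) : InBoxC 5 [q0, q1, q2, q3, q4] (env5 x0 x1 x2 x3 x4) := by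
  intro i hi
  interval_cases i
  · exact h0
  · exact h1
  · exact h2
  · exact h3
  · exact h4

theorem inBox3 {x0 x1 x2 : ℝ} (h0 : ivv q0 x0) (h1 : ivv q1 x1) (h2 : ivv q2 x2) :
    InBoxC 3 [q0, q1, q2] (env5 x0 x1 x2 0 0) := by
  intro i hi
  interval_cases i
  · exact h0
  · exact h1
  · exact h2

theorem inBox2 {x0 x1 : ℝ} (h0 : ivv q0 x0) (h1 : ivv q1 x1) : InBoxC 2 [q0, q1] (env2 x0 x1) := by
  intro i hi
  interval_cases i
  · exact h0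
  · exact h1

theorem inBox1 {x0 : ℝ} (h0 : ivv q0 x0) : InBoxC 1 [q0] (fun _ => x0) := by
  intro i hi
  interval_cases i
  exact h0

theorem den5 (h0 : 0 < q0.2.2) (h1 : 0 < q1.2.2) (h2 : 0 < q2.2.2) (h3 : 0 < q3.2.2)
    (h4 : 0 < q4.2.2) : ∀ i, 0 < (([q0, q1, q2, q3, q4] : List (ℤ × ℤ × ℕ)).getD i (0, 1, 1)).2.2 := by
  intro i
  rcases i with _ | _ | _ | _ | _ | i
  · exact h0
  · exact h1
  · exact h2
  · exact h3
  · exact h4
  · simp

theorem den3 (h0 : 0 < q0.2.2) (h1 : 0 < q1.2.2) (h2 : 0 < q2.2.2) :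
    ∀ i, 0 < (([q0, q1, q2] : List (ℤ × ℤ × ℕ)).getD i (0, 1, 1)).2.2 := by
  intro i
  rcases i with _ | _ | _ | i
  · exact h0
  · exact h1
  · exact h2
  · simp

theorem den2 (h0 : 0 < q0.2.2) (h1 : 0 < q1.2.2) :
    ∀ i, 0 < (([q0, q1] : List (ℤ × ℤ × ℕ)).getD i (0, 1, 1)).2.2 := by
  intro i
  rcases i with _ | _ | i
  · exact h0
  · exact h1
  · simp

theorem den1 (h0 : 0 < q0.2.2) : ∀ i, 0 < (([q0] : List (ℤ × ℤ × ℕ)).getD i (0, 1, 1)).2.2 := by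
  intro i
  rcases i with _ | i
  · exact h0
  · simp

theorem lt5 (h0 : q0.1 < q0.2.1) (h1 : q1.1 < q1.2.1) (h2 : q2.1 < q2.2.1) (h3 : q3.1 < q3.2.1)
    (h4 : q4.1 < q4.2.1) : ∀ i, i < 5 → (([q0, q1, q2, q3, q4] : List (ℤ × ℤ × ℕ)).getD i (0, 1, 1)).1
      < (([q0, q1, q2, q3, q4] : List (ℤ × ℤ × ℕ)).getD i (0, 1, 1)).2.1 := by
  intro i hi
  interval_cases i
  · exact h0
  · exact h1
  · exact h2
  · exact h3
  · exact h4

theorem lt3 (h0 : q0.1 < q0.2.1) (h1 : q1.1 < q1.2.1) (h2 : q2.1 < q2.2.1) :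
    ∀ i, i < 3 → (([q0, q1, q2] : List (ℤ × ℤ × ℕ)).getD i (0, 1, 1)).1
      < (([q0, q1, q2] : List (ℤ × ℤ × ℕ)).getD i (0, 1, 1)).2.1 := by
  intro i hi
  interval_cases i
  · exact h0
  · exact h1
  · exact h2

theorem lt2 (h0 : q0.1 < q0.2.1) (h1 : q1.1 < q1.2.1) :
    ∀ i, i < 2 → (([q0, q1] : List (ℤ × ℤ × ℕ)).getD i (0, 1, 1)).1
      < (([q0, q1] : List (ℤ × ℤ × ℕ)).getD i (0, 1, 1)).2.1 := by
  intro i hi
  interval_cases i
  · exact h0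
  · exact h1

theorem lt1 (h0 : q0.1 < q0.2.1) :
    ∀ i, i < 1 → (([q0] : List (ℤ × ℤ × ℕ)).getD i (0, 1, 1)).1
      < (([q0] : List (ℤ × ℤ × ℕ)).getD i (0, 1, 1)).2.1 := by
  intro i hi
  interval_cases i
  exact h0

end boxes

/-! ### symmetry -/

theorem simp_sw23 {a b c : ℝ} (h : Simp a b c) : Simp a c b :=
  ⟨h.ha, h.hc, h.hb, by linarith [h.hs]⟩

theorem sort_all {P : ℝ → ℝ → ℝ → Prop} (h12 : ∀ a b c, P a b c → P b a c)
    (h23 : ∀ a b c, P a b c → P a c b) (hs : ∀ a b c, b ≤ a → c ≤ b → P a b c) :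
    ∀ a b c, P a b c := by
  intro a b c
  rcases le_total a b with h1 | h1 <;> rcases le_total b c with h2 | h2 <;>
    rcases le_total a c with h3 | h3
  · exact h12 _ _ _ (h23 _ _ _ (h12 _ _ _ (hs c b a h2 h1)))
  · exact h12 _ _ _ (h23 _ _ _ (h12 _ _ _ (hs c b a h2 h1)))
  · exact h12 _ _ _ (h23 _ _ _ (hs b c a h2 h3))
  · exact h12 _ _ _ (hs b a c h1 h3)
  · exact h23 _ _ _ (h12 _ _ _ (hs c a b h3 h1))
  · exact h23 _ _ _ (hs a c b h3 h2)
  · exact hs a b c h1 h2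
  · exact hs a b c h1 h2

theorem chi_sw12 (α β γ x y z : ℝ) : chi α β γ y x z = chi α β γ x y z := by
  unfold chi
  ring

theorem chi_sw23 (α β γ x y z : ℝ) : chi α β γ x z y = chi α β γ x y z := by
  unfold chi
  ring

theorem envX_sw12 (A : Atoms6) (x y z : ℝ) : envX A y x z = envX A x y z := by
  unfold envX
  simp only [chi_sw12]
  have h1 : pF y x z = pF x y z := by unfold pF; ring
  have h2 : qF y x z = qF x y z := by unfold qF; ring
  rw [h1, h2]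

theorem envX_sw23 (A : Atoms6) (x y z : ℝ) : envX A x z y = envX A x y z := by
  unfold envX
  simp only [chi_sw23]
  have h1 : pF x z y = pF x y z := by unfold pF; ring
  have h2 : qF x z y = qF x y z := by unfold qF; ring
  rw [h1, h2]

/-- a certificate on the sorted cone holds on the whole simplex -/
theorem cert_all {A : Atoms6} {e : PQ} {t : CT} (h : checkCT A e M0 t = true) :
    ∀ x y z, Simp x y z → 0 ≤ evalQ (envX A x y z) e := by
  refine sort_all ?_ ?_ ?_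
  · intro a b c h1 hs
    rw [envX_sw12]
    exact h1 (simp_swap hs)
  · intro a b c h1 hs
    rw [envX_sw23]
    exact h1 (simp_sw23 hs)
  · intro a b c h1 h2 hs
    exact sorted_cert h hs h1 h2

/-- a certificate on a bounded cone holds on the corresponding part of the simplex -/
theorem cert_chord {A : Atoms6} {e : PQ} {t : CT} {a0 b0 c0 : ℤ}
    (h : checkCT A e (MC a0 b0 c0) t = true) (ha0 : 0 < a0) (hb0 : a0 < b0) (hc0 : a0 < c0)
    {m0 : ℝ} (hm20 : 2 * m0 < 1)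
    (hratio : m0 * (a0 : ℝ) ^ 6 ≤ (1 - 2 * m0) * (c0 : ℝ) ^ 6)
    (hpoly : ∀ m1 m2 : ℝ, 0 ≤ m1 → 0 ≤ m2 →
        m0 * (((a0 : ℝ) * m1 + (c0 : ℝ) * m2) ^ 6 + ((a0 : ℝ) * m1 + (a0 : ℝ) * m2) ^ 6)
          ≤ (1 - m0) * ((b0 : ℝ) * m1 + (c0 : ℝ) * m2) ^ 6) :
    ∀ x y z, Simp x y z → x ≤ m0 → y ≤ m0 → z ≤ m0 → 0 ≤ evalQ (envX A x y z) e := by
  refine sort_all ?_ ?_ ?_
  · intro a b c h1 hs h2 h3 h4
    rw [envX_sw12]
    exact h1 (simp_swap hs) h3 h2 h4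
  · intro a b c h1 hs h2 h3 h4
    rw [envX_sw23]
    exact h1 (simp_sw23 hs) h2 h4 h3
  · intro a b c h1 h2 hs h3 _ _
    refine chord_cert h ha0 hb0 hc0 hs h1 h2 hm20 ?_ hratio hpoly
    have := hs.hs
    nlinarith

/-! ### moments -/

theorem pF_le {a b c : ℝ} (h : Simp a b c) : pF a b c ≤ 6 := by
  have h1 := h.ha
  have h2 := h.hb
  have h3 := h.hc
  have hc : c = 1 - a - b := by linarith [h.hs]
  subst hc
  unfold pF
  nlinarith [mul_nonneg h1 h2, mul_nonneg h1 h3, mul_nonneg h2 h3]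

theorem pF_nonneg (a b c : ℝ) : 0 ≤ pF a b c := by
  unfold pF
  positivity

theorem qF_ge {a b c : ℝ} (h : Simp a b c) : - pF a b c ≤ qF a b c := by
  have h1 := h.ha
  have h2 := h.hb
  have h3 := h.hc
  have e : qF a b c + pF a b c = (3 * a - 1) ^ 2 * (3 * a) + (3 * b - 1) ^ 2 * (3 * b)
      + (3 * c - 1) ^ 2 * (3 * c) := by
    unfold pF qF
    ring
  have : 0 ≤ qF a b c + pF a b c := by
    rw [e]
    positivity
  linarith

theorem qF_le {a b c : ℝ} (h : Simp a b c) : qF a b c ≤ pF a b c := by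
  have h1 := h.ha
  have h2 := h.hb
  have h3 := h.hc
  have hs := h.hs
  have e : pF a b c - qF a b c
      = 9 * (a * (b - c) ^ 2 + b * (a - c) ^ 2 + c * (a - b) ^ 2) := by
    have hc : c = 1 - a - b := by linarith
    subst hc
    unfold pF qF
    ring
  have : 0 ≤ pF a b c - qF a b c := by
    rw [e]
    positivity
  linarith

theorem pF_chan (t a b c : ℝ) :
    pF (chanPt (-t) a) (chanPt (-t) b) (chanPt (-t) c) = t ^ 2 * pF a b c := by
  unfold pF chanPt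
  ring

theorem qF_chan (t a b c : ℝ) :
    qF (chanPt (-t) a) (chanPt (-t) b) (chanPt (-t) c) = -(t ^ 3 * qF a b c) := by
  unfold qF chanPt
  ring

theorem I2_eq_pF (a b c : ℝ) : pF a b c = 9 * I2 a b c := by
  unfold pF I2
  ring

/-- the character of the negative atom -/
theorem chiD_cube {a b c : ℝ} (h : Simp a b c) :
    0 ≤ chi (((2 : ℕ) : ℝ) / 6) (((2 : ℕ) : ℝ) / 6) (((2 : ℕ) : ℝ) / 6) a b c ∧
    (chi (((2 : ℕ) : ℝ) / 6) (((2 : ℕ) : ℝ) / 6) (((2 : ℕ) : ℝ) / 6) a b c) ^ 3 = 27 * (a * b * c) := by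
  rw [chi_six 2 2 2 h.ha h.hb h.hc]
  have r1 := root_six h.ha
  have r2 := root_six h.hb
  have r3 := root_six h.hc
  have p1 : 0 ≤ a ^ ((1 : ℝ) / 6) := Real.rpow_nonneg h.ha _
  have p2 : 0 ≤ b ^ ((1 : ℝ) / 6) := Real.rpow_nonneg h.hb _
  have p3 : 0 ≤ c ^ ((1 : ℝ) / 6) := Real.rpow_nonneg h.hc _
  generalize a ^ ((1 : ℝ) / 6) = u at *
  generalize b ^ ((1 : ℝ) / 6) = v at *
  generalize c ^ ((1 : ℝ) / 6) = w at *
  have e : atomU 2 2 2 u v w = 3 * (u ^ 2 * v ^ 2 * w ^ 2) := by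
    unfold atomU
    ring
  rw [e]
  refine ⟨by positivity, ?_⟩
  rw [← r1, ← r2, ← r3]
  ring

/-- the defect in terms of the moments -/
theorem prod_moments {a b c : ℝ} (h : a + b + c = 1) :
    27 * (a * b * c) = 1 - (1 / 2 * pF a b c - 1 / 3 * qF a b c) := by
  have hc : c = 1 - a - b := by linarith
  subst hc
  unfold pF qF
  ring

/-- the channel output: the defect -/
theorem chan_defect {a b c t : ℝ} (h : a + b + c = 1) :
    27 * (chanPt (-t) a * chanPt (-t) b * chanPt (-t) c)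
      = 1 - (1 / 2 * (t ^ 2 * pF a b c) + 1 / 3 * (t ^ 3 * qF a b c)) := by
  have hs : chanPt (-t) a + chanPt (-t) b + chanPt (-t) c = 1 := by
    unfold chanPt
    linear_combination (-t) * h
  rw [prod_moments hs, pF_chan, qF_chan]
  ring

/-- the range of the defect -/
theorem defect_range {a b c t : ℝ} (h : Simp a b c) (ht0 : 0 < t) (ht : t ≤ 1 / 2) :
    t ^ 2 * pF a b c / 3 ≤ 1 / 2 * (t ^ 2 * pF a b c) + 1 / 3 * (t ^ 3 * qF a b c) ∧
    1 / 2 * (t ^ 2 * pF a b c) + 1 / 3 * (t ^ 3 * qF a b c) ≤ t ^ 2 * (3 + 2 * t) := by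
  have hp0 := pF_nonneg a b c
  have hp6 := pF_le h
  have hq0 := qF_ge h
  have hq1 := qF_le h
  have ht20 : 0 < t ^ 2 := by positivity
  have e : 1 / 2 * (t ^ 2 * pF a b c) + 1 / 3 * (t ^ 3 * qF a b c)
      = t ^ 2 * (1 / 2 * pF a b c + 1 / 3 * (t * qF a b c)) := by ring
  rw [e]
  constructor
  · have h1 : t * (- pF a b c) ≤ t * qF a b c := mul_le_mul_of_nonneg_left hq0 ht0.le
    have h2 : pF a b c / 3 ≤ 1 / 2 * pF a b c + 1 / 3 * (t * qF a b c) := by nlinarith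
    calc t ^ 2 * pF a b c / 3 = t ^ 2 * (pF a b c / 3) := by ring
      _ ≤ _ := mul_le_mul_of_nonneg_left h2 ht20.le
  · refine mul_le_mul_of_nonneg_left ?_ ht20.le
    have h1 : t * qF a b c ≤ t * pF a b c := mul_le_mul_of_nonneg_left hq1 ht0.le
    have h2 : t * pF a b c ≤ t * 6 := mul_le_mul_of_nonneg_left hp6 ht0.le
    nlinarith

/-- the cube comparison -/
theorem le_of_cube_le {a b : ℝ} (hb : 0 ≤ b) (h : a ^ 3 ≤ b ^ 3) : a ≤ b := by
  by_contra hcon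
  push Not at hcon
  have := pow_lt_pow_left₀ hcon hb (by norm_num : 3 ≠ 0)
  linarith

end Vale.Agent.Lib.P154.Neg
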