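import Vale.Agent.Lib.P154.Neg.Frame2

/-!
From the checks to the hypotheses of the abstract theorem: the assembly.
-/

namespace Vale.Agent.Lib.P154.Neg

open Kron

namespace Cst

/-- everything that has to be checked about the data -/
structure OK (C : Cst) : Prop where
  i1 : 0 < C.A.i1
  i2 : 0 < C.A.i2
  s1 : C.A.i1 + C.A.j1 + C.A.k1 = 6
  s2 : C.A.i2 + C.A.j2 + C.A.k2 = 6
  ha : 0 ≤ rv C.a
  hb : 0 ≤ rv C.b
  hc : 0 ≤ rv C.c
  hg : 0 < rv C.g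
  hr1 : 0 ≤ rv C.r1
  hr2 : 0 ≤ rv C.r2
  hr1' : rv C.r1 ≤ 1
  hr2' : rv C.r2 ≤ 1
  ht1 : 0 ≤ rv C.t1
  ht2 : rv C.t2 ≤ 1 / 2
  hkap : 0 ≤ rv C.kap
  hkp0 : 0 < rv C.kp0
  hkapm : rv C.kap * (3 + 2 * rv C.t2) ≤ rv C.thm
  hm0 : (1 + rv C.t2) / 3 ≤ rv C.m0
  hm20 : 2 * rv C.m0 < 1
  hm0d : 0 < C.m0.2
  ha0 : 0 < C.a0
  hb0 : C.a0 < C.b0
  hc0 : C.a0 < C.c0
  hratio : rv C.m0 * (C.a0 : ℝ) ^ 6 ≤ (1 - 2 * rv C.m0) * (C.c0 : ℝ) ^ 6
  cChord : checkAuto 2 C.eChord = true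
  cX : checkCT C.A C.eX M0 C.tX = true
  cY1 : checkCT C.A C.eY1 (MC C.a0 C.b0 C.c0) C.tY1 = true
  cY2 : checkCT C.A C.eY2 (MC C.a0 C.b0 C.c0) C.tY2 = true
  cM1 : checkCT C.A (psub (.var 0) (.var 2)) M0 C.tM1 = true
  cM2 : checkCT C.A (psub (.var 1) (.var 2)) M0 C.tM2 = true
  cN1 : checkCT C.A (psub (pk 1) (.var 0)) M0 C.tN1 = true
  cN2 : checkCT C.A (psub (pk 1) (.var 1)) M0 C.tN2 = true
  iRho : Iv C.bRho 0 1
  iBeta : Iv C.bBeta 0 1
  iT : Iv C.bT (rv C.t1) (rv C.t2)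
  iKap : Iv C.bKap 0 (rv C.kp0)
  iEps : Iv C.bEps 0 (1 / 2)
  iTh : Iv C.bTh 0 (rv C.thm)
  iZ : Iv C.bZ 0 ((rv C.t2) ^ 2 * (3 + 2 * rv C.t2))
  iSig : C.bSig.1 < C.bSig.2.1 ∧ (C.bSig.1 : ℝ) ≤ 0 ∧ 0 < C.bSig.2.2 ∧ 0 ≤ (C.bSig.2.1 : ℝ) ∧
    (C.bSig.2.2 : ℝ) ^ 2 * rv C.thm ≤ (C.bSig.2.1 : ℝ) ^ 2
  iNu : C.bNu.1 < C.bNu.2.1 ∧ (C.bNu.1 : ℝ) ≤ 0 ∧ 0 < C.bNu.2.2 ∧ 0 ≤ (C.bNu.2.1 : ℝ) ∧
    (C.bNu.2.2 : ℝ) ^ 2 ≤ (C.bNu.2.1 : ℝ) ^ 2 * rv C.kp0
  wQ1 : PQ.wf 5 C.eQ1 = true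
  cQ1 : checkTree 5 C.eQ1 [C.bRho, C.bBeta, C.bT, C.bKap, C.bEps] C.tQ1 = true
  wQ2 : PQ.wf 5 C.eQ2 = true
  cQ2 : checkTree 5 C.eQ2 [C.bSig, C.bNu, C.bBeta, C.bT, C.bEps] C.tQ2 = true
  wW : PQ.wf 2 C.eWp = true
  cW : checkTree 2 C.eWp [C.bRho, C.bBeta] C.tW = true
  wK : PQ.wf 2 C.eKg = true
  cK : checkTree 2 C.eKg [C.bTh, C.bEps] C.tK = true
  wS1 : PQ.wf 2 C.eS1 = true
  cS1 : checkTree 2 C.eS1 [C.bTh, C.bEps] C.tS1 = true
  wS2 : PQ.wf 2 C.eS2 = true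
  cS2 : checkTree 2 C.eS2 [C.bTh, C.bEps] C.tS2 = true
  wC : PQ.wf 3 (eRr (.var 2) (.var 0) (.var 1)) = true
  cC : checkTree 3 (eRr (.var 2) (.var 0) (.var 1)) [C.bTh, C.bTh, C.bEps] C.tC = true
  wXi : PQ.wf 2 C.eXiE = true
  cXi : checkTree 2 C.eXiE [C.bTh, C.bEps] C.tXi = true
  wE : PQ.wf 2 C.Ek = true
  cE : checkTree 2 C.Ek [C.bTh, C.bEps] C.tE = true
  wZ1 : PQ.wf 1 C.eZ1 = true
  cZ1 : checkTree 1 C.eZ1 [C.bZ] C.tZ = true
  wZ2 : PQ.wf 1 C.eZ2 = true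
  cZ2 : checkTree 1 C.eZ2 [C.bZ] C.tZ = true
  wZ3 : PQ.wf 1 C.eZ3 = true
  cZ3 : checkTree 1 C.eZ3 [C.bZ] C.tZ = true
  wZ4 : PQ.wf 1 C.eZ4 = true
  cZ4 : checkTree 1 C.eZ4 [C.bZ] C.tZ = true

variable {C : Cst} (h : C.OK)

include h

/-! ### the moments of the charts -/

/-- the polynomial of the second moment -/
noncomputable def pT (b : ℝ) : ℝ := 6 + (-9) * b + 9 / 2 * b ^ 2

/-- the polynomial of the third moment -/
noncomputable def qT (b : ℝ) : ℝ := 6 + (-27 / 2) * b + 27 / 4 * b ^ 2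

omit h in
theorem eval_pE (env : ℕ → ℝ) (R B : PQ) :
    evalQ env (pE R B) = (evalQ env R) ^ 2 * pT (evalQ env B) := by
  simp only [pE, evalQ, eval_pk, pT]
  push_cast
  ring

omit h in
theorem eval_qE (env : ℕ → ℝ) (R B : PQ) :
    evalQ env (qE R B) = (evalQ env R) ^ 3 * qT (evalQ env B) := by
  simp only [qE, evalQ, eval_pk, qT]
  push_cast
  ring

omit h in
/-- the parametrization of the sorted simplex -/
theorem chart_sorted {x y z : ℝ} (hs : Simp x y z) (h1 : y ≤ x) (h2 : z ≤ y) :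
    ∃ r b : ℝ, 0 ≤ r ∧ r ≤ 1 ∧ 0 ≤ b ∧ b ≤ 1 ∧ pF x y z = r ^ 2 * pT b ∧ qF x y z = r ^ 3 * qT b := by
  have hz : z = 1 - x - y := by linarith [hs.hs]
  have h3 := hs.hc
  -- the parameters
  set r := 1 - 3 * z with hr
  have hr0 : 0 ≤ r := by rw [hr]; linarith
  have hr1 : r ≤ 1 := by rw [hr]; linarith
  rcases hr0.eq_or_lt with hr2 | hr2
  · -- the centre
    have hz3 : z = 1 / 3 := by rw [hr] at hr2; linarith
    have hy3 : y = 1 / 3 := by linarith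
    have hx3 : x = 1 / 3 := by linarith
    refine ⟨0, 0, le_refl _, by norm_num, le_refl _, by norm_num, ?_, ?_⟩
    · rw [hx3, hy3, hz3]
      unfold pF
      norm_num
    · rw [hx3, hy3, hz3]
      unfold qF
      norm_num
  · refine ⟨r, (2 * (y - z)) / r, hr0, hr1, by positivity, ?_, ?_, ?_⟩
    · rw [div_le_one hr2, hr]
      linarith
    · have hb : r * ((2 * (y - z)) / r) = 2 * (y - z) := by field_simp
      generalize (2 * (y - z)) / r = b at hb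
      -- the coordinates
      have ey : 3 * y - 1 = r * (b * (3 / 2) - 1) := by
        have : r * (b * (3 / 2) - 1) = (r * b) * (3 / 2) - r := by ring
        rw [this, hb, hr]
        linarith
      have ex : 3 * x - 1 = r * (2 - b * (3 / 2)) := by
        have : r * (2 - b * (3 / 2)) = 2 * r - (r * b) * (3 / 2) := by ring
        rw [this, hb, hr, hz]
        linarith
      have ez : 3 * z - 1 = - r := by rw [hr]; ring
      unfold pF pT
      rw [ex, ey, ez]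
      ring
    · have hb : r * ((2 * (y - z)) / r) = 2 * (y - z) := by field_simp
      generalize (2 * (y - z)) / r = b at hb
      have ey : 3 * y - 1 = r * (b * (3 / 2) - 1) := by
        have : r * (b * (3 / 2) - 1) = (r * b) * (3 / 2) - r := by ring
        rw [this, hb, hr]
        linarith
      have ex : 3 * x - 1 = r * (2 - b * (3 / 2)) := by
        have : r * (2 - b * (3 / 2)) = 2 * r - (r * b) * (3 / 2) := by ring
        rw [this, hb, hr, hz]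
        linarith
      have ez : 3 * z - 1 = - r := by rw [hr]; ring
      unfold qF qT
      rw [ex, ey, ez]
      ring

omit h in
theorem chart_all : ∀ x y z, Simp x y z →
    ∃ r b : ℝ, 0 ≤ r ∧ r ≤ 1 ∧ 0 ≤ b ∧ b ≤ 1 ∧ pF x y z = r ^ 2 * pT b ∧ qF x y z = r ^ 3 * qT b := by
  refine sort_all ?_ ?_ ?_
  · intro a b c h1 hs
    obtain ⟨r, be, h2, h3, h4, h5, h6, h7⟩ := h1 (simp_swap hs)
    refine ⟨r, be, h2, h3, h4, h5, ?_, ?_⟩
    · rw [← h6]; unfold pF; ring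
    · rw [← h7]; unfold qF; ring
  · intro a b c h1 hs
    obtain ⟨r, be, h2, h3, h4, h5, h6, h7⟩ := h1 (simp_sw23 hs)
    refine ⟨r, be, h2, h3, h4, h5, ?_, ?_⟩
    · rw [← h6]; unfold pF; ring
    · rw [← h7]; unfold qF; ring
  · intro a b c h1 h2 hs
    exact chart_sorted hs h1 h2

/-! ### the small checks -/

theorem qV_nonneg {x y z t th e : ℝ} (hs : Simp x y z) (ht1 : rv C.t1 ≤ t) (ht2 : t ≤ rv C.t2)
    (hth0 : 0 ≤ th) (hth1 : th ≤ rv C.thm) (he0 : 0 ≤ e) (he1 : e ≤ 1 / 2) :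
    0 ≤ C.qV (pF x y z) (qF x y z) t th e := by
  obtain ⟨r, b, hr0, hr1, hb0, hb1, hp, hq⟩ := chart_all x y z hs
  have it := h.iT.mem ht1 ht2
  have ie := h.iEps.mem he0 he1
  have ib := h.iBeta.mem hb0 hb1
  rw [hp, hq]
  have hkp := h.hkp0
  by_cases hc : th ≤ rv C.kp0 * r ^ 2
  · -- first chart
    rcases hr0.eq_or_lt with hr2 | hr2
    · have hth : th = 0 := by
        rw [← hr2] at hc
        have : th ≤ 0 := by simpa using hc
        linarith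
      have ir := h.iRho.mem hr0 hr1
      have ik := h.iKap.mem (le_refl 0) hkp.le
      have := checkTree_closed h.wQ1 h.cQ1 (den5 h.iRho.h0 h.iBeta.h0 h.iT.h0 h.iKap.h0 h.iEps.h0)
        (lt5 h.iRho.hl h.iBeta.hl h.iT.hl h.iKap.hl h.iEps.hl) (inBox5 ir ib it ik ie)
      rw [eQ1, eval_eQ, eval_pE, eval_qE] at this
      have e3 : evalQ (env5 r b t 0 e) (.mul (.var 3) (.pow (.var 0) 2)) = th := by
        simp [evalQ, env5, hth]
      rw [e3] at this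
      exact this
    · have hk0 : 0 ≤ th / r ^ 2 := by positivity
      have hk1 : th / r ^ 2 ≤ rv C.kp0 := by
        rw [div_le_iff₀ (by positivity)]
        exact hc
      have ir := h.iRho.mem hr0 hr1
      have ik := h.iKap.mem hk0 hk1
      have := checkTree_closed h.wQ1 h.cQ1 (den5 h.iRho.h0 h.iBeta.h0 h.iT.h0 h.iKap.h0 h.iEps.h0)
        (lt5 h.iRho.hl h.iBeta.hl h.iT.hl h.iKap.hl h.iEps.hl) (inBox5 ir ib it ik ie)
      rw [eQ1, eval_eQ, eval_pE, eval_qE] at this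
      have e3 : evalQ (env5 r b t (th / r ^ 2) e) (.mul (.var 3) (.pow (.var 0) 2)) = th := by
        simp only [evalQ, env5]
        field_simp
      rw [e3] at this
      exact this
  · -- second chart
    push Not at hc
    have hthp : 0 < th := lt_of_le_of_lt (by positivity) hc
    set s := Real.sqrt th with hs1
    have hs0 : 0 < s := Real.sqrt_pos.2 hthp
    have hs2 : s ^ 2 = th := Real.sq_sqrt hthp.le
    obtain ⟨i0, i1, i2, i3, i4⟩ := h.iSig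
    obtain ⟨j0, j1, j2, j3, j4⟩ := h.iNu
    have hD : (0 : ℝ) < (C.bSig.2.2 : ℝ) := by exact_mod_cast i2
    have hD' : (0 : ℝ) < (C.bNu.2.2 : ℝ) := by exact_mod_cast j2
    have is : ivv C.bSig s := by
      refine ⟨i1.trans (by positivity), ?_⟩
      have h3 : ((C.bSig.2.2 : ℝ) * s) ^ 2 ≤ (C.bSig.2.1 : ℝ) ^ 2 := by
        rw [mul_pow, hs2]
        refine le_trans ?_ i4
        exact mul_le_mul_of_nonneg_left hth1 (by positivity)
      exact (pow_le_pow_iff_left₀ (by positivity) i3 (by norm_num)).1 h3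
    have hn0 : 0 ≤ r / s := by positivity
    have inu : ivv C.bNu (r / s) := by
      refine ⟨j1.trans (by positivity), ?_⟩
      have h3 : ((C.bNu.2.2 : ℝ) * (r / s)) ^ 2 ≤ (C.bNu.2.1 : ℝ) ^ 2 := by
        rw [mul_pow, div_pow, hs2]
        have h4 : r ^ 2 / th * rv C.kp0 < 1 := by
          rw [div_mul_eq_mul_div, div_lt_one hthp]
          nlinarith
        have h5 : 0 < (C.bNu.2.1 : ℝ) ^ 2 := by
          have : 0 < (C.bNu.2.2 : ℝ) ^ 2 := by positivity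
          have h6 : 0 < (C.bNu.2.1 : ℝ) ^ 2 * rv C.kp0 := lt_of_lt_of_le this j4
          by_contra hn
          push Not at hn
          have := mul_nonpos_of_nonpos_of_nonneg hn hkp.le
          linarith
        calc (C.bNu.2.2 : ℝ) ^ 2 * (r ^ 2 / th) ≤ (C.bNu.2.1 : ℝ) ^ 2 * rv C.kp0 * (r ^ 2 / th) :=
              mul_le_mul_of_nonneg_right j4 (by positivity)
          _ = (C.bNu.2.1 : ℝ) ^ 2 * (r ^ 2 / th * rv C.kp0) := by ring
          _ ≤ (C.bNu.2.1 : ℝ) ^ 2 * 1 := mul_le_mul_of_nonneg_left h4.le h5.le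
          _ = _ := mul_one _
      exact (pow_le_pow_iff_left₀ (by positivity) j3 (by norm_num)).1 h3
    have := checkTree_closed h.wQ2 h.cQ2 (den5 i2 j2 h.iBeta.h0 h.iT.h0 h.iEps.h0)
      (lt5 i0 j0 h.iBeta.hl h.iT.hl h.iEps.hl) (inBox5 is inu ib it ie)
    rw [eQ2, eval_eQ, eval_pE, eval_qE] at this
    have e1 : evalQ (env5 s (r / s) b t e) (.mul (.var 0) (.var 1)) = r := by
      simp only [evalQ, env5]
      field_simp
    have e2 : evalQ (env5 s (r / s) b t e) (.pow (.var 0) 2) = th := by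
      simp only [evalQ, env5]
      exact hs2
    rw [e1, e2] at this
    exact this

theorem W_nonneg {x y z : ℝ} (hs : Simp x y z) : 0 ≤ evalQ (env2 (pF x y z) (qF x y z)) C.W := by
  obtain ⟨r, b, hr0, hr1, hb0, hb1, hp, hq⟩ := chart_all x y z hs
  have := checkTree_closed h.wW h.cW (den2 h.iRho.h0 h.iBeta.h0) (lt2 h.iRho.hl h.iBeta.hl)
    (inBox2 (h.iRho.mem hr0 hr1) (h.iBeta.mem hb0 hb1))
  rw [eWp, subst2, eval_pE, eval_qE] at this
  rw [hp, hq]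
  exact this

/-! ### values at the simplex -/

omit h in
theorem eval_env_chi1 (x y z : ℝ) : envX C.A x y z 0
    = chi ((C.A.i1 : ℝ) / 6) ((C.A.j1 : ℝ) / 6) ((C.A.k1 : ℝ) / 6) x y z := rfl

theorem psi_ge {x y z : ℝ} (hs : Simp x y z) :
    evalQ (env2 (pF x y z) (qF x y z)) C.W ≤ C.toData.psi x y z := by
  have := cert_all h.cX x y z hs
  simp only [eX, eval_psub, evalQ, eval_rq, eval_pk, subst2] at this
  have e0 : envX C.A x y z 3 = pF x y z := rfl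
  have e1 : envX C.A x y z 4 = qF x y z := rfl
  rw [e0, e1] at this
  have e2 : C.toData.psi x y z = rv C.a * (1 - envX C.A x y z 0) + rv C.b * (1 - envX C.A x y z 1)
      - rv C.c * (1 - envX C.A x y z 2) := rfl
  rw [e2]
  push_cast at this
  linarith

theorem psi_nn {x y z : ℝ} (hs : Simp x y z) : 0 ≤ C.toData.psi x y z :=
  (W_nonneg h hs).trans (psi_ge h hs)

theorem chi_le_D1 {x y z : ℝ} (hs : Simp x y z) : C.toData.V1 x y z ≤ C.toData.V3 x y z := by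
  have := cert_all h.cM1 x y z hs
  simp only [eval_psub, evalQ] at this
  have e2 : C.toData.V1 x y z = 1 - envX C.A x y z 0 := rfl
  have e3 : C.toData.V3 x y z = 1 - envX C.A x y z 2 := rfl
  rw [e2, e3]
  linarith

theorem chi_le_D2 {x y z : ℝ} (hs : Simp x y z) : C.toData.V2 x y z ≤ C.toData.V3 x y z := by
  have := cert_all h.cM2 x y z hs
  simp only [eval_psub, evalQ] at this
  have e2 : C.toData.V2 x y z = 1 - envX C.A x y z 1 := rfl
  have e3 : C.toData.V3 x y z = 1 - envX C.A x y z 2 := rfl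
  rw [e2, e3]
  linarith

theorem V1_nn {x y z : ℝ} (hs : Simp x y z) : 0 ≤ C.toData.V1 x y z := by
  have := cert_all h.cN1 x y z hs
  simp only [eval_psub, evalQ, eval_pk] at this
  have e2 : C.toData.V1 x y z = 1 - envX C.A x y z 0 := rfl
  rw [e2]
  push_cast at this
  linarith

theorem V2_nn {x y z : ℝ} (hs : Simp x y z) : 0 ≤ C.toData.V2 x y z := by
  have := cert_all h.cN2 x y z hs
  simp only [eval_psub, evalQ, eval_pk] at this
  have e2 : C.toData.V2 x y z = 1 - envX C.A x y z 1 := rfl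
  rw [e2]
  push_cast at this
  linarith

/-! ### the bounds at the channel output -/

theorem chord_poly {m1 m2 : ℝ} (h1 : 0 ≤ m1) (h2 : 0 ≤ m2) :
    rv C.m0 * (((C.a0 : ℝ) * m1 + (C.c0 : ℝ) * m2) ^ 6 + ((C.a0 : ℝ) * m1 + (C.a0 : ℝ) * m2) ^ 6)
      ≤ (1 - rv C.m0) * ((C.b0 : ℝ) * m1 + (C.c0 : ℝ) * m2) ^ 6 := by
  have hy : ∀ i, 0 ≤ env2 m1 m2 i := by
    intro i
    rcases i with _ | i
    · exact h1
    · exact h2
  have := checkAuto_sound h.cChord (env2 m1 m2) hy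
  simp only [eChord, evalE, env2] at this
  have hd : (0 : ℝ) < (C.m0.2 : ℝ) := by exact_mod_cast h.hm0d
  have e1 : rv C.m0 = (C.m0.1 : ℝ) / (C.m0.2 : ℝ) := rfl
  have e2 : ((C.m0.2 : ℤ) : ℝ) = (C.m0.2 : ℝ) := by simp
  rw [e2] at this
  push_cast at this
  rw [e1, ← sub_nonneg]
  have e3 : (1 - (C.m0.1 : ℝ) / (C.m0.2 : ℝ)) * ((C.b0 : ℝ) * m1 + (C.c0 : ℝ) * m2) ^ 6
      - (C.m0.1 : ℝ) / (C.m0.2 : ℝ) * (((C.a0 : ℝ) * m1 + (C.c0 : ℝ) * m2) ^ 6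
        + ((C.a0 : ℝ) * m1 + (C.a0 : ℝ) * m2) ^ 6)
      = (1 / (C.m0.2 : ℝ)) * (((C.m0.2 : ℝ) + -(C.m0.1 : ℝ)) * ((C.b0 : ℝ) * m1 + (C.c0 : ℝ) * m2) ^ 6
        + -(C.m0.1 : ℝ) * (((C.a0 : ℝ) * m1 + (C.c0 : ℝ) * m2) ^ 6
          + ((C.a0 : ℝ) * m1 + (C.a0 : ℝ) * m2) ^ 6)) := by
    field_simp
    ring
  rw [e3]
  exact mul_nonneg (by positivity) this

theorem cert_y {e : PQ} {t : CT} (hc : checkCT C.A e (MC C.a0 C.b0 C.c0) t = true)
    {x y z : ℝ} (hs : Simp x y z) (hx : x ≤ rv C.m0) (hy : y ≤ rv C.m0) (hz : z ≤ rv C.m0) :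
    0 ≤ evalQ (envX C.A x y z) e :=
  cert_chord hc h.ha0 h.hb0 h.hc0 h.hm20 h.hratio (fun _ _ h1 h2 => chord_poly h h1 h2) x y z hs hx hy hz

/-- the channel output is bounded -/
theorem chan_le {x t : ℝ} (hx : 0 ≤ x) (ht0 : 0 < t) (ht2 : t ≤ rv C.t2) :
    chanPt (-t) x ≤ rv C.m0 := by
  have := h.hm0
  unfold chanPt
  nlinarith

theorem Y1_bound {y1 y2 y3 : ℝ} (hs : Simp y1 y2 y3) (hx : y1 ≤ rv C.m0) (hy : y2 ≤ rv C.m0)
    (hz : y3 ≤ rv C.m0) : C.toData.V1 y1 y2 y3 - rv C.rho1 * C.toData.V3 y1 y2 y3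
      ≤ evalQ (env2 (pF y1 y2 y3) (qF y1 y2 y3)) C.V1h := by
  have := cert_y h h.cY1 hs hx hy hz
  simp only [eY1, eval_psub, evalQ, eval_rq, eval_pk, subst2] at this
  have e0 : envX C.A y1 y2 y3 3 = pF y1 y2 y3 := rfl
  have e1 : envX C.A y1 y2 y3 4 = qF y1 y2 y3 := rfl
  rw [e0, e1] at this
  have e2 : C.toData.V1 y1 y2 y3 = 1 - envX C.A y1 y2 y3 0 := rfl
  have e3 : C.toData.V3 y1 y2 y3 = 1 - envX C.A y1 y2 y3 2 := rfl
  rw [e2, e3]
  push_cast at this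
  linarith

theorem Y2_bound {y1 y2 y3 : ℝ} (hs : Simp y1 y2 y3) (hx : y1 ≤ rv C.m0) (hy : y2 ≤ rv C.m0)
    (hz : y3 ≤ rv C.m0) : C.toData.V2 y1 y2 y3 - rv C.rho2 * C.toData.V3 y1 y2 y3
      ≤ evalQ (env2 (pF y1 y2 y3) (qF y1 y2 y3)) C.V2h := by
  have := cert_y h h.cY2 hs hx hy hz
  simp only [eY2, eval_psub, evalQ, eval_rq, eval_pk, subst2] at this
  have e0 : envX C.A y1 y2 y3 3 = pF y1 y2 y3 := rfl
  have e1 : envX C.A y1 y2 y3 4 = qF y1 y2 y3 := rfl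
  rw [e0, e1] at this
  have e2 : C.toData.V2 y1 y2 y3 = 1 - envX C.A y1 y2 y3 1 := rfl
  have e3 : C.toData.V3 y1 y2 y3 = 1 - envX C.A y1 y2 y3 2 := rfl
  rw [e2, e3]
  push_cast at this
  linarith

/-- the two bounds of the negative atom in the defect -/
theorem V3_bounds {y1 y2 y3 z : ℝ} (hs : Simp y1 y2 y3) (hz : 27 * (y1 * y2 * y3) = 1 - z)
    (hz0 : 0 ≤ z) (hz1 : z ≤ (rv C.t2) ^ 2 * (3 + 2 * rv C.t2)) :
    evalQ (fun _ => z) C.Sz ≤ C.toData.V3 y1 y2 y3 ∧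
      C.toData.V3 y1 y2 y3 ≤ evalQ (fun _ => z) C.Sz + rv C.er * z ^ 3 ∧
      evalQ (fun _ => z) C.Sz + rv C.er * z ^ 3 ≤ rv C.kap * z := by
  obtain ⟨c0, c3⟩ := chiD_cube hs
  rw [hz] at c3
  have e3 : C.toData.V3 y1 y2 y3
      = 1 - chi (((2 : ℕ) : ℝ) / 6) (((2 : ℕ) : ℝ) / 6) (((2 : ℕ) : ℝ) / 6) y1 y2 y3 := rfl
  rw [e3]
  generalize chi (((2 : ℕ) : ℝ) / 6) (((2 : ℕ) : ℝ) / 6) (((2 : ℕ) : ℝ) / 6) y1 y2 y3 = ch at *
  have iz := inBox1 (h.iZ.mem hz0 hz1)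
  have d1 := den1 h.iZ.h0
  have l1 := lt1 h.iZ.hl
  have b1 := checkTree_closed h.wZ1 h.cZ1 d1 l1 iz
  have b2 := checkTree_closed h.wZ2 h.cZ2 d1 l1 iz
  have b3 := checkTree_closed h.wZ3 h.cZ3 d1 l1 iz
  have b4 := checkTree_closed h.wZ4 h.cZ4 d1 l1 iz
  simp only [eZ1, eZ2, eZ3, eZ4, eval_psub, evalQ, eval_pk, eval_rq] at b1 b2 b3 b4
  push_cast at b1 b2 b3 b4
  generalize evalQ (fun _ => z) C.Sz = S at *
  refine ⟨?_, ?_, by linarith⟩
  · have : ch ≤ 1 - S := le_of_cube_le (by linarith) (by rw [c3]; linarith)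
    linarith
  · have : 1 - S - rv C.er * z ^ 3 ≤ ch := le_of_cube_le c0 (by rw [c3]; linarith)
    linarith

/-- the multiplier and the negative atom -/
theorem xi_bound {th e z S V : ℝ} (hth0 : 0 ≤ th) (hth1 : th ≤ rv C.thm) (he0 : 0 ≤ e)
    (he1 : e ≤ 1 / 2) (hz : 0 ≤ z) (h1 : S ≤ V) (h2 : V ≤ S + rv C.er * z ^ 3) :
    C.xiV th e * S - evalQ (env2 th e) C.Ek * z ^ 3 ≤ C.xiV th e * V := by
  have hb := checkTree_closed h.wXi h.cXi (den2 h.iTh.h0 h.iEps.h0) (lt2 h.iTh.hl h.iEps.hl)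
    (inBox2 (h.iTh.mem hth0 hth1) (h.iEps.mem he0 he1))
  simp only [eXiE, evalQ, eval_rq] at hb
  have hb' : 0 ≤ evalQ (env2 th e) C.Ek + rv C.er * C.xiV th e := hb
  have hE := checkTree_closed h.wE h.cE (den2 h.iTh.h0 h.iEps.h0) (lt2 h.iTh.hl h.iEps.hl)
    (inBox2 (h.iTh.mem hth0 hth1) (h.iEps.mem he0 he1))
  have hz3 : 0 ≤ z ^ 3 := by positivity
  rcases le_total 0 (C.xiV th e) with h3 | h3
  · have := mul_le_mul_of_nonneg_left h1 h3
    have := mul_nonneg hE hz3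
    linarith
  · have h4 := mul_le_mul_of_nonpos_left h2 h3
    have h5 := mul_nonneg hb' hz3
    nlinarith

/-- the main row -/
theorem row_main {x y z t th e : ℝ} (hs : Simp x y z) (ht0 : 0 < t) (ht1 : rv C.t1 ≤ t)
    (ht2 : t ≤ rv C.t2) (hth0 : 0 ≤ th) (hth1 : th ≤ rv C.thm) (he0 : 0 ≤ e) (he1 : e ≤ 1 / 2) :
    rv C.g * th ^ 2 ≤ C.toData.psi x y z
      - C.toData.bRow th e (chanPt (-t) x) (chanPt (-t) y) (chanPt (-t) z) / t ^ 2
      + C.toData.K0 th e := by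
  have ht12 : t ≤ 1 / 2 := ht2.trans h.ht2
  have hl : Adm (-t) := ⟨by linarith, by linarith⟩
  have hys := chan_simp hl hs
  have hm1 := chan_le h hs.ha ht0 ht2
  have hm2 := chan_le h hs.hb ht0 ht2
  have hm3 := chan_le h hs.hc ht0 ht2
  have b1 := Y1_bound h hys hm1 hm2 hm3
  have b2 := Y2_bound h hys hm1 hm2 hm3
  rw [pF_chan, qF_chan] at b1 b2
  have hW := psi_ge h hs
  have hQ := qV_nonneg h hs ht1 ht2 hth0 hth1 he0 he1
  have hdef := chan_defect (t := t) hs.hs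
  obtain ⟨zlo, zhi⟩ := defect_range hs ht0 ht12
  have hp0 := pF_nonneg x y z
  have ht20 : 0 < t ^ 2 := by positivity
  have hzz0 : 0 ≤ 1 / 2 * (t ^ 2 * pF x y z) + 1 / 3 * (t ^ 3 * qF x y z) :=
    le_trans (by positivity) zlo
  have hzz1 : 1 / 2 * (t ^ 2 * pF x y z) + 1 / 3 * (t ^ 3 * qF x y z)
      ≤ (rv C.t2) ^ 2 * (3 + 2 * rv C.t2) := by
    refine zhi.trans ?_
    have : t ^ 2 ≤ (rv C.t2) ^ 2 := pow_le_pow_left₀ ht0.le ht2 2
    have h4 : (3 + 2 * t) ≤ 3 + 2 * rv C.t2 := by linarith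
    exact mul_le_mul this h4 (by positivity) (by positivity)
  obtain ⟨v1, v2, _⟩ := V3_bounds h hys hdef hzz0 hzz1
  have hxi := xi_bound h hth0 hth1 he0 he1 hzz0 v1 v2
  -- the slopes
  have hs1 := checkTree_closed h.wS1 h.cS1 (den2 h.iTh.h0 h.iEps.h0) (lt2 h.iTh.hl h.iEps.hl)
    (inBox2 (h.iTh.mem hth0 hth1) (h.iEps.mem he0 he1))
  have hs2 := checkTree_closed h.wS2 h.cS2 (den2 h.iTh.h0 h.iEps.h0) (lt2 h.iTh.hl h.iEps.hl)
    (inBox2 (h.iTh.mem hth0 hth1) (h.iEps.mem he0 he1))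
  simp only [eS1, eS2, eval_eGd, evalQ, eval_rq, env2] at hs1 hs2
  -- the abstract algebra
  have hB : C.toData.bRow th e (chanPt (-t) x) (chanPt (-t) y) (chanPt (-t) z)
      = rv C.a * Gd e (rv C.r1 * th) * (C.toData.V1 (chanPt (-t) x) (chanPt (-t) y) (chanPt (-t) z)
          - rv C.rho1 * C.toData.V3 (chanPt (-t) x) (chanPt (-t) y) (chanPt (-t) z))
        + rv C.b * Gd e (rv C.r2 * th) * (C.toData.V2 (chanPt (-t) x) (chanPt (-t) y) (chanPt (-t) z)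
          - rv C.rho2 * C.toData.V3 (chanPt (-t) x) (chanPt (-t) y) (chanPt (-t) z))
        - C.xiV th e * C.toData.V3 (chanPt (-t) x) (chanPt (-t) y) (chanPt (-t) z) := by
    show rv C.a * Gd e (rv C.r1 * th) * _ + rv C.b * Gd e (rv C.r2 * th) * _
      - (rv C.rho1 * rv C.a * Gd e (rv C.r1 * th) + rv C.rho2 * rv C.b * Gd e (rv C.r2 * th)
        + C.xiV th e) * _ = _
    ring
  have k1 := mul_le_mul_of_nonneg_left b1 (mul_nonneg h.ha hs1)
  have k2 := mul_le_mul_of_nonneg_left b2 (mul_nonneg h.hb hs2)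
  have e1 : C.toData.bRow th e (chanPt (-t) x) (chanPt (-t) y) (chanPt (-t) z)
      ≤ t ^ 2 * (C.toData.psi x y z + C.toData.K0 th e - rv C.g * th ^ 2) := by
    have k3 : t ^ 2 * (evalQ (env2 (pF x y z) (qF x y z)) C.W + C.toData.K0 th e - rv C.g * th ^ 2)
        ≤ t ^ 2 * (C.toData.psi x y z + C.toData.K0 th e - rv C.g * th ^ 2) :=
      mul_le_mul_of_nonneg_left (by linarith) ht20.le
    rw [hB]
    unfold qV at hQ
    linarith
  have e2 : C.toData.bRow th e (chanPt (-t) x) (chanPt (-t) y) (chanPt (-t) z) / t ^ 2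
      ≤ C.toData.psi x y z + C.toData.K0 th e - rv C.g * th ^ 2 := by
    rw [div_le_iff₀ ht20]
    linarith
  linarith

/-- the final theorem of the framework -/
theorem good : C.toData.Good where
  x1 := by
    refine ⟨?_, ?_, ?_, ?_⟩
    · show 0 < (C.A.i1 : ℝ) / 6
      have : (0 : ℝ) < C.A.i1 := by exact_mod_cast h.i1
      positivity
    · show 0 ≤ (C.A.j1 : ℝ) / 6
      positivity
    · show 0 ≤ (C.A.k1 : ℝ) / 6
      positivity
    · show (C.A.i1 : ℝ) / 6 + (C.A.j1 : ℝ) / 6 + (C.A.k1 : ℝ) / 6 = 1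
      have : (C.A.i1 : ℝ) + C.A.j1 + C.A.k1 = 6 := by exact_mod_cast h.s1
      linarith
  x2 := by
    refine ⟨?_, ?_, ?_, ?_⟩
    · show 0 < (C.A.i2 : ℝ) / 6
      have : (0 : ℝ) < C.A.i2 := by exact_mod_cast h.i2
      positivity
    · show 0 ≤ (C.A.j2 : ℝ) / 6
      positivity
    · show 0 ≤ (C.A.k2 : ℝ) / 6
      positivity
    · show (C.A.i2 : ℝ) / 6 + (C.A.j2 : ℝ) / 6 + (C.A.k2 : ℝ) / 6 = 1
      have : (C.A.i2 : ℝ) + C.A.j2 + C.A.k2 = 6 := by exact_mod_cast h.s2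
      linarith
  x3 := by
    refine ⟨?_, ?_, ?_, ?_⟩
    · show 0 < ((2 : ℕ) : ℝ) / 6
      norm_num
    · show 0 ≤ ((2 : ℕ) : ℝ) / 6
      norm_num
    · show 0 ≤ ((2 : ℕ) : ℝ) / 6
      norm_num
    · show ((2 : ℕ) : ℝ) / 6 + ((2 : ℕ) : ℝ) / 6 + ((2 : ℕ) : ℝ) / 6 = 1
      norm_num
  ha := h.ha
  hb := h.hb
  hc := h.hc
  hg := h.hg
  hr1 := h.hr1
  hr2 := h.hr2
  ht2 := h.ht2
  psi_nonneg := fun _ _ _ hs => psi_nn h hs
  k0 := by
    intro th e hth0 hth1 he0 he1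
    have := checkTree_closed h.wK h.cK (den2 h.iTh.h0 h.iEps.h0) (lt2 h.iTh.hl h.iEps.hl)
      (inBox2 (h.iTh.mem hth0 hth1) (h.iEps.mem he0 he1))
    simp only [eKg, eval_psub, eval_eK0, evalQ, eval_rq, env2] at this
    have e1 : C.toData.g = rv C.g := rfl
    rw [e1]
    linarith
  row := by
    intro x y z hs t ht0 ht1 ht2 th e hth0 hth1 he0 he1
    exact row_main h hs ht0 ht1 ht2 hth0 hth1 he0 he1
  tan := by
    intro e w v he0 he1 hw0 hw1 hv0 hv1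
    have := checkTree_closed h.wC h.cC (den3 h.iTh.h0 h.iTh.h0 h.iEps.h0)
      (lt3 h.iTh.hl h.iTh.hl h.iEps.hl)
      (inBox3 (h.iTh.mem hw0 hw1) (h.iTh.mem hv0 hv1) (h.iEps.mem he0 he1))
    rw [eval_eRr] at this
    have e1 := tangent_id e w v
    have e2 : evalQ (env5 w v e 0 0) (.var 2) = e := rfl
    have e3 : evalQ (env5 w v e 0 0) (.var 0) = w := rfl
    have e4 : evalQ (env5 w v e 0 0) (.var 1) = v := rfl
    rw [e2, e3, e4] at this
    have h5 : (w - v) ^ 2 * Rr e w v ≤ 0 :=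
      mul_nonpos_of_nonneg_of_nonpos (by positivity) (by linarith)
    linarith
  r1_le := by
    intro th h0 h1
    have : rv C.r1 * th ≤ 1 * th := mul_le_mul_of_nonneg_right h.hr1' h0
    show rv C.r1 * th ≤ rv C.thm
    have h2 : th ≤ rv C.thm := h1
    linarith
  r2_le := by
    intro th h0 h1
    have : rv C.r2 * th ≤ 1 * th := mul_le_mul_of_nonneg_right h.hr2' h0
    show rv C.r2 * th ≤ rv C.thm
    have h2 : th ≤ rv C.thm := h1
    linarith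
  v13 := fun _ _ _ hs => chi_le_D1 h hs
  v23 := fun _ _ _ hs => chi_le_D2 h hs
  v1_nn := fun _ _ _ hs => V1_nn h hs
  v2_nn := fun _ _ _ hs => V2_nn h hs
  v3_le := by
    intro x y z hs t ht0 ht1 ht2
    have ht12 : t ≤ 1 / 2 := le_trans ht2 h.ht2
    have hl : Adm (-t) := ⟨by linarith, by linarith⟩
    have hys := chan_simp hl hs
    have hdef := chan_defect (t := t) hs.hs
    obtain ⟨zlo, zhi⟩ := defect_range hs ht0 ht12
    have hp0 := pF_nonneg x y z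
    have ht20 : 0 < t ^ 2 := by positivity
    have ht2' : t ≤ rv C.t2 := ht2
    have hzz0 : 0 ≤ 1 / 2 * (t ^ 2 * pF x y z) + 1 / 3 * (t ^ 3 * qF x y z) :=
      le_trans (by positivity) zlo
    have hzz1 : 1 / 2 * (t ^ 2 * pF x y z) + 1 / 3 * (t ^ 3 * qF x y z)
        ≤ (rv C.t2) ^ 2 * (3 + 2 * rv C.t2) := by
      refine zhi.trans ?_
      have : t ^ 2 ≤ (rv C.t2) ^ 2 := pow_le_pow_left₀ ht0.le ht2' 2
      have h4 : (3 + 2 * t) ≤ 3 + 2 * rv C.t2 := by linarith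
      exact mul_le_mul this h4 (by positivity) (by positivity)
    obtain ⟨_, v2, v3⟩ := V3_bounds h hys hdef hzz0 hzz1
    show C.toData.V3 _ _ _ ≤ rv C.thm * t ^ 2
    have h5 : rv C.kap * (1 / 2 * (t ^ 2 * pF x y z) + 1 / 3 * (t ^ 3 * qF x y z))
        ≤ rv C.kap * (t ^ 2 * (3 + 2 * t)) := mul_le_mul_of_nonneg_left zhi h.hkap
    have h6 : rv C.kap * (t ^ 2 * (3 + 2 * t)) ≤ rv C.kap * (t ^ 2 * (3 + 2 * rv C.t2)) := by
      refine mul_le_mul_of_nonneg_left ?_ h.hkap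
      refine mul_le_mul_of_nonneg_left ?_ ht20.le
      linarith
    have h7 : rv C.kap * (t ^ 2 * (3 + 2 * rv C.t2)) ≤ rv C.thm * t ^ 2 := by
      have := mul_le_mul_of_nonneg_right h.hkapm ht20.le
      calc rv C.kap * (t ^ 2 * (3 + 2 * rv C.t2)) = rv C.kap * (3 + 2 * rv C.t2) * t ^ 2 := by ring
        _ ≤ _ := this
    linarith
  v3_ge := by
    intro x y z hs t ht0 ht1 ht2
    have ht12 : t ≤ 1 / 2 := le_trans ht2 h.ht2
    have hl : Adm (-t) := ⟨by linarith, by linarith⟩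
    have hys := chan_simp hl hs
    have hdef := chan_defect (t := t) hs.hs
    obtain ⟨zlo, _⟩ := defect_range hs ht0 ht12
    have hp0 := pF_nonneg x y z
    obtain ⟨c0, c3⟩ := chiD_cube hys
    rw [hdef] at c3
    have e3 : C.toData.V3 (chanPt (-t) x) (chanPt (-t) y) (chanPt (-t) z)
        = 1 - chi (((2 : ℕ) : ℝ) / 6) (((2 : ℕ) : ℝ) / 6) (((2 : ℕ) : ℝ) / 6)
          (chanPt (-t) x) (chanPt (-t) y) (chanPt (-t) z) := rfl
    rw [e3]
    generalize chi (((2 : ℕ) : ℝ) / 6) (((2 : ℕ) : ℝ) / 6) (((2 : ℕ) : ℝ) / 6)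
      (chanPt (-t) x) (chanPt (-t) y) (chanPt (-t) z) = ch at *
    generalize hzz : 1 / 2 * (t ^ 2 * pF x y z) + 1 / 3 * (t ^ 3 * qF x y z) = w at *
    have hw1 : w ≤ 1 := by
      have : 0 ≤ ch ^ 3 := by positivity
      linarith
    have hw0 : 0 ≤ w := le_trans (by positivity) zlo
    have h9 : ch ≤ 1 - w / 3 := by
      refine le_of_cube_le (by linarith) ?_
      rw [c3]
      nlinarith [mul_nonneg hw0 hw0, mul_nonneg (mul_nonneg hw0 hw0) hw0]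
    have e4 := I2_eq_pF x y z
    have : t ^ 2 * I2 x y z = t ^ 2 * pF x y z / 9 := by
      rw [e4]
      ring
    rw [this]
    linarith

end Cst

end Vale.Agent.Lib.P154.Neg
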