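import Vale.Agent.Lib.P154.Neg.Convex

/-!
The path of Poisson mixtures of the iterated Bayesian products: its derivative in the mean, and the
monotonicity of the law in the mean and in the eigenvalue for the convex order.
-/

namespace Vale.Agent.Lib.P154.Neg

open Filter Topology

theorem poisson_nonneg0 {d : ℝ} (hd : 0 ≤ d) (k : ℕ) : 0 ≤ poissonLaw d k := by
  unfold poissonLaw
  positivity

theorem poisson_hasSum0 (d : ℝ) : HasSum (poissonLaw d) 1 := by
  have h := (NormedSpace.expSeries_div_hasSum_exp (d : ℝ)).mul_left (Real.exp (-d))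
  rw [← Real.exp_eq_exp_ℝ, ← Real.exp_add, neg_add_cancel, Real.exp_zero] at h
  have e : poissonLaw d = fun k : ℕ => Real.exp (-d) * (d ^ k / (k.factorial : ℝ)) := by
    funext k
    unfold poissonLaw
    ring
  rw [e]
  exact h

theorem summable_pow_fact (s : ℝ) : Summable (fun k : ℕ => s ^ k / (k.factorial : ℝ)) :=
  Real.summable_pow_div_factorial s

theorem summable_mul_bdd {u m : ℕ → ℝ} {B : ℝ} (hu : Summable u) (hB : ∀ k, |m k| ≤ B) :
    Summable (fun k => u k * m k) := by
  refine Summable.of_norm_bounded (g := fun k => |u k| * B) (hu.abs.mul_right B) (fun k => ?_)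
  rw [Real.norm_eq_abs, abs_mul]
  exact mul_le_mul_of_nonneg_left (hB k) (abs_nonneg _)

/-- derivative of the power series with bounded coefficients -/
theorem expSeries_deriv (m : ℕ → ℝ) {B : ℝ} (hB : ∀ k, |m k| ≤ B) (s : ℝ) :
    HasDerivAt (fun s => ∑' k : ℕ, s ^ k / (k.factorial : ℝ) * m k)
      (∑' k : ℕ, s ^ k / (k.factorial : ℝ) * m (k + 1)) s := by
  have hB0 : 0 ≤ B := (abs_nonneg _).trans (hB 0)
  set R : ℝ := |s| + 1 with hR
  have hR0 : 0 < R := by positivity
  -- the bound of the derivatives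
  let u : ℕ → ℝ := fun k => (k : ℝ) * R ^ (k - 1) / (k.factorial : ℝ) * B
  have hu : Summable u := by
    rw [← summable_nat_add_iff 1]
    have e : (fun k => u (k + 1)) = fun k : ℕ => R ^ k / (k.factorial : ℝ) * B := by
      funext k
      simp only [u, Nat.add_sub_cancel, Nat.factorial_succ]
      push_cast
      have h1 : (k.factorial : ℝ) ≠ 0 := by positivity
      have h2 : (k : ℝ) + 1 ≠ 0 := by positivity
      field_simp
    rw [e]
    exact (summable_pow_fact R).mul_right B
  have hder : ∀ (k : ℕ) (y : ℝ), y ∈ Metric.ball (0 : ℝ) R →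
      HasDerivAt (fun x => x ^ k / (k.factorial : ℝ) * m k)
        ((k : ℝ) * y ^ (k - 1) / (k.factorial : ℝ) * m k) y := by
    intro k y _
    exact ((hasDerivAt_pow k y).div_const _).mul_const _
  have hbd : ∀ (k : ℕ) (y : ℝ), y ∈ Metric.ball (0 : ℝ) R →
      ‖(k : ℝ) * y ^ (k - 1) / (k.factorial : ℝ) * m k‖ ≤ u k := by
    intro k y hy
    have hy' : |y| ≤ R := by
      have := Metric.mem_ball.1 hy
      rw [Real.dist_eq, sub_zero] at this
      exact this.le
    rw [Real.norm_eq_abs, abs_mul, abs_div, abs_mul, abs_pow]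
    have hk : |(k : ℝ)| = k := abs_of_nonneg (Nat.cast_nonneg k)
    have hf : |(k.factorial : ℝ)| = k.factorial := abs_of_nonneg (Nat.cast_nonneg _)
    rw [hk, hf]
    have h1 : |y| ^ (k - 1) ≤ R ^ (k - 1) := pow_le_pow_left₀ (abs_nonneg y) hy' _
    have h2 : (k : ℝ) * |y| ^ (k - 1) / (k.factorial : ℝ) ≤ (k : ℝ) * R ^ (k - 1) / (k.factorial : ℝ) := by
      apply div_le_div_of_nonneg_right _ (Nat.cast_nonneg _)
      exact mul_le_mul_of_nonneg_left h1 (Nat.cast_nonneg k)
    exact mul_le_mul h2 (hB k) (abs_nonneg _) (by positivity)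
  have hs : s ∈ Metric.ball (0 : ℝ) R := by
    rw [Metric.mem_ball, Real.dist_eq, sub_zero, hR]
    linarith
  have h0 : Summable (fun k : ℕ => s ^ k / (k.factorial : ℝ) * m k) :=
    summable_mul_bdd (summable_pow_fact s) hB
  have main := hasDerivAt_tsum_of_isPreconnected hu Metric.isOpen_ball
    (convex_ball (0 : ℝ) R).isPreconnected hder hbd hs h0 hs
  -- shift of the sum
  have hsh : ∑' k : ℕ, (k : ℝ) * s ^ (k - 1) / (k.factorial : ℝ) * m k
      = ∑' k : ℕ, s ^ k / (k.factorial : ℝ) * m (k + 1) := by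
    have hsm : Summable (fun k : ℕ => (k : ℝ) * s ^ (k - 1) / (k.factorial : ℝ) * m k) :=
      Summable.of_norm_bounded hu (fun k => hbd k s hs)
    rw [hsm.tsum_eq_zero_add]
    simp only [Nat.cast_zero, zero_mul, zero_div, zero_add]
    refine tsum_congr (fun k => ?_)
    simp only [Nat.add_sub_cancel, Nat.factorial_succ]
    push_cast
    have h1 : (k.factorial : ℝ) ≠ 0 := by positivity
    have h2 : (k : ℝ) + 1 ≠ 0 := by positivity
    field_simp
  rw [← hsh]
  exact main

/-- derivative of a Poisson expectation of a bounded sequence -/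
theorem poisson_deriv (m : ℕ → ℝ) {B : ℝ} (hB : ∀ k, |m k| ≤ B) (s : ℝ) :
    HasDerivAt (fun s => ∑' k : ℕ, poissonLaw s k * m k)
      ((∑' k : ℕ, poissonLaw s k * m (k + 1)) - ∑' k : ℕ, poissonLaw s k * m k) s := by
  have e1 : ∀ (s : ℝ) (n : ℕ → ℝ), ∑' k : ℕ, poissonLaw s k * n k
      = Real.exp (-s) * ∑' k : ℕ, s ^ k / (k.factorial : ℝ) * n k := by
    intro s n
    rw [← tsum_mul_left]
    refine tsum_congr (fun k => ?_)
    unfold poissonLaw
    ring
  have hg := expSeries_deriv m hB s
  have hexp : HasDerivAt (fun s : ℝ => Real.exp (-s)) (-Real.exp (-s)) s := by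
    have := (hasDerivAt_neg s).exp
    simpa using this
  have hprod := hexp.mul hg
  have e2 : (fun s => ∑' k : ℕ, poissonLaw s k * m k)
      = fun s => Real.exp (-s) * ∑' k : ℕ, s ^ k / (k.factorial : ℝ) * m k := by
    funext s
    exact e1 s m
  rw [e2, e1 s m, e1 s (fun k => m (k + 1))]
  have e3 : Real.exp (-s) * ∑' k : ℕ, s ^ k / (k.factorial : ℝ) * m (k + 1)
      - Real.exp (-s) * ∑' k : ℕ, s ^ k / (k.factorial : ℝ) * m k
      = -Real.exp (-s) * (∑' k : ℕ, s ^ k / (k.factorial : ℝ) * m k)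
        + Real.exp (-s) * ∑' k : ℕ, s ^ k / (k.factorial : ℝ) * m (k + 1) := by
    ring
  rw [e3]
  exact hprod

/-- the Poisson mixture of the iterated products -/
noncomputable def poiPath (E' : Ex3) (s : ℝ) : Ex3 := mix (poissonLaw s) (fun k => Pk E' k)

theorem poiPath_bexp {E' : Ex3} (hE' : BExp E' Simp) {s : ℝ} (hs : 0 ≤ s) : BExp (poiPath E' s) Simp :=
  mix_bexp (poisson_nonneg0 hs) (poisson_hasSum0 s) (fun k => Pk_bexp hE' k) (fun _ _ _ h => h)

theorem gwEx_poisson_succ (d lam : ℝ) (n : ℕ) :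
    gwEx (poissonLaw d) lam (n + 1) = poiPath (chan lam (gwEx (poissonLaw d) lam n)) d := rfl

/-- the value at mean zero is the centre -/
theorem poiPath_zero (E' : Ex3) (f : Fn3) : poiPath E' 0 f = centre f := by
  unfold poiPath mix
  rw [tsum_eq_single 0]
  · simp [poissonLaw, Pk]
  · intro k hk
    have : poissonLaw 0 k = 0 := by
      unfold poissonLaw
      simp [hk]
    rw [this, zero_mul]

/-- the derivative of the path, at a bounded function -/
theorem poiPath_deriv {E' : Ex3} (hE' : BExp E' Simp) {f : Fn3} (hf : Bd f) (s : ℝ) :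
    HasDerivAt (fun s => poiPath E' s f)
      (poiPath E' s (fun a b c => E' (fun p q r => wt f a b c p q r)) - poiPath E' s f) s := by
  obtain ⟨C, hC⟩ := hf
  have hB : ∀ k, |Pk E' k f| ≤ C := fun k => (Pk_bexp hE' k).abs_le hC
  have := poisson_deriv (fun k => Pk E' k f) hB s
  exact this

/-- along the path, the law increases in the convex order -/
theorem poiPath_mono {E' : Ex3} (hE' : BExp E' Simp) {s s' : ℝ} (hs : 0 ≤ s) (hss : s ≤ s') :
    CO (poiPath E' s) (poiPath E' s') := by
  intro f hf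
  have hd : ∀ x, HasDerivAt (fun s => poiPath E' s f)
      (poiPath E' x (fun a b c => E' (fun p q r => wt f a b c p q r)) - poiPath E' x f) x :=
    fun x => poiPath_deriv hE' hf.bd x
  have hmono : MonotoneOn (fun s => poiPath E' s f) (Set.Ici 0) := by
    refine monotoneOn_of_deriv_nonneg (convex_Ici 0) ?_ ?_ ?_
    · exact fun x _ => (hd x).continuousAt.continuousWithinAt
    · exact fun x _ => (hd x).differentiableAt.differentiableWithinAt
    · intro x hx
      rw [interior_Ici] at hx
      have hx0 : 0 ≤ x := le_of_lt hx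
      rw [(hd x).deriv, sub_nonneg]
      have := bprod_ge_co (G := poiPath E' x) (E' := E') (poiPath_bexp hE' hx0) hE' f hf
      exact this
  exact hmono (Set.mem_Ici.2 hs) (Set.mem_Ici.2 (hs.trans hss)) hss

/-- The law of the posterior on the Poisson tree increases in the convex order with the mean and with
the size of the negative eigenvalue. -/
theorem gwEx_poisson_mono {d d' t t' : ℝ} (hd : 0 ≤ d) (hdd : d ≤ d') (ht : 0 < t) (htt : t ≤ t')
    (ht' : t' ≤ 1 / 2) (n : ℕ) :
    CO (gwEx (poissonLaw d) (-t) n) (gwEx (poissonLaw d') (-t') n) := by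
  have hl : Adm (-t) := ⟨by linarith, by linarith⟩
  have hl' : Adm (-t') := ⟨by linarith, by linarith⟩
  have hd' : 0 ≤ d' := hd.trans hdd
  have hE : ∀ n, BExp (gwEx (poissonLaw d) (-t) n) Simp :=
    gwEx_bexp (poisson_nonneg0 hd) (poisson_hasSum0 d) hl
  have hF : ∀ n, BExp (gwEx (poissonLaw d') (-t') n) Simp :=
    gwEx_bexp (poisson_nonneg0 hd') (poisson_hasSum0 d') hl'
  induction n with
  | zero => exact CO.refl _
  | succ n ih =>
    rw [gwEx_poisson_succ, gwEx_poisson_succ]
    have h1 : CO (chan (-t) (gwEx (poissonLaw d) (-t) n)) (chan (-t') (gwEx (poissonLaw d') (-t') n)) :=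
      (chan_mono_co (hE n) ht htt ht').trans (chan_co hl' ih)
    have hc1 := chan_bexp (hE n) hl
    have hc2 := chan_bexp (hF n) hl'
    have h2 : CO (poiPath (chan (-t) (gwEx (poissonLaw d) (-t) n)) d)
        (poiPath (chan (-t') (gwEx (poissonLaw d') (-t') n)) d) :=
      mix_co (poisson_nonneg0 hd) (poisson_hasSum0 d).summable (fun k => Pk_bexp hc1 k)
        (fun k => Pk_bexp hc2 k) (fun k => Pk_co hc1 hc2 h1 k)
    exact h2.trans (poiPath_mono hc2 hd hdd)

end Vale.Agent.Lib.P154.Neg
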