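import Vale.Agent.Lib.P154.Neg.Bonf
import Vale.Agent.Lib.P154.Neg.PoiPath

/-!
The Lyapunov step on the Poisson tree when `theta` is known to stay below a bound from some generation
on; the bound comes from the monotonicity of convex functionals along the generations.
-/

namespace Vale.Agent.Lib.P154.Neg

open Filter Topology

namespace LyapData

variable (D : LyapData)

/-- the inequalities to be certified, for a restricted range of `theta`, with `e = 0` -/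
structure Good2 : Prop where
  x1 : Exps D.e1.1 D.e1.2.1 D.e1.2.2
  x2 : Exps D.e2.1 D.e2.2.1 D.e2.2.2
  x3 : Exps D.e3.1 D.e3.2.1 D.e3.2.2
  ha : 0 ≤ D.a
  hb : 0 ≤ D.b
  hc : 0 ≤ D.c
  hg : 0 < D.g
  hr1 : 0 ≤ D.r1
  hr2 : 0 ≤ D.r2
  ht2 : D.t2 ≤ 1 / 2
  psi_nonneg : ∀ x y z, Simp x y z → 0 ≤ D.psi x y z
  k0 : ∀ th, 0 ≤ th → th ≤ D.thm → D.g * th ^ 2 ≤ D.K0 th 0
  row : ∀ x y z, Simp x y z → ∀ t, 0 < t → D.t1 ≤ t → t ≤ D.t2 → ∀ th, 0 ≤ th → th ≤ D.thm →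
    D.g * th ^ 2 ≤ D.psi x y z
      - D.bRow th 0 (chanPt (-t) x) (chanPt (-t) y) (chanPt (-t) z) / t ^ 2 + D.K0 th 0
  tan : ∀ w v, 0 ≤ w → w ≤ D.thm → 0 ≤ v → v ≤ D.thm →
    Gu 0 w ≤ Gu 0 v + Gd 0 v * (w - v)
  r1_le : ∀ th, 0 ≤ th → th ≤ D.thm → D.r1 * th ≤ D.thm
  r2_le : ∀ th, 0 ≤ th → th ≤ D.thm → D.r2 * th ≤ D.thm
  v13 : ∀ x y z, Simp x y z → D.V1 x y z ≤ D.V3 x y z
  v23 : ∀ x y z, Simp x y z → D.V2 x y z ≤ D.V3 x y z
  v1_nn : ∀ x y z, Simp x y z → 0 ≤ D.V1 x y z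
  v2_nn : ∀ x y z, Simp x y z → 0 ≤ D.V2 x y z
  v3_ge : ∀ x y z, Simp x y z → ∀ t, 0 < t → D.t1 ≤ t → t ≤ D.t2 →
    t ^ 2 * I2 x y z ≤ D.V3 (chanPt (-t) x) (chanPt (-t) y) (chanPt (-t) z)

end LyapData

section main2

variable {D : LyapData} (hD : D.Good2)
include hD

theorem main_step2 {E : Ex3} (hE : BExp E Simp) {d t : ℝ} (hd : 0 < d)
    (ht0 : 0 < t) (ht1 : D.t1 ≤ t) (ht2 : t ≤ D.t2) (hKS : d * t ^ 2 ≤ 1)
    (hl : Adm (-t)) {u1 u2 u3 F1 F2 F3 : ℝ}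
    (h1 : u1 = chan (-t) E D.V1) (h2 : u2 = chan (-t) E D.V2) (h3 : u3 = chan (-t) E D.V3)
    (hF1 : F1 ≤ Gu 0 (d * u1)) (hF2 : F2 ≤ Gu 0 (d * u2)) (hF3 : Gl 0 (d * u3) ≤ F3)
    (hthm : d * u3 ≤ D.thm) :
    D.g * (d * u3) ^ 2 ≤ E D.psi - (D.a * F1 + D.b * F2 - D.c * F3) := by
  have hE' := chan_bexp hE hl
  have b1 : Bd D.V1 := bd_vv hD.x1
  have b2 : Bd D.V2 := bd_vv hD.x2
  have b3 : Bd D.V3 := bd_vv hD.x3
  have ht20 : 0 < t ^ 2 := by positivity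
  have v13' : chan (-t) E D.V1 ≤ chan (-t) E D.V3 :=
    hE'.mono b1 b3 (fun x y z h => hD.v13 x y z h)
  have v23' : chan (-t) E D.V2 ≤ chan (-t) E D.V3 :=
    hE'.mono b2 b3 (fun x y z h => hD.v23 x y z h)
  have v1nn : 0 ≤ chan (-t) E D.V1 := hE'.nonneg _ (fun x y z h => hD.v1_nn x y z h)
  have v2nn : 0 ≤ chan (-t) E D.V2 := hE'.nonneg _ (fun x y z h => hD.v2_nn x y z h)
  have u1nn : 0 ≤ u1 := h1 ▸ v1nn
  have u2nn : 0 ≤ u2 := h2 ▸ v2nn
  have u13 : u1 ≤ u3 := by rw [h1, h3]; exact v13'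
  have u23 : u2 ≤ u3 := by rw [h2, h3]; exact v23'
  have u3nn : 0 ≤ u3 := u1nn.trans u13
  obtain ⟨th, hth⟩ : ∃ th, th = d * u3 := ⟨_, rfl⟩
  rw [← hth]
  rw [← hth] at hF3 hthm
  have hth0 : 0 ≤ th := by rw [hth]; positivity
  have w1 : d * u1 ≤ th := by rw [hth]; exact mul_le_mul_of_nonneg_left u13 hd.le
  have w2 : d * u2 ≤ th := by rw [hth]; exact mul_le_mul_of_nonneg_left u23 hd.le
  have w10 : 0 ≤ d * u1 := by positivity
  have w20 : 0 ≤ d * u2 := by positivity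
  have r10 : 0 ≤ D.r1 * th := mul_nonneg hD.hr1 hth0
  have r20 : 0 ≤ D.r2 * th := mul_nonneg hD.hr2 hth0
  have t1 := hD.tan (d * u1) (D.r1 * th) w10 (w1.trans hthm) r10 (hD.r1_le th hth0 hthm)
  have t2 := hD.tan (d * u2) (D.r2 * th) w20 (w2.trans hthm) r20 (hD.r2_le th hth0 hthm)
  have hk0 := hD.k0 th hth0 hthm
  have hpt : ∀ x y z, Simp x y z → 0 ≤ D.psi x y z
      - d * D.bRow th 0 (chanPt (-t) x) (chanPt (-t) y) (chanPt (-t) z) + D.K0 th 0
        - D.g * th ^ 2 := by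
    intro x y z hxyz
    exact interp_row hd ht0 hKS hk0 (hD.psi_nonneg x y z hxyz)
      (hD.row x y z hxyz t ht0 ht1 ht2 th hth0 hthm)
  have bB0 : Bd (fun x y z => D.bRow th 0 x y z) :=
    ((Bd.smul _ b1).add (Bd.smul _ b2)).sub (Bd.smul _ b3)
  have bB : Bd (fun x y z => D.bRow th 0 (chanPt (-t) x) (chanPt (-t) y) (chanPt (-t) z)) :=
    bd_chan hl bB0
  have bpsi : Bd D.psi := ((Bd.smul _ b1).add (Bd.smul _ b2)).sub (Bd.smul _ b3)
  have hint := hE.nonneg _ (fun x y z h => hpt x y z h)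
  have hc1 : Bd (fun x y z => D.psi x y z
      - d * D.bRow th 0 (chanPt (-t) x) (chanPt (-t) y) (chanPt (-t) z)) :=
    bpsi.sub (Bd.smul _ bB)
  have hc2 : Bd (fun x y z => D.psi x y z
      - d * D.bRow th 0 (chanPt (-t) x) (chanPt (-t) y) (chanPt (-t) z) + D.K0 th 0) :=
    hc1.add (Bd.const _)
  rw [hE.sub hc2 (Bd.const _), hE.add _ _ hc1 (Bd.const _), hE.sub bpsi (Bd.smul _ bB), hE.smul,
    hE.const, hE.const] at hint
  have hE2 : E (fun x y z => D.bRow th 0 (chanPt (-t) x) (chanPt (-t) y) (chanPt (-t) z))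
      = D.a * Gd 0 (D.r1 * th) * u1 + D.b * Gd 0 (D.r2 * th) * u2 - D.M th 0 * u3 := by
    have c1 : chan (-t) E (fun x y z => D.bRow th 0 x y z)
        = E (fun x y z => D.bRow th 0 (chanPt (-t) x) (chanPt (-t) y) (chanPt (-t) z)) := rfl
    rw [← c1]
    have c2 : chan (-t) E (fun x y z => D.bRow th 0 x y z)
        = chan (-t) E (fun x y z => D.a * Gd 0 (D.r1 * th) * D.V1 x y z
            + D.b * Gd 0 (D.r2 * th) * D.V2 x y z - D.M th 0 * D.V3 x y z) := rfl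
    rw [c2, hE'.sub ((Bd.smul _ b1).add (Bd.smul _ b2)) (Bd.smul _ b3),
      hE'.add _ _ (Bd.smul _ b1) (Bd.smul _ b2), hE'.smul, hE'.smul, hE'.smul, ← h1, ← h2, ← h3]
  rw [hE2] at hint
  have e2 : d * (D.a * Gd 0 (D.r1 * th) * u1 + D.b * Gd 0 (D.r2 * th) * u2 - D.M th 0 * u3)
      = D.a * (Gd 0 (D.r1 * th) * (d * u1)) + D.b * (Gd 0 (D.r2 * th) * (d * u2))
        - D.M th 0 * th := by
    rw [hth]
    ring
  rw [e2] at hint
  exact alg_final (w1 := D.r1 * th) (w2 := D.r2 * th) (G1 := Gu 0 (D.r1 * th))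
    (G2 := Gu 0 (D.r2 * th)) (G3 := Gl 0 th) (s1 := Gd 0 (D.r1 * th)) (s2 := Gd 0 (D.r2 * th))
    (M := D.M th 0) (th := th) (v1 := d * u1) (v2 := d * u2) hint
    (mul_le_mul_of_nonneg_left (hF1.trans t1) hD.ha)
    (mul_le_mul_of_nonneg_left (hF2.trans t2) hD.hb)
    (mul_le_mul_of_nonneg_left hF3 hD.hc)

/-- the tail theorem: if `theta` stays below the bound from generation `N` on, the second moment
tends to zero -/
theorem main_tail {d t : ℝ} (hd : 0 < d) (ht0 : 0 < t) (ht1 : D.t1 ≤ t)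
    (ht2 : t ≤ D.t2) (hKS : d * t ^ 2 ≤ 1) {N : ℕ}
    (hN : ∀ n, N ≤ n → d * chan (-t) (gwEx (poissonLaw d) (-t) n) D.V3 ≤ D.thm) :
    Tendsto (fun n => gwEx (poissonLaw d) (-t) n I2) atTop (𝓝 0) := by
  have hm := model_poisson hd
  have ht12 : t ≤ 1 / 2 := ht2.trans hD.ht2
  have hl : Adm (-t) := ⟨by linarith, by linarith⟩
  have hE := gwEx_bexp hm.hp0 hm.hp1 hl
  have b1 : Bd D.V1 := bd_vv hD.x1
  have b2 : Bd D.V2 := bd_vv hD.x2
  have b3 : Bd D.V3 := bd_vv hD.x3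
  set u3 : ℕ → ℝ := fun n => chan (-t) (gwEx (poissonLaw d) (-t) n) D.V3 with hu3
  have hr : ∀ {F : Fn3}, Bd F → (∀ x y z, Simp x y z → 0 ≤ F x y z) →
      (∀ x y z, Simp x y z → F x y z ≤ 1) → ∀ n, 0 ≤ chan (-t) (gwEx (poissonLaw d) (-t) n) F ∧
        chan (-t) (gwEx (poissonLaw d) (-t) n) F ≤ 1 := by
    intro F hF h0 h1 n
    have hE' := chan_bexp (hE n) hl
    refine ⟨hE'.nonneg _ (fun x y z h => h0 x y z h), ?_⟩
    have := hE'.mono (f := F) (g := fun _ _ _ => 1) hF (Bd.const 1) (fun x y z h => h1 x y z h)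
    rwa [hE'.const] at this
  have chi_nn : ∀ {α β γ : ℝ}, Exps α β γ → ∀ x y z, Simp x y z → 0 ≤ chi α β γ x y z := by
    intro α β γ h x y z hs
    unfold chi
    have a1 := (mono_unit h hs).1
    have a2 := (mono_unit h (simp_cyc hs)).1
    have a3 := (mono_unit h (simp_cyc (simp_cyc hs))).1
    have a4 := (mono_unit h (simp_swap hs)).1
    have a5 : 0 ≤ mono α β γ x z y := by
      unfold mono
      have := hs.ha
      have := hs.hb
      have := hs.hc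
      positivity
    have a6 : 0 ≤ mono α β γ z y x := by
      unfold mono
      have := hs.ha
      have := hs.hb
      have := hs.hc
      positivity
    positivity
  have hle1 : ∀ {α β γ : ℝ}, Exps α β γ → ∀ x y z, Simp x y z → vv α β γ x y z ≤ 1 := by
    intro α β γ h x y z hs
    have := chi_nn h x y z hs
    unfold vv
    linarith
  have hu1r := hr b1 hD.v1_nn (fun x y z h => hle1 hD.x1 x y z h)
  have hu2r := hr b2 hD.v2_nn (fun x y z h => hle1 hD.x2 x y z h)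
  have hu3r := hr b3 (fun x y z h => (hD.v1_nn x y z h).trans (hD.v13 x y z h))
    (fun x y z h => hle1 hD.x3 x y z h)
  have hstep : ∀ n, D.g * (d * u3 (N + n)) ^ 2
      ≤ gwEx (poissonLaw d) (-t) (N + n) D.psi - gwEx (poissonLaw d) (-t) (N + n + 1) D.psi := by
    intro n
    have e1 : gwEx (poissonLaw d) (-t) (N + n + 1) D.psi = D.a * gwEx (poissonLaw d) (-t) (N + n + 1) D.V1
        + D.b * gwEx (poissonLaw d) (-t) (N + n + 1) D.V2 - D.c * gwEx (poissonLaw d) (-t) (N + n + 1) D.V3 := by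
      unfold LyapData.psi
      rw [(hE (N + n + 1)).sub ((Bd.smul _ b1).add (Bd.smul _ b2)) (Bd.smul _ b3),
        (hE (N + n + 1)).add _ _ (Bd.smul _ b1) (Bd.smul _ b2), (hE (N + n + 1)).smul, (hE (N + n + 1)).smul,
        (hE (N + n + 1)).smul]
    rw [e1]
    refine main_step2 hD (hE (N + n)) hd ht0 ht1 ht2 hKS hl rfl rfl rfl ?_ ?_ ?_ ?_
    · have : gwEx (poissonLaw d) (-t) (N + n + 1) D.V1 = _ := gwEx_vv hm.hp0 hm.hp1 hl (N + n) hD.x1
      rw [this]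
      exact hm.up _ (hu1r (N + n)).1 (hu1r (N + n)).2
    · have : gwEx (poissonLaw d) (-t) (N + n + 1) D.V2 = _ := gwEx_vv hm.hp0 hm.hp1 hl (N + n) hD.x2
      rw [this]
      exact hm.up _ (hu2r (N + n)).1 (hu2r (N + n)).2
    · have : gwEx (poissonLaw d) (-t) (N + n + 1) D.V3 = _ := gwEx_vv hm.hp0 hm.hp1 hl (N + n) hD.x3
      rw [this]
      exact hm.lo _ (hu3r (N + n)).1 (hu3r (N + n)).2
    · exact hN (N + n) (Nat.le_add_right _ _)
  have hL : ∀ n, 0 ≤ gwEx (poissonLaw d) (-t) (N + n) D.psi := fun n =>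
    (hE (N + n)).nonneg _ (fun x y z h => hD.psi_nonneg x y z h)
  have hth : Tendsto (fun n => d * u3 (N + n)) atTop (𝓝 0) :=
    tendsto_zero_of_step hD.hg hL (fun n => mul_nonneg hd.le (hu3r (N + n)).1) (fun n => hstep n)
  have hI : ∀ n, gwEx (poissonLaw d) (-t) (N + n) I2 ≤ 1 / (d * t ^ 2) * (d * u3 (N + n)) := by
    intro n
    have hm1 : t ^ 2 * gwEx (poissonLaw d) (-t) (N + n) I2 ≤ u3 (N + n) := by
      have := (hE (N + n)).mono (f := fun x y z => t ^ 2 * I2 x y z)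
        (g := fun x y z => D.V3 (chanPt (-t) x) (chanPt (-t) y) (chanPt (-t) z))
        (Bd.smul _ bd_I2) (bd_chan hl b3) (fun x y z h => hD.v3_ge x y z h t ht0 ht1 ht2)
      rw [(hE (N + n)).smul] at this
      exact this
    have e : 1 / (d * t ^ 2) * (d * u3 (N + n)) = u3 (N + n) / t ^ 2 := by
      field_simp
    rw [e, le_div_iff₀ (by positivity)]
    linarith
  have hlim : Tendsto (fun n => 1 / (d * t ^ 2) * (d * u3 (N + n))) atTop (𝓝 0) := by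
    have := hth.const_mul (1 / (d * t ^ 2))
    simpa using this
  have hnn : ∀ n, 0 ≤ gwEx (poissonLaw d) (-t) (N + n) I2 := fun n =>
    (hE (N + n)).nonneg _ (fun x y z _ => by unfold I2; positivity)
  have hfin : Tendsto (fun n => gwEx (poissonLaw d) (-t) (n + N) I2) atTop (𝓝 0) := by
    have := squeeze_zero hnn hI hlim
    refine this.congr (fun n => ?_)
    rw [Nat.add_comm]
  exact (tendsto_add_atTop_iff_nat N).1 hfin

end main2

end Vale.Agent.Lib.P154.Neg
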