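import Vale.Agent.Lib.P154.Neg.Frame3
import Vale.Agent.Lib.P154.Neg.Lyap2

/-!
The checks of a certificate for a restricted range of `theta`, on the Poisson tree.
-/

namespace Vale.Agent.Lib.P154.Neg

open Kron

namespace Cst

section boxes4

variable {q0 q1 q2 q3 : ℤ × ℤ × ℕ}

theorem inBox4 {x0 x1 x2 x3 : ℝ} (h0 : ivv q0 x0) (h1 : ivv q1 x1) (h2 : ivv q2 x2)
    (h3 : ivv q3 x3) : InBoxC 4 [q0, q1, q2, q3] (env5 x0 x1 x2 x3 0) := by
  intro i hi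
  interval_cases i
  · exact h0
  · exact h1
  · exact h2
  · exact h3

theorem den4 (h0 : 0 < q0.2.2) (h1 : 0 < q1.2.2) (h2 : 0 < q2.2.2) (h3 : 0 < q3.2.2) :
    ∀ i, 0 < (([q0, q1, q2, q3] : List (ℤ × ℤ × ℕ)).getD i (0, 1, 1)).2.2 := by
  intro i
  rcases i with _ | _ | _ | _ | i
  · exact h0
  · exact h1
  · exact h2
  · exact h3
  · simp

theorem lt4 (h0 : q0.1 < q0.2.1) (h1 : q1.1 < q1.2.1) (h2 : q2.1 < q2.2.1) (h3 : q3.1 < q3.2.1) :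
    ∀ i, i < 4 → (([q0, q1, q2, q3] : List (ℤ × ℤ × ℕ)).getD i (0, 1, 1)).1
      < (([q0, q1, q2, q3] : List (ℤ × ℤ × ℕ)).getD i (0, 1, 1)).2.1 := by
  intro i hi
  interval_cases i
  · exact h0
  · exact h1
  · exact h2
  · exact h3

end boxes4

/-- the further data of a certificate for a restricted range of `theta` -/
structure Ext where
  /-- the splitting point of the charts -/
  rho0 : RC
  /-- the box of the third chart -/
  bR3 : ℤ × ℤ × ℕ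
  /-- the box of the check of the lower bound -/
  bRW : ℤ × ℤ × ℕ
  /-- the subdivision of the third chart -/
  tQ3 : BT

/-- the first chart, in the variables `rho, beta, t, kappa`, at `e = 0` -/
def eQ1t (C : Cst) : PQ :=
  eQ C (pE (.var 0) (.var 1)) (qE (.var 0) (.var 1)) (.var 2)
    (.mul (.var 3) (.pow (.var 0) 2)) (.rat 0 1)

/-- the second chart, in the variables `sigma, nu, beta, t`, at `e = 0` -/
def eQ2t (C : Cst) : PQ :=
  eQ C (pE (.mul (.var 0) (.var 1)) (.var 2)) (qE (.mul (.var 0) (.var 1)) (.var 2)) (.var 3)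
    (.pow (.var 0) 2) (.rat 0 1)

/-- the third chart, in the variables `rho, beta, t, theta`, at `e = 0` -/
def eQ3t (C : Cst) : PQ :=
  eQ C (pE (.var 0) (.var 1)) (qE (.var 0) (.var 1)) (.var 2) (.var 3) (.rat 0 1)

/-- everything that has to be checked about the data -/
structure T2OK (C : Cst) (X : Ext) : Prop where
  i1 : 0 < C.A.i1
  i2 : 0 < C.A.i2
  s1 : C.A.i1 + C.A.j1 + C.A.k1 = 6
  s2 : C.A.i2 + C.A.j2 + C.A.k2 = 6
  ha : 0 ≤ rv C.a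
  hb : 0 ≤ rv C.b
  hc : 0 ≤ rv C.c
  hg : 0 < rv C.g
  hr1 : 0 ≤ rv C.r1
  hr2 : 0 ≤ rv C.r2
  hr1' : rv C.r1 ≤ 1
  hr2' : rv C.r2 ≤ 1
  ht1 : 0 ≤ rv C.t1
  ht2 : rv C.t2 ≤ 1 / 2
  hkp0 : 0 < rv C.kp0
  hrho0 : 0 < rv X.rho0
  hm0 : (1 + rv C.t2) / 3 ≤ rv C.m0
  hm20 : 2 * rv C.m0 < 1
  hm0d : 0 < C.m0.2
  ha0 : 0 < C.a0
  hb0 : C.a0 < C.b0
  hc0 : C.a0 < C.c0
  hratio : rv C.m0 * (C.a0 : ℝ) ^ 6 ≤ (1 - 2 * rv C.m0) * (C.c0 : ℝ) ^ 6
  cChord : checkAuto 2 C.eChord = true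
  cX : checkCT C.A C.eX M0 C.tX = true
  cY1 : checkCT C.A C.eY1 (MC C.a0 C.b0 C.c0) C.tY1 = true
  cY2 : checkCT C.A C.eY2 (MC C.a0 C.b0 C.c0) C.tY2 = true
  cM1 : checkCT C.A (psub (.var 0) (.var 2)) M0 C.tM1 = true
  cM2 : checkCT C.A (psub (.var 1) (.var 2)) M0 C.tM2 = true
  cN1 : checkCT C.A (psub (pk 1) (.var 0)) M0 C.tN1 = true
  cN2 : checkCT C.A (psub (pk 1) (.var 1)) M0 C.tN2 = true
  iRho : Iv C.bRho 0 (rv X.rho0)
  iR3 : Iv X.bR3 (rv X.rho0) 1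
  iRW : Iv X.bRW 0 1
  iBeta : Iv C.bBeta 0 1
  iT : Iv C.bT (rv C.t1) (rv C.t2)
  iKap : Iv C.bKap 0 (rv C.kp0)
  iEps : Iv C.bEps 0 0
  iTh : Iv C.bTh 0 (rv C.thm)
  iZ : Iv C.bZ 0 ((rv C.t2) ^ 2 * (3 + 2 * rv C.t2))
  iSig : C.bSig.1 < C.bSig.2.1 ∧ (C.bSig.1 : ℝ) ≤ 0 ∧ 0 < C.bSig.2.2 ∧ 0 ≤ (C.bSig.2.1 : ℝ) ∧
    (C.bSig.2.2 : ℝ) ^ 2 * rv C.thm ≤ (C.bSig.2.1 : ℝ) ^ 2
  iNu : C.bNu.1 < C.bNu.2.1 ∧ (C.bNu.1 : ℝ) ≤ 0 ∧ 0 < C.bNu.2.2 ∧ 0 ≤ (C.bNu.2.1 : ℝ) ∧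
    (C.bNu.2.2 : ℝ) ^ 2 ≤ (C.bNu.2.1 : ℝ) ^ 2 * rv C.kp0
  wQ1 : PQ.wf 4 (eQ1t C) = true
  cQ1 : checkTree 4 (eQ1t C) [C.bRho, C.bBeta, C.bT, C.bKap] C.tQ1 = true
  wQ2 : PQ.wf 4 (eQ2t C) = true
  cQ2 : checkTree 4 (eQ2t C) [C.bSig, C.bNu, C.bBeta, C.bT] C.tQ2 = true
  wQ3 : PQ.wf 4 (eQ3t C) = true
  cQ3 : checkTree 4 (eQ3t C) [X.bR3, C.bBeta, C.bT, C.bTh] X.tQ3 = true
  wW : PQ.wf 2 C.eWp = true
  cW : checkTree 2 C.eWp [X.bRW, C.bBeta] C.tW = true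
  wK : PQ.wf 2 C.eKg = true
  cK : checkTree 2 C.eKg [C.bTh, C.bEps] C.tK = true
  wS1 : PQ.wf 2 C.eS1 = true
  cS1 : checkTree 2 C.eS1 [C.bTh, C.bEps] C.tS1 = true
  wS2 : PQ.wf 2 C.eS2 = true
  cS2 : checkTree 2 C.eS2 [C.bTh, C.bEps] C.tS2 = true
  wC : PQ.wf 3 (eRr (.var 2) (.var 0) (.var 1)) = true
  cC : checkTree 3 (eRr (.var 2) (.var 0) (.var 1)) [C.bTh, C.bTh, C.bEps] C.tC = true
  wXi : PQ.wf 2 C.eXiE = true
  cXi : checkTree 2 C.eXiE [C.bTh, C.bEps] C.tXi = true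
  wE : PQ.wf 2 C.Ek = true
  cE : checkTree 2 C.Ek [C.bTh, C.bEps] C.tE = true
  wZ1 : PQ.wf 1 C.eZ1 = true
  cZ1 : checkTree 1 C.eZ1 [C.bZ] C.tZ = true
  wZ2 : PQ.wf 1 C.eZ2 = true
  cZ2 : checkTree 1 C.eZ2 [C.bZ] C.tZ = true
  wZ3 : PQ.wf 1 C.eZ3 = true
  cZ3 : checkTree 1 C.eZ3 [C.bZ] C.tZ = true

variable {C : Cst} {X : Ext} (h : C.T2OK X)

include h

/-! ### the small checks -/

theorem t2_qV_nonneg {x y z t th : ℝ} (hs : Simp x y z) (ht1 : rv C.t1 ≤ t) (ht2 : t ≤ rv C.t2)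
    (hth0 : 0 ≤ th) (hth1 : th ≤ rv C.thm) :
    0 ≤ C.qV (pF x y z) (qF x y z) t th 0 := by
  obtain ⟨r, b, hr0, hr1, hb0, hb1, hp, hq⟩ := chart_all x y z hs
  have it := h.iT.mem ht1 ht2
  have ib := h.iBeta.mem hb0 hb1
  rw [hp, hq]
  have hkp := h.hkp0
  have hze : evalQ (env5 r b t 0 0) (.rat 0 1) = 0 := by simp [evalQ]
  by_cases hr3 : rv X.rho0 ≤ r
  · -- third chart
    have := checkTree_closed h.wQ3 h.cQ3 (den4 h.iR3.h0 h.iBeta.h0 h.iT.h0 h.iTh.h0)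
      (lt4 h.iR3.hl h.iBeta.hl h.iT.hl h.iTh.hl)
      (inBox4 (h.iR3.mem hr3 hr1) ib it (h.iTh.mem hth0 hth1))
    rw [eQ3t, eval_eQ, eval_pE, eval_qE] at this
    simpa [evalQ, env5] using this
  push Not at hr3
  by_cases hc : th ≤ rv C.kp0 * r ^ 2
  · -- first chart
    have ir := h.iRho.mem hr0 hr3.le
    rcases hr0.eq_or_lt with hr2 | hr2
    · have hth : th = 0 := by
        rw [← hr2] at hc
        have : th ≤ 0 := by simpa using hc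
        linarith
      have ik := h.iKap.mem (le_refl 0) hkp.le
      have := checkTree_closed h.wQ1 h.cQ1 (den4 h.iRho.h0 h.iBeta.h0 h.iT.h0 h.iKap.h0)
        (lt4 h.iRho.hl h.iBeta.hl h.iT.hl h.iKap.hl) (inBox4 ir ib it ik)
      rw [eQ1t, eval_eQ, eval_pE, eval_qE] at this
      simpa [evalQ, env5, hth] using this
    · have hk0 : 0 ≤ th / r ^ 2 := by positivity
      have hk1 : th / r ^ 2 ≤ rv C.kp0 := by
        rw [div_le_iff₀ (by positivity)]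
        exact hc
      have ik := h.iKap.mem hk0 hk1
      have := checkTree_closed h.wQ1 h.cQ1 (den4 h.iRho.h0 h.iBeta.h0 h.iT.h0 h.iKap.h0)
        (lt4 h.iRho.hl h.iBeta.hl h.iT.hl h.iKap.hl) (inBox4 ir ib it ik)
      rw [eQ1t, eval_eQ, eval_pE, eval_qE] at this
      have e3 : evalQ (env5 r b t (th / r ^ 2) 0) (.mul (.var 3) (.pow (.var 0) 2)) = th := by
        simp only [evalQ, env5]
        field_simp
      rw [e3] at this
      simpa [evalQ, env5] using this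
  · -- second chart
    push Not at hc
    have hthp : 0 < th := lt_of_le_of_lt (by positivity) hc
    set s := Real.sqrt th with hs1
    have hs0 : 0 < s := Real.sqrt_pos.2 hthp
    have hs2 : s ^ 2 = th := Real.sq_sqrt hthp.le
    obtain ⟨i0, i1, i2, i3, i4⟩ := h.iSig
    obtain ⟨j0, j1, j2, j3, j4⟩ := h.iNu
    have hD : (0 : ℝ) < (C.bSig.2.2 : ℝ) := by exact_mod_cast i2
    have hD' : (0 : ℝ) < (C.bNu.2.2 : ℝ) := by exact_mod_cast j2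
    have is : ivv C.bSig s := by
      refine ⟨i1.trans (by positivity), ?_⟩
      have h3 : ((C.bSig.2.2 : ℝ) * s) ^ 2 ≤ (C.bSig.2.1 : ℝ) ^ 2 := by
        rw [mul_pow, hs2]
        refine le_trans ?_ i4
        exact mul_le_mul_of_nonneg_left hth1 (by positivity)
      exact (pow_le_pow_iff_left₀ (by positivity) i3 (by norm_num)).1 h3
    have hn0 : 0 ≤ r / s := by positivity
    have inu : ivv C.bNu (r / s) := by
      refine ⟨j1.trans (by positivity), ?_⟩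
      have h3 : ((C.bNu.2.2 : ℝ) * (r / s)) ^ 2 ≤ (C.bNu.2.1 : ℝ) ^ 2 := by
        rw [mul_pow, div_pow, hs2]
        have h4 : r ^ 2 / th * rv C.kp0 < 1 := by
          rw [div_mul_eq_mul_div, div_lt_one hthp]
          nlinarith
        have h5 : 0 < (C.bNu.2.1 : ℝ) ^ 2 := by
          have : 0 < (C.bNu.2.2 : ℝ) ^ 2 := by positivity
          have h6 : 0 < (C.bNu.2.1 : ℝ) ^ 2 * rv C.kp0 := lt_of_lt_of_le this j4
          by_contra hn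
          push Not at hn
          have := mul_nonpos_of_nonpos_of_nonneg hn hkp.le
          linarith
        calc (C.bNu.2.2 : ℝ) ^ 2 * (r ^ 2 / th) ≤ (C.bNu.2.1 : ℝ) ^ 2 * rv C.kp0 * (r ^ 2 / th) :=
              mul_le_mul_of_nonneg_right j4 (by positivity)
          _ = (C.bNu.2.1 : ℝ) ^ 2 * (r ^ 2 / th * rv C.kp0) := by ring
          _ ≤ (C.bNu.2.1 : ℝ) ^ 2 * 1 := mul_le_mul_of_nonneg_left h4.le h5.le
          _ = _ := mul_one _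
      exact (pow_le_pow_iff_left₀ (by positivity) j3 (by norm_num)).1 h3
    have := checkTree_closed h.wQ2 h.cQ2 (den4 i2 j2 h.iBeta.h0 h.iT.h0)
      (lt4 i0 j0 h.iBeta.hl h.iT.hl) (inBox4 is inu ib it)
    rw [eQ2t, eval_eQ, eval_pE, eval_qE] at this
    have e1 : evalQ (env5 s (r / s) b t 0) (.mul (.var 0) (.var 1)) = r := by
      simp only [evalQ, env5]
      field_simp
    have e2 : evalQ (env5 s (r / s) b t 0) (.pow (.var 0) 2) = th := by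
      simp only [evalQ, env5]
      exact hs2
    rw [e1, e2] at this
    simpa [evalQ, env5] using this

theorem t2_W_nonneg {x y z : ℝ} (hs : Simp x y z) : 0 ≤ evalQ (env2 (pF x y z) (qF x y z)) C.W := by
  obtain ⟨r, b, hr0, hr1, hb0, hb1, hp, hq⟩ := chart_all x y z hs
  have := checkTree_closed h.wW h.cW (den2 h.iRW.h0 h.iBeta.h0) (lt2 h.iRW.hl h.iBeta.hl)
    (inBox2 (h.iRW.mem hr0 hr1) (h.iBeta.mem hb0 hb1))
  rw [eWp, subst2, eval_pE, eval_qE] at this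
  rw [hp, hq]
  exact this

/-! ### values at the simplex -/

theorem t2_psi_ge {x y z : ℝ} (hs : Simp x y z) :
    evalQ (env2 (pF x y z) (qF x y z)) C.W ≤ C.toData.psi x y z := by
  have := cert_all h.cX x y z hs
  simp only [eX, eval_psub, evalQ, eval_rq, eval_pk, subst2] at this
  have e0 : envX C.A x y z 3 = pF x y z := rfl
  have e1 : envX C.A x y z 4 = qF x y z := rfl
  rw [e0, e1] at this
  have e2 : C.toData.psi x y z = rv C.a * (1 - envX C.A x y z 0) + rv C.b * (1 - envX C.A x y z 1)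
      - rv C.c * (1 - envX C.A x y z 2) := rfl
  rw [e2]
  push_cast at this
  linarith

theorem t2_psi_nn {x y z : ℝ} (hs : Simp x y z) : 0 ≤ C.toData.psi x y z :=
  (t2_W_nonneg h hs).trans (t2_psi_ge h hs)

theorem t2_chi_le_D1 {x y z : ℝ} (hs : Simp x y z) : C.toData.V1 x y z ≤ C.toData.V3 x y z := by
  have := cert_all h.cM1 x y z hs
  simp only [eval_psub, evalQ] at this
  have e2 : C.toData.V1 x y z = 1 - envX C.A x y z 0 := rfl
  have e3 : C.toData.V3 x y z = 1 - envX C.A x y z 2 := rfl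
  rw [e2, e3]
  linarith

theorem t2_chi_le_D2 {x y z : ℝ} (hs : Simp x y z) : C.toData.V2 x y z ≤ C.toData.V3 x y z := by
  have := cert_all h.cM2 x y z hs
  simp only [eval_psub, evalQ] at this
  have e2 : C.toData.V2 x y z = 1 - envX C.A x y z 1 := rfl
  have e3 : C.toData.V3 x y z = 1 - envX C.A x y z 2 := rfl
  rw [e2, e3]
  linarith

theorem t2_V1_nn {x y z : ℝ} (hs : Simp x y z) : 0 ≤ C.toData.V1 x y z := by
  have := cert_all h.cN1 x y z hs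
  simp only [eval_psub, evalQ, eval_pk] at this
  have e2 : C.toData.V1 x y z = 1 - envX C.A x y z 0 := rfl
  rw [e2]
  push_cast at this
  linarith

theorem t2_V2_nn {x y z : ℝ} (hs : Simp x y z) : 0 ≤ C.toData.V2 x y z := by
  have := cert_all h.cN2 x y z hs
  simp only [eval_psub, evalQ, eval_pk] at this
  have e2 : C.toData.V2 x y z = 1 - envX C.A x y z 1 := rfl
  rw [e2]
  push_cast at this
  linarith

/-! ### the bounds at the channel output -/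

theorem t2_chord_poly {m1 m2 : ℝ} (h1 : 0 ≤ m1) (h2 : 0 ≤ m2) :
    rv C.m0 * (((C.a0 : ℝ) * m1 + (C.c0 : ℝ) * m2) ^ 6 + ((C.a0 : ℝ) * m1 + (C.a0 : ℝ) * m2) ^ 6)
      ≤ (1 - rv C.m0) * ((C.b0 : ℝ) * m1 + (C.c0 : ℝ) * m2) ^ 6 := by
  have hy : ∀ i, 0 ≤ env2 m1 m2 i := by
    intro i
    rcases i with _ | i
    · exact h1
    · exact h2
  have := checkAuto_sound h.cChord (env2 m1 m2) hy
  simp only [eChord, evalE, env2] at this
  have hd : (0 : ℝ) < (C.m0.2 : ℝ) := by exact_mod_cast h.hm0d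
  have e1 : rv C.m0 = (C.m0.1 : ℝ) / (C.m0.2 : ℝ) := rfl
  have e2 : ((C.m0.2 : ℤ) : ℝ) = (C.m0.2 : ℝ) := by simp
  rw [e2] at this
  push_cast at this
  rw [e1, ← sub_nonneg]
  have e3 : (1 - (C.m0.1 : ℝ) / (C.m0.2 : ℝ)) * ((C.b0 : ℝ) * m1 + (C.c0 : ℝ) * m2) ^ 6
      - (C.m0.1 : ℝ) / (C.m0.2 : ℝ) * (((C.a0 : ℝ) * m1 + (C.c0 : ℝ) * m2) ^ 6
        + ((C.a0 : ℝ) * m1 + (C.a0 : ℝ) * m2) ^ 6)
      = (1 / (C.m0.2 : ℝ)) * (((C.m0.2 : ℝ) + -(C.m0.1 : ℝ)) * ((C.b0 : ℝ) * m1 + (C.c0 : ℝ) * m2) ^ 6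
        + -(C.m0.1 : ℝ) * (((C.a0 : ℝ) * m1 + (C.c0 : ℝ) * m2) ^ 6
          + ((C.a0 : ℝ) * m1 + (C.a0 : ℝ) * m2) ^ 6)) := by
    field_simp
    ring
  rw [e3]
  exact mul_nonneg (by positivity) this

theorem t2_cert_y {e : PQ} {t : CT} (hc : checkCT C.A e (MC C.a0 C.b0 C.c0) t = true)
    {x y z : ℝ} (hs : Simp x y z) (hx : x ≤ rv C.m0) (hy : y ≤ rv C.m0) (hz : z ≤ rv C.m0) :
    0 ≤ evalQ (envX C.A x y z) e :=
  cert_chord hc h.ha0 h.hb0 h.hc0 h.hm20 h.hratio (fun _ _ h1 h2 => t2_chord_poly h h1 h2) x y z hs hx hy hz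

/-- the channel output is bounded -/
theorem t2_chan_le {x t : ℝ} (hx : 0 ≤ x) (ht0 : 0 < t) (ht2 : t ≤ rv C.t2) :
    chanPt (-t) x ≤ rv C.m0 := by
  have := h.hm0
  unfold chanPt
  nlinarith

theorem t2_Y1_bound {y1 y2 y3 : ℝ} (hs : Simp y1 y2 y3) (hx : y1 ≤ rv C.m0) (hy : y2 ≤ rv C.m0)
    (hz : y3 ≤ rv C.m0) : C.toData.V1 y1 y2 y3 - rv C.rho1 * C.toData.V3 y1 y2 y3
      ≤ evalQ (env2 (pF y1 y2 y3) (qF y1 y2 y3)) C.V1h := by
  have := t2_cert_y h h.cY1 hs hx hy hz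
  simp only [eY1, eval_psub, evalQ, eval_rq, eval_pk, subst2] at this
  have e0 : envX C.A y1 y2 y3 3 = pF y1 y2 y3 := rfl
  have e1 : envX C.A y1 y2 y3 4 = qF y1 y2 y3 := rfl
  rw [e0, e1] at this
  have e2 : C.toData.V1 y1 y2 y3 = 1 - envX C.A y1 y2 y3 0 := rfl
  have e3 : C.toData.V3 y1 y2 y3 = 1 - envX C.A y1 y2 y3 2 := rfl
  rw [e2, e3]
  push_cast at this
  linarith

theorem t2_Y2_bound {y1 y2 y3 : ℝ} (hs : Simp y1 y2 y3) (hx : y1 ≤ rv C.m0) (hy : y2 ≤ rv C.m0)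
    (hz : y3 ≤ rv C.m0) : C.toData.V2 y1 y2 y3 - rv C.rho2 * C.toData.V3 y1 y2 y3
      ≤ evalQ (env2 (pF y1 y2 y3) (qF y1 y2 y3)) C.V2h := by
  have := t2_cert_y h h.cY2 hs hx hy hz
  simp only [eY2, eval_psub, evalQ, eval_rq, eval_pk, subst2] at this
  have e0 : envX C.A y1 y2 y3 3 = pF y1 y2 y3 := rfl
  have e1 : envX C.A y1 y2 y3 4 = qF y1 y2 y3 := rfl
  rw [e0, e1] at this
  have e2 : C.toData.V2 y1 y2 y3 = 1 - envX C.A y1 y2 y3 1 := rfl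
  have e3 : C.toData.V3 y1 y2 y3 = 1 - envX C.A y1 y2 y3 2 := rfl
  rw [e2, e3]
  push_cast at this
  linarith

/-- the two bounds of the negative atom in the defect -/
theorem t2_V3_bounds {y1 y2 y3 z : ℝ} (hs : Simp y1 y2 y3) (hz : 27 * (y1 * y2 * y3) = 1 - z)
    (hz0 : 0 ≤ z) (hz1 : z ≤ (rv C.t2) ^ 2 * (3 + 2 * rv C.t2)) :
    evalQ (fun _ => z) C.Sz ≤ C.toData.V3 y1 y2 y3 ∧
      C.toData.V3 y1 y2 y3 ≤ evalQ (fun _ => z) C.Sz + rv C.er * z ^ 3 := by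
  obtain ⟨c0, c3⟩ := chiD_cube hs
  rw [hz] at c3
  have e3 : C.toData.V3 y1 y2 y3
      = 1 - chi (((2 : ℕ) : ℝ) / 6) (((2 : ℕ) : ℝ) / 6) (((2 : ℕ) : ℝ) / 6) y1 y2 y3 := rfl
  rw [e3]
  generalize chi (((2 : ℕ) : ℝ) / 6) (((2 : ℕ) : ℝ) / 6) (((2 : ℕ) : ℝ) / 6) y1 y2 y3 = ch at *
  have iz := inBox1 (h.iZ.mem hz0 hz1)
  have d1 := den1 h.iZ.h0
  have l1 := lt1 h.iZ.hl
  have b1 := checkTree_closed h.wZ1 h.cZ1 d1 l1 iz
  have b2 := checkTree_closed h.wZ2 h.cZ2 d1 l1 iz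
  have b3 := checkTree_closed h.wZ3 h.cZ3 d1 l1 iz
  simp only [eZ1, eZ2, eZ3, eval_psub, evalQ, eval_pk, eval_rq] at b1 b2 b3
  push_cast at b1 b2 b3
  generalize evalQ (fun _ => z) C.Sz = S at *
  refine ⟨?_, ?_⟩
  · have : ch ≤ 1 - S := le_of_cube_le (by linarith) (by rw [c3]; linarith)
    linarith
  · have : 1 - S - rv C.er * z ^ 3 ≤ ch := le_of_cube_le c0 (by rw [c3]; linarith)
    linarith

/-- the multiplier and the negative atom -/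
theorem t2_xi_bound {th z S V : ℝ} (hth0 : 0 ≤ th) (hth1 : th ≤ rv C.thm)
    (hz : 0 ≤ z) (h1 : S ≤ V) (h2 : V ≤ S + rv C.er * z ^ 3) :
    C.xiV th 0 * S - evalQ (env2 th 0) C.Ek * z ^ 3 ≤ C.xiV th 0 * V := by
  have he0 : (0 : ℝ) ≤ 0 := le_refl _
  have he1 : (0 : ℝ) ≤ 0 := le_refl _
  have hb := checkTree_closed h.wXi h.cXi (den2 h.iTh.h0 h.iEps.h0) (lt2 h.iTh.hl h.iEps.hl)
    (inBox2 (h.iTh.mem hth0 hth1) (h.iEps.mem he0 he1))
  simp only [eXiE, evalQ, eval_rq] at hb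
  have hb' : 0 ≤ evalQ (env2 th 0) C.Ek + rv C.er * C.xiV th 0 := hb
  have hE := checkTree_closed h.wE h.cE (den2 h.iTh.h0 h.iEps.h0) (lt2 h.iTh.hl h.iEps.hl)
    (inBox2 (h.iTh.mem hth0 hth1) (h.iEps.mem he0 he1))
  have hz3 : 0 ≤ z ^ 3 := by positivity
  rcases le_total 0 (C.xiV th 0) with h3 | h3
  · have := mul_le_mul_of_nonneg_left h1 h3
    have := mul_nonneg hE hz3
    linarith
  · have h4 := mul_le_mul_of_nonpos_left h2 h3
    have h5 := mul_nonneg hb' hz3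
    nlinarith

/-- the main row -/
theorem t2_row_main {x y z t th : ℝ} (hs : Simp x y z) (ht0 : 0 < t) (ht1 : rv C.t1 ≤ t)
    (ht2 : t ≤ rv C.t2) (hth0 : 0 ≤ th) (hth1 : th ≤ rv C.thm) :
    rv C.g * th ^ 2 ≤ C.toData.psi x y z
      - C.toData.bRow th 0 (chanPt (-t) x) (chanPt (-t) y) (chanPt (-t) z) / t ^ 2
      + C.toData.K0 th 0 := by
  have he0 : (0 : ℝ) ≤ 0 := le_refl _
  have he1 : (0 : ℝ) ≤ 0 := le_refl _
  have ht12 : t ≤ 1 / 2 := ht2.trans h.ht2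
  have hl : Adm (-t) := ⟨by linarith, by linarith⟩
  have hys := chan_simp hl hs
  have hm1 := t2_chan_le h hs.ha ht0 ht2
  have hm2 := t2_chan_le h hs.hb ht0 ht2
  have hm3 := t2_chan_le h hs.hc ht0 ht2
  have b1 := t2_Y1_bound h hys hm1 hm2 hm3
  have b2 := t2_Y2_bound h hys hm1 hm2 hm3
  rw [pF_chan, qF_chan] at b1 b2
  have hW := t2_psi_ge h hs
  have hQ := t2_qV_nonneg h hs ht1 ht2 hth0 hth1
  have hdef := chan_defect (t := t) hs.hs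
  obtain ⟨zlo, zhi⟩ := defect_range hs ht0 ht12
  have hp0 := pF_nonneg x y z
  have ht20 : 0 < t ^ 2 := by positivity
  have hzz0 : 0 ≤ 1 / 2 * (t ^ 2 * pF x y z) + 1 / 3 * (t ^ 3 * qF x y z) :=
    le_trans (by positivity) zlo
  have hzz1 : 1 / 2 * (t ^ 2 * pF x y z) + 1 / 3 * (t ^ 3 * qF x y z)
      ≤ (rv C.t2) ^ 2 * (3 + 2 * rv C.t2) := by
    refine zhi.trans ?_
    have : t ^ 2 ≤ (rv C.t2) ^ 2 := pow_le_pow_left₀ ht0.le ht2 2
    have h4 : (3 + 2 * t) ≤ 3 + 2 * rv C.t2 := by linarith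
    exact mul_le_mul this h4 (by positivity) (by positivity)
  obtain ⟨v1, v2⟩ := t2_V3_bounds h hys hdef hzz0 hzz1
  have hxi := t2_xi_bound h hth0 hth1 hzz0 v1 v2
  -- the slopes
  have hs1 := checkTree_closed h.wS1 h.cS1 (den2 h.iTh.h0 h.iEps.h0) (lt2 h.iTh.hl h.iEps.hl)
    (inBox2 (h.iTh.mem hth0 hth1) (h.iEps.mem he0 he1))
  have hs2 := checkTree_closed h.wS2 h.cS2 (den2 h.iTh.h0 h.iEps.h0) (lt2 h.iTh.hl h.iEps.hl)
    (inBox2 (h.iTh.mem hth0 hth1) (h.iEps.mem he0 he1))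
  simp only [eS1, eS2, eval_eGd, evalQ, eval_rq, env2] at hs1 hs2
  -- the abstract algebra
  have hB : C.toData.bRow th 0 (chanPt (-t) x) (chanPt (-t) y) (chanPt (-t) z)
      = rv C.a * Gd 0 (rv C.r1 * th) * (C.toData.V1 (chanPt (-t) x) (chanPt (-t) y) (chanPt (-t) z)
          - rv C.rho1 * C.toData.V3 (chanPt (-t) x) (chanPt (-t) y) (chanPt (-t) z))
        + rv C.b * Gd 0 (rv C.r2 * th) * (C.toData.V2 (chanPt (-t) x) (chanPt (-t) y) (chanPt (-t) z)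
          - rv C.rho2 * C.toData.V3 (chanPt (-t) x) (chanPt (-t) y) (chanPt (-t) z))
        - C.xiV th 0 * C.toData.V3 (chanPt (-t) x) (chanPt (-t) y) (chanPt (-t) z) := by
    show rv C.a * Gd 0 (rv C.r1 * th) * _ + rv C.b * Gd 0 (rv C.r2 * th) * _
      - (rv C.rho1 * rv C.a * Gd 0 (rv C.r1 * th) + rv C.rho2 * rv C.b * Gd 0 (rv C.r2 * th)
        + C.xiV th 0) * _ = _
    ring
  have k1 := mul_le_mul_of_nonneg_left b1 (mul_nonneg h.ha hs1)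
  have k2 := mul_le_mul_of_nonneg_left b2 (mul_nonneg h.hb hs2)
  have e1 : C.toData.bRow th 0 (chanPt (-t) x) (chanPt (-t) y) (chanPt (-t) z)
      ≤ t ^ 2 * (C.toData.psi x y z + C.toData.K0 th 0 - rv C.g * th ^ 2) := by
    have k3 : t ^ 2 * (evalQ (env2 (pF x y z) (qF x y z)) C.W + C.toData.K0 th 0 - rv C.g * th ^ 2)
        ≤ t ^ 2 * (C.toData.psi x y z + C.toData.K0 th 0 - rv C.g * th ^ 2) :=
      mul_le_mul_of_nonneg_left (by linarith) ht20.le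
    rw [hB]
    unfold qV at hQ
    linarith
  have e2 : C.toData.bRow th 0 (chanPt (-t) x) (chanPt (-t) y) (chanPt (-t) z) / t ^ 2
      ≤ C.toData.psi x y z + C.toData.K0 th 0 - rv C.g * th ^ 2 := by
    rw [div_le_iff₀ ht20]
    linarith
  linarith

/-- the final theorem of the framework -/
theorem t2_good : C.toData.Good2 where
  x1 := by
    refine ⟨?_, ?_, ?_, ?_⟩
    · show 0 < (C.A.i1 : ℝ) / 6
      have : (0 : ℝ) < C.A.i1 := by exact_mod_cast h.i1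
      positivity
    · show 0 ≤ (C.A.j1 : ℝ) / 6
      positivity
    · show 0 ≤ (C.A.k1 : ℝ) / 6
      positivity
    · show (C.A.i1 : ℝ) / 6 + (C.A.j1 : ℝ) / 6 + (C.A.k1 : ℝ) / 6 = 1
      have : (C.A.i1 : ℝ) + C.A.j1 + C.A.k1 = 6 := by exact_mod_cast h.s1
      linarith
  x2 := by
    refine ⟨?_, ?_, ?_, ?_⟩
    · show 0 < (C.A.i2 : ℝ) / 6
      have : (0 : ℝ) < C.A.i2 := by exact_mod_cast h.i2
      positivity
    · show 0 ≤ (C.A.j2 : ℝ) / 6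
      positivity
    · show 0 ≤ (C.A.k2 : ℝ) / 6
      positivity
    · show (C.A.i2 : ℝ) / 6 + (C.A.j2 : ℝ) / 6 + (C.A.k2 : ℝ) / 6 = 1
      have : (C.A.i2 : ℝ) + C.A.j2 + C.A.k2 = 6 := by exact_mod_cast h.s2
      linarith
  x3 := by
    refine ⟨?_, ?_, ?_, ?_⟩
    · show 0 < ((2 : ℕ) : ℝ) / 6
      norm_num
    · show 0 ≤ ((2 : ℕ) : ℝ) / 6
      norm_num
    · show 0 ≤ ((2 : ℕ) : ℝ) / 6
      norm_num
    · show ((2 : ℕ) : ℝ) / 6 + ((2 : ℕ) : ℝ) / 6 + ((2 : ℕ) : ℝ) / 6 = 1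
      norm_num
  ha := h.ha
  hb := h.hb
  hc := h.hc
  hg := h.hg
  hr1 := h.hr1
  hr2 := h.hr2
  ht2 := h.ht2
  psi_nonneg := fun _ _ _ hs => t2_psi_nn h hs
  k0 := by
    intro th hth0 hth1
    have := checkTree_closed h.wK h.cK (den2 h.iTh.h0 h.iEps.h0) (lt2 h.iTh.hl h.iEps.hl)
      (inBox2 (h.iTh.mem hth0 hth1) (h.iEps.mem (le_refl 0) (le_refl 0)))
    simp only [eKg, eval_psub, eval_eK0, evalQ, eval_rq, env2] at this
    have e1 : C.toData.g = rv C.g := rfl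
    rw [e1]
    linarith
  row := by
    intro x y z hs t ht0 ht1 ht2 th hth0 hth1
    exact t2_row_main h hs ht0 ht1 ht2 hth0 hth1
  tan := by
    intro w v hw0 hw1 hv0 hv1
    have he0 : (0 : ℝ) ≤ 0 := le_refl _
    have := checkTree_closed h.wC h.cC (den3 h.iTh.h0 h.iTh.h0 h.iEps.h0)
      (lt3 h.iTh.hl h.iTh.hl h.iEps.hl)
      (inBox3 (h.iTh.mem hw0 hw1) (h.iTh.mem hv0 hv1) (h.iEps.mem he0 he0))
    rw [eval_eRr] at this
    have e1 := tangent_id 0 w v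
    have e2 : evalQ (env5 w v 0 0 0) (.var 2) = 0 := rfl
    have e3 : evalQ (env5 w v 0 0 0) (.var 0) = w := rfl
    have e4 : evalQ (env5 w v 0 0 0) (.var 1) = v := rfl
    rw [e2, e3, e4] at this
    have h5 : (w - v) ^ 2 * Rr 0 w v ≤ 0 :=
      mul_nonpos_of_nonneg_of_nonpos (by positivity) (by linarith)
    linarith
  r1_le := by
    intro th h0 h1
    have : rv C.r1 * th ≤ 1 * th := mul_le_mul_of_nonneg_right h.hr1' h0
    show rv C.r1 * th ≤ rv C.thm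
    have h2 : th ≤ rv C.thm := h1
    linarith
  r2_le := by
    intro th h0 h1
    have : rv C.r2 * th ≤ 1 * th := mul_le_mul_of_nonneg_right h.hr2' h0
    show rv C.r2 * th ≤ rv C.thm
    have h2 : th ≤ rv C.thm := h1
    linarith
  v13 := fun _ _ _ hs => t2_chi_le_D1 h hs
  v23 := fun _ _ _ hs => t2_chi_le_D2 h hs
  v1_nn := fun _ _ _ hs => t2_V1_nn h hs
  v2_nn := fun _ _ _ hs => t2_V2_nn h hs
  v3_ge := by
    intro x y z hs t ht0 ht1 ht2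
    have ht12 : t ≤ 1 / 2 := le_trans ht2 h.ht2
    have hl : Adm (-t) := ⟨by linarith, by linarith⟩
    have hys := chan_simp hl hs
    have hdef := chan_defect (t := t) hs.hs
    obtain ⟨zlo, _⟩ := defect_range hs ht0 ht12
    have hp0 := pF_nonneg x y z
    obtain ⟨c0, c3⟩ := chiD_cube hys
    rw [hdef] at c3
    have e3 : C.toData.V3 (chanPt (-t) x) (chanPt (-t) y) (chanPt (-t) z)
        = 1 - chi (((2 : ℕ) : ℝ) / 6) (((2 : ℕ) : ℝ) / 6) (((2 : ℕ) : ℝ) / 6)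
          (chanPt (-t) x) (chanPt (-t) y) (chanPt (-t) z) := rfl
    rw [e3]
    generalize chi (((2 : ℕ) : ℝ) / 6) (((2 : ℕ) : ℝ) / 6) (((2 : ℕ) : ℝ) / 6)
      (chanPt (-t) x) (chanPt (-t) y) (chanPt (-t) z) = ch at *
    generalize hzz : 1 / 2 * (t ^ 2 * pF x y z) + 1 / 3 * (t ^ 3 * qF x y z) = w at *
    have hw1 : w ≤ 1 := by
      have : 0 ≤ ch ^ 3 := by positivity
      linarith
    have hw0 : 0 ≤ w := le_trans (by positivity) zlo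
    have h9 : ch ≤ 1 - w / 3 := by
      refine le_of_cube_le (by linarith) ?_
      rw [c3]
      nlinarith [mul_nonneg hw0 hw0, mul_nonneg (mul_nonneg hw0 hw0) hw0]
    have e4 := I2_eq_pF x y z
    have : t ^ 2 * I2 x y z = t ^ 2 * pF x y z / 9 := by
      rw [e4]
      ring
    rw [this]
    linarith

end Cst

end Vale.Agent.Lib.P154.Neg
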