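import Vale.Agent.Lib.P154.Neg.Frame4

/-!
The convex polynomial functional at the hand-off, and the theorem of a certificate for a restricted
range of `theta`.
-/

namespace Vale.Agent.Lib.P154.Neg

open Filter Topology

/-- the functional of the hand-off -/
noncomputable def HF (b2 b3 t : ℝ) : Fn3 := fun x y z =>
  3 / 2 * I2 x y z + 3 * t * I3 x y z + b2 * (I2 x y z) ^ 2 + b3 * (I2 x y z) ^ 3

theorem I2_nonneg' (x y z : ℝ) : 0 ≤ I2 x y z := by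
  unfold I2
  positivity

theorem I2_comb {a b c a' b' c' s : ℝ} (h0 : 0 ≤ s) (h1 : s ≤ 1) :
    I2 (s * a + (1 - s) * a') (s * b + (1 - s) * b') (s * c + (1 - s) * c')
      ≤ s * I2 a b c + (1 - s) * I2 a' b' c' := by
  have h2 : 0 ≤ s * (1 - s) := mul_nonneg h0 (by linarith)
  have e : s * I2 a b c + (1 - s) * I2 a' b' c'
      - I2 (s * a + (1 - s) * a') (s * b + (1 - s) * b') (s * c + (1 - s) * c')
      = s * (1 - s) * ((a - a') ^ 2 + (b - b') ^ 2 + (c - c') ^ 2) := by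
    unfold I2
    ring
  have : 0 ≤ s * (1 - s) * ((a - a') ^ 2 + (b - b') ^ 2 + (c - c') ^ 2) :=
    mul_nonneg h2 (by positivity)
  linarith

/-- one coordinate of the convex part of the first two terms -/
theorem g_comb {t u v s : ℝ} (ht0 : 0 ≤ t) (ht : t ≤ 1 / 2) (hu : 0 ≤ u) (hv : 0 ≤ v) (h0 : 0 ≤ s)
    (h1 : s ≤ 1) :
    3 / 2 * (s * u + (1 - s) * v - 1 / 3) ^ 2 + 3 * t * (s * u + (1 - s) * v - 1 / 3) ^ 3
      ≤ s * (3 / 2 * (u - 1 / 3) ^ 2 + 3 * t * (u - 1 / 3) ^ 3)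
        + (1 - s) * (3 / 2 * (v - 1 / 3) ^ 2 + 3 * t * (v - 1 / 3) ^ 3) := by
  have h1s : 0 ≤ 1 - s := by linarith
  have h2 : 0 ≤ s * (1 - s) := mul_nonneg h0 h1s
  have hb : 0 ≤ 3 / 2 + 3 * t * ((1 + s) * (u - 1 / 3) + (2 - s) * (v - 1 / 3)) := by
    have e : 3 / 2 + 3 * t * ((1 + s) * (u - 1 / 3) + (2 - s) * (v - 1 / 3))
        = 3 * (1 / 2 - t) + 3 * t * ((1 + s) * u + (2 - s) * v) := by ring
    rw [e]
    have : 0 ≤ 1 / 2 - t := by linarith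
    have h3 : 0 ≤ (1 + s) * u + (2 - s) * v :=
      add_nonneg (mul_nonneg (by linarith) hu) (mul_nonneg (by linarith) hv)
    positivity
  have e : s * (3 / 2 * (u - 1 / 3) ^ 2 + 3 * t * (u - 1 / 3) ^ 3)
        + (1 - s) * (3 / 2 * (v - 1 / 3) ^ 2 + 3 * t * (v - 1 / 3) ^ 3)
      - (3 / 2 * (s * u + (1 - s) * v - 1 / 3) ^ 2 + 3 * t * (s * u + (1 - s) * v - 1 / 3) ^ 3)
      = s * (1 - s) * (u - v) ^ 2 * (3 / 2 + 3 * t * ((1 + s) * (u - 1 / 3) + (2 - s) * (v - 1 / 3))) := by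
    ring
  have : 0 ≤ s * (1 - s) * (u - v) ^ 2 * (3 / 2 + 3 * t * ((1 + s) * (u - 1 / 3) + (2 - s) * (v - 1 / 3))) :=
    mul_nonneg (mul_nonneg h2 (sq_nonneg _)) hb
  linarith

theorem sq_comb {a b s : ℝ} (h0 : 0 ≤ s) (h1 : s ≤ 1) :
    (s * a + (1 - s) * b) ^ 2 ≤ s * a ^ 2 + (1 - s) * b ^ 2 := by
  have h2 : 0 ≤ s * (1 - s) := mul_nonneg h0 (by linarith)
  nlinarith [mul_nonneg h2 (sq_nonneg (a - b))]

theorem cube_comb {a b s : ℝ} (ha : 0 ≤ a) (hb : 0 ≤ b) (h0 : 0 ≤ s) (h1 : s ≤ 1) :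
    (s * a + (1 - s) * b) ^ 3 ≤ s * a ^ 3 + (1 - s) * b ^ 3 := by
  have h2 : 0 ≤ s * (1 - s) := mul_nonneg h0 (by linarith)
  have h3 : 0 ≤ (1 + s) * a + (2 - s) * b :=
    add_nonneg (mul_nonneg (by linarith) ha) (mul_nonneg (by linarith) hb)
  have e : s * a ^ 3 + (1 - s) * b ^ 3 - (s * a + (1 - s) * b) ^ 3
      = s * (1 - s) * (a - b) ^ 2 * ((1 + s) * a + (2 - s) * b) := by ring
  have : 0 ≤ s * (1 - s) * (a - b) ^ 2 * ((1 + s) * a + (2 - s) * b) :=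
    mul_nonneg (mul_nonneg h2 (sq_nonneg _)) h3
  linarith

/-- the functional of the hand-off is convex -/
theorem HF_cvx {b2 b3 t : ℝ} (hb2 : 0 ≤ b2) (hb3 : 0 ≤ b3) (ht0 : 0 ≤ t) (ht : t ≤ 1 / 2) :
    Cvx (HF b2 b3 t) := by
  constructor
  · unfold HF
    have h1 : Bd I2 := bd_I2
    have h2 : Bd I3 := bd_I3
    exact (((Bd.smul _ h1).add (Bd.smul _ h2)).add (Bd.smul _ (h1.pow 2))).add (Bd.smul _ (h1.pow 3))
  · intro a b c a' b' c' s ha ha' h0 h1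
    unfold HF
    have h1s : 0 ≤ 1 - s := by linarith
    have g1 := g_comb ht0 ht ha.ha ha'.ha h0 h1
    have g2 := g_comb ht0 ht ha.hb ha'.hb h0 h1
    have g3 := g_comb ht0 ht ha.hc ha'.hc h0 h1
    have hI := I2_comb (a := a) (b := b) (c := c) (a' := a') (b' := b') (c' := c') h0 h1
    have n0 := I2_nonneg' (s * a + (1 - s) * a') (s * b + (1 - s) * b') (s * c + (1 - s) * c')
    have n1 := I2_nonneg' a b c
    have n2 := I2_nonneg' a' b' c'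
    have q2 : (I2 (s * a + (1 - s) * a') (s * b + (1 - s) * b') (s * c + (1 - s) * c')) ^ 2
        ≤ s * (I2 a b c) ^ 2 + (1 - s) * (I2 a' b' c') ^ 2 :=
      (pow_le_pow_left₀ n0 hI 2).trans (sq_comb h0 h1)
    have q3 : (I2 (s * a + (1 - s) * a') (s * b + (1 - s) * b') (s * c + (1 - s) * c')) ^ 3
        ≤ s * (I2 a b c) ^ 3 + (1 - s) * (I2 a' b' c') ^ 3 :=
      (pow_le_pow_left₀ n0 hI 3).trans (cube_comb n1 n2 h0 h1)
    have m2 := mul_le_mul_of_nonneg_left q2 hb2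
    have m3 := mul_le_mul_of_nonneg_left q3 hb3
    have e1 : ∀ x y z : ℝ, 3 / 2 * I2 x y z + 3 * t * I3 x y z
        = (3 / 2 * (x - 1 / 3) ^ 2 + 3 * t * (x - 1 / 3) ^ 3)
          + (3 / 2 * (y - 1 / 3) ^ 2 + 3 * t * (y - 1 / 3) ^ 3)
          + (3 / 2 * (z - 1 / 3) ^ 2 + 3 * t * (z - 1 / 3) ^ 3) := by
      intro x y z
      unfold I2 I3
      ring
    rw [e1, e1, e1]
    nlinarith

/-- the cubic bound for the negative atom in the defect -/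
theorem cube_bound {z : ℝ} (h0 : 0 ≤ z) (h1 : z ≤ 1) :
    (1 - (z / 3 + z ^ 2 / 9 + 5 / 9 * z ^ 3)) ^ 3 ≤ 1 - z := by
  have hQ : 0 ≤ 40 / 27 + 10 / 27 * z + 16 / 81 * z ^ 2 - 440 / 729 * z ^ 3 - 200 / 729 * z ^ 4
      - 125 / 729 * z ^ 5 := by
    have p3 : z ^ 3 ≤ 1 := pow_le_one₀ h0 h1
    have p4 : z ^ 4 ≤ 1 := pow_le_one₀ h0 h1
    have p5 : z ^ 5 ≤ 1 := pow_le_one₀ h0 h1
    have p1 : 0 ≤ z ^ 2 := by positivity
    linarith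
  have e : 1 - z - (1 - (z / 3 + z ^ 2 / 9 + 5 / 9 * z ^ 3)) ^ 3
      = z ^ 3 * (1 - z) * (40 / 27 + 10 / 27 * z + 16 / 81 * z ^ 2 - 440 / 729 * z ^ 3
        - 200 / 729 * z ^ 4 - 125 / 729 * z ^ 5) := by
    ring
  have : 0 ≤ z ^ 3 * (1 - z) * (40 / 27 + 10 / 27 * z + 16 / 81 * z ^ 2 - 440 / 729 * z ^ 3
        - 200 / 729 * z ^ 4 - 125 / 729 * z ^ 5) :=
    mul_nonneg (mul_nonneg (by positivity) (by linarith)) hQ
  linarith

/-- the negative atom after the channel is below the functional of the hand-off -/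
theorem V3_chan_le {b2 b3 t x y z : ℝ} (hs : Simp x y z) (ht0 : 0 < t) (ht : t ≤ 1 / 2)
    (hb2 : t ^ 2 * (3 / 2 + t) ^ 2 ≤ b2) (hb3 : 15 * t ^ 4 * (3 / 2 + t) ^ 3 ≤ b3) :
    1 - chi (((2 : ℕ) : ℝ) / 6) (((2 : ℕ) : ℝ) / 6) (((2 : ℕ) : ℝ) / 6)
        (chanPt (-t) x) (chanPt (-t) y) (chanPt (-t) z)
      ≤ t ^ 2 * HF b2 b3 t x y z := by
  have hl : Adm (-t) := ⟨by linarith, by linarith⟩
  have hys := chan_simp hl hs
  have hdef := chan_defect (t := t) hs.hs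
  obtain ⟨zlo, zhi⟩ := defect_range hs ht0 ht
  obtain ⟨c0, c3⟩ := chiD_cube hys
  rw [hdef] at c3
  generalize chi (((2 : ℕ) : ℝ) / 6) (((2 : ℕ) : ℝ) / 6) (((2 : ℕ) : ℝ) / 6)
    (chanPt (-t) x) (chanPt (-t) y) (chanPt (-t) z) = ch at *
  have hp0 := pF_nonneg x y z
  have hq0 := qF_ge hs
  have hq1 := qF_le hs
  have eI2 := I2_eq_pF x y z
  have eI3 : qF x y z = 27 * I3 x y z := by
    unfold qF I3
    ring
  have hI0 := I2_nonneg' x y z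
  -- the quantity h
  set I := I2 x y z with hI
  set J := I3 x y z with hJ
  set hh := 3 / 2 * I + 3 * t * J with hhd
  have hz : 1 / 2 * (t ^ 2 * pF x y z) + 1 / 3 * (t ^ 3 * qF x y z) = 3 * t ^ 2 * hh := by
    rw [eI2, eI3, hhd]
    ring
  rw [hz] at c3 zlo zhi
  have hJ1 : J ≤ I / 3 := by
    rw [eI2, eI3] at hq1
    linarith
  have hJ2 : -(I / 3) ≤ J := by
    rw [eI2, eI3] at hq0
    linarith
  have hh0 : 0 ≤ hh := by
    rw [hhd]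
    nlinarith
  have hh1 : hh ≤ (3 / 2 + t) * I := by
    rw [hhd]
    nlinarith
  have ht2 : 0 < t ^ 2 := by positivity
  have hz0 : 0 ≤ 3 * t ^ 2 * hh := by positivity
  have hz1 : 3 * t ^ 2 * hh ≤ 1 := by
    refine zhi.trans ?_
    nlinarith [pow_le_pow_left₀ ht0.le ht 2]
  have hc := cube_bound hz0 hz1
  have hch : 1 - (3 * t ^ 2 * hh / 3 + (3 * t ^ 2 * hh) ^ 2 / 9 + 5 / 9 * (3 * t ^ 2 * hh) ^ 3) ≤ ch :=
    le_of_cube_le c0 (by rw [c3]; exact hc)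
  have hmain : 1 - ch ≤ t ^ 2 * (hh + t ^ 2 * hh ^ 2 + 15 * t ^ 4 * hh ^ 3) := by
    have e : 3 * t ^ 2 * hh / 3 + (3 * t ^ 2 * hh) ^ 2 / 9 + 5 / 9 * (3 * t ^ 2 * hh) ^ 3
        = t ^ 2 * (hh + t ^ 2 * hh ^ 2 + 15 * t ^ 4 * hh ^ 3) := by ring
    rw [e] at hch
    linarith
  refine hmain.trans (mul_le_mul_of_nonneg_left ?_ ht2.le)
  have p2 : hh ^ 2 ≤ ((3 / 2 + t) * I) ^ 2 := pow_le_pow_left₀ hh0 hh1 2
  have p3 : hh ^ 3 ≤ ((3 / 2 + t) * I) ^ 3 := pow_le_pow_left₀ hh0 hh1 3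
  have m2 : t ^ 2 * hh ^ 2 ≤ b2 * I ^ 2 := by
    calc t ^ 2 * hh ^ 2 ≤ t ^ 2 * ((3 / 2 + t) * I) ^ 2 := mul_le_mul_of_nonneg_left p2 ht2.le
      _ = t ^ 2 * (3 / 2 + t) ^ 2 * I ^ 2 := by ring
      _ ≤ b2 * I ^ 2 := mul_le_mul_of_nonneg_right hb2 (by positivity)
  have m3 : 15 * t ^ 4 * hh ^ 3 ≤ b3 * I ^ 3 := by
    calc 15 * t ^ 4 * hh ^ 3 ≤ 15 * t ^ 4 * ((3 / 2 + t) * I) ^ 3 :=
          mul_le_mul_of_nonneg_left p3 (by positivity)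
      _ = 15 * t ^ 4 * (3 / 2 + t) ^ 3 * I ^ 3 := by ring
      _ ≤ b3 * I ^ 3 := mul_le_mul_of_nonneg_right hb3 (by positivity)
  show hh + t ^ 2 * hh ^ 2 + 15 * t ^ 4 * hh ^ 3 ≤ HF b2 b3 t x y z
  unfold HF
  rw [← hI, ← hJ, ← hhd]
  linarith

theorem HF_nonneg {b2 b3 t x y z : ℝ} (hs : Simp x y z) (hb2 : 0 ≤ b2) (hb3 : 0 ≤ b3) (ht0 : 0 ≤ t)
    (ht : t ≤ 1 / 2) : 0 ≤ HF b2 b3 t x y z := by
  have hq0 := qF_ge hs
  have eI2 := I2_eq_pF x y z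
  have eI3 : qF x y z = 27 * I3 x y z := by
    unfold qF I3
    ring
  rw [eI2, eI3] at hq0
  have hI0 := I2_nonneg' x y z
  unfold HF
  have h1 : -(I2 x y z / 3) ≤ I3 x y z := by linarith
  have h2 : 0 ≤ 3 / 2 * I2 x y z + 3 * t * I3 x y z := by nlinarith
  have h3 : 0 ≤ b2 * (I2 x y z) ^ 2 := by positivity
  have h4 : 0 ≤ b3 * (I2 x y z) ^ 3 := by positivity
  linarith

/-- the theorem of a certificate for a restricted range of `theta` -/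
theorem Cst.t2_tail {C : Cst} {X : Cst.Ext} (h : C.T2OK X) {b2 b3 d t : ℝ} (hd : 0 < d) (ht0 : 0 < t)
    (ht1 : rv C.t1 ≤ t) (ht2 : t ≤ rv C.t2) (hKS : d * t ^ 2 ≤ 1)
    (hb2 : t ^ 2 * (3 / 2 + t) ^ 2 ≤ b2) (hb3 : 15 * t ^ 4 * (3 / 2 + t) ^ 3 ≤ b3) {N : ℕ}
    (hN : gwEx (poissonLaw d) (-t) N (HF b2 b3 t) ≤ rv C.thm) :
    Tendsto (fun n => gwEx (poissonLaw d) (-t) n I2) atTop (𝓝 0) := by
  have ht12 : t ≤ 1 / 2 := ht2.trans h.ht2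
  have hl : Adm (-t) := ⟨by linarith, by linarith⟩
  have hb20 : 0 ≤ b2 := le_trans (by positivity) hb2
  have hb30 : 0 ≤ b3 := le_trans (by positivity) hb3
  have hp0 := poisson_nonneg0 hd.le
  have hp1 := poisson_hasSum0 d
  have hE := gwEx_bexp hp0 hp1 hl
  have hcv := HF_cvx hb20 hb30 ht0.le ht12
  refine main_tail (D := C.toData) (Cst.t2_good h) hd ht0 ht1 ht2 hKS (N := N) (fun n hn => ?_)
  have b3' : Bd (C.toData.V3) := bd_vv (Cst.t2_good h).x3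
  have h1 : chan (-t) (gwEx (poissonLaw d) (-t) n) C.toData.V3
      ≤ t ^ 2 * gwEx (poissonLaw d) (-t) n (HF b2 b3 t) := by
    have := (hE n).mono (f := fun x y z => C.toData.V3 (chanPt (-t) x) (chanPt (-t) y) (chanPt (-t) z))
      (g := fun x y z => t ^ 2 * HF b2 b3 t x y z) (bd_chan hl b3') (Bd.smul _ hcv.bd)
      (fun x y z hs => V3_chan_le hs ht0 ht12 hb2 hb3)
    rw [(hE n).smul] at this
    exact this
  have h2 : gwEx (poissonLaw d) (-t) n (HF b2 b3 t) ≤ gwEx (poissonLaw d) (-t) N (HF b2 b3 t) :=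
    gwEx_antitone hp0 hp1 hl hcv hn
  have h3 : 0 ≤ gwEx (poissonLaw d) (-t) n (HF b2 b3 t) :=
    (hE n).nonneg _ (fun x y z hs => HF_nonneg hs hb20 hb30 ht0.le ht12)
  calc d * chan (-t) (gwEx (poissonLaw d) (-t) n) C.toData.V3
      ≤ d * (t ^ 2 * gwEx (poissonLaw d) (-t) n (HF b2 b3 t)) := mul_le_mul_of_nonneg_left h1 hd.le
    _ = (d * t ^ 2) * gwEx (poissonLaw d) (-t) n (HF b2 b3 t) := by ring
    _ ≤ 1 * gwEx (poissonLaw d) (-t) n (HF b2 b3 t) := mul_le_mul_of_nonneg_right hKS h3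
    _ = gwEx (poissonLaw d) (-t) n (HF b2 b3 t) := one_mul _
    _ ≤ gwEx (poissonLaw d) (-t) N (HF b2 b3 t) := h2
    _ ≤ rv C.thm := hN

end Vale.Agent.Lib.P154.Neg
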