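import Vale.Agent.Lib.P154.Neg.Convex
import Vale.Agent.Lib.P154.Neg.Dary
import Vale.Agent.Lib.P154.Neg.PoiPath

/-!
Reconstruction above the Kesten-Stigum bound for the three-state channel, from the recursion of the
functionals: `E I2 + E' I2 - 3 * E I2 * E' I2 <= bprod E E' I2`.
-/

namespace Vale.Agent.Lib.P154.Neg

open Filter Topology

/-- the polynomial below the integrand of the Bayesian product of `I2` -/
noncomputable def ksG (a b c p q r : ℝ) : ℝ :=
  6 * ((a * p - (a * p + b * q + c * r) / 3) * ((a - 1 / 3) + (p - 1 / 3))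
    + (b * q - (a * p + b * q + c * r) / 3) * ((b - 1 / 3) + (q - 1 / 3))
    + (c * r - (a * p + b * q + c * r) / 3) * ((c - 1 / 3) + (r - 1 / 3)))
  - 3 * (a * p + b * q + c * r) * (((a - 1 / 3) + (p - 1 / 3)) ^ 2 + ((b - 1 / 3) + (q - 1 / 3)) ^ 2
    + ((c - 1 / 3) + (r - 1 / 3)) ^ 2)

theorem ksG_le {a b c p q r : ℝ} (h : Simp a b c) (h' : Simp p q r) :
    ksG a b c p q r ≤ wt I2 a b c p q r := by
  rcases (dot_nonneg h h').eq_or_lt with hD | hD
  · rw [wt_of_dot_zero I2 hD.symm]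
    have e1 : a * p = 0 := by
      have := mul_nonneg h.ha h'.ha
      have := mul_nonneg h.hb h'.hb
      have := mul_nonneg h.hc h'.hc
      linarith
    have e2 : b * q = 0 := by
      have := mul_nonneg h.ha h'.ha
      have := mul_nonneg h.hb h'.hb
      have := mul_nonneg h.hc h'.hc
      linarith
    have e3 : c * r = 0 := by
      have := mul_nonneg h.ha h'.ha
      have := mul_nonneg h.hb h'.hb
      have := mul_nonneg h.hc h'.hc
      linarith
    unfold ksG
    rw [e1, e2, e3]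
    norm_num
  · unfold wt ksG I2
    set D := a * p + b * q + c * r with hDd
    have hx : a * p = D * (a * p / D) := by field_simp
    have hy : b * q = D * (b * q / D) := by field_simp
    have hz : c * r = D * (c * r / D) := by field_simp
    set x := a * p / D with hxd
    set y := b * q / D with hyd
    set z := c * r / D with hzd
    rw [hx, hy, hz]
    have hsq : 0 ≤ 3 * D * ((x - 1 / 3 - ((a - 1 / 3) + (p - 1 / 3))) ^ 2
        + (y - 1 / 3 - ((b - 1 / 3) + (q - 1 / 3))) ^ 2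
        + (z - 1 / 3 - ((c - 1 / 3) + (r - 1 / 3))) ^ 2) := by positivity
    nlinarith [hsq]

theorem ksG_sym {a b c p q r : ℝ} (hs : a + b + c = 1) (hs' : p + q + r = 1) :
    1 / 6 * (ksG a b c p q r + ksG a b c q r p + ksG a b c r p q + ksG a b c q p r + ksG a b c p r q
      + ksG a b c r q p) = I2 a b c + I2 p q r - 3 * I2 a b c * I2 p q r := by
  have hc : c = 1 - a - b := by linarith
  have hr : r = 1 - p - q := by linarith
  subst hc hr
  unfold ksG I2
  ring

theorem bd_ksG (a b c : ℝ) : Bd (fun p q r => ksG a b c p q r) := by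
  unfold ksG
  have hD : Bd (fun p q r => a * p + b * q + c * r) :=
    ((Bd.smul a Bd.fst).add (Bd.smul b Bd.snd)).add (Bd.smul c Bd.thd)
  have h1 : Bd (fun p _ _ : ℝ => (a - 1 / 3) + (p - 1 / 3)) :=
    (Bd.const _).add (Bd.fst.sub (Bd.const _))
  have h2 : Bd (fun _ q _ : ℝ => (b - 1 / 3) + (q - 1 / 3)) :=
    (Bd.const _).add (Bd.snd.sub (Bd.const _))
  have h3 : Bd (fun _ _ r : ℝ => (c - 1 / 3) + (r - 1 / 3)) :=
    (Bd.const _).add (Bd.thd.sub (Bd.const _))
  have hD3 : Bd (fun p q r => (a * p + b * q + c * r) / 3) := by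
    have := Bd.smul (1 / 3) hD
    have e : (fun p q r => (a * p + b * q + c * r) / 3) = fun p q r => 1 / 3 * (a * p + b * q + c * r) := by
      funext p q r
      ring
    rw [e]
    exact this
  have t1 : Bd (fun p q r => (a * p - (a * p + b * q + c * r) / 3) * ((a - 1 / 3) + (p - 1 / 3))) :=
    ((Bd.smul a Bd.fst).sub hD3).mul h1
  have t2 : Bd (fun p q r => (b * q - (a * p + b * q + c * r) / 3) * ((b - 1 / 3) + (q - 1 / 3))) :=
    ((Bd.smul b Bd.snd).sub hD3).mul h2
  have t3 : Bd (fun p q r => (c * r - (a * p + b * q + c * r) / 3) * ((c - 1 / 3) + (r - 1 / 3))) :=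
    ((Bd.smul c Bd.thd).sub hD3).mul h3
  have t4 : Bd (fun p q r => 3 * (a * p + b * q + c * r) * (((a - 1 / 3) + (p - 1 / 3)) ^ 2
      + ((b - 1 / 3) + (q - 1 / 3)) ^ 2 + ((c - 1 / 3) + (r - 1 / 3)) ^ 2)) :=
    (Bd.smul 3 hD).mul (((h1.pow 2).add (h2.pow 2)).add (h3.pow 2))
  exact (Bd.smul 6 ((t1.add t2).add t3)).sub t4

/-- the inner expectation of the polynomial -/
theorem ksG_inner {E' : Ex3} (hE' : BExp E' Simp) {a b c : ℝ} (hs : a + b + c = 1) :
    E' (fun p q r => ksG a b c p q r) = I2 a b c * (1 - 3 * E' I2) + E' I2 := by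
  have h1 := hE'.sym6 (F := fun p q r => ksG a b c p q r) (bd_ksG a b c)
  rw [← h1]
  have h2 : E' (fun p q r => 1 / 6 * (ksG a b c p q r + ksG a b c q r p + ksG a b c r p q
      + ksG a b c q p r + ksG a b c p r q + ksG a b c r q p))
      = E' (fun p q r => I2 a b c + (1 - 3 * I2 a b c) * I2 p q r) := by
    refine hE'.congr _ _ (fun p q r h => ?_)
    rw [ksG_sym hs h.hs]
    ring
  rw [h2, hE'.add (fun _ _ _ => I2 a b c) (fun p q r => (1 - 3 * I2 a b c) * I2 p q r)
    (Bd.const _) (Bd.smul _ bd_I2), hE'.const, hE'.smul]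
  ring

/-- the basic inequality of the Bayesian product -/
theorem bprod_I2_ge {E E' : Ex3} (hE : BExp E Simp) (hE' : BExp E' Simp) :
    E I2 + E' I2 - 3 * E I2 * E' I2 ≤ bprod E E' I2 := by
  have key : ∀ a b c, Simp a b c →
      I2 a b c * (1 - 3 * E' I2) + E' I2 ≤ E' (fun p q r => wt I2 a b c p q r) := by
    intro a b c h
    rw [← ksG_inner hE' h.hs]
    exact hE'.mono (bd_ksG a b c) (bd_wt bd_I2 h) (fun p q r h' => ksG_le h h')
  have hb : Bd (fun a b c => I2 a b c * (1 - 3 * E' I2) + E' I2) :=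
    (bd_I2.mul (Bd.const _)).add (Bd.const _)
  have hm := hE.mono hb (bd_inner bd_I2 hE') (fun a b c h => key a b c h)
  have e : E (fun a b c => I2 a b c * (1 - 3 * E' I2) + E' I2)
      = E I2 * (1 - 3 * E' I2) + E' I2 := by
    rw [hE.add (fun a b c => I2 a b c * (1 - 3 * E' I2)) (fun _ _ _ => E' I2)
      (bd_I2.mul (Bd.const _)) (Bd.const _), hE.const]
    have := hE.smul (1 - 3 * E' I2) I2
    have e2 : E (fun a b c => I2 a b c * (1 - 3 * E' I2)) = E (fun a b c => (1 - 3 * E' I2) * I2 a b c) := by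
      congr 1
      funext a b c
      ring
    rw [e2, this]
    ring
  rw [e] at hm
  have e3 : bprod E E' I2 = E (fun a b c => E' (fun p q r => wt I2 a b c p q r)) := rfl
  rw [e3]
  linarith

theorem centre_I2 : centre I2 = 0 := by
  show I2 (1 / 3) (1 / 3) (1 / 3) = 0
  unfold I2
  norm_num

/-- the lower bound for `k` children -/
theorem Pk_I2_ge {E' : Ex3} (hE' : BExp E' Simp) (hμ : E' I2 ≤ 1 / 3) (k : ℕ) :
    (k : ℝ) * E' I2 - 3 / 2 * ((k : ℝ) * ((k : ℝ) - 1)) * (E' I2) ^ 2 ≤ Pk E' k I2 := by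
  have hμ0 : 0 ≤ E' I2 := hE'.nonneg _ (fun a b c _ => I2_nonneg a b c)
  induction k with
  | zero =>
    show _ ≤ centre I2
    rw [centre_I2]
    norm_num
  | succ k ih =>
    have h1 := bprod_I2_ge (Pk_bexp hE' k) hE'
    have e : Pk E' (k + 1) I2 = bprod (Pk E' k) E' I2 := rfl
    rw [e]
    refine le_trans ?_ h1
    push_cast
    set μ := E' I2 with hμd
    set A := Pk E' k I2 with hA
    have h3 : 0 ≤ 1 - 3 * μ := by linarith
    have h4 := mul_le_mul_of_nonneg_right ih h3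
    have hk : 0 ≤ (k : ℝ) * ((k : ℝ) - 1) := by
      rcases Nat.eq_zero_or_pos k with h | h
      · subst h
        simp
      · have : (1 : ℝ) ≤ k := by exact_mod_cast h
        exact mul_nonneg (by linarith) (by linarith)
    have h5 : 0 ≤ (k : ℝ) * ((k : ℝ) - 1) * μ ^ 3 := mul_nonneg hk (pow_nonneg hμ0 3)
    nlinarith [h4, h5]

/-- the channel multiplies the second moment by `lam ^ 2` -/
theorem chan_I2 {E : Ex3} (hE : BExp E Simp) (lam : ℝ) : chan lam E I2 = lam ^ 2 * E I2 := by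
  have e : chan lam E I2 = E (fun a b c => lam ^ 2 * I2 a b c) := by
    show E (fun a b c => I2 (chanPt lam a) (chanPt lam b) (chanPt lam c)) = _
    congr 1
    funext a b c
    unfold I2 chanPt
    ring
  rw [e, hE.smul]

theorem I2_le_errFn {a b c : ℝ} (h : Simp a b c) : I2 a b c ≤ 2 * errFn a b c := by
  obtain ⟨a1, b1, c1⟩ := simp_le_one h
  have e : ∀ t : ℝ, 0 ≤ t → t ≤ 1 → (t - 1 / 3) ^ 2 ≤ |t - 1 / 3| := by
    intro t h0 h1
    have h2 : |t - 1 / 3| ≤ 1 := by
      rw [abs_le]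
      constructor <;> linarith
    have h3 : (t - 1 / 3) ^ 2 = |t - 1 / 3| ^ 2 := (sq_abs _).symm
    rw [h3]
    nlinarith [abs_nonneg (t - 1 / 3)]
  unfold I2 errFn
  have := e a h.ha a1
  have := e b h.hb b1
  have := e c h.hc c1
  linarith

/-- the abstract end of the argument -/
theorem not_tendsto_of_rec {M : ℕ → ℝ} {δ : ℝ} (hδ : 0 < δ) (hpos : ∀ n, 0 < M n)
    (hrec : ∀ n, M n ≤ δ → M n ≤ M (n + 1)) : ¬ Tendsto M atTop (𝓝 0) := by
  intro h
  have h1 : ∀ᶠ n in atTop, M n < δ := h (Iio_mem_nhds hδ)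
  obtain ⟨N, hN⟩ := eventually_atTop.1 h1
  have hmono : ∀ n, N ≤ n → M N ≤ M n := by
    intro n hn
    induction n, hn using Nat.le_induction with
    | base => exact le_refl _
    | succ n hn ih => exact ih.trans (hrec n (hN n hn).le)
  have hle : M N ≤ 0 := by
    refine ge_of_tendsto h ?_
    filter_upwards [eventually_ge_atTop N] with n hn using hmono n hn
  exact absurd (hpos N) (not_lt.2 hle)

theorem cvx_I2' : Cvx I2 := by
  refine ⟨bd_I2, ?_⟩
  intro a b c a' b' c' s _ _ h0 h1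
  unfold I2
  have h2 : 0 ≤ s * (1 - s) := mul_nonneg h0 (by linarith)
  have e : s * ((a - 1 / 3) ^ 2 + (b - 1 / 3) ^ 2 + (c - 1 / 3) ^ 2)
      + (1 - s) * ((a' - 1 / 3) ^ 2 + (b' - 1 / 3) ^ 2 + (c' - 1 / 3) ^ 2)
      - ((s * a + (1 - s) * a' - 1 / 3) ^ 2 + (s * b + (1 - s) * b' - 1 / 3) ^ 2
        + (s * c + (1 - s) * c' - 1 / 3) ^ 2)
      = s * (1 - s) * ((a - a') ^ 2 + (b - b') ^ 2 + (c - c') ^ 2) := by ring
  have h3 : 0 ≤ s * (1 - s) * ((a - a') ^ 2 + (b - b') ^ 2 + (c - c') ^ 2) := by positivity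
  linarith

/-- the second moment of the vertex law -/
theorem vertexEx_I2 : vertexEx I2 = 2 / 3 := by
  unfold vertexEx I2
  norm_num

/-- one child gives at least the second moment of the message -/
theorem Pk_I2_pos {E' : Ex3} (hE' : BExp E' Simp) {k : ℕ} (hk : 1 ≤ k) : E' I2 ≤ Pk E' k I2 := by
  have h1 := bprod_I2_ge (Pk_bexp hE' 0) hE'
  have e0 : Pk E' 0 I2 = 0 := centre_I2
  have e1 : Pk E' 1 I2 = bprod (Pk E' 0) E' I2 := rfl
  rw [e0] at h1
  have h2 : Pk E' 1 I2 ≤ Pk E' k I2 := Pk_le_co hE' hk I2 cvx_I2'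
  rw [← e1] at h1
  linarith

/-! ### the `d`-ary tree -/

section dary

variable {d : ℕ} {lam : ℝ}

theorem dary_rec (hd : 1 ≤ d) (hl : Adm lam) (n : ℕ) :
    let M := gwEx (deltaLaw d) lam n I2
    (lam ^ 2 * M ≤ 1 / 3 → (d : ℝ) * (lam ^ 2 * M) - 3 / 2 * (d : ℝ) ^ 2 * (lam ^ 2 * M) ^ 2
      ≤ gwEx (deltaLaw d) lam (n + 1) I2) ∧ lam ^ 2 * M ≤ gwEx (deltaLaw d) lam (n + 1) I2 := by
  intro M
  have hE := gwEx_bexp (fun k => deltaLaw_nonneg d k) (deltaLaw_hasSum d) hl n
  have hc := chan_bexp hE hl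
  have e : gwEx (deltaLaw d) lam (n + 1) I2 = Pk (chan lam (gwEx (deltaLaw d) lam n)) d I2 :=
    mix_delta d _ I2
  have e2 : chan lam (gwEx (deltaLaw d) lam n) I2 = lam ^ 2 * M := chan_I2 hE lam
  rw [e]
  constructor
  · intro hm
    have h1 := Pk_I2_ge hc (by rw [e2]; exact hm) d
    rw [e2] at h1
    refine le_trans ?_ h1
    have hd0 : (0 : ℝ) ≤ d := by positivity
    have hμ : 0 ≤ (lam ^ 2 * M) ^ 2 := by positivity
    nlinarith [mul_nonneg hd0 hμ]
  · have := Pk_I2_pos hc hd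
    rw [e2] at this
    exact this

/-- the threshold of the recursion -/
theorem rec_step {r M : ℝ} (hr : 1 < r) (hM0 : 0 ≤ M) (hM : M ≤ (r - 1) / (3 / 2 * r ^ 2)) :
    M ≤ r * M - 3 / 2 * r ^ 2 * M ^ 2 := by
  have hr0 : 0 < r := by linarith
  have h1 : 3 / 2 * r ^ 2 * M ≤ r - 1 := by
    rw [le_div_iff₀ (by positivity)] at hM
    linarith
  nlinarith [mul_le_mul_of_nonneg_left h1 hM0]

theorem lam_sq_le {lam : ℝ} (hl : Adm lam) : lam ^ 2 ≤ 1 := by
  have h0 := hl.lo
  have h1 := hl.hi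
  nlinarith

/-- Reconstruction on the `d`-ary tree above the Kesten-Stigum bound. -/
theorem dary_ks (hd : 1 ≤ d) (hl : Adm lam) (hKS : 1 < (d : ℝ) * lam ^ 2) :
    ¬ Tendsto (reconError d 3 lam) atTop (𝓝 0) := by
  have hE := fun n => gwEx_bexp (fun k => deltaLaw_nonneg d k) (deltaLaw_hasSum d) hl n
  have hlam : 0 < lam ^ 2 := by
    rcases (sq_nonneg lam).eq_or_lt with h | h
    · rw [← h] at hKS
      norm_num at hKS
    · exact h
  have hlam1 := lam_sq_le hl
  have hpos : ∀ n, 0 < gwEx (deltaLaw d) lam n I2 := by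
    intro n
    induction n with
    | zero =>
      show 0 < vertexEx I2
      rw [vertexEx_I2]
      norm_num
    | succ n ih => exact lt_of_lt_of_le (mul_pos hlam ih) (dary_rec hd hl n).2
  set r := (d : ℝ) * lam ^ 2 with hr
  have hr0 : 0 < r := by linarith
  have hδ : 0 < min (1 / 3 : ℝ) ((r - 1) / (3 / 2 * r ^ 2)) :=
    lt_min (by norm_num) (div_pos (by linarith) (by positivity))
  have hnot : ¬ Tendsto (fun n => gwEx (deltaLaw d) lam n I2) atTop (𝓝 0) := by
    refine not_tendsto_of_rec hδ hpos (fun n hn => ?_)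
    have h0 := (hpos n).le
    have h1 : gwEx (deltaLaw d) lam n I2 ≤ 1 / 3 := hn.trans (min_le_left _ _)
    have h2 : gwEx (deltaLaw d) lam n I2 ≤ (r - 1) / (3 / 2 * r ^ 2) := hn.trans (min_le_right _ _)
    have h3 : lam ^ 2 * gwEx (deltaLaw d) lam n I2 ≤ 1 / 3 := by nlinarith
    have h4 := (dary_rec hd hl n).1 h3
    have h5 := rec_step hKS h0 h2
    refine h5.trans (le_trans (le_of_eq ?_) h4)
    rw [hr]
    ring
  intro h
  refine hnot (squeeze_zero (fun n => (hpos n).le) (g := fun n => 2 * reconError d 3 lam n)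
    (fun n => ?_) ?_)
  · rw [reconError_eq hl n]
    have := (hE n).mono (f := I2) (g := fun a b c => 2 * errFn a b c) bd_I2 (Bd.smul 2 bd_errFn)
      (fun a b c h => I2_le_errFn h)
    rwa [(hE n).smul] at this
  · simpa using h.const_mul 2

end dary

/-! ### the Poisson tree -/

theorem ks_poisson_mean (d : ℝ) : HasSum (fun k : ℕ => (k : ℝ) * poissonLaw d k) d := by
  refine (hasSum_nat_add_iff' 1).1 ?_
  have h := (poisson_hasSum0 d).mul_left d
  have e : (fun k : ℕ => d * poissonLaw d k) = fun k : ℕ => ((k + 1 : ℕ) : ℝ) * poissonLaw d (k + 1) := by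
    funext k
    unfold poissonLaw
    rw [Nat.factorial_succ, pow_succ]
    have h1 : ((k : ℝ) + 1) ≠ 0 := by positivity
    have h2 : (k.factorial : ℝ) ≠ 0 := by exact_mod_cast k.factorial_ne_zero
    push_cast
    field_simp
  rw [e] at h
  simpa using h

theorem ks_poisson_fact2 (d : ℝ) :
    HasSum (fun k : ℕ => ((k : ℝ) * ((k : ℝ) - 1)) * poissonLaw d k) (d ^ 2) := by
  refine (hasSum_nat_add_iff' 2).1 ?_
  have h := (poisson_hasSum0 d).mul_left (d ^ 2)
  have e : (fun k : ℕ => d ^ 2 * poissonLaw d k)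
      = fun k : ℕ => (((k + 2 : ℕ) : ℝ) * (((k + 2 : ℕ) : ℝ) - 1)) * poissonLaw d (k + 2) := by
    funext k
    unfold poissonLaw
    rw [Nat.factorial_succ, Nat.factorial_succ, pow_add]
    have h1 : ((k : ℝ) + 1) ≠ 0 := by positivity
    have h3 : ((k : ℝ) + 1 + 1) ≠ 0 := by positivity
    have h2 : (k.factorial : ℝ) ≠ 0 := by exact_mod_cast k.factorial_ne_zero
    push_cast
    field_simp
    ring
  rw [e] at h
  simpa [Finset.sum_range_succ] using h

section poisson

variable {d lam : ℝ}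

theorem poisson_rec (hd : 0 < d) (hl : Adm lam) (n : ℕ) :
    let M := gwEx (poissonLaw d) lam n I2
    (lam ^ 2 * M ≤ 1 / 3 → d * (lam ^ 2 * M) - 3 / 2 * d ^ 2 * (lam ^ 2 * M) ^ 2
      ≤ gwEx (poissonLaw d) lam (n + 1) I2) ∧
      poissonLaw d 1 * (lam ^ 2 * M) ≤ gwEx (poissonLaw d) lam (n + 1) I2 := by
  intro M
  have hp0 := poisson_nonneg0 hd.le
  have hp1 := poisson_hasSum0 d
  have hE := gwEx_bexp hp0 hp1 hl n
  have hc := chan_bexp hE hl
  have e2 : chan lam (gwEx (poissonLaw d) lam n) I2 = lam ^ 2 * M := chan_I2 hE lam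
  have hF := fun k => Pk_bexp hc k
  have hs := mix_summable hp0 hp1.summable hF bd_I2
  have e : gwEx (poissonLaw d) lam (n + 1) I2
      = ∑' k, poissonLaw d k * Pk (chan lam (gwEx (poissonLaw d) lam n)) k I2 := rfl
  rw [e]
  constructor
  · intro hm
    have hμ : chan lam (gwEx (poissonLaw d) lam n) I2 ≤ 1 / 3 := by rw [e2]; exact hm
    set μ := lam ^ 2 * M with hμd
    have h1 : HasSum (fun k : ℕ => μ * ((k : ℝ) * poissonLaw d k)
        - 3 / 2 * μ ^ 2 * (((k : ℝ) * ((k : ℝ) - 1)) * poissonLaw d k))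
        (μ * d - 3 / 2 * μ ^ 2 * d ^ 2) :=
      ((ks_poisson_mean d).mul_left μ).sub ((ks_poisson_fact2 d).mul_left (3 / 2 * μ ^ 2))
    have h2 : μ * d - 3 / 2 * μ ^ 2 * d ^ 2
        ≤ ∑' k, poissonLaw d k * Pk (chan lam (gwEx (poissonLaw d) lam n)) k I2 := by
      rw [← h1.tsum_eq]
      refine h1.summable.tsum_le_tsum (fun k => ?_) hs
      have h3 := Pk_I2_ge hc hμ k
      rw [e2] at h3
      have h4 := mul_le_mul_of_nonneg_left h3 (hp0 k)
      refine le_trans (le_of_eq ?_) h4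
      ring
    refine le_trans (le_of_eq ?_) h2
    ring
  · have h1 : poissonLaw d 1 * Pk (chan lam (gwEx (poissonLaw d) lam n)) 1 I2
        ≤ ∑' k, poissonLaw d k * Pk (chan lam (gwEx (poissonLaw d) lam n)) k I2 :=
      hs.le_tsum 1 (fun k _ => mul_nonneg (hp0 k) ((hF k).nonneg _ (fun a b c _ => I2_nonneg a b c)))
    have h2 := Pk_I2_pos hc (le_refl 1)
    rw [e2] at h2
    exact (mul_le_mul_of_nonneg_left h2 (hp0 1)).trans h1

/-- the error as a functional -/
theorem gwError_eq_errFn {p : ℕ → ℝ} (hp0 : ∀ k, 0 ≤ p k) (hp1 : HasSum p 1) {lam : ℝ} (hl : Adm lam)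
    (n : ℕ) : gwError 3 p lam n = gwEx p lam n errFn := by
  have hR := gwEx_rep hp0 hp1 hl
  have hterm : gwTerm 3 p lam n = fun s => (1 / 3 * gwTot p lam n s)
      * errFn (gwPost p lam n 0 s) (gwPost p lam n 1 s) (gwPost p lam n 2 s) :=
    funext (fun s => gwTerm_eq n s)
  unfold gwError
  rw [hterm, (hR n).eq errFn bd_errFn]

/-- Reconstruction on the Poisson tree above the Kesten-Stigum bound. -/
theorem poisson_ks (hd : 0 < d) (hl : Adm lam) (hKS : 1 < d * lam ^ 2) :
    ¬ Tendsto (gwError 3 (poissonLaw d) lam) atTop (𝓝 0) := by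
  have hp0 := poisson_nonneg0 hd.le
  have hp1 := poisson_hasSum0 d
  have hE := fun n => gwEx_bexp hp0 hp1 hl n
  have hlam : 0 < lam ^ 2 := by
    rcases (sq_nonneg lam).eq_or_lt with h | h
    · rw [← h] at hKS
      norm_num at hKS
    · exact h
  have hlam1 := lam_sq_le hl
  have hp1pos : 0 < poissonLaw d 1 := by
    unfold poissonLaw
    positivity
  have hpos : ∀ n, 0 < gwEx (poissonLaw d) lam n I2 := by
    intro n
    induction n with
    | zero =>
      show 0 < vertexEx I2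
      rw [vertexEx_I2]
      norm_num
    | succ n ih => exact lt_of_lt_of_le (mul_pos hp1pos (mul_pos hlam ih)) (poisson_rec hd hl n).2
  set r := d * lam ^ 2 with hr
  have hr0 : 0 < r := by linarith
  have hδ : 0 < min (1 / 3 : ℝ) ((r - 1) / (3 / 2 * r ^ 2)) :=
    lt_min (by norm_num) (div_pos (by linarith) (by positivity))
  have hnot : ¬ Tendsto (fun n => gwEx (poissonLaw d) lam n I2) atTop (𝓝 0) := by
    refine not_tendsto_of_rec hδ hpos (fun n hn => ?_)
    have h0 := (hpos n).le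
    have h1 : gwEx (poissonLaw d) lam n I2 ≤ 1 / 3 := hn.trans (min_le_left _ _)
    have h2 : gwEx (poissonLaw d) lam n I2 ≤ (r - 1) / (3 / 2 * r ^ 2) := hn.trans (min_le_right _ _)
    have h3 : lam ^ 2 * gwEx (poissonLaw d) lam n I2 ≤ 1 / 3 := by nlinarith
    have h4 := (poisson_rec hd hl n).1 h3
    have h5 := rec_step hKS h0 h2
    refine h5.trans (le_trans (le_of_eq ?_) h4)
    rw [hr]
    ring
  intro h
  refine hnot (squeeze_zero (fun n => (hpos n).le) (g := fun n => 2 * gwError 3 (poissonLaw d) lam n)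
    (fun n => ?_) ?_)
  · rw [gwError_eq_errFn hp0 hp1 hl n]
    have := (hE n).mono (f := I2) (g := fun a b c => 2 * errFn a b c) bd_I2 (Bd.smul 2 bd_errFn)
      (fun a b c h => I2_le_errFn h)
    rwa [(hE n).smul] at this
  · simpa using h.const_mul 2

end poisson

end Vale.Agent.Lib.P154.Neg
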