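import Mathlib

/-!
Polynomials with nonnegative coefficients, certified through a Kronecker substitution, that is by
integer arithmetic carried out by the kernel.

An expression `e : PE` denotes a polynomial in finitely many variables. Its value at integers
`Z i`, the powers of two chosen large, determines the coefficients of the polynomial through its
balanced digits, provided that the sums of absolute values of coefficients are small compared with
the bases. So the nonnegativity of all coefficients is checked by computing with a few integers.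
-/

namespace Vale.Agent.Lib.P154.Neg.Kron

/-! ### lists as polynomials -/

section lists

variable {α : Type}

/-- coefficientwise sum -/
def ladd (add : α → α → α) : List α → List α → List α
  | [], l => l
  | a :: s, [] => a :: s
  | a :: s, b :: t => add a b :: ladd add s t

/-- product of coefficient lists -/
def lmul (add mul : α → α → α) (zero : α) : List α → List α → List α
  | [], _ => []
  | a :: s, t => ladd add (t.map (mul a)) (zero :: lmul add mul zero s t)

variable {R : Type} [CommRing R]

/-- evaluation by the Horner scheme -/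
def ev (e : α → R) (x : R) : List α → R
  | [] => 0
  | a :: s => e a + x * ev e x s

theorem ev_ladd {add : α → α → α} {e : α → R} (h : ∀ a b, e (add a b) = e a + e b) (x : R) :
    ∀ l m, ev e x (ladd add l m) = ev e x l + ev e x m
  | [], l => by simp [ladd, ev]
  | a :: s, [] => by simp [ladd, ev]
  | a :: s, b :: t => by
    simp only [ladd, ev, h, ev_ladd h x s t]
    ring

theorem ev_map {mul : α → α → α} {e : α → R} (h : ∀ a b, e (mul a b) = e a * e b) (x : R) (c : α) :
    ∀ l, ev e x (l.map (mul c)) = e c * ev e x l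
  | [] => by simp [ev]
  | a :: s => by
    simp only [List.map_cons, ev, h, ev_map h x c s]
    ring

theorem ev_lmul {add mul : α → α → α} {zero : α} {e : α → R} (ha : ∀ a b, e (add a b) = e a + e b)
    (hm : ∀ a b, e (mul a b) = e a * e b) (hz : e zero = 0) (x : R) :
    ∀ l m, ev e x (lmul add mul zero l m) = ev e x l * ev e x m
  | [], m => by simp [lmul, ev]
  | a :: s, m => by
    simp only [lmul, ev, ev_ladd ha, ev_map hm, hz, ev_lmul ha hm hz x s m]
    ring

/-! inequalities for the evaluation with absolute values -/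

theorem ev_nonneg_of {e : α → ℤ} (h0 : ∀ a, 0 ≤ e a) {x : ℤ} (hx : 0 ≤ x) :
    ∀ l, 0 ≤ ev e x l
  | [] => by simp [ev]
  | a :: s => by
    have h1 := h0 a
    have h2 := ev_nonneg_of h0 hx s
    simp only [ev]
    positivity

theorem ev_ladd_le {add : α → α → α} {e : α → ℤ} (h0 : ∀ a, 0 ≤ e a)
    (h : ∀ a b, e (add a b) ≤ e a + e b) {x : ℤ} (hx : 0 ≤ x) :
    ∀ l m, ev e x (ladd add l m) ≤ ev e x l + ev e x m
  | [], l => by simp [ladd, ev]
  | a :: s, [] => by simp [ladd, ev]
  | a :: s, b :: t => by
    simp only [ladd, ev]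
    have h1 := h a b
    have h2 := mul_le_mul_of_nonneg_left (ev_ladd_le h0 h hx s t) hx
    nlinarith

theorem ev_map_le {mul : α → α → α} {e : α → ℤ} (h0 : ∀ a, 0 ≤ e a)
    (h : ∀ a b, e (mul a b) ≤ e a * e b) {x : ℤ} (hx : 0 ≤ x) (c : α) :
    ∀ l, ev e x (l.map (mul c)) ≤ e c * ev e x l
  | [] => by simp [ev]
  | a :: s => by
    simp only [List.map_cons, ev]
    have h1 := h c a
    have h2 := mul_le_mul_of_nonneg_left (ev_map_le h0 h hx c s) hx
    nlinarith

theorem ev_lmul_le {add mul : α → α → α} {zero : α} {e : α → ℤ} (h0 : ∀ a, 0 ≤ e a)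
    (ha : ∀ a b, e (add a b) ≤ e a + e b) (hm : ∀ a b, e (mul a b) ≤ e a * e b) (hz : e zero = 0)
    {x : ℤ} (hx : 0 ≤ x) :
    ∀ l m, ev e x (lmul add mul zero l m) ≤ ev e x l * ev e x m
  | [], m => by simp [lmul, ev]
  | a :: s, m => by
    simp only [lmul, ev]
    have h1 := ev_ladd_le h0 ha hx (m.map (mul a)) (zero :: lmul add mul zero s m)
    have h2 := ev_map_le h0 hm hx a m
    simp only [ev, hz, zero_add] at h1
    have h3 := mul_le_mul_of_nonneg_left (ev_lmul_le h0 ha hm hz hx s m) hx
    nlinarith

theorem ev_one_ge {e : α → ℤ} (h0 : ∀ a, 0 ≤ e a) : ∀ l : List α, ∀ c ∈ l, e c ≤ ev e 1 l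
  | [], c, hc => by simp at hc
  | a :: s, c, hc => by
    simp only [ev, one_mul]
    rcases List.mem_cons.1 hc with rfl | h
    · have := ev_nonneg_of h0 (x := 1) (by norm_num) s
      linarith
    · have := ev_one_ge h0 s c h
      have := h0 a
      linarith

end lists

/-! ### nested polynomials -/

/-- polynomials in `k` variables, as nested lists; the outermost list is in the variable `k - 1` -/
@[reducible] def PN : ℕ → Type
  | 0 => ℤ
  | k + 1 => List (PN k)

/-- zero -/
def zeroN : (k : ℕ) → PN k
  | 0 => (0 : ℤ)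
  | _ + 1 => []

/-- constants -/
def constN : (k : ℕ) → ℤ → PN k
  | 0, z => z
  | k + 1, z => [constN k z]

/-- sums -/
def addN : (k : ℕ) → PN k → PN k → PN k
  | 0, a, b => (a + b : ℤ)
  | k + 1, a, b => ladd (addN k) a b

/-- products -/
def mulN : (k : ℕ) → PN k → PN k → PN k
  | 0, a, b => (a * b : ℤ)
  | k + 1, a, b => lmul (addN k) (mulN k) (zeroN k) a b

/-- variables -/
def varN : (k : ℕ) → ℕ → PN k
  | 0, _ => (0 : ℤ)
  | k + 1, i => if i = k then [zeroN k, constN k 1] else [varN k i]

/-- evaluation -/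
def evN {R : Type} [CommRing R] (env : ℕ → R) : (k : ℕ) → PN k → R
  | 0, z => ((z : ℤ) : R)
  | k + 1, l => ev (evN env k) (env k) l

section evN

variable {R : Type} [CommRing R] (env : ℕ → R)

theorem evN_zero : ∀ k, evN env k (zeroN k) = 0
  | 0 => by simp [evN, zeroN]
  | k + 1 => by simp [evN, zeroN, ev]

theorem evN_const : ∀ k (z : ℤ), evN env k (constN k z) = (z : R)
  | 0, z => by simp [evN, constN]
  | k + 1, z => by simp [evN, constN, ev, evN_const k z]

theorem evN_add : ∀ k (a b : PN k), evN env k (addN k a b) = evN env k a + evN env k b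
  | 0, a, b => by simp [evN, addN]
  | k + 1, a, b => ev_ladd (evN_add k) (env k) a b

theorem evN_mul : ∀ k (a b : PN k), evN env k (mulN k a b) = evN env k a * evN env k b
  | 0, a, b => by simp [evN, mulN]
  | k + 1, a, b => ev_lmul (evN_add env k) (evN_mul k) (evN_zero env k) (env k) a b

theorem evN_var : ∀ k i, i < k → evN env k (varN k i) = env i
  | 0, _, h => absurd h (Nat.not_lt_zero _)
  | k + 1, i, h => by
    by_cases hi : i = k
    · subst hi
      simp [varN, evN, ev, evN_zero, evN_const]
    · have : i < k := by omega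
      simp [varN, hi, evN, ev, evN_var k i this]

end evN

/-! ### expressions -/

/-- expressions for polynomials -/
inductive PE where
  | const : ℤ → PE
  | var : ℕ → PE
  | add : PE → PE → PE
  | mul : PE → PE → PE
  | pow : PE → ℕ → PE

/-- the value of an expression -/
def evalE {R : Type} [CommRing R] (env : ℕ → R) : PE → R
  | .const z => (z : R)
  | .var i => env i
  | .add a b => evalE env a + evalE env b
  | .mul a b => evalE env a * evalE env b
  | .pow a n => (evalE env a) ^ n

/-- all variables are smaller than `k` -/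
def wfb (k : ℕ) : PE → Bool
  | .const _ => true
  | .var i => decide (i < k)
  | .add a b => wfb k a && wfb k b
  | .mul a b => wfb k a && wfb k b
  | .pow a _ => wfb k a

/-- powers -/
def powN (k : ℕ) (a : PN k) : ℕ → PN k
  | 0 => constN k 1
  | n + 1 => mulN k (powN k a n) a

/-- the polynomial of an expression -/
def toN (k : ℕ) : PE → PN k
  | .const z => constN k z
  | .var i => varN k i
  | .add a b => addN k (toN k a) (toN k b)
  | .mul a b => mulN k (toN k a) (toN k b)
  | .pow a n => powN k (toN k a) n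

theorem evN_pow {R : Type} [CommRing R] (env : ℕ → R) (k : ℕ) (a : PN k) :
    ∀ n, evN env k (powN k a n) = (evN env k a) ^ n
  | 0 => by simp [powN, evN_const]
  | n + 1 => by rw [powN, evN_mul, evN_pow env k a n, pow_succ]

theorem evN_toN {R : Type} [CommRing R] (env : ℕ → R) (k : ℕ) :
    ∀ e : PE, wfb k e = true → evN env k (toN k e) = evalE env e
  | .const z, _ => by simp [toN, evalE, evN_const]
  | .var i, h => by
    simp only [wfb, decide_eq_true_eq] at h
    simp [toN, evalE, evN_var env k i h]
  | .add a b, h => by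
    simp only [wfb, Bool.and_eq_true] at h
    simp only [toN, evalE, evN_add, evN_toN env k a h.1, evN_toN env k b h.2]
  | .mul a b, h => by
    simp only [wfb, Bool.and_eq_true] at h
    simp only [toN, evalE, evN_mul, evN_toN env k a h.1, evN_toN env k b h.2]
  | .pow a n, h => by
    simp only [wfb] at h
    simp only [toN, evalE, evN_pow, evN_toN env k a h]

/-! ### absolute values -/

/-- the evaluation with absolute values of the coefficients -/
def absN (env : ℕ → ℤ) : (k : ℕ) → PN k → ℤ
  | 0, z => |(z : ℤ)|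
  | k + 1, l => ev (absN env k) (env k) l

/-- the bound for an expression -/
def absE (env : ℕ → ℤ) : PE → ℤ
  | .const z => |z|
  | .var i => env i
  | .add a b => absE env a + absE env b
  | .mul a b => absE env a * absE env b
  | .pow a n => (absE env a) ^ n

section abs

variable {env : ℕ → ℤ} (henv : ∀ i, 0 ≤ env i)
include henv

theorem absN_nonneg : ∀ k (a : PN k), 0 ≤ absN env k a
  | 0, a => abs_nonneg (a : ℤ)
  | k + 1, a => ev_nonneg_of (absN_nonneg k) (henv k) a

theorem absN_zero : ∀ k, absN env k (zeroN k) = 0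
  | 0 => by simp [absN, zeroN]
  | k + 1 => by simp [absN, zeroN, ev]

theorem absN_const : ∀ k (z : ℤ), absN env k (constN k z) = |z|
  | 0, z => by simp [absN, constN]
  | k + 1, z => by simp [absN, constN, ev, absN_const k z]

theorem absN_add : ∀ k (a b : PN k), absN env k (addN k a b) ≤ absN env k a + absN env k b
  | 0, a, b => abs_add_le (a : ℤ) (b : ℤ)
  | k + 1, a, b => ev_ladd_le (absN_nonneg henv k) (absN_add k) (henv k) a b

theorem absN_mul : ∀ k (a b : PN k), absN env k (mulN k a b) ≤ absN env k a * absN env k b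
  | 0, a, b => by
    show |(a : ℤ) * (b : ℤ)| ≤ |(a : ℤ)| * |(b : ℤ)|
    rw [abs_mul]
  | k + 1, a, b =>
    ev_lmul_le (absN_nonneg henv k) (absN_add henv k) (absN_mul k) (absN_zero henv k) (henv k) a b

theorem absN_var : ∀ k i, absN env k (varN k i) ≤ env i
  | 0, i => by simp [varN, absN, henv i]
  | k + 1, i => by
    by_cases hi : i = k
    · subst hi
      simp [varN, absN, ev, absN_zero, absN_const, henv]
    · have := absN_var k i
      simp [varN, hi, absN, ev, this]

theorem absN_pow (k : ℕ) (a : PN k) : ∀ n, absN env k (powN k a n) ≤ (absN env k a) ^ n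
  | 0 => by simp [powN, absN_const, henv]
  | n + 1 => by
    rw [powN, pow_succ]
    refine (absN_mul henv k _ _).trans ?_
    exact mul_le_mul_of_nonneg_right (absN_pow k a n) (absN_nonneg henv k a)

theorem absE_nonneg : ∀ e : PE, 0 ≤ absE env e
  | .const z => abs_nonneg z
  | .var i => henv i
  | .add a b => add_nonneg (absE_nonneg a) (absE_nonneg b)
  | .mul a b => mul_nonneg (absE_nonneg a) (absE_nonneg b)
  | .pow a n => pow_nonneg (absE_nonneg a) n

theorem absN_toN (k : ℕ) : ∀ e : PE, absN env k (toN k e) ≤ absE env e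
  | .const z => by simp [toN, absE, absN_const, henv]
  | .var i => absN_var henv k i
  | .add a b => (absN_add henv k _ _).trans (add_le_add (absN_toN k a) (absN_toN k b))
  | .mul a b => (absN_mul henv k _ _).trans
      (mul_le_mul (absN_toN k a) (absN_toN k b) (absN_nonneg henv k _) (absE_nonneg henv a))
  | .pow a n => (absN_pow henv k _ n).trans
      (pow_le_pow_left₀ (absN_nonneg henv k _) (absN_toN k a) n)

end abs

theorem abs_evN_le {env : ℕ → ℤ} (henv : ∀ i, 0 ≤ env i) :
    ∀ k (a : PN k), |evN env k a| ≤ absN env k a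
  | 0, a => by simp [evN, absN]
  | k + 1, a => by
    induction a with
    | nil => simp [evN, absN, ev]
    | cons c s ih =>
      have h1 := abs_evN_le henv k c
      have h2 : |evN env (k + 1) s| ≤ absN env (k + 1) s := ih
      have h3 : evN env (k + 1) (c :: s) = evN env k c + env k * evN env (k + 1) s := rfl
      have h4 : absN env (k + 1) (c :: s) = absN env k c + env k * absN env (k + 1) s := rfl
      rw [h3, h4]
      refine (abs_add_le _ _).trans (add_le_add h1 ?_)
      rw [abs_mul, abs_of_nonneg (henv k)]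
      exact mul_le_mul_of_nonneg_left h2 (henv k)

/-- only the first variables count -/
theorem absN_congr {env env' : ℕ → ℤ} :
    ∀ k, (∀ i, i < k → env i = env' i) → ∀ a : PN k, absN env k a = absN env' k a
  | 0, _, a => rfl
  | k + 1, h, a => by
    induction a with
    | nil => rfl
    | cons c s ih =>
      have h3 : absN env (k + 1) (c :: s) = absN env k c + env k * absN env (k + 1) s := rfl
      have h4 : absN env' (k + 1) (c :: s) = absN env' k c + env' k * absN env' (k + 1) s := rfl
      rw [h3, h4, ih, absN_congr k (fun i hi => h i (by omega)) c, h k (by omega)]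

/-! ### digits, read from bit masks -/

/-- the repetition of a bit mask -/
def rep (D b : ℕ) : ℕ → ℕ
  | 0 => 0
  | n + 1 => Nat.lor D (Nat.shiftLeft (rep D b n) b)

/-- the mask of the bits from `L` up to `L'` -/
def high (L L' : ℕ) : ℕ := Nat.shiftLeft (Nat.shiftLeft 1 (L' - L) - 1) L

/-- the mask of a digit at level `k`, in its field of `b k` bits; `n k` is the number of digits -/
def maskM (b n : ℕ → ℕ) : ℕ → ℕ
  | 0 => Nat.shiftLeft 1 (b 0 - 1)
  | k + 1 => Nat.lor (rep (maskM b n k) (b k) (n k)) (high (n k * b k) (b (k + 1)))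

/-- the check of all digits of a value at level `k` -/
def decodeM (b n : ℕ → ℕ) : ℕ → ℕ → Bool
  | 0, _ => true
  | k + 1, E => Nat.beq (Nat.shiftRight E (n k * b k)) 0 &&
      Nat.beq (Nat.land E (rep (maskM b n k) (b k) (n k))) 0

/-- the widths of the fields are large enough -/
def widthOK (b n : ℕ → ℕ) (k : ℕ) : Bool :=
  (List.range k).all (fun i => Nat.blt 0 (b i)) &&
    (List.range (k - 1)).all (fun i => Nat.blt (n i * b i) (b (i + 1)))

theorem one_shift (L : ℕ) : Nat.shiftLeft 1 L = 2 ^ L := by
  show 1 <<< L = _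
  rw [Nat.shiftLeft_eq, Nat.one_mul]

theorem shiftRight_zero_iff {E L : ℕ} : Nat.beq (Nat.shiftRight E L) 0 = true ↔ E < 2 ^ L := by
  have h : Nat.shiftRight E L = E / 2 ^ L := Nat.shiftRight_eq_div_pow E L
  rw [h, Nat.beq_eq]
  constructor
  · intro h0
    have := Nat.div_add_mod E (2 ^ L)
    rw [h0, Nat.mul_zero, Nat.zero_add] at this
    rw [← this]
    exact Nat.mod_lt _ (by positivity)
  · intro h0
    exact Nat.div_eq_of_lt h0

section digits

theorem testBit_rep_low {D b : ℕ} (hD : D < 2 ^ b) (n i : ℕ) (hi : i < b) :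
    (rep D b (n + 1)).testBit i = D.testBit i := by
  show (Nat.lor D (Nat.shiftLeft (rep D b n) b)).testBit i = _
  have h1 : (Nat.shiftLeft (rep D b n) b).testBit i = false := by
    show ((rep D b n) <<< b).testBit i = false
    rw [Nat.testBit_shiftLeft]
    simp [hi]
  show (D ||| (Nat.shiftLeft (rep D b n) b)).testBit i = _
  rw [Nat.testBit_or, h1, Bool.or_false]

theorem testBit_rep_high {D b : ℕ} (hD : D < 2 ^ b) (n i : ℕ) :
    (rep D b (n + 1)).testBit (i + b) = (rep D b n).testBit i := by
  show (D ||| (Nat.shiftLeft (rep D b n) b)).testBit (i + b) = _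
  have h1 : D.testBit (i + b) = false :=
    Nat.testBit_eq_false_of_lt (lt_of_lt_of_le hD (Nat.pow_le_pow_right (by norm_num) (by omega)))
  have h2 : (Nat.shiftLeft (rep D b n) b).testBit (i + b) = (rep D b n).testBit i := by
    show ((rep D b n) <<< b).testBit (i + b) = _
    rw [Nat.testBit_shiftLeft]
    simp
  rw [Nat.testBit_or, h1, h2, Bool.false_or]

/-- the digits of a number whose bits avoid a repeated mask -/
theorem rep_step {E D b n : ℕ} (hD : D < 2 ^ b)
    (h : Nat.land E (rep D b (n + 1)) = 0) :
    Nat.land (E % 2 ^ b) D = 0 ∧ Nat.land (E / 2 ^ b) (rep D b n) = 0 := by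
  have hb : ∀ i, (E.testBit i && (rep D b (n + 1)).testBit i) = false := by
    intro i
    have : (E &&& rep D b (n + 1)).testBit i = false := by
      have h' : (E &&& rep D b (n + 1)) = 0 := h
      rw [h']
      simp
    rwa [Nat.testBit_and] at this
  constructor
  · show (E % 2 ^ b) &&& D = 0
    apply Nat.eq_of_testBit_eq
    intro i
    rw [Nat.testBit_and, Nat.testBit_mod_two_pow]
    simp only [Nat.zero_testBit]
    by_cases hi : i < b
    · have := hb i
      rw [testBit_rep_low hD n i hi] at this
      simpa [hi] using this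
    · simp [hi]
  · show (E / 2 ^ b) &&& rep D b n = 0
    apply Nat.eq_of_testBit_eq
    intro i
    rw [Nat.testBit_and, Nat.testBit_div_two_pow]
    simp only [Nat.zero_testBit]
    have := hb (i + b)
    rw [testBit_rep_high hD n i] at this
    exact this

theorem rep_lt {D b : ℕ} (hD : D < 2 ^ b) : ∀ n, rep D b n < 2 ^ (n * b)
  | 0 => by simp [rep]
  | n + 1 => by
    show D ||| (rep D b n <<< b) < _
    have h1 : rep D b n <<< b < 2 ^ ((n + 1) * b) := by
      rw [Nat.shiftLeft_eq]
      have := rep_lt hD n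
      calc rep D b n * 2 ^ b < 2 ^ (n * b) * 2 ^ b :=
            Nat.mul_lt_mul_of_pos_right this (by positivity)
        _ = 2 ^ ((n + 1) * b) := by rw [← pow_add]; congr 1; ring
    have h2 : D < 2 ^ ((n + 1) * b) :=
      lt_of_lt_of_le hD (Nat.pow_le_pow_right (by norm_num) (by nlinarith))
    exact Nat.or_lt_two_pow h2 h1

variable {α : Type} {e : α → ℤ}

theorem ev_zero_all {b : ℕ} :
    ∀ l : List α, (∀ c ∈ l, 2 * |e c| < (2 : ℤ) ^ b) → ev e ((2 : ℤ) ^ b) l = 0 → ∀ c ∈ l, e c = 0
  | [], _, _, c, hc => by simp at hc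
  | a :: s, hb, h0, c, hc => by
    have hZ : (0 : ℤ) < (2 : ℤ) ^ b := by positivity
    have h1 := hb a (by simp)
    have h2 : e a + (2 : ℤ) ^ b * ev e ((2 : ℤ) ^ b) s = 0 := h0
    have h3 : e a = 0 := by
      have hd : (2 : ℤ) ^ b ∣ e a := ⟨- ev e ((2 : ℤ) ^ b) s, by linarith⟩
      refine Int.eq_zero_of_abs_lt_dvd hd ?_
      have := abs_nonneg (e a)
      linarith
    have h5 : ev e ((2 : ℤ) ^ b) s = 0 := by
      rw [h3, zero_add] at h2
      exact (mul_eq_zero.1 h2).resolve_left hZ.ne'
    rcases List.mem_cons.1 hc with rfl | h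
    · exact h3
    · exact ev_zero_all s (fun c hc => hb c (by simp [hc])) h5 c h

/-- reading the digits -/
theorem mask_list {b D : ℕ} {P : α → Prop} (hD : D < 2 ^ b) (hb0 : 0 < b)
    (htop : D.testBit (b - 1) = true)
    (inner : ∀ (c : α) (a : ℕ), a < 2 ^ b → e c = (a : ℤ) → Nat.land a D = 0 → P c) :
    ∀ (n : ℕ) (l : List α) (E : ℕ), (∀ c ∈ l, 2 * |e c| < (2 : ℤ) ^ b) →
      (E : ℤ) = ev e ((2 : ℤ) ^ b) l → Nat.land E (rep D b n) = 0 → E < 2 ^ (n * b) →
      ∀ c ∈ l, P c := by
  intro n
  induction n with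
  | zero =>
    intro l E hl hE _ hlt c hc
    have h0 : E = 0 := by
      simp only [Nat.zero_mul, pow_zero] at hlt
      omega
    have h1 : ev e ((2 : ℤ) ^ b) l = 0 := by
      rw [← hE, h0]
      rfl
    have h2 := ev_zero_all l hl h1 c hc
    refine inner c 0 (by positivity) (by simpa using h2) ?_
    show 0 &&& D = 0
    simp
  | succ n ih =>
    intro l E hl hE hM hlt c hc
    cases l with
    | nil => simp at hc
    | cons d s =>
      obtain ⟨h1, h2⟩ := rep_step hD hM
      have hZ : (0 : ℤ) < (2 : ℤ) ^ b := by positivity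
      have hZn : (0 : ℕ) < 2 ^ b := by positivity
      -- the digit is small
      have ha : E % 2 ^ b < 2 ^ (b - 1) := by
        refine Nat.lt_pow_two_of_testBit _ (fun j hj => ?_)
        rw [Nat.testBit_mod_two_pow]
        by_cases hjb : j < b
        · have hj' : j = b - 1 := by omega
          have h3 : ((E % 2 ^ b) &&& D).testBit (b - 1) = false := by
            have h' : (E % 2 ^ b) &&& D = 0 := h1
            rw [h']
            simp
          rw [Nat.testBit_and, htop, Bool.and_true, Nat.testBit_mod_two_pow] at h3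
          rw [hj']
          exact h3
        · simp [hjb]
      have hpow : (2 : ℤ) ^ b = 2 * (2 : ℤ) ^ (b - 1) := by
        rw [← pow_succ']
        congr 1
        omega
      have hpown : 2 ^ b = 2 * 2 ^ (b - 1) := by
        rw [← pow_succ']
        congr 1
        omega
      have hdb := hl d (by simp)
      have hE1 : (E : ℤ) = e d + (2 : ℤ) ^ b * ev e ((2 : ℤ) ^ b) s := hE
      have hE2 : (E : ℤ) = ((E % 2 ^ b : ℕ) : ℤ) + (2 : ℤ) ^ b * ((E / 2 ^ b : ℕ) : ℤ) := by
        have := Nat.mod_add_div E (2 ^ b)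
        exact_mod_cast this.symm
      -- the digit is determined
      have hdig : e d = ((E % 2 ^ b : ℕ) : ℤ) := by
        have hd : (2 : ℤ) ^ b ∣ e d - ((E % 2 ^ b : ℕ) : ℤ) :=
          ⟨((E / 2 ^ b : ℕ) : ℤ) - ev e ((2 : ℤ) ^ b) s, by linarith⟩
        have hz := Int.eq_zero_of_abs_lt_dvd hd (by
          have h6 : ((E % 2 ^ b : ℕ) : ℤ) < (2 : ℤ) ^ (b - 1) := by exact_mod_cast ha
          have h7 : (0 : ℤ) ≤ ((E % 2 ^ b : ℕ) : ℤ) := by positivity
          have h8 : |e d| < (2 : ℤ) ^ (b - 1) := by
            rw [hpow] at hdb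
            linarith
          rw [abs_lt] at h8 ⊢
          rw [hpow]
          have h9 : (0 : ℤ) < (2 : ℤ) ^ (b - 1) := by positivity
          constructor <;> linarith [h8.1, h8.2])
        linarith
      have hs : ((E / 2 ^ b : ℕ) : ℤ) = ev e ((2 : ℤ) ^ b) s := by
        have h10 : (2 : ℤ) ^ b * ((E / 2 ^ b : ℕ) : ℤ) = (2 : ℤ) ^ b * ev e ((2 : ℤ) ^ b) s := by
          linarith
        exact mul_left_cancel₀ hZ.ne' h10
      rcases List.mem_cons.1 hc with rfl | h
      · exact inner _ _ (Nat.mod_lt _ hZn) hdig h1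
      · refine ih s (E / 2 ^ b) (fun c hc => hl c (by simp [hc])) hs h2 ?_ c h
        refine Nat.div_lt_of_lt_mul ?_
        have : 2 ^ b * 2 ^ (n * b) = 2 ^ ((n + 1) * b) := by
          rw [← pow_add]
          congr 1
          ring
        rw [this]
        exact hlt

end digits

/-- all coefficients are nonnegative -/
def nnN : (k : ℕ) → PN k → Prop
  | 0, z => 0 ≤ (z : ℤ)
  | k + 1, l => ∀ c ∈ l, nnN k c

/-- the environment with the first `i` variables at their bases and the others at `1` -/
def envOf (Z : ℕ → ℤ) (i j : ℕ) : ℤ := if j < i then Z j else 1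

theorem envOf_nonneg {Z : ℕ → ℤ} (hZ : ∀ i, 0 < Z i) (i j : ℕ) : 0 ≤ envOf Z i j := by
  unfold envOf
  split_ifs
  · exact (hZ j).le
  · norm_num

theorem maskM_facts {K : ℕ} {b n : ℕ → ℕ} (hb : ∀ i, i < K → 0 < b i)
    (hw : ∀ i, i + 1 < K → n i * b i < b (i + 1)) :
    ∀ k, k < K → maskM b n k < 2 ^ (b k) ∧ (maskM b n k).testBit (b k - 1) = true
  | 0, hK => by
    constructor
    · show Nat.shiftLeft 1 (b 0 - 1) < 2 ^ (b 0)
      rw [one_shift]
      exact Nat.pow_lt_pow_right (by norm_num) (by have := hb 0 hK; omega)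
    · show (Nat.shiftLeft 1 (b 0 - 1)).testBit (b 0 - 1) = true
      rw [one_shift]
      simp
  | k + 1, hK => by
    obtain ⟨h1, _⟩ := maskM_facts hb hw k (by omega)
    have hwk := hw k hK
    have hr : rep (maskM b n k) (b k) (n k) < 2 ^ (b (k + 1)) :=
      lt_of_lt_of_le (rep_lt h1 (n k)) (Nat.pow_le_pow_right (by norm_num) hwk.le)
    have hh : high (n k * b k) (b (k + 1)) < 2 ^ (b (k + 1)) := by
      show (Nat.shiftLeft 1 (b (k + 1) - n k * b k) - 1) <<< (n k * b k) < _
      rw [one_shift]
      rw [Nat.shiftLeft_eq]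
      have h2 : 2 ^ (b (k + 1) - n k * b k) * 2 ^ (n k * b k) = 2 ^ (b (k + 1)) := by
        rw [← pow_add]
        congr 1
        omega
      have h3 : 0 < 2 ^ (n k * b k) := by positivity
      have h4 : 0 < 2 ^ (b (k + 1) - n k * b k) := by positivity
      rw [← h2]
      exact Nat.mul_lt_mul_of_pos_right (by omega) h3
    constructor
    · exact Nat.or_lt_two_pow hr hh
    · show ((rep (maskM b n k) (b k) (n k)) ||| (high (n k * b k) (b (k + 1)))).testBit _ = true
      rw [Nat.testBit_or]
      have : (high (n k * b k) (b (k + 1))).testBit (b (k + 1) - 1) = true := by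
        show ((Nat.shiftLeft 1 (b (k + 1) - n k * b k) - 1) <<< (n k * b k)).testBit _ = true
        rw [one_shift, Nat.testBit_shiftLeft, Nat.testBit_two_pow_sub_one]
        simp only [decide_eq_true_eq, Bool.and_eq_true]
        constructor <;> omega
      rw [this, Bool.or_true]

/-- a digit at a higher level passes the check of its own digits -/
theorem decode_of_mask {b n : ℕ → ℕ} {k a : ℕ} (hwk : n k * b k < b (k + 1))
    (ha : a < 2 ^ (b (k + 1))) (hm : Nat.land a (maskM b n (k + 1)) = 0) :
    decodeM b n (k + 1) a = true := by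
  have hbits : ∀ i, (a.testBit i && (maskM b n (k + 1)).testBit i) = false := by
    intro i
    have : (a &&& maskM b n (k + 1)).testBit i = false := by
      have h' : (a &&& maskM b n (k + 1)) = 0 := hm
      rw [h']
      simp
    rwa [Nat.testBit_and] at this
  have hM : ∀ i, (maskM b n (k + 1)).testBit i = ((rep (maskM b n k) (b k) (n k)).testBit i ||
      (high (n k * b k) (b (k + 1))).testBit i) := by
    intro i
    show ((rep (maskM b n k) (b k) (n k)) ||| (high (n k * b k) (b (k + 1)))).testBit i = _
    rw [Nat.testBit_or]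
  have h1 : a < 2 ^ (n k * b k) := by
    refine Nat.lt_pow_two_of_testBit _ (fun j hj => ?_)
    by_cases hj2 : j < b (k + 1)
    · have h3 := hbits j
      rw [hM] at h3
      have h4 : (high (n k * b k) (b (k + 1))).testBit j = true := by
        show ((Nat.shiftLeft 1 (b (k + 1) - n k * b k) - 1) <<< (n k * b k)).testBit j = true
        rw [one_shift, Nat.testBit_shiftLeft, Nat.testBit_two_pow_sub_one]
        simp only [decide_eq_true_eq, Bool.and_eq_true]
        constructor <;> omega
      rw [h4, Bool.or_true, Bool.and_true] at h3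
      exact h3
    · exact Nat.testBit_eq_false_of_lt
        (lt_of_lt_of_le ha (Nat.pow_le_pow_right (by norm_num) (by omega)))
  have h2 : a &&& rep (maskM b n k) (b k) (n k) = 0 := by
    apply Nat.eq_of_testBit_eq
    intro i
    rw [Nat.testBit_and]
    simp only [Nat.zero_testBit]
    have h3 := hbits i
    rw [hM] at h3
    cases h5 : a.testBit i with
    | false => simp
    | true =>
      rw [h5] at h3
      simp only [Bool.true_and, Bool.or_eq_false_iff] at h3
      simp [h3.1]
  show (Nat.beq (Nat.shiftRight a (n k * b k)) 0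
    && Nat.beq (Nat.land a (rep (maskM b n k) (b k) (n k))) 0) = true
  rw [Bool.and_eq_true]
  refine ⟨shiftRight_zero_iff.2 h1, ?_⟩
  · have h6 : Nat.land a (rep (maskM b n k) (b k) (n k)) = 0 := h2
    rw [h6]
    rfl

theorem decodeM_sound {K : ℕ} {b n : ℕ → ℕ} (hb : ∀ i, i < K → 0 < b i)
    (hw : ∀ i, i + 1 < K → n i * b i < b (i + 1))
    {G : ℕ → ℤ} (hG : ∀ i, i < K → 2 * G i < (2 : ℤ) ^ (b i)) :
    ∀ k, k ≤ K → ∀ (l : PN k) (a : ℕ),
      (∀ i, i < k → absN (envOf (fun j => (2 : ℤ) ^ (b j)) i) k l ≤ G i) →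
      evN (fun j => (2 : ℤ) ^ (b j)) k l = (a : ℤ) → decodeM b n k a = true → nnN k l
  | 0, _, l, a, _, hE, _ => by
    have h3 : evN (fun j => (2 : ℤ) ^ (b j)) 0 l = ((l : ℤ) : ℤ) := rfl
    rw [h3] at hE
    show 0 ≤ (l : ℤ)
    rw [hE]
    positivity
  | k + 1, hK, l, a, hB, hE, hD => by
    have hZ : ∀ i, 0 < (fun j => (2 : ℤ) ^ (b j)) i := fun i => by positivity
    have hD' : (Nat.beq (Nat.shiftRight a (n k * b k)) 0 &&
      Nat.beq (Nat.land a (rep (maskM b n k) (b k) (n k))) 0) = true := hD
    rw [Bool.and_eq_true] at hD'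
    have hlt : a < 2 ^ (n k * b k) := shiftRight_zero_iff.1 hD'.1
    have hland : Nat.land a (rep (maskM b n k) (b k) (n k)) = 0 := by
      have := hD'.2
      exact Nat.eq_of_beq_eq_true this
    obtain ⟨hm1, hm2⟩ := maskM_facts hb hw k (by omega)
    -- bounds for the coefficients
    have hsub : ∀ c ∈ l, ∀ i, i ≤ k → absN (envOf (fun j => (2 : ℤ) ^ (b j)) i) k c ≤ G i := by
      intro c hc i hi
      have h1 := hB i (by omega)
      have h2 : envOf (fun j => (2 : ℤ) ^ (b j)) i k = 1 := by
        unfold envOf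
        rw [if_neg (by omega)]
      have h3 : absN (envOf (fun j => (2 : ℤ) ^ (b j)) i) (k + 1) l
          = ev (absN (envOf (fun j => (2 : ℤ) ^ (b j)) i) k) 1 l := by
        show ev (absN (envOf (fun j => (2 : ℤ) ^ (b j)) i) k)
          (envOf (fun j => (2 : ℤ) ^ (b j)) i k) l = _
        rw [h2]
      have h4 := ev_one_ge (absN_nonneg (envOf_nonneg hZ i) k) l c hc
      linarith
    have hbd : ∀ c ∈ l, 2 * |evN (fun j => (2 : ℤ) ^ (b j)) k c| < (2 : ℤ) ^ (b k) := by
      intro c hc
      have h5 : absN (envOf (fun j => (2 : ℤ) ^ (b j)) k) k c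
          = absN (fun j => (2 : ℤ) ^ (b j)) k c := absN_congr k (fun i hi => by
        unfold envOf
        rw [if_pos hi]) c
      have h6 := abs_evN_le (fun i => (hZ i).le) k c
      have h7 := hG k (by omega)
      have h8 := hsub c hc k (le_refl k)
      rw [h5] at h8
      linarith
    -- read the digits
    refine mask_list (P := fun c => c ∈ l → nnN k c) (e := evN (fun j => (2 : ℤ) ^ (b j)) k)
      hm1 (hb k (by omega)) hm2 ?_ (n k) l a hbd hE.symm hland hlt |> fun h c hc => h c hc hc
    intro c a' ha' hev hm hc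
    have hB' := hsub c hc
    cases k with
    | zero =>
      exact decodeM_sound hb hw hG 0 (by omega) c a' (fun i hi => absurd hi (Nat.not_lt_zero _)) hev rfl
    | succ k' =>
      exact decodeM_sound hb hw hG (k' + 1) (by omega) c a' (fun i hi => hB' i (by omega)) hev
        (decode_of_mask (hw k' (by omega)) ha' hm)

theorem evN_nonneg {env : ℕ → ℝ} (henv : ∀ i, 0 ≤ env i) :
    ∀ k (l : PN k), nnN k l → 0 ≤ evN env k l
  | 0, l, h => by
    have : (0 : ℝ) ≤ (((l : ℤ) : ℤ) : ℝ) := by exact_mod_cast h
    simpa [evN] using this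
  | k + 1, l, h => by
    induction l with
    | nil => simp [evN, ev]
    | cons c s ih =>
      have h1 := evN_nonneg henv k c (h c (by simp))
      have h2 : 0 ≤ evN env (k + 1) s := ih (fun c hc => h c (by simp [hc]))
      have h3 : evN env (k + 1) (c :: s) = evN env k c + env k * evN env (k + 1) s := rfl
      rw [h3]
      have := henv k
      positivity

/-! ### the check -/

/-- integer powers, for the kernel -/
def ipow (a : ℤ) : ℕ → ℤ
  | 0 => 1
  | n + 1 => Int.mul (ipow a n) a

/-- the value of an expression at integers, for the kernel -/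
def evalZ (env : ℕ → ℤ) : PE → ℤ
  | .const z => z
  | .var i => env i
  | .add a b => Int.add (evalZ env a) (evalZ env b)
  | .mul a b => Int.mul (evalZ env a) (evalZ env b)
  | .pow a n => ipow (evalZ env a) n

/-- the bound of an expression at integers, for the kernel -/
def absZ (env : ℕ → ℤ) : PE → ℤ
  | .const z => Int.natAbs z
  | .var i => env i
  | .add a b => Int.add (absZ env a) (absZ env b)
  | .mul a b => Int.mul (absZ env a) (absZ env b)
  | .pow a n => ipow (absZ env a) n

theorem ipow_eq (a : ℤ) : ∀ n, ipow a n = a ^ n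
  | 0 => by simp [ipow]
  | n + 1 => by
    show Int.mul (ipow a n) a = _
    rw [ipow_eq a n, pow_succ]
    rfl

theorem evalZ_eq (env : ℕ → ℤ) : ∀ e : PE, evalZ env e = evalE env e
  | .const z => by simp [evalZ, evalE]
  | .var i => rfl
  | .add a b => by
    show Int.add _ _ = _
    rw [evalZ_eq env a, evalZ_eq env b]
    rfl
  | .mul a b => by
    show Int.mul _ _ = _
    rw [evalZ_eq env a, evalZ_eq env b]
    rfl
  | .pow a n => by
    show ipow _ n = _
    rw [ipow_eq, evalZ_eq env a]
    rfl

theorem absZ_eq (env : ℕ → ℤ) : ∀ e : PE, absZ env e = absE env e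
  | .const z => by simp [absZ, absE]
  | .var i => rfl
  | .add a b => by
    show Int.add _ _ = _
    rw [absZ_eq env a, absZ_eq env b]
    rfl
  | .mul a b => by
    show Int.mul _ _ = _
    rw [absZ_eq env a, absZ_eq env b]
    rfl
  | .pow a n => by
    show ipow _ n = _
    rw [ipow_eq, absZ_eq env a]
    rfl

/-- the bases -/
def baseOf (zs : List ℕ) (i : ℕ) : ℤ := Int.ofNat (Nat.shiftLeft 1 (zs.getD i 1))

theorem baseOf_eq (zs : List ℕ) (i : ℕ) : baseOf zs i = (2 : ℤ) ^ (zs.getD i 1) := by
  unfold baseOf
  rw [one_shift]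
  show ((2 ^ (zs.getD i 1) : ℕ) : ℤ) = _
  push_cast
  rfl

theorem baseOf_pos (zs : List ℕ) (i : ℕ) : 0 < baseOf zs i := by
  rw [baseOf_eq]
  positivity

/-- the last step of the check -/
def finish (b n : ℕ → ℕ) (k : ℕ) : ℤ → Bool
  | .ofNat E => decodeM b n k E
  | .negSucc _ => false

/-- the check by integer arithmetic, for `k` variables, bases `2 ^ (zs i)` and digit numbers `ds` -/
def check (k : ℕ) (zs : List ℕ) (ds : ℕ → ℕ) (e : PE) : Bool :=
  wfb k e &&
  (List.range k).all (fun i => decide (2 * absZ (envOf (baseOf zs) i) e < baseOf zs i)) &&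
  (List.range k).all (fun i => Nat.blt 0 (zs.getD i 1)) &&
  (List.range (k - 1)).all (fun i => Nat.blt ((ds i + 1) * zs.getD i 1) (zs.getD (i + 1) 1)) &&
  finish (fun i => zs.getD i 1) (fun i => ds i + 1) k (evalZ (baseOf zs) e)

/-- the main theorem: a successful check gives nonnegativity on the nonnegative orthant -/
theorem check_sound {k : ℕ} {zs : List ℕ} {ds : ℕ → ℕ} {e : PE} (h : check k zs ds e = true)
    (env : ℕ → ℝ) (henv : ∀ i, 0 ≤ env i) : 0 ≤ evalE env e := by
  unfold check at h
  simp only [Bool.and_eq_true, List.all_eq_true, List.mem_range, decide_eq_true_eq] at h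
  obtain ⟨⟨⟨⟨hw, hb⟩, hb0⟩, hwd⟩, hd⟩ := h
  have hZ := baseOf_pos zs
  have hbase : baseOf zs = fun j => (2 : ℤ) ^ (zs.getD j 1) := by
    funext j
    exact baseOf_eq zs j
  let G : ℕ → ℤ := fun i => if i < k then absE (envOf (baseOf zs) i) e else 0
  have hG : ∀ i, i < k → 2 * G i < (2 : ℤ) ^ (zs.getD i 1) := by
    intro i hi
    have := hb i hi
    rw [absZ_eq] at this
    have h2 : baseOf zs i = (2 : ℤ) ^ (zs.getD i 1) := congrFun hbase i
    rw [h2] at this
    simpa [G, hi] using this
  have hb1 : ∀ i, i < k → 0 < zs.getD i 1 := by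
    intro i hi
    have := hb0 i hi
    simpa [Nat.blt_eq] using this
  have hw1 : ∀ i, i + 1 < k → (ds i + 1) * zs.getD i 1 < zs.getD (i + 1) 1 := by
    intro i hi
    have := hwd i (by omega)
    simpa [Nat.blt_eq] using this
  have hl : nnN k (toN k e) := by
    unfold finish at hd
    have hev : evN (fun j => (2 : ℤ) ^ (zs.getD j 1)) k (toN k e) = evalZ (baseOf zs) e := by
      rw [evN_toN _ k e hw, ← hbase, evalZ_eq]
    generalize hE : evalZ (baseOf zs) e = E at hd hev
    cases E with
    | ofNat E =>
      refine decodeM_sound (n := fun i => ds i + 1) hb1 hw1 hG k (le_refl k) _ E (fun i hi => ?_) hev hd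
      have := absN_toN (env := envOf (fun j => (2 : ℤ) ^ (zs.getD j 1)) i)
        (envOf_nonneg (fun j => by positivity) i) k e
      rw [← hbase] at this
      rw [← hbase]
      simpa [G, hi] using this
    | negSucc _ => simp at hd
  rw [← evN_toN env k e hw]
  exact evN_nonneg henv k _ hl

/-! ### automatic bases and degrees -/

/-- a bound for the degree in a variable -/
def degE (i : ℕ) : PE → ℕ
  | .const _ => 0
  | .var j => if j = i then 1 else 0
  | .add a b => Nat.max (degE i a) (degE i b)
  | .mul a b => degE i a + degE i b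
  | .pow a n => n * degE i a

/-- the exponents of the bases, found from the bounds -/
def autoZs (e : PE) : ℕ → List ℕ → List ℕ
  | 0, l => l
  | k + 1, l =>
    let c := absZ (envOf (baseOf l) l.length) e
    let w := (degE (l.length - 1) e + 1) * l.getD (l.length - 1) 0 + 1
    autoZs e k (l ++ [Nat.max (Nat.log2 (2 * c.toNat + 1) + 1) w])

/-- the check with automatic bases and degrees -/
def checkAuto (k : ℕ) (e : PE) : Bool :=
  check k (autoZs e k []) (fun i => degE i e) e

theorem checkAuto_sound {k : ℕ} {e : PE} (h : checkAuto k e = true)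
    (env : ℕ → ℝ) (henv : ∀ i, 0 ≤ env i) : 0 ≤ evalE env e :=
  check_sound h env henv

end Vale.Agent.Lib.P154.Neg.Kron
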