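import Vale.Agent.Lib.P154.Neg.PoiPath
import Vale.Agent.Lib.P154.NegTailRec

/-!
The class of laws with small moments is closed under one generation on the Poisson tree at the
Kesten-Stigum bound, for eigenvalues in `[-1/2, 0)`: a comparison of the moments along the path of
the Poisson mean with explicit polynomial envelopes.
-/

namespace Vale.Agent.Lib.P154.Neg

open Filter Topology

/-! ### The recursion of the moments for functionals on bounded functions -/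

theorem bd_I2sq : Bd I2sq := bd_I2.pow 2

theorem I2_mean_nonneg0 {E : Ex3} {K : ℝ → ℝ → ℝ → Prop} (hE : BExp E K) : 0 ≤ E I2 :=
  hE.nonneg _ (fun a b c _ => I2_nonneg a b c)

theorem bd_sym6 {F : Fn3} (hF : Bd F) :
    Bd (fun p q r => (1 / 6) * (F p q r + F q r p + F r p q + F q p r + F p r q + F r q p)) :=
  Bd.smul _ (((((hF.add hF.cyc).add hF.cyc.cyc).add hF.swap).add hF.swap.cyc.cyc).add hF.swap.cyc)

/-- the channel of negative eigenvalue -/
theorem chan_bexp_neg {E : Ex3} (hE : BExp E Simp) {lam : ℝ} (h0 : -(1 / 2) ≤ lam) (h1 : lam ≤ 0) :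
    BExp (chan lam E) MsgN where
  sup := fun _ _ _ h => MsgN.simp h
  add f g hf hg := hE.add _ _ (bd_chan ⟨by linarith, by linarith⟩ hf)
    (bd_chan ⟨by linarith, by linarith⟩ hg)
  smul t f := hE.smul _ _
  nonneg f hf := by
    refine hE.nonneg _ (fun a b c hK => hf _ _ _ ?_)
    have hle : ∀ x y z : ℝ, 0 ≤ x → 0 ≤ y → 0 ≤ z → x + y + z = 1 →
        0 ≤ chanPt lam x ∧ chanPt lam x ≤ 1 / 2 := by
      intro x y z hx hy hz hs
      have hx1 : x ≤ 1 := by linarith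
      unfold chanPt
      constructor
      · nlinarith [mul_nonneg (neg_nonneg.2 h1) (sub_nonneg.2 hx1)]
      · nlinarith [mul_nonneg (neg_nonneg.2 h1) hx]
    have ha := hle a b c hK.ha hK.hb hK.hc hK.hs
    have hb := hle b a c hK.hb hK.ha hK.hc (by linarith [hK.hs])
    have hc := hle c a b hK.hc hK.ha hK.hb (by linarith [hK.hs])
    refine ⟨ha.1, hb.1, hc.1, ha.2, hb.2, hc.2, ?_⟩
    unfold chanPt
    have := hK.hs
    linear_combination lam * this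
  congr f g hfg := by
    refine hE.congr _ _ (fun a b c hK => hfg _ _ _ ?_)
    have hle : ∀ x y z : ℝ, 0 ≤ x → 0 ≤ y → 0 ≤ z → x + y + z = 1 →
        0 ≤ chanPt lam x ∧ chanPt lam x ≤ 1 / 2 := by
      intro x y z hx hy hz hs
      have hx1 : x ≤ 1 := by linarith
      unfold chanPt
      constructor
      · nlinarith [mul_nonneg (neg_nonneg.2 h1) (sub_nonneg.2 hx1)]
      · nlinarith [mul_nonneg (neg_nonneg.2 h1) hx]
    have ha := hle a b c hK.ha hK.hb hK.hc hK.hs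
    have hb := hle b a c hK.hb hK.ha hK.hc (by linarith [hK.hs])
    have hc := hle c a b hK.hc hK.ha hK.hb (by linarith [hK.hs])
    refine ⟨ha.1, hb.1, hc.1, ha.2, hb.2, hc.2, ?_⟩
    unfold chanPt
    have := hK.hs
    linear_combination lam * this
  one := hE.one
  swap f := hE.swap (fun a b c => f (chanPt lam a) (chanPt lam b) (chanPt lam c))
  cyc f := hE.cyc (fun a b c => f (chanPt lam a) (chanPt lam b) (chanPt lam c))

/-- integrate an upper bound of the average over the permutations of the message -/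
theorem inner_leB {E' : Ex3} (hE' : BExp E' MsgN) {f : Fn3} (hf : Bd f) {a b c k0 k1 k2 k3 : ℝ}
    (hs : Simp a b c)
    (hpt : ∀ p q r, MsgN p q r →
      av6 f a b c p q r ≤ k0 + k1 * I2 p q r + k2 * I3 p q r + k3 * I2sq p q r) :
    E' (fun p q r => wt f a b c p q r) ≤ k0 + k1 * E' I2 + k2 * E' I3 + k3 * E' I2sq := by
  have hF : Bd (fun p q r => wt f a b c p q r) := bd_wt hf hs
  rw [← hE'.sym6 hF, ← hE'.lin4 k0 k1 k2 k3 bd_I2 bd_I3 bd_I2sq]
  exact hE'.mono (bd_sym6 hF)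
    (((((Bd.const k0).add (Bd.smul k1 bd_I2)).add (Bd.smul k2 bd_I3))).add (Bd.smul k3 bd_I2sq))
    (fun p q r h => hpt p q r h)

/-- integrate a lower bound of the average over the permutations of the message -/
theorem inner_geB {E' : Ex3} (hE' : BExp E' MsgN) {f : Fn3} (hf : Bd f) {a b c k0 k1 k2 k3 : ℝ}
    (hs : Simp a b c)
    (hpt : ∀ p q r, MsgN p q r →
      k0 + k1 * I2 p q r + k2 * I3 p q r + k3 * I2sq p q r ≤ av6 f a b c p q r) :
    k0 + k1 * E' I2 + k2 * E' I3 + k3 * E' I2sq ≤ E' (fun p q r => wt f a b c p q r) := by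
  have hF : Bd (fun p q r => wt f a b c p q r) := bd_wt hf hs
  rw [← hE'.sym6 hF, ← hE'.lin4 k0 k1 k2 k3 bd_I2 bd_I3 bd_I2sq]
  exact hE'.mono
    (((((Bd.const k0).add (Bd.smul k1 bd_I2)).add (Bd.smul k2 bd_I3))).add (Bd.smul k3 bd_I2sq))
    (bd_sym6 hF) (fun p q r h => hpt p q r h)

theorem outer_leB {E : Ex3} (hE : BExp E Simp) {F : Fn3} (hF : Bd F) {c0 c1 c2 c3 : ℝ}
    (h : ∀ a b c, Simp a b c → F a b c ≤ c0 + c1 * I2 a b c + c2 * I3 a b c + c3 * I2sq a b c) :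
    E F ≤ c0 + c1 * E I2 + c2 * E I3 + c3 * E I2sq := by
  rw [← hE.lin4 c0 c1 c2 c3 bd_I2 bd_I3 bd_I2sq]
  exact hE.mono hF
    (((((Bd.const c0).add (Bd.smul c1 bd_I2)).add (Bd.smul c2 bd_I3))).add (Bd.smul c3 bd_I2sq)) h

theorem outer_geB {E : Ex3} (hE : BExp E Simp) {F : Fn3} (hF : Bd F) {c0 c1 c2 c3 : ℝ}
    (h : ∀ a b c, Simp a b c → c0 + c1 * I2 a b c + c2 * I3 a b c + c3 * I2sq a b c ≤ F a b c) :
    c0 + c1 * E I2 + c2 * E I3 + c3 * E I2sq ≤ E F := by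
  rw [← hE.lin4 c0 c1 c2 c3 bd_I2 bd_I3 bd_I2sq]
  exact hE.mono
    (((((Bd.const c0).add (Bd.smul c1 bd_I2)).add (Bd.smul c2 bd_I3))).add (Bd.smul c3 bd_I2sq)) hF h

theorem bprod_R1B {E E' : Ex3} (hE : BExp E Simp) (hE' : BExp E' MsgN) :
    bprod E E' I2 ≤ E I2 + E' I2 - 3 / 2 * (E I2 * E' I2) - 9 * (E I3 * E' I2 + E I2 * E' I3)
      + 27 * (E I3 * E' I3) + 6 * (E I2sq * E' I2 + E I2 * E' I2sq) := by
  have hinner : ∀ a b c, Simp a b c →
      E' (fun p q r => wt I2 a b c p q r) ≤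
        (E' I2) + (1 - 3 / 2 * E' I2 - 9 * E' I3 + 6 * E' I2sq) * I2 a b c
          + (-9 * E' I2 + 27 * E' I3) * I3 a b c + (6 * E' I2) * I2sq a b c := by
    intro a b c hK
    have h1 := inner_leB hE' bd_I2 (f := I2) (a := a) (b := b) (c := c)
      (k0 := I2 a b c) (k1 := 1 - 3 / 2 * I2 a b c - 9 * I3 a b c + 6 * (I2 a b c) ^ 2)
      (k2 := -9 * I2 a b c + 27 * I3 a b c) (k3 := 6 * I2 a b c) hK
      (fun p q r hK' => by
        refine le_trans (tail_T1 hK hK') (le_of_eq ?_)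
        unfold RU errF I2sq
        ring)
    refine le_trans h1 (le_of_eq ?_)
    unfold I2sq
    ring
  refine le_trans (outer_leB hE (bd_inner bd_I2 hE') hinner) (le_of_eq ?_)
  ring

theorem bprod_R2B {E E' : Ex3} (hE : BExp E Simp) (hE' : BExp E' MsgN) :
    E I3 + E' I3 + 3 * (E I2 * E' I2) - 9 * (E I3 * E' I2 + E I2 * E' I3) + 9 / 2 * (E I3 * E' I3)
      - 7 * (E I2sq * E' I2 + E I2 * E' I2sq) ≤ bprod E E' I3 := by
  have hinner : ∀ a b c, Simp a b c →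
        (E' I3) + (3 * E' I2 - 9 * E' I3 - 7 * E' I2sq) * I2 a b c
          + (1 - 9 * E' I2 + 9 / 2 * E' I3) * I3 a b c + (-7 * E' I2) * I2sq a b c
        ≤ E' (fun p q r => wt I3 a b c p q r) := by
    intro a b c hK
    have h1 := inner_geB hE' bd_I3 (f := I3) (a := a) (b := b) (c := c)
      (k0 := I3 a b c) (k1 := 3 * I2 a b c - 9 * I3 a b c - 7 * (I2 a b c) ^ 2)
      (k2 := 1 - 9 * I2 a b c + 9 / 2 * I3 a b c) (k3 := -7 * I2 a b c) hK
      (fun p q r hK' => by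
        refine le_trans (le_of_eq ?_) (tail_T2 hK hK')
        unfold baseV errF I2sq
        ring)
    refine le_trans (le_of_eq ?_) h1
    unfold I2sq
    ring
  refine le_trans (le_of_eq ?_) (outer_geB hE (bd_inner bd_I3 hE') hinner)
  ring

theorem bprod_R3B {E E' : Ex3} (hE : BExp E Simp) (hE' : BExp E' MsgN) :
    bprod E E' I3 ≤ E I3 + E' I3 + 3 * (E I2 * E' I2) - 9 * (E I3 * E' I2 + E I2 * E' I3)
      + 9 / 2 * (E I3 * E' I3) + 2 * (E I2sq * E' I2 + E I2 * E' I2sq) := by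
  have hinner : ∀ a b c, Simp a b c →
      E' (fun p q r => wt I3 a b c p q r) ≤
        (E' I3) + (3 * E' I2 - 9 * E' I3 + 2 * E' I2sq) * I2 a b c
          + (1 - 9 * E' I2 + 9 / 2 * E' I3) * I3 a b c + (2 * E' I2) * I2sq a b c := by
    intro a b c hK
    have h1 := inner_leB hE' bd_I3 (f := I3) (a := a) (b := b) (c := c)
      (k0 := I3 a b c) (k1 := 3 * I2 a b c - 9 * I3 a b c + 2 * (I2 a b c) ^ 2)
      (k2 := 1 - 9 * I2 a b c + 9 / 2 * I3 a b c) (k3 := 2 * I2 a b c) hK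
      (fun p q r hK' => by
        refine le_trans (tail_T3 hK hK') (le_of_eq ?_)
        unfold baseV errF I2sq
        ring)
    refine le_trans h1 (le_of_eq ?_)
    unfold I2sq
    ring
  refine le_trans (outer_leB hE (bd_inner bd_I3 hE') hinner) (le_of_eq ?_)
  ring

theorem bprod_R4B {E E' : Ex3} (hE : BExp E Simp) (hE' : BExp E' MsgN) :
    bprod E E' I2sq ≤ E I2sq + E' I2sq + 4 * (E I2 * E' I2) + 12 * (E I3 * E' I2 + E I2 * E' I3)
      - 18 * (E I3 * E' I3) + 70 * (E I2sq * E' I2 + E I2 * E' I2sq) := by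
  have hinner : ∀ a b c, Simp a b c →
      E' (fun p q r => wt I2sq a b c p q r) ≤
        (E' I2sq) + (4 * E' I2 + 12 * E' I3 + 70 * E' I2sq) * I2 a b c
          + (12 * E' I2 - 18 * E' I3) * I3 a b c + (1 + 70 * E' I2) * I2sq a b c := by
    intro a b c hK
    have h1 := inner_leB hE' bd_I2sq (f := I2sq) (a := a) (b := b) (c := c)
      (k0 := (I2 a b c) ^ 2)
      (k1 := 4 * I2 a b c + 12 * I3 a b c + 70 * (I2 a b c) ^ 2)
      (k2 := 12 * I2 a b c - 18 * I3 a b c) (k3 := 1 + 70 * I2 a b c) hK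
      (fun p q r hK' => by
        refine le_trans (tail_T4 hK hK') (le_of_eq ?_)
        unfold baseW errF I2sq
        ring)
    refine le_trans h1 (le_of_eq ?_)
    unfold I2sq
    ring
  refine le_trans (outer_leB hE (bd_inner bd_I2sq hE') hinner) (le_of_eq ?_)
  ring

theorem I2_chanB {E : Ex3} {K : ℝ → ℝ → ℝ → Prop} (hE : BExp E K) (lam : ℝ) :
    chan lam E I2 = lam ^ 2 * E I2 := by
  unfold chan
  rw [← hE.smul]
  congr 1
  funext a b c
  exact I2_chan lam a b c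

theorem I3_chanB {E : Ex3} {K : ℝ → ℝ → ℝ → Prop} (hE : BExp E K) (lam : ℝ) :
    chan lam E I3 = lam ^ 3 * E I3 := by
  unfold chan
  rw [← hE.smul]
  congr 1
  funext a b c
  exact I3_chan lam a b c

theorem I2sq_chanB {E : Ex3} {K : ℝ → ℝ → ℝ → Prop} (hE : BExp E K) (lam : ℝ) :
    chan lam E I2sq = lam ^ 4 * E I2sq := by
  unfold chan
  rw [← hE.smul]
  congr 1
  funext a b c
  unfold I2sq
  rw [I2_chan]
  ring

/-! ### Comparison by the first crossing -/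

/-- one pair of functions, at a point where the order holds -/
theorem eventually_le_of_deriv {v u : ℝ → ℝ} {v' u' x : ℝ} (hv : HasDerivAt v v' x)
    (hu : HasDerivAt u u' x) (hle : v x ≤ u x) (hstrict : v x = u x → v' < u') :
    ∀ᶠ y in 𝓝[>] x, v y ≤ u y := by
  rcases hle.lt_or_eq with h | h
  · have hc : ContinuousAt (fun y => u y - v y) x := hu.continuousAt.sub hv.continuousAt
    have h0 : 0 < u x - v x := by linarith only [h]
    have : ∀ᶠ y in 𝓝 x, 0 < u y - v y := hc.eventually (lt_mem_nhds h0)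
    filter_upwards [nhdsWithin_le_nhds this] with y hy
    linarith only [hy]
  · have hd : HasDerivAt (fun y => u y - v y) (u' - v') x := hu.sub hv
    have hpos : 0 < u' - v' := by linarith only [hstrict h]
    have hs := hasDerivAt_iff_tendsto_slope.1 hd
    have hev : ∀ᶠ y in 𝓝[≠] x, 0 < slope (fun y => u y - v y) x y := hs.eventually (lt_mem_nhds hpos)
    have hsub : 𝓝[>] x ≤ 𝓝[≠] x := nhdsWithin_mono x (fun y hy => ne_of_gt hy)
    filter_upwards [hev.filter_mono hsub, self_mem_nhdsWithin] with y hy hyx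
    have hyx' : x < y := hyx
    rw [slope_def_field] at hy
    have h2 : 0 < y - x := by linarith only [hyx']
    have h3 := (div_pos_iff_of_pos_right h2).1 hy
    linarith only [h3, h]

/-- the comparison of four pairs of functions -/
theorem comparison4 {v1 v2 v3 v4 u1 u2 u3 u4 v1' v2' v3' v4' u1' u2' u3' u4' : ℝ → ℝ} {Y : ℝ}
    (hY : 0 ≤ Y)
    (hv1 : ∀ y, HasDerivAt v1 (v1' y) y) (hv2 : ∀ y, HasDerivAt v2 (v2' y) y)
    (hv3 : ∀ y, HasDerivAt v3 (v3' y) y) (hv4 : ∀ y, HasDerivAt v4 (v4' y) y)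
    (hu1 : ∀ y, HasDerivAt u1 (u1' y) y) (hu2 : ∀ y, HasDerivAt u2 (u2' y) y)
    (hu3 : ∀ y, HasDerivAt u3 (u3' y) y) (hu4 : ∀ y, HasDerivAt u4 (u4' y) y)
    (h01 : v1 0 ≤ u1 0) (h02 : v2 0 ≤ u2 0) (h03 : v3 0 ≤ u3 0) (h04 : v4 0 ≤ u4 0)
    (hs1 : ∀ y, 0 ≤ y → y < Y → v1 y ≤ u1 y → v2 y ≤ u2 y → v3 y ≤ u3 y → v4 y ≤ u4 y →
      v1 y = u1 y → v1' y < u1' y)
    (hs2 : ∀ y, 0 ≤ y → y < Y → v1 y ≤ u1 y → v2 y ≤ u2 y → v3 y ≤ u3 y → v4 y ≤ u4 y →
      v2' y < u2' y)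
    (hs3 : ∀ y, 0 ≤ y → y < Y → v1 y ≤ u1 y → v2 y ≤ u2 y → v3 y ≤ u3 y → v4 y ≤ u4 y →
      v3' y < u3' y)
    (hs4 : ∀ y, 0 ≤ y → y < Y → v1 y ≤ u1 y → v2 y ≤ u2 y → v3 y ≤ u3 y → v4 y ≤ u4 y →
      v4' y < u4' y) :
    v1 Y ≤ u1 Y ∧ v2 Y ≤ u2 Y ∧ v3 Y ≤ u3 Y ∧ v4 Y ≤ u4 Y := by
  set s : Set ℝ := {y | v1 y ≤ u1 y ∧ v2 y ≤ u2 y ∧ v3 y ≤ u3 y ∧ v4 y ≤ u4 y} with hs
  have cont : ∀ {f g f' g' : ℝ → ℝ}, (∀ y, HasDerivAt f (f' y) y) → (∀ y, HasDerivAt g (g' y) y) →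
      IsClosed {y | f y ≤ g y} := fun {f g f' g'} hf hg =>
    isClosed_le (continuous_iff_continuousAt.2 (fun y => (hf y).continuousAt))
      (continuous_iff_continuousAt.2 (fun y => (hg y).continuousAt))
  have hclosed : IsClosed s :=
    (cont hv1 hu1).inter ((cont hv2 hu2).inter ((cont hv3 hu3).inter (cont hv4 hu4)))
  have hsub : Set.Icc 0 Y ⊆ s := by
    refine IsClosed.Icc_subset_of_forall_mem_nhdsWithin (hclosed.inter isClosed_Icc)
      ⟨h01, h02, h03, h04⟩ ?_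
    rintro x ⟨⟨g1, g2, g3, g4⟩, hx0, hxY⟩
    have e1 := eventually_le_of_deriv (hv1 x) (hu1 x) g1 (hs1 x hx0 hxY g1 g2 g3 g4)
    have e2 := eventually_le_of_deriv (hv2 x) (hu2 x) g2 (fun _ => hs2 x hx0 hxY g1 g2 g3 g4)
    have e3 := eventually_le_of_deriv (hv3 x) (hu3 x) g3 (fun _ => hs3 x hx0 hxY g1 g2 g3 g4)
    have e4 := eventually_le_of_deriv (hv4 x) (hu4 x) g4 (fun _ => hs4 x hx0 hxY g1 g2 g3 g4)
    filter_upwards [e1, e2, e3, e4] with y a1 a2 a3 a4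
    exact ⟨a1, a2, a3, a4⟩
  exact hsub ⟨hY, le_refl _⟩

/-! ### The rows of the envelope, over the reals -/

/-- an upper bound for a product with a nonnegative first factor -/
theorem mul_le_of_two {A X U Y : ℝ} (hA0 : 0 ≤ A) (hAU : A ≤ U) (hX : X ≤ Y) (hY : 0 ≤ Y) :
    A * X ≤ U * Y := by
  have h1 : A * X ≤ A * Y := mul_le_mul_of_nonneg_left hX hA0
  have h2 : A * Y ≤ U * Y := mul_le_mul_of_nonneg_right hAU hY
  linarith only [h1, h2]

/-- the same, with the second factor nonnegative and bounded -/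
theorem mul_le_of_two' {m M X Y : ℝ} (hm0 : 0 ≤ m) (hm : m ≤ M) (hX : X ≤ Y) (hY : 0 ≤ Y) :
    X * m ≤ Y * M := by
  have h1 : X * m ≤ Y * m := mul_le_mul_of_nonneg_right hX hm0
  have h2 : Y * m ≤ Y * M := mul_le_mul_of_nonneg_left hm hY
  linarith only [h1, h2]

theorem row_A {M M0 m Gt qt A B W y gp gm qb a2y a2d bPy bNy wy U tau : ℝ}
    (hM : 0 < M) (hMM : M ≤ M0) (hm : m ≤ M)
    (hG1 : -(gm * M ^ 2) ≤ Gt) (hG2 : Gt ≤ gp * M ^ 2) (hq : qt ≤ qb * M ^ 2)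
    (hA0 : 0 ≤ A) (hAe : A = M * (y - 3 / 4 * M * y ^ 2 + M ^ 2 * a2y)) (ha2 : 0 ≤ a2y)
    (hAU : A ≤ M * U) (hB1 : -(M ^ 2 * bNy) ≤ B) (hB2 : B ≤ M ^ 2 * bPy) (hW : W ≤ M ^ 2 * wy)
    (hfac : 0 ≤ 1 - 3 / 2 * A - 9 * B + 6 * W)
    (ht1 : bPy * gp ≤ tau) (ht2 : bNy * gm ≤ tau)
    (hgm : 0 ≤ gm) (hqb : 0 ≤ qb) (hbN : 0 ≤ bNy) (hbP : 0 ≤ bPy) (hU : 0 ≤ U) (htau : 0 ≤ tau)
    (hcert : 9 / 8 * y ^ 2 + 9 * bNy + 6 * wy + U * (9 * gm + 6 * qb) + 27 * M0 * tau < a2d) :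
    m - 3 / 2 * (A * m) - 9 * (B * m + A * Gt) + 27 * (B * Gt) + 6 * (W * m + A * qt)
      < M * (1 - 3 / 2 * M * y + M ^ 2 * a2d) := by
  have hM2 : 0 < M ^ 2 := by positivity
  have hM3 : 0 < M ^ 3 := by positivity
  -- the factor of `m`
  have s1 : m * (1 - 3 / 2 * A - 9 * B + 6 * W) ≤ M * (1 - 3 / 2 * A - 9 * B + 6 * W) :=
    mul_le_mul_of_nonneg_right hm hfac
  -- the message terms
  have s2 : A * (-9 * Gt + 6 * qt) ≤ (M * U) * ((9 * gm + 6 * qb) * M ^ 2) :=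
    mul_le_of_two hA0 hAU (by linarith only [hG1, hq]) (by positivity)
  have s3 : B * Gt ≤ tau * (M ^ 2) ^ 2 :=
    mul_le_of_bounds hM2.le hbP hbN (by linarith only [hB1]) (by linarith only [hB2])
      (by linarith only [hG1]) (by linarith only [hG2]) ht1 ht2
  -- the term of `M`
  have s4 : M * (-3 / 2 * A) ≤ M * (-3 / 2 * (M * (y - 3 / 4 * M * y ^ 2))) := by
    apply mul_le_mul_of_nonneg_left _ hM.le
    rw [hAe]
    have : 0 ≤ M * (M ^ 2 * a2y) := by positivity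
    nlinarith only [this]
  have s5 : M * (-9 * B) ≤ M * (9 * (M ^ 2 * bNy)) :=
    mul_le_mul_of_nonneg_left (by linarith only [hB1]) hM.le
  have s6 : M * (6 * W) ≤ M * (6 * (M ^ 2 * wy)) :=
    mul_le_mul_of_nonneg_left (by linarith only [hW]) hM.le
  have s7 : 27 * (tau * (M ^ 2) ^ 2) ≤ M ^ 3 * (27 * M0 * tau) := by
    have h1 : 0 ≤ M ^ 3 * (27 * tau * (M0 - M)) := by
      have : 0 ≤ M0 - M := by linarith only [hMM]
      positivity
    nlinarith only [h1]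
  have s8 : 0 < M ^ 3 * (a2d - (9 / 8 * y ^ 2 + 9 * bNy + 6 * wy + U * (9 * gm + 6 * qb)
      + 27 * M0 * tau)) := mul_pos hM3 (by linarith only [hcert])
  have e1 : M * (1 - 3 / 2 * M * y + M ^ 2 * a2d) = M - 3 / 2 * M ^ 2 * y + M ^ 3 * a2d := by ring
  rw [e1]
  nlinarith only [s1, s2, s3, s4, s5, s6, s7, s8]

theorem row_BP {M M0 m Gt qt A B W gp gm qb bPy bNy wy U bPd tau : ℝ}
    (hM : 0 < M) (hMM : M ≤ M0) (hm0 : 0 ≤ m) (hm : m ≤ M)
    (hG1 : -(gm * M ^ 2) ≤ Gt) (hG2 : Gt ≤ gp * M ^ 2) (hq : qt ≤ qb * M ^ 2)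
    (hA0 : 0 ≤ A) (hAU : A ≤ M * U) (hB1 : -(M ^ 2 * bNy) ≤ B) (hB2 : B ≤ M ^ 2 * bPy)
    (hW : W ≤ M ^ 2 * wy) (ht1 : bPy * gp ≤ tau) (ht2 : bNy * gm ≤ tau)
    (hgm : 0 ≤ gm) (hqb : 0 ≤ qb) (hbN : 0 ≤ bNy) (hbP : 0 ≤ bPy) (hw : 0 ≤ wy) (hU : 0 ≤ U)
    (htau : 0 ≤ tau)
    (hcert : gp + 3 * U + M0 * (9 * bNy + 2 * wy + U * (9 * gm + 2 * qb))
      + 9 / 2 * M0 ^ 2 * tau < bPd) :
    Gt + 3 * (A * m) - 9 * (B * m + A * Gt) + 9 / 2 * (B * Gt) + 2 * (W * m + A * qt)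
      < M ^ 2 * bPd := by
  have hM0 : 0 < M0 := lt_of_lt_of_le hM hMM
  have hM2 : 0 < M ^ 2 := by positivity
  have s1 : A * m ≤ (M * U) * M := mul_le_mul hAU hm hm0 (by positivity)
  have s2 : (-B) * m ≤ (M ^ 2 * bNy) * M := mul_le_of_two' hm0 hm (by linarith only [hB1]) (by positivity)
  have s3 : A * (-9 * Gt + 2 * qt) ≤ (M * U) * ((9 * gm + 2 * qb) * M ^ 2) :=
    mul_le_of_two hA0 hAU (by linarith only [hG1, hq]) (by positivity)
  have s4 : B * Gt ≤ tau * (M ^ 2) ^ 2 :=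
    mul_le_of_bounds hM2.le hbP hbN (by linarith only [hB1]) (by linarith only [hB2])
      (by linarith only [hG1]) (by linarith only [hG2]) ht1 ht2
  have s5 : W * m ≤ (M ^ 2 * wy) * M := mul_le_of_two' hm0 hm hW (by positivity)
  have hMM2 : M ^ 2 ≤ M0 ^ 2 := pow_le_pow_left₀ hM.le hMM 2
  have k1 : M ^ 3 * (9 * bNy + 2 * wy + U * (9 * gm + 2 * qb))
      ≤ M ^ 2 * (M0 * (9 * bNy + 2 * wy + U * (9 * gm + 2 * qb))) := by
    have h0 : 0 ≤ 9 * bNy + 2 * wy + U * (9 * gm + 2 * qb) := by positivity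
    have h1 : 0 ≤ M ^ 2 * ((M0 - M) * (9 * bNy + 2 * wy + U * (9 * gm + 2 * qb))) :=
      mul_nonneg hM2.le (mul_nonneg (by linarith only [hMM]) h0)
    linarith only [h1]
  have k2 : (M ^ 2) ^ 2 * (9 / 2 * tau) ≤ M ^ 2 * (9 / 2 * M0 ^ 2 * tau) := by
    have h1 : 0 ≤ M ^ 2 * ((M0 ^ 2 - M ^ 2) * (9 / 2 * tau)) :=
      mul_nonneg hM2.le (mul_nonneg (by linarith only [hMM2]) (by positivity))
    linarith only [h1]
  have s8 : 0 < M ^ 2 * (bPd - (gp + 3 * U + M0 * (9 * bNy + 2 * wy + U * (9 * gm + 2 * qb))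
      + 9 / 2 * M0 ^ 2 * tau)) := mul_pos hM2 (by linarith only [hcert])
  nlinarith only [s1, s2, s3, s4, s5, k1, k2, s8, hG2]

theorem row_BN {M M0 m Gt qt A B W gp gm qb bPy bNy wy U bNd tau : ℝ}
    (hM : 0 < M) (hMM : M ≤ M0) (hm0 : 0 ≤ m) (hm : m ≤ M)
    (hG1 : -(gm * M ^ 2) ≤ Gt) (hG2 : Gt ≤ gp * M ^ 2) (hq : qt ≤ qb * M ^ 2)
    (hA0 : 0 ≤ A) (hAU : A ≤ M * U) (hB1 : -(M ^ 2 * bNy) ≤ B) (hB2 : B ≤ M ^ 2 * bPy)
    (hW : W ≤ M ^ 2 * wy) (ht1 : bPy * gm ≤ tau) (ht2 : bNy * gp ≤ tau)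
    (hgp : 0 ≤ gp) (hqb : 0 ≤ qb) (hbN : 0 ≤ bNy) (hbP : 0 ≤ bPy) (hw : 0 ≤ wy) (hU : 0 ≤ U)
    (htau : 0 ≤ tau)
    (hcert : gm + M0 * (9 * bPy + 7 * wy + U * (9 * gp + 7 * qb)) + 9 / 2 * M0 ^ 2 * tau < bNd) :
    -Gt - 3 * (A * m) + 9 * (B * m + A * Gt) - 9 / 2 * (B * Gt) + 7 * (W * m + A * qt)
      < M ^ 2 * bNd := by
  have hM0 : 0 < M0 := lt_of_lt_of_le hM hMM
  have hM2 : 0 < M ^ 2 := by positivity
  have s1 : 0 ≤ A * m := mul_nonneg hA0 hm0
  have s2 : B * m ≤ (M ^ 2 * bPy) * M := mul_le_of_two' hm0 hm hB2 (by positivity)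
  have s3 : A * (9 * Gt + 7 * qt) ≤ (M * U) * ((9 * gp + 7 * qb) * M ^ 2) :=
    mul_le_of_two hA0 hAU (by linarith only [hG2, hq]) (by positivity)
  have s4 : B * (-Gt) ≤ tau * (M ^ 2) ^ 2 :=
    mul_le_of_bounds hM2.le hbP hbN (by linarith only [hB1]) (by linarith only [hB2])
      (by linarith only [hG2]) (by linarith only [hG1]) ht1 ht2
  have s5 : W * m ≤ (M ^ 2 * wy) * M := mul_le_of_two' hm0 hm hW (by positivity)
  have hMM2 : M ^ 2 ≤ M0 ^ 2 := pow_le_pow_left₀ hM.le hMM 2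
  have k1 : M ^ 3 * (9 * bPy + 7 * wy + U * (9 * gp + 7 * qb))
      ≤ M ^ 2 * (M0 * (9 * bPy + 7 * wy + U * (9 * gp + 7 * qb))) := by
    have h0 : 0 ≤ 9 * bPy + 7 * wy + U * (9 * gp + 7 * qb) := by positivity
    have h1 : 0 ≤ M ^ 2 * ((M0 - M) * (9 * bPy + 7 * wy + U * (9 * gp + 7 * qb))) :=
      mul_nonneg hM2.le (mul_nonneg (by linarith only [hMM]) h0)
    linarith only [h1]
  have k2 : (M ^ 2) ^ 2 * (9 / 2 * tau) ≤ M ^ 2 * (9 / 2 * M0 ^ 2 * tau) := by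
    have h1 : 0 ≤ M ^ 2 * ((M0 ^ 2 - M ^ 2) * (9 / 2 * tau)) :=
      mul_nonneg hM2.le (mul_nonneg (by linarith only [hMM2]) (by positivity))
    linarith only [h1]
  have s8 : 0 < M ^ 2 * (bNd - (gm + M0 * (9 * bPy + 7 * wy + U * (9 * gp + 7 * qb))
      + 9 / 2 * M0 ^ 2 * tau)) := mul_pos hM2 (by linarith only [hcert])
  nlinarith only [s1, s2, s3, s4, s5, k1, k2, s8, hG1]

theorem row_W {M M0 m Gt qt A B W gp gm qb bPy bNy wy U wd tau : ℝ}
    (hM : 0 < M) (hMM : M ≤ M0) (hm0 : 0 ≤ m) (hm : m ≤ M)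
    (hG1 : -(gm * M ^ 2) ≤ Gt) (hG2 : Gt ≤ gp * M ^ 2) (hq : qt ≤ qb * M ^ 2)
    (hA0 : 0 ≤ A) (hAU : A ≤ M * U) (hB1 : -(M ^ 2 * bNy) ≤ B) (hB2 : B ≤ M ^ 2 * bPy)
    (hW : W ≤ M ^ 2 * wy) (ht1 : bPy * gm ≤ tau) (ht2 : bNy * gp ≤ tau)
    (hgp : 0 ≤ gp) (hqb : 0 ≤ qb) (hbN : 0 ≤ bNy) (hbP : 0 ≤ bPy) (hw : 0 ≤ wy) (hU : 0 ≤ U)
    (htau : 0 ≤ tau)
    (hcert : qb + 4 * U + M0 * (12 * bPy + 70 * wy + U * (12 * gp + 70 * qb))
      + 18 * M0 ^ 2 * tau < wd) :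
    qt + 4 * (A * m) + 12 * (B * m + A * Gt) - 18 * (B * Gt) + 70 * (W * m + A * qt)
      < M ^ 2 * wd := by
  have hM0 : 0 < M0 := lt_of_lt_of_le hM hMM
  have hM2 : 0 < M ^ 2 := by positivity
  have s1 : A * m ≤ (M * U) * M := mul_le_mul hAU hm hm0 (by positivity)
  have s2 : B * m ≤ (M ^ 2 * bPy) * M := mul_le_of_two' hm0 hm hB2 (by positivity)
  have s3 : A * (12 * Gt + 70 * qt) ≤ (M * U) * ((12 * gp + 70 * qb) * M ^ 2) :=
    mul_le_of_two hA0 hAU (by linarith only [hG2, hq]) (by positivity)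
  have s4 : B * (-Gt) ≤ tau * (M ^ 2) ^ 2 :=
    mul_le_of_bounds hM2.le hbP hbN (by linarith only [hB1]) (by linarith only [hB2])
      (by linarith only [hG2]) (by linarith only [hG1]) ht1 ht2
  have s5 : W * m ≤ (M ^ 2 * wy) * M := mul_le_of_two' hm0 hm hW (by positivity)
  have hMM2 : M ^ 2 ≤ M0 ^ 2 := pow_le_pow_left₀ hM.le hMM 2
  have k1 : M ^ 3 * (12 * bPy + 70 * wy + U * (12 * gp + 70 * qb))
      ≤ M ^ 2 * (M0 * (12 * bPy + 70 * wy + U * (12 * gp + 70 * qb))) := by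
    have h0 : 0 ≤ 12 * bPy + 70 * wy + U * (12 * gp + 70 * qb) := by positivity
    have h1 : 0 ≤ M ^ 2 * ((M0 - M) * (12 * bPy + 70 * wy + U * (12 * gp + 70 * qb))) :=
      mul_nonneg hM2.le (mul_nonneg (by linarith only [hMM]) h0)
    linarith only [h1]
  have k2 : (M ^ 2) ^ 2 * (18 * tau) ≤ M ^ 2 * (18 * M0 ^ 2 * tau) := by
    have h1 : 0 ≤ M ^ 2 * ((M0 ^ 2 - M ^ 2) * (18 * tau)) :=
      mul_nonneg hM2.le (mul_nonneg (by linarith only [hMM2]) (by positivity))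
    linarith only [h1]
  have s8 : 0 < M ^ 2 * (wd - (qb + 4 * U + M0 * (12 * bPy + 70 * wy + U * (12 * gp + 70 * qb))
      + 18 * M0 ^ 2 * tau)) := mul_pos hM2 (by linarith only [hcert])
  nlinarith only [s1, s2, s3, s4, s5, k1, k2, s8, hq]

/-! ### The constants and the polynomial envelopes -/

/-- the radius of the class -/
noncomputable def poiM0 : ℝ := 39 / 2500
/-- the constant of the squared moment -/
noncomputable def poiKap : ℝ := 21 / 2
/-- the upper constant of the third moment -/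
noncomputable def poiBp : ℝ := 78 / 25
/-- the lower constant of the third moment -/
noncomputable def poiBm : ℝ := 237 / 100
/-- the decay constant of the radius -/
noncomputable def poiC : ℝ := 1 / 200

/-- polynomials without constant term of degree five -/
noncomputable def p5 (c1 c2 c3 c4 c5 y : ℝ) : ℝ :=
  c1 * y + c2 * y ^ 2 + c3 * y ^ 3 + c4 * y ^ 4 + c5 * y ^ 5

/-- their derivatives -/
noncomputable def dp5 (c1 c2 c3 c4 c5 y : ℝ) : ℝ :=
  c1 + 2 * c2 * y + 3 * c3 * y ^ 2 + 4 * c4 * y ^ 3 + 5 * c5 * y ^ 4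

theorem hasDerivAt_p5 (c1 c2 c3 c4 c5 y : ℝ) :
    HasDerivAt (p5 c1 c2 c3 c4 c5) (dp5 c1 c2 c3 c4 c5 y) y := by
  have h1 : HasDerivAt (fun y : ℝ => c1 * y) (c1 * 1) y := (hasDerivAt_id y).const_mul c1
  have h2 := (hasDerivAt_pow 2 y).const_mul c2
  have h3 := (hasDerivAt_pow 3 y).const_mul c3
  have h4 := (hasDerivAt_pow 4 y).const_mul c4
  have h5 := (hasDerivAt_pow 5 y).const_mul c5
  have h := ((((h1.add h2).add h3).add h4).add h5)
  refine (h.congr_deriv ?_)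
  unfold dp5
  norm_num
  ring

/-- the envelope of the second moment, last part -/
noncomputable def a2f : ℝ → ℝ := p5 (1 / 10000) (76321 / 2500) (12347 / 1000) (9131 / 2500) (987 / 1000)
/-- its derivative -/
noncomputable def a2d : ℝ → ℝ := dp5 (1 / 10000) (76321 / 2500) (12347 / 1000) (9131 / 2500) (987 / 1000)
/-- the upper envelope of the third moment -/
noncomputable def bPf : ℝ → ℝ := p5 (11863 / 10000) (18241 / 10000) (379 / 5000) (253 / 10000) (13 / 2000)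
/-- its derivative -/
noncomputable def bPd : ℝ → ℝ := dp5 (11863 / 10000) (18241 / 10000) (379 / 5000) (253 / 10000) (13 / 2000)
/-- the lower envelope of the third moment -/
noncomputable def bNf : ℝ → ℝ := p5 (15617 / 10000) (183 / 400) (2739 / 10000) (143 / 2500) (163 / 10000)
/-- its derivative -/
noncomputable def bNd : ℝ → ℝ := dp5 (15617 / 10000) (183 / 400) (2739 / 10000) (143 / 2500) (163 / 10000)
/-- the envelope of the squared moment -/
noncomputable def wf : ℝ → ℝ := p5 (13139 / 5000) (25709 / 5000) (4979 / 2500) (2741 / 5000) (1551 / 10000)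
/-- its derivative -/
noncomputable def wd : ℝ → ℝ := dp5 (13139 / 5000) (25709 / 5000) (4979 / 2500) (2741 / 5000) (1551 / 10000)
/-- the majorant of the products of the third moments, first kind -/
noncomputable def t1f : ℝ → ℝ :=
  p5 (609063 / 250000) (4323117 / 2000000) (106821 / 250000) (5577 / 62500) (6357 / 250000)
/-- the majorant of the products of the third moments, second kind -/
noncomputable def t2f : ℝ → ℝ :=
  p5 (462657 / 250000) (711399 / 250000) (649143 / 2000000) (33891 / 500000) (38631 / 2000000)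

/-- the bound for the envelope of the second moment -/
noncomputable def Uf (y : ℝ) : ℝ := (1 + 12 / 1000) * y

/-- powers of a number of the unit interval -/
structure Pows (y : ℝ) : Prop where
  h0 : 0 ≤ y
  h1 : y ≤ 1
  h2 : y ^ 2 ≤ y
  h3 : y ^ 3 ≤ y ^ 2
  h4 : y ^ 4 ≤ y ^ 3
  h5 : y ^ 5 ≤ y ^ 4
  p2 : 0 ≤ y ^ 2
  p3 : 0 ≤ y ^ 3
  p4 : 0 ≤ y ^ 4
  p5 : 0 ≤ y ^ 5

theorem pows_of {y : ℝ} (h0 : 0 ≤ y) (h1 : y ≤ 1) : Pows y := by
  have hk : ∀ k : ℕ, y ^ (k + 1) ≤ y ^ k := fun k => pow_le_pow_of_le_one h0 h1 (Nat.le_succ k)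
  refine ⟨h0, h1, ?_, hk 2, hk 3, hk 4, by positivity, by positivity, by positivity, by positivity⟩
  have := hk 1
  simpa using this

theorem a2f_nonneg {y : ℝ} (h : Pows y) : 0 ≤ a2f y := by
  obtain ⟨h0, _, _, _, _, _, p2, p3, p4, p5'⟩ := h
  unfold a2f p5
  positivity

theorem bPf_nonneg {y : ℝ} (h : Pows y) : 0 ≤ bPf y := by
  obtain ⟨h0, _, _, _, _, _, p2, p3, p4, p5'⟩ := h
  unfold bPf p5
  positivity

theorem bNf_nonneg {y : ℝ} (h : Pows y) : 0 ≤ bNf y := by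
  obtain ⟨h0, _, _, _, _, _, p2, p3, p4, p5'⟩ := h
  unfold bNf p5
  positivity

theorem wf_nonneg {y : ℝ} (h : Pows y) : 0 ≤ wf y := by
  obtain ⟨h0, _, _, _, _, _, p2, p3, p4, p5'⟩ := h
  unfold wf p5
  positivity

theorem t1f_nonneg {y : ℝ} (h : Pows y) : 0 ≤ t1f y := by
  obtain ⟨h0, _, _, _, _, _, p2, p3, p4, p5'⟩ := h
  unfold t1f p5
  positivity

theorem t2f_nonneg {y : ℝ} (h : Pows y) : 0 ≤ t2f y := by
  obtain ⟨h0, _, _, _, _, _, p2, p3, p4, p5'⟩ := h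
  unfold t2f p5
  positivity

/-- the certificate of the row of the second moment -/
theorem cert_A {y : ℝ} (h : Pows y) :
    9 / 8 * y ^ 2 + 9 * bNf y + 6 * wf y + Uf y * (9 * (39 / 25) + 6 * (21 / 8))
      + 27 * poiM0 * t1f y < a2d y := by
  obtain ⟨h0, h1, h2, h3, h4, h5, p2, p3, p4, p5'⟩ := h
  unfold bNf wf Uf poiM0 t1f a2d p5 dp5
  linarith only [h0, h1, h2, h3, h4, h5, p2, p3, p4, p5']

/-- the certificate of the upper row of the third moment -/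
theorem cert_BP {y : ℝ} (h : Pows y) :
    237 / 200 + 3 * Uf y + poiM0 * (9 * bNf y + 2 * wf y + Uf y * (9 * (39 / 25) + 2 * (21 / 8)))
      + 9 / 2 * poiM0 ^ 2 * t1f y < bPd y := by
  obtain ⟨h0, h1, h2, h3, h4, h5, p2, p3, p4, p5'⟩ := h
  unfold bNf wf Uf poiM0 t1f bPd p5 dp5
  linarith only [h0, h1, h2, h3, h4, h5, p2, p3, p4, p5']

/-- the certificate of the lower row of the third moment -/
theorem cert_BN {y : ℝ} (h : Pows y) :
    39 / 25 + poiM0 * (9 * bPf y + 7 * wf y + Uf y * (9 * (237 / 200) + 7 * (21 / 8)))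
      + 9 / 2 * poiM0 ^ 2 * t2f y < bNd y := by
  obtain ⟨h0, h1, h2, h3, h4, h5, p2, p3, p4, p5'⟩ := h
  unfold bPf wf Uf poiM0 t2f bNd p5 dp5
  linarith only [h0, h1, h2, h3, h4, h5, p2, p3, p4, p5']

/-- the certificate of the row of the squared moment -/
theorem cert_W {y : ℝ} (h : Pows y) :
    21 / 8 + 4 * Uf y + poiM0 * (12 * bPf y + 70 * wf y + Uf y * (12 * (237 / 200) + 70 * (21 / 8)))
      + 18 * poiM0 ^ 2 * t2f y < wd y := by
  obtain ⟨h0, h1, h2, h3, h4, h5, p2, p3, p4, p5'⟩ := h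
  unfold bPf wf Uf poiM0 t2f wd p5 dp5
  linarith only [h0, h1, h2, h3, h4, h5, p2, p3, p4, p5']

theorem tau_facts {y : ℝ} (h : Pows y) :
    bPf y * (237 / 200) ≤ t1f y ∧ bNf y * (39 / 25) ≤ t1f y
      ∧ bPf y * (39 / 25) ≤ t2f y ∧ bNf y * (237 / 200) ≤ t2f y := by
  obtain ⟨h0, h1, h2, h3, h4, h5, p2, p3, p4, p5'⟩ := h
  unfold bPf bNf t1f t2f p5
  refine ⟨?_, ?_, ?_, ?_⟩ <;> linarith only [h0, h1, h2, h3, h4, h5, p2, p3, p4, p5']

/-- the values at the end of the interval -/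
theorem end_bounds {y : ℝ} (h : Pows y) :
    a2f y ≤ 475149 / 10000 * y ∧ a2f y ≤ 475149 / 10000 ∧ bPf y ≤ 1559 / 500 ∧ bNf y ≤ 11833 / 5000
      ∧ wf y ≤ 20929 / 2000 := by
  obtain ⟨h0, h1, h2, h3, h4, h5, p2, p3, p4, p5'⟩ := h
  unfold a2f bPf bNf wf p5
  refine ⟨?_, ?_, ?_, ?_, ?_⟩ <;> linarith only [h0, h1, h2, h3, h4, h5, p2, p3, p4, p5']

/-- the four rows at a point of the interval -/
theorem rows_all {y M m Gt qt A B W : ℝ} (hy : Pows y) (hM : 0 < M) (hMM : M ≤ poiM0) (hm0 : 0 ≤ m)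
    (hm : m ≤ M) (hG1 : -(39 / 25 * M ^ 2) ≤ Gt) (hG2 : Gt ≤ 237 / 200 * M ^ 2)
    (hq : qt ≤ 21 / 8 * M ^ 2) (hA0 : 0 ≤ A) (hW0 : 0 ≤ W)
    (g1 : A ≤ M * (y - 3 / 4 * M * y ^ 2 + M ^ 2 * a2f y)) (g2 : B ≤ M ^ 2 * bPf y)
    (g3 : -B ≤ M ^ 2 * bNf y) (g4 : W ≤ M ^ 2 * wf y) :
    (A = M * (y - 3 / 4 * M * y ^ 2 + M ^ 2 * a2f y) →
      m - 3 / 2 * (A * m) - 9 * (B * m + A * Gt) + 27 * (B * Gt) + 6 * (W * m + A * qt)
        < M * (1 - 3 / 2 * M * y + M ^ 2 * a2d y))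
    ∧ Gt + 3 * (A * m) - 9 * (B * m + A * Gt) + 9 / 2 * (B * Gt) + 2 * (W * m + A * qt)
        < M ^ 2 * bPd y
    ∧ -Gt - 3 * (A * m) + 9 * (B * m + A * Gt) - 9 / 2 * (B * Gt) + 7 * (W * m + A * qt)
        < M ^ 2 * bNd y
    ∧ qt + 4 * (A * m) + 12 * (B * m + A * Gt) - 18 * (B * Gt) + 70 * (W * m + A * qt)
        < M ^ 2 * wd y := by
  have hbP := bPf_nonneg hy
  have hbN := bNf_nonneg hy
  have hw := wf_nonneg hy
  have ha2 := a2f_nonneg hy
  have ht1 := t1f_nonneg hy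
  have ht2 := t2f_nonneg hy
  obtain ⟨e0, e1, e2, e3, e4⟩ := end_bounds hy
  obtain ⟨f1, f2, f3, f4⟩ := tau_facts hy
  have hM0 : poiM0 = 39 / 2500 := rfl
  have hM00 : 0 < poiM0 := lt_of_lt_of_le hM hMM
  have hMsq : M ^ 2 ≤ poiM0 ^ 2 := pow_le_pow_left₀ hM.le hMM 2
  have hUn : 0 ≤ Uf y := by
    unfold Uf
    have := hy.h0
    positivity
  have hU1 : Uf y ≤ 1 + 12 / 1000 := by
    unfold Uf
    have := hy.h1
    linarith only [this]
  -- the bound of the envelope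
  have hAU : A ≤ M * Uf y := by
    refine le_trans g1 (mul_le_mul_of_nonneg_left ?_ hM.le)
    have h1 : M ^ 2 * a2f y ≤ poiM0 ^ 2 * (475149 / 10000 * y) :=
      mul_le_mul hMsq e0 ha2 (by positivity)
    have h2 : 0 ≤ 3 / 4 * M * y ^ 2 := by positivity
    have h3 : poiM0 ^ 2 * (475149 / 10000 * y) ≤ 12 / 1000 * y := by
      rw [hM0]
      have := hy.h0
      nlinarith only [this]
    unfold Uf
    linarith only [h1, h2, h3]
  have hMU : M * Uf y ≤ 39 / 2500 * (1 + 12 / 1000) :=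
    mul_le_mul (hMM.trans (le_of_eq hM0)) hU1 hUn (by norm_num)
  have hBle : M ^ 2 * bPf y ≤ (39 / 2500) ^ 2 * (1559 / 500) :=
    mul_le_mul (by rw [hM0] at hMsq; exact hMsq) e2 hbP (by norm_num)
  have hfac : 0 ≤ 1 - 3 / 2 * A - 9 * B + 6 * W := by
    have h1 := hAU.trans hMU
    have h2 := g2.trans hBle
    norm_num at h1 h2
    linarith only [h1, h2, hW0]
  refine ⟨fun hAe => ?_, ?_, ?_, ?_⟩
  · exact row_A (gp := 237 / 200) (gm := 39 / 25) (qb := 21 / 8) (bPy := bPf y) (bNy := bNf y)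
      (wy := wf y) (U := Uf y) (tau := t1f y) (a2y := a2f y) hM hMM hm hG1 hG2 hq hA0 hAe ha2 hAU
      (by linarith only [g3]) g2 g4 hfac f1 f2 (by norm_num) (by norm_num) hbN hbP hUn ht1
      (cert_A hy)
  · exact row_BP (gp := 237 / 200) (gm := 39 / 25) (qb := 21 / 8) (bPy := bPf y) (bNy := bNf y)
      (wy := wf y) (U := Uf y) (tau := t1f y) hM hMM hm0 hm hG1 hG2 hq hA0 hAU
      (by linarith only [g3]) g2 g4 f1 f2 (by norm_num) (by norm_num) hbN hbP hw hUn ht1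
      (cert_BP hy)
  · exact row_BN (gp := 237 / 200) (gm := 39 / 25) (qb := 21 / 8) (bPy := bPf y) (bNy := bNf y)
      (wy := wf y) (U := Uf y) (tau := t2f y) hM hMM hm0 hm hG1 hG2 hq hA0 hAU
      (by linarith only [g3]) g2 g4 f3 f4 (by norm_num) (by norm_num) hbN hbP hw hUn ht2
      (cert_BN hy)
  · exact row_W (gp := 237 / 200) (gm := 39 / 25) (qb := 21 / 8) (bPy := bPf y) (bNy := bNf y)
      (wy := wf y) (U := Uf y) (tau := t2f y) hM hMM hm0 hm hG1 hG2 hq hA0 hAU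
      (by linarith only [g3]) g2 g4 f3 f4 (by norm_num) (by norm_num) hbN hbP hw hUn ht2
      (cert_W hy)

theorem p5_zero (c1 c2 c3 c4 c5 : ℝ) : p5 c1 c2 c3 c4 c5 0 = 0 := by
  unfold p5
  ring

theorem centre_I2 : centre I2 = 0 := by
  unfold centre I2
  norm_num

theorem centre_I3 : centre I3 = 0 := by
  unfold centre I3
  norm_num

theorem centre_I2sq : centre I2sq = 0 := by
  unfold centre I2sq I2
  norm_num

/-- one generation on the Poisson tree, in the class -/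
theorem poi_step {d t : ℝ} (hd : 0 < d) (ht0 : 0 < t) (ht : t ≤ 1 / 2) (hKS : d * t ^ 2 ≤ 1)
    {E : Ex3} (hE : BExp E Simp) {M : ℝ} (hM : 0 < M) (hMM : M ≤ poiM0)
    (hcl : InClass poiKap poiBp poiBm E M) :
    InClass poiKap poiBp poiBm (poiPath (chan (-t) E) d) (M - poiC * M ^ 2) := by
  have hl : Adm (-t) := ⟨by linarith only [ht], by linarith only [ht0]⟩
  have hES : BExp (chan (-t) E) Simp := chan_bexp hE hl
  have hEM : BExp (chan (-t) E) MsgN :=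
    chan_bexp_neg hE (by linarith only [ht]) (by linarith only [ht0])
  have ht2 : 0 < t ^ 2 := by positivity
  have hm0 : 0 ≤ E I2 := I2_mean_nonneg0 hE
  have hm : E I2 ≤ M := hcl.m_le
  have hQ0 : 0 ≤ E I2sq := hE.nonneg _ (fun a b c _ => by unfold I2sq; positivity)
  have hC : chan (-t) E I2 = t ^ 2 * E I2 := by rw [I2_chanB hE]; ring
  have hG : chan (-t) E I3 = t ^ 2 * (-t * E I3) := by rw [I3_chanB hE]; ring
  have hq : chan (-t) E I2sq = t ^ 2 * (t ^ 2 * E I2sq) := by rw [I2sq_chanB hE]; ring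
  have hbpv : poiBp = 78 / 25 := rfl
  have hbmv : poiBm = 237 / 100 := rfl
  have hkv : poiKap = 21 / 2 := rfl
  have hMsq : 0 < M ^ 2 := by positivity
  have hG1 : -(39 / 25 * M ^ 2) ≤ -t * E I3 := by
    have h1 := mul_le_mul_of_nonneg_left hcl.b_le ht0.le
    have h2 : t * (poiBp * M ^ 2) ≤ 1 / 2 * (poiBp * M ^ 2) :=
      mul_le_mul_of_nonneg_right ht (by rw [hbpv]; positivity)
    rw [hbpv] at h1 h2
    linarith only [h1, h2]
  have hG2 : -t * E I3 ≤ 237 / 200 * M ^ 2 := by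
    have h1 := mul_le_mul_of_nonneg_left hcl.b_ge ht0.le
    have h2 : t * (poiBm * M ^ 2) ≤ 1 / 2 * (poiBm * M ^ 2) :=
      mul_le_mul_of_nonneg_right ht (by rw [hbmv]; positivity)
    rw [hbmv] at h1 h2
    linarith only [h1, h2]
  have hqb : t ^ 2 * E I2sq ≤ 21 / 8 * M ^ 2 := by
    have h1 := mul_le_mul_of_nonneg_left hcl.q_le ht2.le
    have ht4 : t ^ 2 ≤ 1 / 4 := by nlinarith only [ht0, ht]
    have h2 : t ^ 2 * (poiKap * M ^ 2) ≤ 1 / 4 * (poiKap * M ^ 2) :=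
      mul_le_mul_of_nonneg_right ht4 (by rw [hkv]; positivity)
    rw [hkv] at h1 h2
    linarith only [h1, h2]
  -- the path
  have hder : ∀ (f : Fn3), Bd f → ∀ y : ℝ, HasDerivAt (fun y => poiPath (chan (-t) E) (y / t ^ 2) f)
      ((bprod (poiPath (chan (-t) E) (y / t ^ 2)) (chan (-t) E) f
        - poiPath (chan (-t) E) (y / t ^ 2) f) * (1 / t ^ 2)) y := by
    intro f hf y
    have h1 := poiPath_deriv hES hf (y / t ^ 2)
    have h2 : HasDerivAt (fun y : ℝ => y / t ^ 2) (1 / t ^ 2) y := (hasDerivAt_id y).div_const _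
    exact HasDerivAt.comp y h1 h2
  have hu1 : ∀ y : ℝ, HasDerivAt (fun y => M * (y - 3 / 4 * M * y ^ 2 + M ^ 2 * a2f y))
      (M * (1 - 3 / 2 * M * y + M ^ 2 * a2d y)) y := by
    intro y
    have h1 : HasDerivAt (fun y : ℝ => y) 1 y := hasDerivAt_id y
    have h2 := (hasDerivAt_pow 2 y).const_mul (3 / 4 * M)
    have h3 : HasDerivAt a2f (a2d y) y := hasDerivAt_p5 _ _ _ _ _ y
    have h4 := ((h1.sub h2).add (h3.const_mul (M ^ 2))).const_mul M
    refine h4.congr_deriv ?_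
    show M * (1 - 3 / 4 * M * (((2 : ℕ) : ℝ) * y ^ 1) + M ^ 2 * a2d y) = _
    push_cast
    ring
  have hpoly : ∀ {f f' : ℝ → ℝ}, (∀ y, HasDerivAt f (f' y) y) → ∀ y : ℝ,
      HasDerivAt (fun y => M ^ 2 * f y) (M ^ 2 * f' y) y := fun hf y => (hf y).const_mul _
  have hpath : ∀ y : ℝ, 0 ≤ y → BExp (poiPath (chan (-t) E) (y / t ^ 2)) Simp := fun y hy =>
    poiPath_bexp hES (div_nonneg hy ht2.le)
  have hY1 : d * t ^ 2 ≤ 1 := hKS
  have hY0 : 0 ≤ d * t ^ 2 := by positivity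
  -- a common block for the step
  have hblock : ∀ y, 0 ≤ y → y < d * t ^ 2 →
      poiPath (chan (-t) E) (y / t ^ 2) I2 ≤ M * (y - 3 / 4 * M * y ^ 2 + M ^ 2 * a2f y) →
      poiPath (chan (-t) E) (y / t ^ 2) I3 ≤ M ^ 2 * bPf y →
      -poiPath (chan (-t) E) (y / t ^ 2) I3 ≤ M ^ 2 * bNf y →
      poiPath (chan (-t) E) (y / t ^ 2) I2sq ≤ M ^ 2 * wf y →
      (poiPath (chan (-t) E) (y / t ^ 2) I2 = M * (y - 3 / 4 * M * y ^ 2 + M ^ 2 * a2f y) →
        (bprod (poiPath (chan (-t) E) (y / t ^ 2)) (chan (-t) E) I2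
          - poiPath (chan (-t) E) (y / t ^ 2) I2) * (1 / t ^ 2)
          < M * (1 - 3 / 2 * M * y + M ^ 2 * a2d y))
      ∧ (bprod (poiPath (chan (-t) E) (y / t ^ 2)) (chan (-t) E) I3
          - poiPath (chan (-t) E) (y / t ^ 2) I3) * (1 / t ^ 2) < M ^ 2 * bPd y
      ∧ -((bprod (poiPath (chan (-t) E) (y / t ^ 2)) (chan (-t) E) I3
          - poiPath (chan (-t) E) (y / t ^ 2) I3) * (1 / t ^ 2)) < M ^ 2 * bNd y
      ∧ (bprod (poiPath (chan (-t) E) (y / t ^ 2)) (chan (-t) E) I2sq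
          - poiPath (chan (-t) E) (y / t ^ 2) I2sq) * (1 / t ^ 2) < M ^ 2 * wd y := by
    intro y hy hyY g1 g2 g3 g4
    have hP := pows_of hy (by linarith only [hyY, hY1])
    have hGb := hpath y hy
    set G := poiPath (chan (-t) E) (y / t ^ 2) with hGdef
    have hA0 : 0 ≤ G I2 := I2_mean_nonneg0 hGb
    have hW0 : 0 ≤ G I2sq := hGb.nonneg _ (fun a b c _ => by unfold I2sq; positivity)
    obtain ⟨r1, r2, r3, r4⟩ := rows_all hP hM hMM hm0 hm hG1 hG2 hqb hA0 hW0 g1 g2 g3 g4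
    have R1 := bprod_R1B hGb hEM
    have R2 := bprod_R2B hGb hEM
    have R3 := bprod_R3B hGb hEM
    have R4 := bprod_R4B hGb hEM
    rw [hC, hG, hq] at R1 R2 R3 R4
    have hdiv : ∀ X Z : ℝ, X ≤ t ^ 2 * Z → X * (1 / t ^ 2) ≤ Z := by
      intro X Z h
      rw [mul_one_div, div_le_iff₀ ht2]
      linarith only [h]
    refine ⟨fun hAe => lt_of_le_of_lt (hdiv _ _ ?_) (r1 hAe), lt_of_le_of_lt (hdiv _ _ ?_) r2, ?_,
      lt_of_le_of_lt (hdiv _ _ ?_) r4⟩
    · linarith only [R1]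
    · linarith only [R3]
    · have h := hdiv (-(bprod G (chan (-t) E) I3 - G I3)) _ (by
        have : -(bprod G (chan (-t) E) I3 - G I3) ≤ t ^ 2 * (-(-t * E I3) - 3 * (G I2 * E I2)
            + 9 * (G I3 * E I2 + G I2 * (-t * E I3)) - 9 / 2 * (G I3 * (-t * E I3))
            + 7 * (G I2sq * E I2 + G I2 * (t ^ 2 * E I2sq))) := by
          linarith only [R2]
        exact this)
      refine lt_of_le_of_lt (le_trans (le_of_eq ?_) h) r3
      ring
    · linarith only [R4]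
  have hcomp := comparison4 (Y := d * t ^ 2) hY0
    (v1 := fun y => poiPath (chan (-t) E) (y / t ^ 2) I2)
    (v2 := fun y => poiPath (chan (-t) E) (y / t ^ 2) I3)
    (v3 := fun y => -poiPath (chan (-t) E) (y / t ^ 2) I3)
    (v4 := fun y => poiPath (chan (-t) E) (y / t ^ 2) I2sq)
    (u1 := fun y => M * (y - 3 / 4 * M * y ^ 2 + M ^ 2 * a2f y))
    (u2 := fun y => M ^ 2 * bPf y) (u3 := fun y => M ^ 2 * bNf y) (u4 := fun y => M ^ 2 * wf y)
    (v1' := fun y => (bprod (poiPath (chan (-t) E) (y / t ^ 2)) (chan (-t) E) I2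
        - poiPath (chan (-t) E) (y / t ^ 2) I2) * (1 / t ^ 2))
    (v2' := fun y => (bprod (poiPath (chan (-t) E) (y / t ^ 2)) (chan (-t) E) I3
        - poiPath (chan (-t) E) (y / t ^ 2) I3) * (1 / t ^ 2))
    (v3' := fun y => -((bprod (poiPath (chan (-t) E) (y / t ^ 2)) (chan (-t) E) I3
        - poiPath (chan (-t) E) (y / t ^ 2) I3) * (1 / t ^ 2)))
    (v4' := fun y => (bprod (poiPath (chan (-t) E) (y / t ^ 2)) (chan (-t) E) I2sq
        - poiPath (chan (-t) E) (y / t ^ 2) I2sq) * (1 / t ^ 2))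
    (u1' := fun y => M * (1 - 3 / 2 * M * y + M ^ 2 * a2d y))
    (u2' := fun y => M ^ 2 * bPd y) (u3' := fun y => M ^ 2 * bNd y) (u4' := fun y => M ^ 2 * wd y)
    (hder I2 bd_I2) (hder I3 bd_I3) (fun y => (hder I3 bd_I3 y).neg) (hder I2sq bd_I2sq)
    hu1 (hpoly (fun y => hasDerivAt_p5 _ _ _ _ _ y)) (hpoly (fun y => hasDerivAt_p5 _ _ _ _ _ y))
    (hpoly (fun y => hasDerivAt_p5 _ _ _ _ _ y))
    (by
      simp only [zero_div, poiPath_zero, centre_I2, a2f, p5_zero]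
      norm_num)
    (by
      simp only [zero_div, poiPath_zero, centre_I3, bPf, p5_zero]
      norm_num)
    (by
      simp only [zero_div, poiPath_zero, centre_I3, bNf, p5_zero]
      norm_num)
    (by
      simp only [zero_div, poiPath_zero, centre_I2sq, wf, p5_zero]
      norm_num)
    (fun y a b g1 g2 g3 g4 hEq => (hblock y a b g1 g2 g3 g4).1 hEq)
    (fun y a b g1 g2 g3 g4 => (hblock y a b g1 g2 g3 g4).2.1)
    (fun y a b g1 g2 g3 g4 => (hblock y a b g1 g2 g3 g4).2.2.1)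
    (fun y a b g1 g2 g3 g4 => (hblock y a b g1 g2 g3 g4).2.2.2)
  beta_reduce at hcomp
  have hYt : d * t ^ 2 / t ^ 2 = d := mul_div_cancel_right₀ d ht2.ne'
  rw [hYt] at hcomp
  obtain ⟨i1, i2, i3, i4⟩ := hcomp
  -- closure at the end of the interval
  have hP := pows_of hY0 hY1
  obtain ⟨_, e1, e2, e3, e4⟩ := end_bounds hP
  have hM0 : poiM0 = 39 / 2500 := rfl
  have hc0 : poiC = 1 / 200 := rfl
  have hMle : M ≤ 39 / 2500 := hMM.trans (le_of_eq hM0)
  have hsq : M ^ 2 * (99984 / 100000) ≤ (M - poiC * M ^ 2) ^ 2 := by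
    rw [hc0]
    have h1 : (M - 1 / 200 * M ^ 2) ^ 2 = M ^ 2 * (1 - 1 / 200 * M) ^ 2 := by ring
    rw [h1]
    apply mul_le_mul_of_nonneg_left _ hMsq.le
    nlinarith only [hM, hMle]
  refine ⟨?_, ?_, ?_, ?_⟩
  · refine le_trans i1 ?_
    rw [hc0]
    have h1 : M ^ 2 * a2f (d * t ^ 2) ≤ M * (39 / 2500) * (475149 / 10000) := by
      have h2 : M ^ 2 ≤ M * (39 / 2500) := by nlinarith only [hM, hMle]
      exact mul_le_mul h2 e1 (a2f_nonneg hP) (by positivity)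
    have h3 : d * t ^ 2 - 3 / 4 * M * (d * t ^ 2) ^ 2 ≤ 1 - 3 / 4 * M := by
      have h4 : 0 ≤ (1 - d * t ^ 2) * (1 - 3 / 4 * M * (1 + d * t ^ 2)) := by
        apply mul_nonneg (by linarith only [hY1])
        nlinarith only [hM, hMle, hY0, hY1]
      nlinarith only [h4]
    have h5 : d * t ^ 2 - 3 / 4 * M * (d * t ^ 2) ^ 2 + M ^ 2 * a2f (d * t ^ 2) ≤ 1 - 1 / 200 * M := by
      nlinarith only [h1, h3, hM]
    have h6 := mul_le_mul_of_nonneg_left h5 hM.le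
    nlinarith only [h6]
  · refine le_trans i2 ?_
    have h1 := mul_le_mul_of_nonneg_left e2 hMsq.le
    have h2 := mul_le_mul_of_nonneg_left hsq (by rw [hbpv]; norm_num : (0 : ℝ) ≤ poiBp)
    rw [hbpv] at h2 ⊢
    nlinarith only [h1, h2, hMsq]
  · have h0 := le_trans i3 (mul_le_mul_of_nonneg_left e3 hMsq.le)
    have h2 := mul_le_mul_of_nonneg_left hsq (by rw [hbmv]; norm_num : (0 : ℝ) ≤ poiBm)
    rw [hbmv] at h2 ⊢
    nlinarith only [h0, h2, hMsq]
  · refine le_trans i4 ?_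
    have h1 := mul_le_mul_of_nonneg_left e4 hMsq.le
    have h2 := mul_le_mul_of_nonneg_left hsq (by rw [hkv]; norm_num : (0 : ℝ) ≤ poiKap)
    rw [hkv] at h2 ⊢
    nlinarith only [h1, h2, hMsq]

/-- **The tail.** On the Poisson tree with a negative eigenvalue at or below the Kesten-Stigum bound,
once the law of the posterior enters the class, its second moment tends to zero. -/
theorem poisson_taylor_tail {d t : ℝ} (hd : 0 < d) (ht0 : 0 < t) (ht : t ≤ 1 / 2)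
    (hKS : d * t ^ 2 ≤ 1) {N : ℕ} (hcl : InClass poiKap poiBp poiBm (gwEx (poissonLaw d) (-t) N) poiM0) :
    Tendsto (fun n => gwEx (poissonLaw d) (-t) n I2) atTop (𝓝 0) := by
  have hl : Adm (-t) := ⟨by linarith only [ht], by linarith only [ht0]⟩
  have hE : ∀ n, BExp (gwEx (poissonLaw d) (-t) n) Simp :=
    gwEx_bexp (poisson_nonneg0 hd.le) (poisson_hasSum0 d) hl
  have hM0v : poiM0 = 39 / 2500 := rfl
  have hc0v : poiC = 1 / 200 := rfl
  have hM0R : 0 < poiM0 := by rw [hM0v]; norm_num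
  have hcR : 0 < poiC := by rw [hc0v]; norm_num
  have hcMR : poiC * poiM0 ≤ 1 := by rw [hc0v, hM0v]; norm_num
  have hbpR : 0 ≤ poiBp := by unfold poiBp; norm_num
  have hbmR : 0 ≤ poiBm := by unfold poiBm; norm_num
  have hkR : 0 ≤ poiKap := by unfold poiKap; norm_num
  -- the radii
  let m : ℕ → ℝ := fun n => Nat.rec poiM0 (fun _ x => x - poiC / 2 * x ^ 2) n
  have hms : ∀ n, m (n + 1) = m n - poiC / 2 * m n ^ 2 := fun n => rfl
  have hbd : ∀ n, 0 < m n ∧ m n ≤ poiM0 := by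
    intro n
    induction n with
    | zero => exact ⟨hM0R, le_refl _⟩
    | succ n ih =>
      obtain ⟨i1, i2⟩ := ih
      rw [hms]
      have h2 : poiC / 2 * m n ≤ 1 / 2 := by
        have := mul_le_mul_of_nonneg_left i2 hcR.le
        linarith only [this, hcMR]
      have h3 : m n - poiC / 2 * m n ^ 2 = m n * (1 - poiC / 2 * m n) := by ring
      constructor
      · rw [h3]
        exact mul_pos i1 (by linarith only [h2])
      · have : 0 ≤ poiC / 2 * m n ^ 2 := by positivity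
        linarith only [this, i2]
  have hclass : ∀ n, InClass poiKap poiBp poiBm (gwEx (poissonLaw d) (-t) (N + n)) (m n) := by
    intro n
    induction n with
    | zero => exact hcl
    | succ n ih =>
      obtain ⟨i1, i2⟩ := hbd n
      have h2 := poi_step hd ht0 ht hKS (hE (N + n)) i1 i2 ih
      rw [← gwEx_poisson_succ] at h2
      have h3 : m n - poiC * m n ^ 2 ≤ m (n + 1) := by
        rw [hms]
        have : 0 ≤ poiC / 2 * m n ^ 2 := by positivity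
        linarith only [this]
      have h4 : 0 ≤ m n - poiC * m n ^ 2 := by
        have h5 : poiC * m n ≤ 1 := by
          have := mul_le_mul_of_nonneg_left i2 hcR.le
          linarith only [this, hcMR]
        have h6 : m n - poiC * m n ^ 2 = m n * (1 - poiC * m n) := by ring
        rw [h6]
        exact mul_nonneg i1.le (by linarith only [h5])
      exact InClass.mono hbpR hbmR hkR h4 h3 h2
  -- the radii tend to zero
  have hanti : Antitone m := by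
    refine antitone_nat_of_succ_le (fun n => ?_)
    rw [hms]
    have : 0 ≤ poiC / 2 * m n ^ 2 := by positivity
    linarith only [this]
  have hbdd : BddBelow (Set.range m) := ⟨0, by rintro _ ⟨n, rfl⟩; exact (hbd n).1.le⟩
  have hlim := tendsto_atTop_ciInf hanti hbdd
  set L := ⨅ n, m n with hL
  have hl1 : Tendsto (fun n => m (n + 1)) atTop (𝓝 L) := hlim.comp (tendsto_add_atTop_nat 1)
  have hl2 : Tendsto (fun n => m n - poiC / 2 * m n ^ 2) atTop (𝓝 (L - poiC / 2 * L ^ 2)) :=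
    hlim.sub ((hlim.pow 2).const_mul _)
  have hLeq : L = L - poiC / 2 * L ^ 2 := by
    refine tendsto_nhds_unique hl1 ?_
    exact hl2.congr (fun n => (hms n).symm)
  have hL2 : L ^ 2 = 0 := by
    have h5 : poiC / 2 * L ^ 2 = 0 := by linarith only [hLeq]
    rcases mul_eq_zero.1 h5 with h7 | h7
    · exact absurd h7 (by positivity)
    · exact h7
  have hLz : L = 0 := by simpa using hL2
  rw [hLz] at hlim
  have hsq : Tendsto (fun n => gwEx (poissonLaw d) (-t) (N + n) I2) atTop (𝓝 0) :=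
    squeeze_zero (fun n => I2_mean_nonneg0 (hE (N + n))) (fun n => (hclass n).m_le) hlim
  have hsq' : Tendsto (fun n => gwEx (poissonLaw d) (-t) (n + N) I2) atTop (𝓝 0) := by
    refine hsq.congr (fun n => ?_)
    rw [add_comm]
  exact (tendsto_add_atTop_iff_nat N).1 hsq'

end Vale.Agent.Lib.P154.Neg
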